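import Vale.Agent.Lib.P230.Defs
import Vale.Agent.Lib.P245.PLT

/-!
# P230: section volumes of convex compact sets, lattice point counts of dilates.

`section_props`, `lat_card_tendsto` (statements as in `Stubs.lean`).
-/

set_option autoImplicit false

open MeasureTheory Finset
open scoped ENNReal Pointwise

namespace Vale.Agent.Lib.P230

section Sections

variable {d t : ℕ}

lemma sec_measurable {K : Set ((Fin d → ℝ) × (Fin t → ℝ))} (hK : IsCompact K) (z : Fin t → ℝ) :
    MeasurableSet {y : Fin d → ℝ | (y, z) ∈ K} := by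
  have : {y : Fin d → ℝ | (y, z) ∈ K} = (fun y => (y, z)) ⁻¹' K := rfl
  rw [this]
  exact (Continuous.prodMk_left z).measurable hK.measurableSet

lemma sec_subset {K : Set ((Fin d → ℝ) × (Fin t → ℝ))} (z : Fin t → ℝ) :
    {y : Fin d → ℝ | (y, z) ∈ K} ⊆ Prod.fst '' K := by
  intro y hy
  exact ⟨(y, z), hy, rfl⟩

lemma sec_lt_top {K : Set ((Fin d → ℝ) × (Fin t → ℝ))} (hK : IsCompact K) (z : Fin t → ℝ) :
    volume {y : Fin d → ℝ | (y, z) ∈ K} < ∞ :=
  lt_of_le_of_lt (measure_mono (sec_subset z)) (hK.image continuous_fst).measure_lt_top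

/-- log-concavity of sections, by Prekopa-Leindler. -/
lemma secVol_logConc {K : Set ((Fin d → ℝ) × (Fin t → ℝ))} (hc : Convex ℝ K) (hK : IsCompact K) :
    LogConc (secVol K) := by
  intro z z' lam h0 h1
  classical
  let S1 : Set (Fin d → ℝ) := {y | (y, z) ∈ K}
  let S2 : Set (Fin d → ℝ) := {y | (y, z') ∈ K}
  let S3 : Set (Fin d → ℝ) := {y | (y, (1 - lam) • z + lam • z') ∈ K}
  have m1 : MeasurableSet S1 := sec_measurable hK z
  have m2 : MeasurableSet S2 := sec_measurable hK z'
  have m3 : MeasurableSet S3 := sec_measurable hK _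
  have key := Vale.Agent.Lib.P245.pl_pi (n := d) h0 h1
    (f := S1.indicator fun _ => (1 : ℝ≥0∞)) (g := S2.indicator fun _ => (1 : ℝ≥0∞))
    (h := S3.indicator fun _ => (1 : ℝ≥0∞))
    (measurable_const.indicator m1) (measurable_const.indicator m2)
    (measurable_const.indicator m3) (by
      intro x y
      by_cases hx : x ∈ S1
      · by_cases hy : y ∈ S2
        · have hxy : (1 - lam) • x + lam • y ∈ S3 := by
            have := hc (x := (x, z)) (y := (y, z')) hx hy (by linarith : 0 ≤ 1 - lam) h0.le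
              (by ring)
            simpa [S3] using this
          simp [Set.indicator_of_mem, hx, hy, hxy]
        · have : (0 : ℝ≥0∞) ^ lam = 0 := ENNReal.zero_rpow_of_pos h0
          simp [Set.indicator_of_notMem, hy, this]
      · have : (0 : ℝ≥0∞) ^ (1 - lam) = 0 := ENNReal.zero_rpow_of_pos (by linarith)
        simp [Set.indicator_of_notMem, hx, this])
  simp only [lintegral_indicator_const m1, lintegral_indicator_const m2,
    lintegral_indicator_const m3, one_mul] at key
  have t1 : volume S1 ≠ ∞ := (sec_lt_top hK z).ne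
  have t2 : volume S2 ≠ ∞ := (sec_lt_top hK z').ne
  have t3 : volume S3 ≠ ∞ := (sec_lt_top hK _).ne
  have := ENNReal.toReal_mono t3 key
  rw [ENNReal.toReal_mul, ← ENNReal.toReal_rpow, ← ENNReal.toReal_rpow] at this
  exact this

/-- MODULE sections: section volumes of a convex compact set. -/
theorem section_props (K : Set ((Fin d → ℝ) × (Fin t → ℝ))) (hc : Convex ℝ K)
    (hK : IsCompact K) :
    (∀ z, 0 ≤ secVol K z) ∧ Measurable (secVol K) ∧ (∃ c, ∀ z, secVol K z ≤ c) ∧
      Bornology.IsBounded {z | secVol K z ≠ 0} ∧ LogConc (secVol K) ∧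
      volume K = ∫⁻ z, ENNReal.ofReal (secVol K z) := by
  have hm : MeasurableSet K := hK.measurableSet
  refine ⟨fun z => ENNReal.toReal_nonneg, ?_, ?_, ?_, secVol_logConc hc hK, ?_⟩
  · have : Measurable fun z : Fin t → ℝ =>
        (volume : Measure (Fin d → ℝ)) ((fun y => (y, z)) ⁻¹' K) :=
      measurable_measure_prodMk_right hm
    exact this.ennreal_toReal
  · refine ⟨(volume (Prod.fst '' K)).toReal, fun z => ?_⟩
    exact ENNReal.toReal_mono (hK.image continuous_fst).measure_lt_top.ne
      (measure_mono (sec_subset z))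
  · refine (hK.image continuous_snd).isBounded.subset ?_
    intro z hz
    have hne : {y : Fin d → ℝ | (y, z) ∈ K}.Nonempty := by
      by_contra h
      rw [Set.not_nonempty_iff_eq_empty] at h
      apply hz
      simp [secVol, h]
    obtain ⟨y, hy⟩ := hne
    exact ⟨(y, z), hy, rfl⟩
  · rw [Measure.volume_eq_prod, Measure.prod_apply_symm hm]
    refine lintegral_congr fun z => ?_
    rw [secVol, ENNReal.ofReal_toReal (sec_lt_top hK z).ne]
    rfl

end Sections

section Lat

variable {d : ℕ}

lemma lat_finite {B : Set (Fin d → ℝ)} (hB : Bornology.IsBounded B) {R : ℕ} (hR : 0 < R) :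
    {m : Fin d → ℤ | (fun i => (m i : ℝ) / R) ∈ B}.Finite := by
  obtain ⟨D, hD⟩ := hB.subset_closedBall (0 : Fin d → ℝ)
  have hRr : (0 : ℝ) < R := by exact_mod_cast hR
  let N : ℤ := ⌈|D| * R⌉
  refine (Set.finite_Icc (fun _ : Fin d => -N) (fun _ : Fin d => N)).subset ?_
  intro m hm
  have h1 := hD hm
  rw [mem_closedBall_zero_iff] at h1
  have h2 : ∀ i, |(m i : ℝ)| ≤ |D| * R := by
    intro i
    have h3 := (norm_le_pi_norm (fun i => (m i : ℝ) / R) i).trans h1
    rw [Real.norm_eq_abs, abs_div, abs_of_pos hRr, div_le_iff₀ hRr] at h3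
    exact h3.trans (by gcongr; exact le_abs_self D)
  constructor
  · intro i
    have := (abs_le.mp (h2 i)).1
    have h4 : (m i : ℝ) ≥ -(N : ℝ) := by
      have := Int.le_ceil (|D| * R)
      simp only [N]
      linarith
    simpa using (by exact_mod_cast h4 : -N ≤ m i)
  · intro i
    have := (abs_le.mp (h2 i)).2
    have h4 : (m i : ℝ) ≤ (N : ℝ) := by
      have := Int.le_ceil (|D| * R)
      simp only [N]
      linarith
    simpa using (by exact_mod_cast h4 : m i ≤ N)

lemma mem_lat {B : Set (Fin d → ℝ)} (hB : Bornology.IsBounded B) {R : ℕ} (hR : 0 < R)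
    (m : Fin d → ℤ) : m ∈ lat B R ↔ (fun i => (m i : ℝ) / R) ∈ B := by
  classical
  unfold lat
  rw [dif_pos (lat_finite hB hR)]
  simp

/-- the number of points of `B ∩ R⁻¹ ℤ^d` is the size of `lat B R`. -/
lemma card_lat_eq {B : Set (Fin d → ℝ)} (hB : Bornology.IsBounded B) {R : ℕ} (hR : 0 < R) :
    Nat.card ↑(B ∩ (R : ℝ)⁻¹ • Submodule.span ℤ (Set.range (Pi.basisFun ℝ (Fin d)))) =
      (lat B R).card := by
  classical
  have hRr : (R : ℝ) ≠ 0 := by exact_mod_cast hR.ne'
  have hset : B ∩ (R : ℝ)⁻¹ • Submodule.span ℤ (Set.range (Pi.basisFun ℝ (Fin d))) =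
      (fun m : Fin d → ℤ => fun i => (m i : ℝ) / R) '' (lat B R : Set _) := by
    ext x
    simp only [Set.mem_inter_iff, Set.mem_image, Finset.mem_coe, mem_lat hB hR]
    have : NeZero R := ⟨hR.ne'⟩
    rw [← Submodule.coe_pointwise_smul, SetLike.mem_coe,
      BoxIntegral.unitPartition.mem_smul_span_iff]
    constructor
    · rintro ⟨hxB, hx⟩
      have hx2 : ∀ i, ∃ k : ℤ, (k : ℝ) = (R : ℝ) * x i := by
        intro i
        obtain ⟨k, hk⟩ := hx i
        exact ⟨k, by simpa using hk⟩
      choose m hm using hx2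
      have hxm : (fun i => (m i : ℝ) / R) = x := by
        funext i
        rw [hm i]
        field_simp
      exact ⟨m, by rwa [hxm], hxm⟩
    · rintro ⟨m, hm, rfl⟩
      refine ⟨hm, fun i => ⟨m i, ?_⟩⟩
      simp only [eq_intCast]
      field_simp
  rw [hset, Nat.card_image_of_injective]
  · simp
  · intro m m' h
    funext i
    have := congrFun h i
    simp only at this
    field_simp at this
    exact_mod_cast this

/-- MODULE count: asymptotic count of lattice points of a convex compact set. -/
theorem lat_card_tendsto (B : Set (Fin d → ℝ)) (hc : Convex ℝ B) (hK : IsCompact B) :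
    Filter.Tendsto (fun R : ℕ => ((lat B R).card : ℝ) / (R : ℝ) ^ d) Filter.atTop
      (nhds (volume B).toReal) := by
  have h := tendsto_card_div_pow_atTop_volume (ι := Fin d) B hK.isBounded hK.measurableSet
    (hc.addHaar_frontier volume)
  simp only [Fintype.card_fin] at h
  refine h.congr' ?_
  filter_upwards [Filter.eventually_gt_atTop 0] with R hR
  rw [card_lat_eq hK.isBounded hR]

end Lat

end Vale.Agent.Lib.P230
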