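import Vale.Agent.Lib.P230.Defs

/-!
# P230, module `log_window`: a log-concave function on `ℝ^t` has a large cube window.
Near-maximiser of `|det P|^(2t) * ∏ A(vertices)`, Cramer replacement, contraction to a near-maximum.
-/

set_option autoImplicit false

open MeasureTheory Finset Matrix
open scoped ENNReal

namespace Vale.Agent.Lib.P230
namespace Window

variable {t : ℕ}

/-- The `i`-th vertex of the simplex with base point `p` and edge matrix `P`. -/
def vert (p : Fin t → ℝ) (P : Matrix (Fin t) (Fin t) ℝ) (i : Fin t) : Fin t → ℝ :=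
  p + fun j => P j i

/-- The functional to be nearly maximised. -/
noncomputable def G (A : (Fin t → ℝ) → ℝ) (q : (Fin t → ℝ) × Matrix (Fin t) (Fin t) ℝ) : ℝ :=
  |q.2.det| ^ (2 * t) * (A q.1 * ∏ i, A (vert q.1 q.2 i))

/-- The function `8/(4+u^2)`. -/
noncomputable def phi (u : ℝ) : ℝ := 2 * (1 + (u / 2) ^ 2)⁻¹

lemma phi_pos (u : ℝ) : 0 < phi u := by unfold phi; positivity

lemma integrable_phi : Integrable phi := by
  have h := (integrable_inv_one_add_sq.comp_div (two_ne_zero : (2 : ℝ) ≠ 0)).const_mul 2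
  exact h

lemma integral_phi : ∫ u, phi u = 4 * Real.pi := by
  unfold phi
  rw [integral_const_mul, MeasureTheory.Measure.integral_comp_div (fun x : ℝ => (1 + x ^ 2)⁻¹) 2,
    integral_univ_inv_one_add_sq]
  simp
  ring

lemma phi_ge_one {u : ℝ} (h : |u| ≤ 2) : 1 ≤ phi u := by
  unfold phi
  have h2 : u ^ 2 ≤ 4 := by
    have := abs_le.mp h
    nlinarith
  have hp : 0 < 1 + (u / 2) ^ 2 := by positivity
  rw [← div_eq_mul_inv, le_div_iff₀ hp]
  nlinarith

lemma phi_mul_ge {u : ℝ} (h : 2 ≤ |u|) : 4 ≤ phi u * u ^ 2 := by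
  unfold phi
  have h2 : 4 ≤ u ^ 2 := by
    rw [← sq_abs]; nlinarith
  have hp : 0 < 1 + (u / 2) ^ 2 := by positivity
  rw [← div_eq_mul_inv, div_mul_eq_mul_div, le_div_iff₀ hp]
  nlinarith

/-- Pointwise consequence of the replacement bounds. -/
lemma le_prod_phi (ht : 1 ≤ t) {a B : ℝ} (x : Fin t → ℝ) (ha0 : 0 ≤ a) (haB : a ≤ B) (hB : 0 < B)
    (h : ∀ i, |x i| ^ (2 * t) * a ≤ 4 ^ t * B) : a ≤ B * ∏ i, phi (x i) := by
  have hr0 : 0 ≤ a / B := div_nonneg ha0 hB.le
  have hr1 : a / B ≤ 1 := (div_le_one hB).2 haB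
  have key : ∀ i, a / B ≤ phi (x i) ^ t := by
    intro i
    by_cases hu : |x i| ≤ 2
    · exact hr1.trans (one_le_pow₀ (phi_ge_one hu))
    · push Not at hu
      have h1 := phi_mul_ge hu.le
      have hx : (4 : ℝ) ^ t ≤ phi (x i) ^ t * |x i| ^ (2 * t) := by
        rw [pow_mul, sq_abs, ← mul_pow]
        exact pow_le_pow_left₀ (by norm_num) h1 t
      have hxpos : 0 < |x i| ^ (2 * t) := by
        have : 0 < |x i| := by linarith
        positivity
      rw [div_le_iff₀ hB]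
      have h2 := h i
      have hphi : 0 < phi (x i) ^ t := pow_pos (phi_pos _) _
      have : |x i| ^ (2 * t) * a ≤ |x i| ^ (2 * t) * (phi (x i) ^ t * B) := by
        calc |x i| ^ (2 * t) * a ≤ 4 ^ t * B := h2
          _ ≤ (phi (x i) ^ t * |x i| ^ (2 * t)) * B := by gcongr
          _ = |x i| ^ (2 * t) * (phi (x i) ^ t * B) := by ring
      exact le_of_mul_le_mul_left this hxpos
  have hprod : (a / B) ^ t ≤ (∏ i, phi (x i)) ^ t := by
    calc (a / B) ^ t = ∏ _i : Fin t, (a / B) := by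
          rw [Finset.prod_const, Finset.card_univ, Fintype.card_fin]
      _ ≤ ∏ i, phi (x i) ^ t := by
        apply Finset.prod_le_prod
        · intro _ _; exact hr0
        · intro i _; exact key i
      _ = (∏ i, phi (x i)) ^ t := by rw [Finset.prod_pow]
  have hp0 : 0 ≤ ∏ i, phi (x i) := Finset.prod_nonneg fun i _ => (phi_pos _).le
  have := (pow_le_pow_iff_left₀ hr0 hp0 (by omega : t ≠ 0)).1 hprod
  rw [div_le_iff₀ hB] at this
  linarith

/-- Linear change of variables. -/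
lemma lint_change {P : Matrix (Fin t) (Fin t) ℝ} (hP : P.det ≠ 0) (p : Fin t → ℝ)
    {f : (Fin t → ℝ) → ℝ≥0∞} (hf : Measurable f) :
    ∫⁻ z, f z = ENNReal.ofReal |P.det| * ∫⁻ x, f (p + P *ᵥ x) := by
  have hL : LinearMap.det (Matrix.toLin' P) ≠ 0 := by rwa [LinearMap.det_toLin']
  have hmap := Measure.map_linearMap_addHaar_eq_smul_addHaar (volume : Measure (Fin t → ℝ)) hL
  have hmeas : Measurable (fun z : Fin t → ℝ => f (p + z)) := hf.comp (measurable_const_add p)
  have h1 : ∫⁻ x, f (p + P *ᵥ x) = ENNReal.ofReal |(P.det)⁻¹| * ∫⁻ z, f (p + z) := by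
    have hLm : Measurable (Matrix.toLin' P) := (Matrix.toLin' P).continuous_of_finiteDimensional.measurable
    have := lintegral_map (μ := (volume : Measure (Fin t → ℝ))) hmeas hLm
    simp only [Matrix.toLin'_apply] at this
    rw [← this]
    have hmap' : Measure.map (Matrix.toLin' P) volume =
        ENNReal.ofReal |(P.det)⁻¹| • (volume : Measure (Fin t → ℝ)) := by
      have := hmap
      rw [LinearMap.det_toLin'] at this
      exact this
    rw [hmap', lintegral_smul_measure]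
    rfl
  rw [h1, lintegral_add_left_eq_self (fun z => f z) p, ← mul_assoc, ← ENNReal.ofReal_mul (abs_nonneg _),
    ← abs_mul, mul_inv_cancel₀ hP]
  simp

/-- Determinant of the replaced matrix (Cramer). -/
lemma det_updateCol_mulVec (P : Matrix (Fin t) (Fin t) ℝ) (x : Fin t → ℝ) (i : Fin t) :
    (P.updateCol i (P *ᵥ x)).det = x i * P.det := by
  rw [← Matrix.cramer_apply, Matrix.cramer_eq_adjugate_mulVec, Matrix.mulVec_mulVec,
    Matrix.adjugate_mul, Matrix.smul_mulVec, Matrix.one_mulVec]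
  simp [mul_comm]

lemma vert_updateCol_self (p : Fin t → ℝ) (P : Matrix (Fin t) (Fin t) ℝ) (x : Fin t → ℝ)
    (i : Fin t) : vert p (P.updateCol i (P *ᵥ x)) i = p + P *ᵥ x := by
  ext j
  simp [vert]

lemma vert_updateCol_ne (p : Fin t → ℝ) (P : Matrix (Fin t) (Fin t) ℝ) (x : Fin t → ℝ)
    {i k : Fin t} (h : k ≠ i) : vert p (P.updateCol i (P *ᵥ x)) k = vert p P k := by
  ext j
  simp [vert, h]

/-- Step 1: replacement. -/
lemma replace (A : (Fin t → ℝ) → ℝ) (hA : ∀ z, 0 ≤ A z)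
    {p : Fin t → ℝ} {P : Matrix (Fin t) (Fin t) ℝ}
    (hnear : ∀ q, G A q ≤ 4 ^ t * G A (p, P)) (hpos : 0 < G A (p, P)) (x : Fin t → ℝ) (i : Fin t) :
    |x i| ^ (2 * t) * A (p + P *ᵥ x) ≤ 4 ^ t * A (vert p P i) := by
  classical
  set D : ℝ := |P.det| ^ (2 * t) * (A p * ∏ k ∈ univ.erase i, A (vert p P k)) with hD
  have hG : G A (p, P) = A (vert p P i) * D := by
    simp only [G, hD]
    rw [← Finset.mul_prod_erase univ _ (Finset.mem_univ i)]
    ring
  have hDpos : 0 < D := by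
    have hD0 : 0 ≤ D := by
      rw [hD]
      have : 0 ≤ ∏ k ∈ univ.erase i, A (vert p P k) := Finset.prod_nonneg fun k _ => hA _
      have h2 := hA p
      positivity
    rcases hD0.lt_or_eq with h | h
    · exact h
    · rw [hG, ← h, mul_zero] at hpos
      exact absurd hpos (lt_irrefl _)
  have hG' : G A (p, P.updateCol i (P *ᵥ x)) = (|x i| ^ (2 * t) * A (p + P *ᵥ x)) * D := by
    simp only [G, hD]
    rw [← Finset.mul_prod_erase univ _ (Finset.mem_univ i), vert_updateCol_self,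
      det_updateCol_mulVec, abs_mul, mul_pow]
    have : ∏ k ∈ univ.erase i, A (vert p (P.updateCol i (P *ᵥ x)) k) =
        ∏ k ∈ univ.erase i, A (vert p P k) := by
      apply Finset.prod_congr rfl
      intro k hk
      rw [vert_updateCol_ne p P x (Finset.ne_of_mem_erase hk)]
    rw [this]
    ring
  have h3 := hnear (p, P.updateCol i (P *ᵥ x))
  rw [hG', hG] at h3
  have h4 : (|x i| ^ (2 * t) * A (p + P *ᵥ x)) * D ≤ (4 ^ t * A (vert p P i)) * D := by
    linarith
  exact le_of_mul_le_mul_right h4 hDpos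

/-- Midpoint log-concavity without real powers. -/
lemma mid_sq {A : (Fin t → ℝ) → ℝ} (hA : ∀ z, 0 ≤ A z) (hl : LogConc A) (x y : Fin t → ℝ) :
    A x * A y ≤ A ((1 / 2 : ℝ) • x + (1 / 2 : ℝ) • y) ^ 2 := by
  have h := hl x y (1 / 2) (by norm_num) (by norm_num)
  have h1 : (1 - 1 / 2 : ℝ) = 1 / 2 := by norm_num
  rw [h1] at h
  have h2 : (A x ^ (1 / 2 : ℝ) * A y ^ (1 / 2 : ℝ)) ^ 2 = A x * A y := by
    rw [mul_pow, ← Real.rpow_natCast, ← Real.rpow_natCast, ← Real.rpow_mul (hA x),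
      ← Real.rpow_mul (hA y)]
    norm_num
  rw [← h2]
  exact pow_le_pow_left₀ (by have := hA x; have := hA y; positivity) h 2

/-- Step 3: contraction to a point `z`. -/
lemma contract (A : (Fin t → ℝ) → ℝ) (hA : ∀ z, 0 ≤ A z) (hl : LogConc A)
    {p : Fin t → ℝ} {P : Matrix (Fin t) (Fin t) ℝ}
    (hnear : ∀ q, G A q ≤ 4 ^ t * G A (p, P)) (hpos : 0 < G A (p, P)) (z : Fin t → ℝ) :
    A z ^ (t + 1) ≤ 2 ^ (4 * t * (t + 1)) * (A p * ∏ i, A (vert p P i)) := by
  set Qa : ℝ := A p * ∏ i, A (vert p P i) with hQa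
  set p' : Fin t → ℝ := (1 / 2 : ℝ) • p + (1 / 2 : ℝ) • z with hp'
  set P' : Matrix (Fin t) (Fin t) ℝ := (1 / 2 : ℝ) • P with hP'
  have hv : ∀ i, vert p' P' i = (1 / 2 : ℝ) • vert p P i + (1 / 2 : ℝ) • z := by
    intro i
    ext j
    simp [vert, hp', hP']
    ring
  set Qm : ℝ := A p' * ∏ i, A (vert p' P' i) with hQm
  have hQa0 : 0 ≤ Qa := mul_nonneg (hA _) (Finset.prod_nonneg fun i _ => hA _)
  have hQm0 : 0 ≤ Qm := mul_nonneg (hA _) (Finset.prod_nonneg fun i _ => hA _)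
  set D : ℝ := |P.det| ^ (2 * t) with hD
  have hD0 : 0 ≤ D := by positivity
  have hGa : G A (p, P) = D * Qa := rfl
  have hDpos : 0 < D := by
    rcases hD0.lt_or_eq with h | h
    · exact h
    · rw [hGa, ← h, zero_mul] at hpos
      exact absurd hpos (lt_irrefl _)
  have hQapos : 0 < Qa := by
    rcases hQa0.lt_or_eq with h | h
    · exact h
    · rw [hGa, ← h, mul_zero] at hpos
      exact absurd hpos (lt_irrefl _)
  have hdet : P'.det = (1 / 2 : ℝ) ^ t * P.det := by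
    rw [hP', Matrix.det_smul, Fintype.card_fin]
  have hGm : G A (p', P') = ((1 / 2 : ℝ) ^ t) ^ (2 * t) * D * Qm := by
    show |P'.det| ^ (2 * t) * (A p' * ∏ i, A (vert p' P' i)) = _
    rw [hdet, abs_mul, mul_pow, abs_of_nonneg (by positivity : (0 : ℝ) ≤ (1 / 2) ^ t)]
  have h1 : ((1 / 2 : ℝ) ^ t) ^ (2 * t) * D * Qm ≤ 4 ^ t * (D * Qa) := by
    have := hnear (p', P')
    rwa [hGm, hGa] at this
  have h2 : Qm ≤ 2 ^ (2 * t * (t + 1)) * Qa := by
    have e1 : ((1 / 2 : ℝ) ^ t) ^ (2 * t) * (2 : ℝ) ^ (2 * t * t) = 1 := by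
      rw [← pow_mul, show t * (2 * t) = 2 * t * t by ring, ← mul_pow]
      norm_num
    have e2 : (2 : ℝ) ^ (2 * t * (t + 1)) = 4 ^ t * 2 ^ (2 * t * t) := by
      rw [show (4 : ℝ) = 2 ^ 2 by norm_num, ← pow_mul, ← pow_add]
      congr 1
      ring
    have h3 : D * Qm ≤ D * (2 ^ (2 * t * (t + 1)) * Qa) := by
      calc D * Qm = (2 : ℝ) ^ (2 * t * t) * (((1 / 2 : ℝ) ^ t) ^ (2 * t) * D * Qm) := by
            rw [show (2 : ℝ) ^ (2 * t * t) * (((1 / 2 : ℝ) ^ t) ^ (2 * t) * D * Qm) =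
              (((1 / 2 : ℝ) ^ t) ^ (2 * t) * (2 : ℝ) ^ (2 * t * t)) * (D * Qm) by ring, e1, one_mul]
        _ ≤ (2 : ℝ) ^ (2 * t * t) * (4 ^ t * (D * Qa)) := by gcongr
        _ = D * (2 ^ (2 * t * (t + 1)) * Qa) := by rw [e2]; ring
    exact le_of_mul_le_mul_left h3 hDpos
  have h4 : Qa * A z ^ (t + 1) ≤ Qm ^ 2 := by
    have hb : ∏ i, (A (vert p P i) * A z) ≤ ∏ i, A (vert p' P' i) ^ 2 := by
      apply Finset.prod_le_prod
      · intro i _; exact mul_nonneg (hA _) (hA _)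
      · intro i _
        rw [hv]
        exact mid_sq hA hl _ _
    have ha : A p * A z ≤ A p' ^ 2 := mid_sq hA hl _ _
    calc Qa * A z ^ (t + 1) = (A p * A z) * ∏ i, (A (vert p P i) * A z) := by
          rw [Finset.prod_mul_distrib, Finset.prod_const, Finset.card_univ, Fintype.card_fin, hQa]
          ring
      _ ≤ A p' ^ 2 * ∏ i, A (vert p' P' i) ^ 2 := by
          apply mul_le_mul ha hb
          · exact Finset.prod_nonneg fun i _ => mul_nonneg (hA _) (hA _)
          · positivity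
      _ = Qm ^ 2 := by rw [hQm, mul_pow, Finset.prod_pow]
  have h5 : Qm ^ 2 ≤ (2 ^ (2 * t * (t + 1)) * Qa) ^ 2 := pow_le_pow_left₀ hQm0 h2 2
  have h6 : Qa * A z ^ (t + 1) ≤ Qa * (2 ^ (4 * t * (t + 1)) * Qa) := by
    calc Qa * A z ^ (t + 1) ≤ Qm ^ 2 := h4
      _ ≤ (2 ^ (2 * t * (t + 1)) * Qa) ^ 2 := h5
      _ = Qa * (2 ^ (4 * t * (t + 1)) * Qa) := by
        rw [mul_pow, ← pow_mul, show 2 * t * (t + 1) * 2 = 4 * t * (t + 1) by ring]
        ring
  exact le_of_mul_le_mul_left h6 hQapos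

lemma logConc_pair {A : (Fin t → ℝ) → ℝ} (hl : LogConc A) {x y : Fin t → ℝ} {a b : ℝ}
    (ha : 0 < a) (hb : 0 < b) (hab : a + b = 1) : A x ^ a * A y ^ b ≤ A (a • x + b • y) := by
  have h := hl x y b hb (by linarith)
  rwa [show 1 - b = a by linarith] at h

lemma concave_log {A : (Fin t → ℝ) → ℝ} (hl : LogConc A) :
    ConcaveOn ℝ {z | 0 < A z} (fun z => Real.log (A z)) := by
  have hc : Convex ℝ {z | 0 < A z} := by
    rw [convex_iff_forall_pos]
    intro x hx y hy a b ha hb hab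
    have hx' : 0 < A x := hx
    have hy' : 0 < A y := hy
    have := logConc_pair hl (x := x) (y := y) ha hb hab
    exact lt_of_lt_of_le (by positivity) this
  rw [concaveOn_iff_forall_pos]
  refine ⟨hc, ?_⟩
  intro x hx y hy a b ha hb hab
  have hx' : 0 < A x := hx
  have hy' : 0 < A y := hy
  have h := logConc_pair hl (x := x) (y := y) ha hb hab
  have hpos : 0 < A x ^ a * A y ^ b := by positivity
  have := Real.log_le_log hpos h
  rw [Real.log_mul (by positivity) (by positivity), Real.log_rpow hx', Real.log_rpow hy'] at this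
  simpa [smul_eq_mul] using this

lemma pt_eq_sum (p : Fin t → ℝ) (P : Matrix (Fin t) (Fin t) ℝ) (y : Fin t → ℝ) :
    p + P *ᵥ y = (1 - ∑ i, y i) • p + ∑ i, y i • vert p P i := by
  ext j
  simp only [Pi.add_apply, Pi.smul_apply, smul_eq_mul, Finset.sum_apply, vert, Matrix.mulVec,
    dotProduct, mul_add, Finset.sum_add_distrib, ← Finset.sum_mul]
  have : ∑ i, y i * P j i = ∑ i, P j i * y i := Finset.sum_congr rfl fun i _ => mul_comm _ _
  rw [this]
  ring

/-- Jensen for the log. -/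
lemma jensen_log {A : (Fin t → ℝ) → ℝ} (hl : LogConc A) {p : Fin t → ℝ}
    {P : Matrix (Fin t) (Fin t) ℝ} (h0 : 0 < A p) (hv : ∀ i, 0 < A (vert p P i))
    {y : Fin t → ℝ} (hy : ∀ i, 0 ≤ y i) (hy0 : 0 ≤ 1 - ∑ i, y i) :
    0 < A (p + P *ᵥ y) ∧
    (1 - ∑ i, y i) * Real.log (A p) + ∑ i, y i * Real.log (A (vert p P i)) ≤
      Real.log (A (p + P *ᵥ y)) := by
  classical
  let w : Option (Fin t) → ℝ := fun o => o.elim (1 - ∑ i, y i) y
  let q : Option (Fin t) → (Fin t → ℝ) := fun o => o.elim p (vert p P)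
  have hw : ∀ o ∈ (univ : Finset (Option (Fin t))), 0 ≤ w o := by
    intro o _
    cases o with
    | none => exact hy0
    | some i => exact hy i
  have hs : ∑ o, w o = 1 := by
    rw [Fintype.sum_option]
    simp [w]
  have hq : ∀ o ∈ (univ : Finset (Option (Fin t))), q o ∈ {z | 0 < A z} := by
    intro o _
    cases o with
    | none => exact h0
    | some i => exact hv i
  have hc := concave_log hl
  have hmem := hc.1.sum_mem hw hs hq
  have hj := hc.le_map_sum hw hs hq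
  have hsum : ∑ o, w o • q o = p + P *ᵥ y := by
    rw [pt_eq_sum, Fintype.sum_option]
    rfl
  rw [hsum] at hmem hj
  refine ⟨hmem, ?_⟩
  rw [Fintype.sum_option] at hj
  simpa [w, q, smul_eq_mul] using hj

/-- The window bound. -/
lemma window_bound {A : (Fin t → ℝ) → ℝ} (hl : LogConc A) {p : Fin t → ℝ}
    {P : Matrix (Fin t) (Fin t) ℝ} (h0 : 0 < A p) (hv : ∀ i, 0 < A (vert p P i))
    {B : ℝ} (hB : 0 < B) (hAB : ∀ z, A z ≤ B)
    (hQ : B ^ (t + 1) ≤ 2 ^ ((4 * t + 1) * (t + 1)) * (A p * ∏ i, A (vert p P i)))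
    {y : Fin t → ℝ} (hy : ∀ i, 0 ≤ y i) (hy' : ∀ i, y i ≤ 2 / (t + 1))
    (hy0 : 0 ≤ 1 - ∑ i, y i) (hy0' : 1 - ∑ i, y i ≤ 2 / (t + 1)) :
    B * (1 / 2) ^ (8 * t + 2) ≤ A (p + P *ᵥ y) := by
  obtain ⟨hpos, hj⟩ := jensen_log hl h0 hv hy hy0
  set L := Real.log B with hL
  set l2 := Real.log 2 with hl2
  have hl2pos : 0 < l2 := Real.log_pos (by norm_num)
  set c0 := L - Real.log (A p) with hc0
  set c : Fin t → ℝ := fun i => L - Real.log (A (vert p P i)) with hc
  have hc0nn : 0 ≤ c0 := by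
    have := Real.log_le_log h0 (hAB p)
    simp only [hc0]; linarith
  have hcnn : ∀ i, 0 ≤ c i := by
    intro i
    have := Real.log_le_log (hv i) (hAB _)
    simp only [hc]; linarith
  have hprodpos : 0 < ∏ i, A (vert p P i) := Finset.prod_pos fun i _ => hv i
  have hlogQ : Real.log (A p * ∏ i, A (vert p P i)) =
      Real.log (A p) + ∑ i, Real.log (A (vert p P i)) := by
    rw [Real.log_mul h0.ne' hprodpos.ne', Real.log_prod (fun i _ => (hv i).ne')]
  have hsumc : c0 + ∑ i, c i ≤ (4 * t + 1) * (t + 1) * l2 := by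
    have h1 := Real.log_le_log (by positivity) hQ
    rw [Real.log_pow, Real.log_mul (by positivity) (by positivity), Real.log_pow, hlogQ] at h1
    simp only [hc0, hc, Finset.sum_sub_distrib, Finset.sum_const, Finset.card_univ,
      Fintype.card_fin, nsmul_eq_mul]
    push_cast at h1
    nlinarith
  have ht1 : (0 : ℝ) < t + 1 := by positivity
  have hweighted : (1 - ∑ i, y i) * c0 + ∑ i, y i * c i ≤ (2 / (t + 1)) * (c0 + ∑ i, c i) := by
    rw [mul_add, Finset.mul_sum]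
    apply add_le_add
    · exact mul_le_mul_of_nonneg_right hy0' hc0nn
    · exact Finset.sum_le_sum fun i _ => mul_le_mul_of_nonneg_right (hy' i) (hcnn i)
  have hfin : (2 / ((t : ℝ) + 1)) * (c0 + ∑ i, c i) ≤ (8 * t + 2) * l2 := by
    calc (2 / ((t : ℝ) + 1)) * (c0 + ∑ i, c i) ≤ (2 / ((t : ℝ) + 1)) * ((4 * t + 1) * (t + 1) * l2) := by
          gcongr
      _ = (8 * t + 2) * l2 := by field_simp; ring
  have hexp : L - (8 * t + 2) * l2 ≤ Real.log (A (p + P *ᵥ y)) := by
    have h2 : (1 - ∑ i, y i) * Real.log (A p) + ∑ i, y i * Real.log (A (vert p P i)) =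
        L - ((1 - ∑ i, y i) * c0 + ∑ i, y i * c i) := by
      simp only [hc0, hc, mul_sub, Finset.sum_sub_distrib, ← Finset.sum_mul]
      ring
    linarith
  have hlogV : Real.log (B * (1 / 2) ^ (8 * t + 2)) = L - (8 * t + 2) * l2 := by
    rw [Real.log_mul hB.ne' (by positivity), Real.log_pow, one_div, Real.log_inv]
    push_cast
    ring
  rw [← hlogV] at hexp
  exact (Real.log_le_log_iff (by positivity) hpos).1 hexp

/-- A nondegenerate simplex with vertices in the positivity set. -/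
lemma exists_tuple {A : (Fin t → ℝ) → ℝ} (hm : Measurable A)
    (hpos : 0 < ∫⁻ z, ENNReal.ofReal (A z)) :
    ∃ (p : Fin t → ℝ) (P : Matrix (Fin t) (Fin t) ℝ), P.det ≠ 0 ∧ 0 < A p ∧
      ∀ i, 0 < A (vert p P i) := by
  classical
  set Z : Set (Fin t → ℝ) := {z | 0 < A z} with hZ
  have hmeas : Measurable (fun z => ENNReal.ofReal (A z)) := hm.ennreal_ofReal
  have hsupp := (lintegral_pos_iff_support hmeas).1 hpos
  have hsuppZ : Function.support (fun z => ENNReal.ofReal (A z)) = Z := by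
    ext z
    simp [hZ]
  rw [hsuppZ] at hsupp
  have hspan : affineSpan ℝ Z = ⊤ := by
    by_contra hne
    have h0 := Measure.addHaar_affineSubspace (volume : Measure (Fin t → ℝ)) (affineSpan ℝ Z) hne
    have h1 : volume Z = 0 := measure_mono_null (subset_affineSpan ℝ Z) h0
    rw [h1] at hsupp
    exact lt_irrefl _ hsupp
  obtain ⟨s, hsZ, b, hb⟩ := AffineBasis.exists_affine_subbasis hspan
  obtain ⟨i0⟩ := b.nonempty
  let b1 := b.basisOf i0
  let e := b1.indexEquiv (Pi.basisFun ℝ (Fin t))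
  let b2 := b1.reindex e
  refine ⟨b i0, (Pi.basisFun ℝ (Fin t)).toMatrix b2, ?_, ?_, ?_⟩
  · have := (Pi.basisFun ℝ (Fin t)).isUnit_det b2
    rw [Module.Basis.det_apply] at this
    exact this.ne_zero
  · rw [hb]
    exact hsZ i0.2
  · intro i
    have hv : vert (b i0) ((Pi.basisFun ℝ (Fin t)).toMatrix b2) i = b (e.symm i) := by
      ext j
      simp [vert, Module.Basis.toMatrix_apply, b2, b1, AffineBasis.basisOf_apply]
    rw [hv, hb]
    exact hsZ (e.symm i).1.2

lemma G_nonneg {A : (Fin t → ℝ) → ℝ} (hA : ∀ z, 0 ≤ A z)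
    (q : (Fin t → ℝ) × Matrix (Fin t) (Fin t) ℝ) : 0 ≤ G A q :=
  mul_nonneg (by positivity) (mul_nonneg (hA _) (Finset.prod_nonneg fun _ _ => hA _))

/-- Boundedness of `G`. -/
lemma G_bdd {A : (Fin t → ℝ) → ℝ} (hA : ∀ z, 0 ≤ A z) (hb : ∃ c, ∀ z, A z ≤ c)
    (hs : Bornology.IsBounded {z | A z ≠ 0}) : BddAbove (Set.range (G A)) := by
  classical
  obtain ⟨c, hc⟩ := hb
  obtain ⟨R, hR⟩ := hs.exists_norm_le
  have hc0 : 0 ≤ c := (hA 0).trans (hc 0)
  refine ⟨(Nat.factorial t • (2 * |R|) ^ t) ^ (2 * t) * (c * c ^ t), ?_⟩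
  rintro _ ⟨⟨p, P⟩, rfl⟩
  by_cases hz : A p = 0 ∨ ∃ i, A (vert p P i) = 0
  · have hG0 : G A (p, P) = 0 := by
      simp only [G]
      rcases hz with h | ⟨i, h⟩
      · simp [h]
      · rw [Finset.prod_eq_zero (Finset.mem_univ i) h]
        simp
    rw [hG0]
    positivity
  · push Not at hz
    have hp : ‖p‖ ≤ |R| := (hR p hz.1).trans (le_abs_self R)
    have hv : ∀ i, ‖vert p P i‖ ≤ |R| := fun i => (hR _ (hz.2 i)).trans (le_abs_self R)
    have hentry : ∀ j i, |P j i| ≤ 2 * |R| := by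
      intro j i
      have h1 : P j i = vert p P i j - p j := by simp [vert]
      rw [h1]
      have h2 := norm_le_pi_norm (vert p P i) j
      have h3 := norm_le_pi_norm p j
      rw [Real.norm_eq_abs] at h2 h3
      have := abs_sub (vert p P i j) (p j)
      linarith [hv i]
    have hdet : |P.det| ≤ Nat.factorial t • (2 * |R|) ^ t := by
      have := Matrix.det_le (A := P) (abv := AbsoluteValue.abs) (x := 2 * |R|) hentry
      simpa using this
    have hprod : ∏ i, A (vert p P i) ≤ c ^ t := by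
      calc ∏ i, A (vert p P i) ≤ ∏ _i : Fin t, c :=
            Finset.prod_le_prod (fun i _ => hA _) (fun i _ => hc _)
        _ = c ^ t := by rw [Finset.prod_const, Finset.card_univ, Fintype.card_fin]
    show |P.det| ^ (2 * t) * (A p * ∏ i, A (vert p P i)) ≤ _
    apply mul_le_mul (pow_le_pow_left₀ (abs_nonneg _) hdet _)
    · exact mul_le_mul (hc _) hprod (Finset.prod_nonneg fun _ _ => hA _) hc0
    · exact mul_nonneg (hA _) (Finset.prod_nonneg fun _ _ => hA _)
    · positivity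

/-- Near-supremum. -/
lemma near_sup {α : Type*} {f : α → ℝ} (hb : BddAbove (Set.range f)) (hpos : ∃ a, 0 < f a)
    {K : ℝ} (hK : 1 < K) : ∃ a, 0 < f a ∧ ∀ b, f b ≤ K * f a := by
  obtain ⟨a0, ha0⟩ := hpos
  set s := sSup (Set.range f) with hs
  have hle : ∀ b, f b ≤ s := fun b => le_csSup hb ⟨b, rfl⟩
  have hspos : 0 < s := ha0.trans_le (hle a0)
  have hKpos : 0 < K := by linarith
  have hlt : s / K < s := div_lt_self hspos hK
  obtain ⟨_, ⟨a, rfl⟩, ha⟩ := exists_lt_of_lt_csSup (Set.range_nonempty_iff_nonempty.2 ⟨a0⟩) hlt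
  refine ⟨a, lt_trans (by positivity) ha, fun b => ?_⟩
  have : s < K * f a := by
    rw [div_lt_iff₀ hKpos] at ha
    linarith
  exact (hle b).trans this.le

/-- Integral of the product bound. -/
lemma lintegral_prod_phi (B : ℝ) (hB : 0 ≤ B) :
    ∫⁻ x : Fin t → ℝ, ENNReal.ofReal (B * ∏ i, phi (x i)) =
      ENNReal.ofReal (B * (4 * Real.pi) ^ t) := by
  have hint : Integrable (fun x : Fin t → ℝ => B * ∏ i, phi (x i)) := by
    apply Integrable.const_mul
    rw [volume_pi]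
    exact Integrable.fintype_prod (fun _ => integrable_phi)
  rw [← ofReal_integral_eq_lintegral_ofReal hint]
  · rw [integral_const_mul, integral_fintype_prod_volume_eq_pow phi, integral_phi, Fintype.card_fin]
  · exact Filter.Eventually.of_forall fun x =>
      mul_nonneg hB (Finset.prod_nonneg fun i _ => (phi_pos _).le)

/-- The numeric inequality closing the window bound. -/
lemma numeric (ht : 1 ≤ t) :
    (4 * Real.pi) ^ t ≤ (2 ^ 16 * (t : ℝ) ^ 2) ^ t * (1 / 2) ^ (8 * t + 2) *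
      ((1 / ((t : ℝ) * (t + 1)) / 2) ^ t) := by
  have ht1 : (1 : ℝ) ≤ t := by exact_mod_cast ht
  have ht0 : (0 : ℝ) < t := by linarith
  set X : ℝ := 2 ^ 16 * (t : ℝ) ^ 2 * (1 / 2) ^ 8 * (1 / ((t : ℝ) * (t + 1)) / 2) with hX
  have hXval : X = 128 * t / (t + 1) := by
    rw [hX]
    field_simp
    norm_num
  have hX64 : 64 ≤ X := by
    rw [hXval, le_div_iff₀ (by positivity)]
    linarith
  have hrw : (2 ^ 16 * (t : ℝ) ^ 2) ^ t * (1 / 2) ^ (8 * t + 2) *
      ((1 / ((t : ℝ) * (t + 1)) / 2) ^ t) = X ^ t * (1 / 4) := by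
    have hXt : X ^ t = (2 ^ 16 * (t : ℝ) ^ 2) ^ t * ((1 / 2) ^ 8) ^ t *
        ((1 / ((t : ℝ) * (t + 1)) / 2) ^ t) := by
      rw [hX, mul_pow, mul_pow]
    rw [hXt, pow_add, pow_mul ((1 : ℝ) / 2) 8 t]
    norm_num
    ring
  rw [hrw]
  have h4 : (4 : ℝ) ≤ 4 ^ t := by
    calc (4 : ℝ) = 4 ^ 1 := by norm_num
      _ ≤ 4 ^ t := pow_le_pow_right₀ (by norm_num) ht
  have hpi := Real.pi_le_four
  have hpi0 := Real.pi_pos
  have h5 : (4 : ℝ) ^ t * (4 * Real.pi) ^ t ≤ 64 ^ t := by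
    rw [← mul_pow]
    exact pow_le_pow_left₀ (by positivity) (by linarith) t
  have h6 : (64 : ℝ) ^ t ≤ X ^ t := pow_le_pow_left₀ (by norm_num) hX64 t
  have h7 : 0 ≤ (4 * Real.pi) ^ t := by positivity
  nlinarith

end Window

open Window in
/-- MODULE window: a log-concave function on `ℝ^t` has a large cube window. -/
theorem log_window {t : ℕ} (ht : 1 ≤ t) (A : (Fin t → ℝ) → ℝ) (h0 : ∀ z, 0 ≤ A z)
    (hm : Measurable A) (hb : ∃ c, ∀ z, A z ≤ c) (hs : Bornology.IsBounded {z | A z ≠ 0})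
    (hl : LogConc A) (hpos : 0 < ∫⁻ z, ENNReal.ofReal (A z)) :
    ∃ (S : Matrix (Fin t) (Fin t) ℝ) (z₀ : Fin t → ℝ) (V₀ : ℝ), S.det ≠ 0 ∧ 0 < V₀ ∧
      (∀ x : Fin t → ℝ, (∀ i, |x i| ≤ 2) → V₀ ≤ A (z₀ + S.mulVec x)) ∧
      ∫⁻ z, ENNReal.ofReal (A z) ≤
        ENNReal.ofReal ((2 ^ 16 * (t : ℝ) ^ 2) ^ t * V₀ * |S.det|) := by
  obtain ⟨p0, P0, hdet0, ha0, hv0⟩ := exists_tuple hm hpos
  have hG0 : 0 < G A (p0, P0) := by
    have : 0 < |P0.det| := abs_pos.2 hdet0
    have h2 : 0 < ∏ i, A (vert p0 P0 i) := Finset.prod_pos fun i _ => hv0 i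
    show 0 < |P0.det| ^ (2 * t) * (A p0 * ∏ i, A (vert p0 P0 i))
    positivity
  have hK : (1 : ℝ) < 4 ^ t := one_lt_pow₀ (by norm_num) (by omega)
  obtain ⟨⟨p, P⟩, hGpos, hnear⟩ := near_sup (G_bdd h0 hb hs) ⟨_, hG0⟩ hK
  have hdecomp : 0 < |P.det| ^ (2 * t) * (A p * ∏ i, A (vert p P i)) := hGpos
  have hdet : P.det ≠ 0 := by
    intro h
    rw [h, abs_zero, zero_pow (by omega), zero_mul] at hdecomp
    exact lt_irrefl _ hdecomp
  have hprod0 : 0 ≤ ∏ i, A (vert p P i) := Finset.prod_nonneg fun i _ => h0 _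
  have hap : 0 < A p := by
    rcases (h0 p).lt_or_eq with h | h
    · exact h
    · rw [← h] at hdecomp
      simp at hdecomp
  have hprod : 0 < ∏ i, A (vert p P i) := by
    rcases hprod0.lt_or_eq with h | h
    · exact h
    · rw [← h] at hdecomp
      simp at hdecomp
  have hav : ∀ i, 0 < A (vert p P i) := by
    intro i
    rcases (h0 (vert p P i)).lt_or_eq with h | h
    · exact h
    · rw [Finset.prod_eq_zero (Finset.mem_univ i) h.symm] at hprod
      exact absurd hprod (lt_irrefl _)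
  have hbA : BddAbove (Set.range A) := by
    obtain ⟨c, hc⟩ := hb
    exact ⟨c, by rintro _ ⟨z, rfl⟩; exact hc z⟩
  obtain ⟨zs, hzs, hAzs⟩ := near_sup hbA ⟨p, hap⟩ (by norm_num : (1 : ℝ) < 2)
  set B : ℝ := 2 * A zs with hB
  have hBpos : 0 < B := by positivity
  have hcon := contract A h0 hl hnear hGpos zs
  have hQ : B ^ (t + 1) ≤ 2 ^ ((4 * t + 1) * (t + 1)) * (A p * ∏ i, A (vert p P i)) := by
    rw [hB, mul_pow]
    have e : (2 : ℝ) ^ ((4 * t + 1) * (t + 1)) = 2 ^ (t + 1) * 2 ^ (4 * t * (t + 1)) := by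
      rw [← pow_add]; congr 1; ring
    rw [e, mul_assoc]
    gcongr
  set w : ℝ := 1 / ((t : ℝ) * (t + 1)) with hw
  have ht1 : (1 : ℝ) ≤ t := by exact_mod_cast ht
  have ht0 : (0 : ℝ) < t := by linarith
  have hw0 : 0 < w := by positivity
  have hwt : w * t = 1 / (t + 1) := by
    rw [hw]; field_simp
  have hwle : w ≤ 1 / (t + 1) := by
    rw [← hwt]; nlinarith
  refine ⟨(w / 2) • P, p + P *ᵥ (fun _ => 1 / ((t : ℝ) + 1)), B * (1 / 2) ^ (8 * t + 2), ?_, ?_, ?_, ?_⟩
  · rw [Matrix.det_smul, Fintype.card_fin]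
    exact mul_ne_zero (by positivity) hdet
  · positivity
  · intro x hx
    set y : Fin t → ℝ := fun i => 1 / ((t : ℝ) + 1) + (w / 2) * x i with hy
    have hpt : p + P *ᵥ (fun _ => 1 / ((t : ℝ) + 1)) + ((w / 2) • P) *ᵥ x = p + P *ᵥ y := by
      have : y = (fun _ => 1 / ((t : ℝ) + 1)) + (w / 2) • x := by
        ext i; simp [hy]
      rw [this, Matrix.mulVec_add, Matrix.mulVec_smul, Matrix.smul_mulVec, add_assoc]
    rw [hpt]
    have hxw : ∀ i, |(w / 2) * x i| ≤ w := by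
      intro i
      rw [abs_mul, abs_of_pos (by positivity : 0 < w / 2)]
      nlinarith [hx i]
    have hsum : 1 - ∑ i, y i = 1 / ((t : ℝ) + 1) - ∑ i, (w / 2) * x i := by
      simp only [hy, Finset.sum_add_distrib, Finset.sum_const, Finset.card_univ, Fintype.card_fin,
        nsmul_eq_mul]
      field_simp
      ring
    have hsumabs : |∑ i, (w / 2) * x i| ≤ 1 / ((t : ℝ) + 1) := by
      calc |∑ i, (w / 2) * x i| ≤ ∑ i, |(w / 2) * x i| := Finset.abs_sum_le_sum_abs _ _
        _ ≤ ∑ _i : Fin t, w := Finset.sum_le_sum fun i _ => hxw i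
        _ = 1 / ((t : ℝ) + 1) := by
          rw [Finset.sum_const, Finset.card_univ, Fintype.card_fin, nsmul_eq_mul, mul_comm, hwt]
    have hsa := abs_le.1 hsumabs
    have h2t : (2 : ℝ) / (t + 1) = 1 / (t + 1) + 1 / (t + 1) := by ring
    apply window_bound hl hap hav hBpos hAzs hQ
    · intro i
      have := abs_le.1 (hxw i)
      simp only [hy]
      linarith
    · intro i
      have := abs_le.1 (hxw i)
      simp only [hy]
      linarith
    · rw [hsum]; linarith
    · rw [hsum]; linarith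
  · have hmeas : Measurable (fun z => ENNReal.ofReal (A z)) := hm.ennreal_ofReal
    rw [lint_change hdet p hmeas]
    have hbound : ∀ x : Fin t → ℝ, A (p + P *ᵥ x) ≤ B * ∏ i, phi (x i) := by
      intro x
      apply le_prod_phi ht x (h0 _) (hAzs _) hBpos
      intro i
      have h1 := replace A h0 hnear hGpos x i
      have h2 := hAzs (vert p P i)
      calc |x i| ^ (2 * t) * A (p + P *ᵥ x) ≤ 4 ^ t * A (vert p P i) := h1
        _ ≤ 4 ^ t * B := by gcongr
    calc ENNReal.ofReal |P.det| * ∫⁻ x, ENNReal.ofReal (A (p + P *ᵥ x))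
        ≤ ENNReal.ofReal |P.det| * ∫⁻ x : Fin t → ℝ, ENNReal.ofReal (B * ∏ i, phi (x i)) := by
          gcongr with x
          exact hbound x
      _ = ENNReal.ofReal (|P.det| * (B * (4 * Real.pi) ^ t)) := by
          rw [lintegral_prod_phi B hBpos.le, ENNReal.ofReal_mul (abs_nonneg _)]
      _ ≤ _ := by
          apply ENNReal.ofReal_le_ofReal
          rw [Matrix.det_smul, Fintype.card_fin, abs_mul, abs_of_pos (by positivity : 0 < (w / 2) ^ t)]
          have hn := numeric ht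
          have hpd : 0 < |P.det| := abs_pos.2 hdet
          calc |P.det| * (B * (4 * Real.pi) ^ t)
              ≤ |P.det| * (B * ((2 ^ 16 * (t : ℝ) ^ 2) ^ t * (1 / 2) ^ (8 * t + 2) * ((w / 2) ^ t))) := by
                gcongr
            _ = _ := by ring

end Vale.Agent.Lib.P230
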