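import Vale.Agent.Lib.P230.SymBody
import Vale.Agent.Lib.P230.Window
import Vale.Agent.Lib.P230.Sections

/-!
# P230: assembly, geometric preparation.
-/

set_option autoImplicit false
set_option linter.unusedSectionVars false
set_option linter.unusedSimpArgs false
set_option linter.unusedVariables false

open MeasureTheory Finset
open scoped ENNReal Matrix Pointwise

namespace Vale.Agent.Lib.P230

variable {d t : ℕ}

/-- Change of the height coordinates. -/
theorem window_data (ht : 1 ≤ t) (K : Set ((Fin d → ℝ) × (Fin t → ℝ))) (hc : Convex ℝ K)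
    (hK : IsCompact K) (hvol : 0 < volume K) :
    ∃ (S : Matrix (Fin t) (Fin t) ℝ) (z₀ : Fin t → ℝ) (V₀ : ℝ)
      (K' : Set ((Fin d → ℝ) × (Fin t → ℝ))),
      S.det ≠ 0 ∧ 0 < V₀ ∧ Convex ℝ K' ∧ IsCompact K' ∧
      (∀ p, p ∈ K' ↔ (p.1, z₀ + S.mulVec p.2) ∈ K) ∧
      (∀ x : Fin t → ℝ, (∀ i, |x i| ≤ 2) → ENNReal.ofReal V₀ ≤ volume {y : Fin d → ℝ | (y, x) ∈ K'}) ∧
      volume K ≤ ENNReal.ofReal ((2 ^ 16 * (t : ℝ) ^ 2) ^ t * V₀ * |S.det|) := by
  obtain ⟨h0, hm, hb, hs, hl, hv⟩ := section_props K hc hK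
  have hpos : 0 < ∫⁻ z, ENNReal.ofReal (secVol K z) := by
    rw [← hv]
    exact hvol
  obtain ⟨S, z₀, V₀, hS, hV₀, hwin, hint⟩ := log_window ht (secVol K) h0 hm hb hs hl hpos
  refine ⟨S, z₀, V₀, {p | (p.1, z₀ + S.mulVec p.2) ∈ K}, hS, hV₀, ?_, ?_, fun p => Iff.rfl, ?_, ?_⟩
  · -- convex
    intro p hp q hq a b ha hb hab
    simp only [Set.mem_setOf_eq] at hp hq ⊢
    have := hc hp hq ha hb hab
    convert this using 1
    ext i
    · simp
    · simp only [Prod.snd_add, Prod.smul_snd, Matrix.mulVec_add, Matrix.mulVec_smul, Prod.mk_add_mk,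
        Prod.smul_mk]
      have h1 : z₀ = a • z₀ + b • z₀ := by
        rw [← add_smul, hab, one_smul]
      have h2 : z₀ + (a • S.mulVec p.2 + b • S.mulVec q.2) =
          (a • z₀ + b • z₀) + (a • S.mulVec p.2 + b • S.mulVec q.2) := by
        rw [← h1]
      rw [h2]
      simp only [Pi.add_apply, Pi.smul_apply, smul_eq_mul]
      ring
  · -- compact
    have hunit : IsUnit S.det := isUnit_iff_ne_zero.mpr hS
    have himg : {p : (Fin d → ℝ) × (Fin t → ℝ) | (p.1, z₀ + S.mulVec p.2) ∈ K} =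
        (fun p : (Fin d → ℝ) × (Fin t → ℝ) => (p.1, S⁻¹.mulVec (p.2 - z₀))) '' K := by
      ext p
      constructor
      · intro hp
        refine ⟨_, hp, ?_⟩
        ext i
        · rfl
        · simp only [add_sub_cancel_left, Matrix.mulVec_mulVec, Matrix.nonsing_inv_mul _ hunit,
            Matrix.one_mulVec]
      · rintro ⟨q, hq, rfl⟩
        simp only [Set.mem_setOf_eq, Matrix.mulVec_mulVec, Matrix.mul_nonsing_inv _ hunit,
          Matrix.one_mulVec, add_sub_cancel]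
        exact hq
    rw [himg]
    apply hK.image
    have hcont : Continuous fun v : Fin t → ℝ => S⁻¹.mulVec v := by
      exact Continuous.matrix_mulVec continuous_const continuous_id
    exact continuous_fst.prodMk (hcont.comp (continuous_snd.sub continuous_const))
  · intro x hx
    have h1 := hwin x hx
    have h2 : {y : Fin d → ℝ | (y, x) ∈ {p : (Fin d → ℝ) × (Fin t → ℝ) | (p.1, z₀ + S.mulVec p.2) ∈ K}} =
        {y : Fin d → ℝ | (y, z₀ + S.mulVec x) ∈ K} := rfl
    rw [h2]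
    unfold secVol at h1
    have hfin : volume {y : Fin d → ℝ | (y, z₀ + S.mulVec x) ∈ K} ≠ ⊤ := by
      have hcomp : IsCompact {y : Fin d → ℝ | (y, z₀ + S.mulVec x) ∈ K} := by
        have hcl : IsClosed {y : Fin d → ℝ | (y, z₀ + S.mulVec x) ∈ K} :=
          hK.isClosed.preimage (continuous_id.prodMk continuous_const)
        obtain ⟨C, hC⟩ := hK.isBounded.subset_closedBall ((0 : Fin d → ℝ), (0 : Fin t → ℝ))
        refine Metric.isCompact_of_isClosed_isBounded hcl ?_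
        refine (Metric.isBounded_closedBall (x := (0 : Fin d → ℝ)) (r := C)).subset ?_
        intro y hy
        have := hC hy
        simp only [Metric.mem_closedBall, Prod.dist_eq, dist_zero_right, max_le_iff] at this ⊢
        exact this.1
      exact hcomp.measure_lt_top.ne
    rw [ENNReal.ofReal_le_iff_le_toReal hfin]
    exact h1
  · rw [hv]
    exact hint

/-- Image of a convex compact set by a homothety. -/
lemma homothety_body (B : Set (Fin d → ℝ)) (hc : Convex ℝ B) (hK : IsCompact B) (κ : ℝ) (hκ : 0 < κ)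
    (c : Fin d → ℝ) :
    Convex ℝ {a : Fin d → ℝ | κ⁻¹ • (a - c) ∈ B} ∧ IsCompact {a : Fin d → ℝ | κ⁻¹ • (a - c) ∈ B} ∧
      volume {a : Fin d → ℝ | κ⁻¹ • (a - c) ∈ B} = ENNReal.ofReal (κ ^ d) * volume B := by
  have himg : {a : Fin d → ℝ | κ⁻¹ • (a - c) ∈ B} = (fun y => y + c) '' (κ • B) := by
    ext a
    simp only [Set.mem_setOf_eq, Set.image_add_right, Set.mem_preimage]
    rw [Set.mem_smul_set_iff_inv_smul_mem₀ hκ.ne']
    rw [sub_eq_add_neg]
  refine ⟨?_, ?_, ?_⟩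
  · intro x hx y hy a b ha hb hab
    simp only [Set.mem_setOf_eq] at hx hy ⊢
    have := hc hx hy ha hb hab
    convert this using 1
    have hc1 : c = a • c + b • c := by
      rw [← add_smul, hab, one_smul]
    have : a • x + b • y - c = a • (x - c) + b • (y - c) := by
      rw [smul_sub, smul_sub]
      nth_rewrite 1 [hc1]
      abel
    rw [this]
    simp only [smul_add, smul_smul]
    rw [mul_comm κ⁻¹ a, mul_comm κ⁻¹ b]
  · rw [himg]
    exact (hK.smul κ).image (continuous_id.add continuous_const)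
  · rw [himg]
    simp only [Set.image_add_right]
    rw [measure_preimage_add_right, Measure.addHaar_smul]
    simp only [Module.finrank_fintype_fun_eq_card, Fintype.card_fin]
    rw [abs_of_pos (by positivity)]

/-- The bodies at the grid heights. -/
theorem body_family (hd : 0 < d) (K' : Set ((Fin d → ℝ) × (Fin t → ℝ))) (hK'c : Convex ℝ K')
    (hK' : IsCompact K') (V₀ : ℝ) (hV₀ : 0 < V₀)
    (hwin : ∀ x : Fin t → ℝ, (∀ i, |x i| ≤ 2) → ENNReal.ofReal V₀ ≤ volume {y : Fin d → ℝ | (y, x) ∈ K'})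
    (δ : ℝ) (hδ0 : 0 < δ) (hδ1 : δ ≤ 1 / 4) (cy : Fin d → ℝ) (x₀ : Fin t → ℝ) (hx₀ : ∀ i, |x₀ i| ≤ 1) :
    ∃ B' : Set (Fin d → ℝ), Convex ℝ B' ∧ IsCompact B' ∧
      volume B' = ENNReal.ofReal ((1 - 2 * δ) ^ d * V₀) ∧
      ∀ a ∈ B', ((1 - 2 * δ)⁻¹ • (a - (2 * δ) • cy), (1 - 2 * δ)⁻¹ • x₀) ∈ K' := by
  set κ : ℝ := 1 - 2 * δ with hκ
  have hκ0 : 0 < κ := by rw [hκ]; linarith
  have hκ1 : 1 / 2 ≤ κ := by rw [hκ]; linarith
  set x : Fin t → ℝ := κ⁻¹ • x₀ with hx
  have hxb : ∀ i, |x i| ≤ 2 := by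
    intro i
    simp only [hx, Pi.smul_apply, smul_eq_mul, abs_mul, abs_inv, abs_of_pos hκ0]
    have h1 : κ⁻¹ ≤ 2 := by
      rw [inv_le_comm₀ hκ0 (by norm_num)]
      linarith
    have h2 := hx₀ i
    have h3 : 0 ≤ |x₀ i| := abs_nonneg _
    have h4 : 0 ≤ κ⁻¹ := by positivity
    nlinarith
  set B : Set (Fin d → ℝ) := {y : Fin d → ℝ | (y, x) ∈ K'} with hB
  have hBc : Convex ℝ B := by
    intro p hp q hq a b ha hb hab
    have := hK'c hp hq ha hb hab
    simp only [hB, Set.mem_setOf_eq]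
    convert this using 1
    ext i
    · simp
    · simp only [Prod.smul_mk, Prod.mk_add_mk, Pi.add_apply, Pi.smul_apply, smul_eq_mul]
      rw [← add_mul, hab, one_mul]
  have hBK : IsCompact B := by
    have hcl : IsClosed B := hK'.isClosed.preimage (continuous_id.prodMk continuous_const)
    obtain ⟨C, hC⟩ := hK'.isBounded.subset_closedBall ((0 : Fin d → ℝ), (0 : Fin t → ℝ))
    refine Metric.isCompact_of_isClosed_isBounded hcl ?_
    refine (Metric.isBounded_closedBall (x := (0 : Fin d → ℝ)) (r := C)).subset ?_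
    intro y hy
    have := hC hy
    simp only [Metric.mem_closedBall, Prod.dist_eq, dist_zero_right, max_le_iff] at this ⊢
    exact this.1
  obtain ⟨h1, h2, h3⟩ := homothety_body B hBc hBK κ hκ0 ((2 * δ) • cy)
  have hvolT : ENNReal.ofReal (κ ^ d * V₀) ≤ volume {a : Fin d → ℝ | κ⁻¹ • (a - (2 * δ) • cy) ∈ B} := by
    rw [h3, ENNReal.ofReal_mul (by positivity)]
    gcongr
    exact hwin x hxb
  obtain ⟨B', hsub, hB'c, hB'K, hB'v⟩ := shrink_body hd _ h1 h2 (κ ^ d * V₀) (by positivity) hvolT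
  refine ⟨B', hB'c, hB'K, hB'v, ?_⟩
  intro a ha
  exact hsub ha

/-- The eroding body. -/
theorem eroder (hd : 0 < d) (K' : Set ((Fin d → ℝ) × (Fin t → ℝ))) (hK'c : Convex ℝ K')
    (hK' : IsCompact K') (V₀ : ℝ) (hV₀ : 0 < V₀)
    (hwin : ∀ x : Fin t → ℝ, (∀ i, |x i| ≤ 2) → ENNReal.ofReal V₀ ≤ volume {y : Fin d → ℝ | (y, x) ∈ K'})
    (δ : ℝ) (hδ0 : 0 < δ) :
    ∃ (cy : Fin d → ℝ) (C₁ C₀ : Set (Fin d → ℝ)), (cy, (0 : Fin t → ℝ)) ∈ K' ∧
      Convex ℝ C₁ ∧ IsCompact C₁ ∧ Convex ℝ C₀ ∧ IsCompact C₀ ∧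
      (∀ a ∈ C₁, -a ∈ C₁) ∧
      (∀ a ∈ C₁, ∀ a' ∈ C₁, (cy + δ⁻¹ • (a + a'), (0 : Fin t → ℝ)) ∈ K') ∧
      (∀ a ∈ C₁, ∀ a' ∈ C₁, a + a' ∈ C₀) ∧
      volume C₁ = ENNReal.ofReal ((δ / 4) ^ d * V₀) ∧
      volume C₀ = ENNReal.ofReal ((δ / 2) ^ d * V₀) ∧
      ∃ r > 0, ∀ τ : Fin d → ℝ, (∀ i, |τ i| ≤ r) → τ ∈ C₁ := by
  set B₀ : Set (Fin d → ℝ) := {y : Fin d → ℝ | (y, (0 : Fin t → ℝ)) ∈ K'} with hB₀
  have hB₀c : Convex ℝ B₀ := by
    intro p hp q hq a b ha hb hab
    have := hK'c hp hq ha hb hab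
    simp only [hB₀, Set.mem_setOf_eq]
    convert this using 1
    ext i
    · simp
    · simp
  have hB₀K : IsCompact B₀ := by
    have hcl : IsClosed B₀ := hK'.isClosed.preimage (continuous_id.prodMk continuous_const)
    obtain ⟨C, hC⟩ := hK'.isBounded.subset_closedBall ((0 : Fin d → ℝ), (0 : Fin t → ℝ))
    refine Metric.isCompact_of_isClosed_isBounded hcl ?_
    refine (Metric.isBounded_closedBall (x := (0 : Fin d → ℝ)) (r := C)).subset ?_
    intro y hy
    have := hC hy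
    simp only [Metric.mem_closedBall, Prod.dist_eq, dist_zero_right, max_le_iff] at this ⊢
    exact this.1
  have hv := hwin 0 (by simp)
  obtain ⟨cy, Bs, hcy, hBsc, hBsK, hBss, hBsin, hBsv⟩ := sym_body hd B₀ hB₀c hB₀K V₀ hV₀ hv
  have hd2 : δ / 2 ≠ 0 := by positivity
  refine ⟨cy, (δ / 2) • Bs, δ • Bs, hcy, hBsc.smul _, hBsK.smul _, hBsc.smul _, hBsK.smul _, ?_, ?_, ?_,
    ?_, ?_, ?_⟩
  · rintro _ ⟨b, hb, rfl⟩
    exact ⟨-b, hBss b hb, by simp⟩
  · rintro _ ⟨b, hb, rfl⟩ _ ⟨b', hb', rfl⟩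
    have hmid : (1 / 2 : ℝ) • b + (1 / 2 : ℝ) • b' ∈ Bs :=
      hBsc hb hb' (by norm_num) (by norm_num) (by norm_num)
    have h1 := hBsin _ hmid
    have e : δ⁻¹ • ((fun x => (δ / 2) • x) b + (fun x => (δ / 2) • x) b') =
        (1 / 2 : ℝ) • b + (1 / 2 : ℝ) • b' := by
      simp only [smul_add, smul_smul]
      have : δ⁻¹ * (δ / 2) = 1 / 2 := by
        field_simp
      rw [this]
    simp only [Set.mem_setOf_eq, hB₀] at h1
    show (cy + δ⁻¹ • ((δ / 2) • b + (δ / 2) • b'), (0 : Fin t → ℝ)) ∈ K'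
    have e' : δ⁻¹ • ((δ / 2) • b + (δ / 2) • b') = (1 / 2 : ℝ) • b + (1 / 2 : ℝ) • b' := e
    rw [e']
    exact h1
  · rintro _ ⟨b, hb, rfl⟩ _ ⟨b', hb', rfl⟩
    have hmid : (1 / 2 : ℝ) • b + (1 / 2 : ℝ) • b' ∈ Bs :=
      hBsc hb hb' (by norm_num) (by norm_num) (by norm_num)
    refine ⟨_, hmid, ?_⟩
    simp only [smul_add, smul_smul]
    have : δ * (1 / 2) = δ / 2 := by ring
    rw [this]
  · rw [Measure.addHaar_smul, hBsv]
    simp only [Module.finrank_fintype_fun_eq_card, Fintype.card_fin]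
    rw [← ENNReal.ofReal_mul (abs_nonneg _)]
    congr 1
    rw [abs_of_pos (by positivity)]
    have : (δ / 4) ^ d = (δ / 2) ^ d / 2 ^ d := by
      rw [← div_pow]
      congr 1
      ring
    rw [this]
    ring
  · rw [Measure.addHaar_smul, hBsv]
    simp only [Module.finrank_fintype_fun_eq_card, Fintype.card_fin]
    rw [← ENNReal.ofReal_mul (abs_nonneg _)]
    congr 1
    rw [abs_of_pos (by positivity)]
    rw [div_pow]
    ring
  · -- a neighbourhood of zero
    have hBspos : 0 < volume Bs := by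
      rw [hBsv]
      simp only [ENNReal.ofReal_pos]
      positivity
    have hint : (interior Bs).Nonempty := by
      by_contra hne
      have h0 : volume Bs = 0 := by
        have := hBsc.addHaar_frontier volume
        rw [Set.not_nonempty_iff_eq_empty] at hne
        have h2 : Bs ⊆ frontier Bs := by
          rw [frontier, hne, Set.diff_empty]
          exact subset_closure
        exact measure_mono_null h2 this
      rw [h0] at hBspos
      exact lt_irrefl _ hBspos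
    obtain ⟨a, ha⟩ := hint
    obtain ⟨ρ, hρ, hball⟩ := Metric.isOpen_iff.mp isOpen_interior a ha
    refine ⟨(δ / 2) * (ρ / 4), by positivity, ?_⟩
    intro τ hτ
    refine ⟨(δ / 2)⁻¹ • τ, ?_, ?_⟩
    · -- midpoint of `a + 2 τ'` and `-a`
      set τ' : Fin d → ℝ := (δ / 2)⁻¹ • τ with hτ'
      have hbd : ∀ i, |τ' i| ≤ ρ / 4 := by
        intro i
        simp only [hτ', Pi.smul_apply, smul_eq_mul, abs_mul, abs_inv]
        rw [abs_of_pos (by positivity : (0 : ℝ) < δ / 2)]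
        rw [inv_mul_le_iff₀ (by positivity)]
        exact hτ i
      have h1 : a + (2 : ℝ) • τ' ∈ Bs := by
        apply interior_subset
        apply hball
        rw [Metric.mem_ball, dist_eq_norm]
        have e : a + (2 : ℝ) • τ' - a = (2 : ℝ) • τ' := by abel
        rw [e]
        refine lt_of_le_of_lt ((pi_norm_le_iff_of_nonneg (by positivity : (0 : ℝ) ≤ ρ / 2)).mpr ?_)
          (by linarith)
        intro i
        simp only [Pi.smul_apply, smul_eq_mul, Real.norm_eq_abs, abs_mul]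
        have := hbd i
        rw [abs_of_pos (by norm_num : (0 : ℝ) < 2)]
        linarith
      have h2 : -a ∈ Bs := hBss a (interior_subset ha)
      have h3 := hBsc h1 h2 (by norm_num : (0 : ℝ) ≤ 1 / 2) (by norm_num : (0 : ℝ) ≤ 1 / 2)
        (by norm_num)
      have e3 : (1 / 2 : ℝ) • (a + (2 : ℝ) • τ') + (1 / 2 : ℝ) • (-a) = τ' := by
        simp only [smul_add, smul_neg, smul_smul]
        norm_num
      rw [e3] at h3
      exact h3
    · show (δ / 2) • (δ / 2)⁻¹ • τ = τ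
      rw [smul_smul, mul_inv_cancel₀ hd2, one_smul]

end Vale.Agent.Lib.P230
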