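import Vale.Agent.Lib.P230.Sections

/-!
# P230: lattice points of dilates of convex compact sets are `Good`.

`convex_good_of_T`: the statement of `convex_good` (see `Stubs.lean`), taking the four-linear Young
inequality `T_bound` as a hypothesis `TBoundStmt`.
-/

set_option autoImplicit false

open MeasureTheory Finset
open scoped ENNReal Pointwise

namespace Vale.Agent.Lib.P230

/-- The statement of the module `T_bound`. -/
def TBoundStmt : Prop :=
  ∀ (d : ℕ) (f₁ f₂ f₃ f₄ : (Fin d → ℝ) → ℝ≥0∞),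
    Measurable f₁ → Measurable f₂ → Measurable f₃ → Measurable f₄ →
    ∫⁻ x, ∫⁻ y, ∫⁻ z, f₁ x * f₂ y * f₃ z * f₄ (x + y - z) ≤
      (63 / 64 : ℝ≥0∞) ^ d *
        ((∫⁻ x, f₁ x ^ (4 / 3 : ℝ)) ^ (3 / 4 : ℝ) * (∫⁻ x, f₂ x ^ (4 / 3 : ℝ)) ^ (3 / 4 : ℝ) *
          (∫⁻ x, f₃ x ^ (4 / 3 : ℝ)) ^ (3 / 4 : ℝ) * (∫⁻ x, f₄ x ^ (4 / 3 : ℝ)) ^ (3 / 4 : ℝ))

variable {d : ℕ}

/-- half-open cube with corner `a/R` and side `q/R`. -/
def cube (R q : ℝ) (a : Fin d → ℤ) : Set (Fin d → ℝ) :=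
  Set.pi Set.univ fun i => Set.Ico ((a i : ℝ) / R) (((a i : ℝ) + q) / R)

lemma cube_meas (R q : ℝ) (a : Fin d → ℤ) : MeasurableSet (cube R q a) :=
  MeasurableSet.univ_pi fun _ => measurableSet_Ico

lemma volume_cube {R : ℝ} (q : ℝ) (a : Fin d → ℤ) (hR : 0 < R) :
    volume (cube R q a) = ENNReal.ofReal (q / R) ^ d := by
  rw [cube, Real.volume_pi_Ico]
  have : ∀ i : Fin d, ((a i : ℝ) + q) / R - (a i : ℝ) / R = q / R := by
    intro i; field_simp; ring
  simp [this]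

lemma cube_subset {R q : ℝ} (hR : 0 < R) (hq : 0 ≤ q) (a : Fin d → ℤ) {B : Set (Fin d → ℝ)}
    (ha : (fun i => (a i : ℝ) / R) ∈ B) : cube R q a ⊆ Metric.cthickening (q / R) B := by
  intro x hx
  refine Metric.mem_cthickening_of_dist_le x _ _ B ha ?_
  rw [dist_pi_le_iff (by positivity)]
  intro i
  have h := hx i (Set.mem_univ i)
  rw [Real.dist_eq, abs_le]
  have h1 := h.1
  have h2 := h.2
  have e : ((a i : ℝ) + q) / R = (a i : ℝ) / R + q / R := by field_simp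
  rw [e] at h2
  have : 0 ≤ q / R := by positivity
  constructor <;> linarith

lemma cube_disjoint {R q : ℝ} (hR : 0 < R) (a a' : Fin d → ℤ)
    (h : ∃ i, q ≤ |(a i : ℝ) - a' i|) : Disjoint (cube R q a) (cube R q a') := by
  obtain ⟨i, hi⟩ := h
  rw [Set.disjoint_left]
  intro x hx hx'
  have h1 := hx i (Set.mem_univ i)
  have h2 := hx' i (Set.mem_univ i)
  have e1 : ((a i : ℝ) + q) / R = (a i : ℝ) / R + q / R := by field_simp
  have e2 : ((a' i : ℝ) + q) / R = (a' i : ℝ) / R + q / R := by field_simp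
  have h11 := h1.1
  have h12 := h1.2
  have h21 := h2.1
  have h22 := h2.2
  rw [e1] at h12
  rw [e2] at h22
  have h3 : |(a i : ℝ) / R - a' i / R| < q / R := by
    rw [abs_lt]; constructor <;> linarith
  have h4 : (a i : ℝ) / R - a' i / R = ((a i : ℝ) - a' i) / R := by ring
  rw [h4, abs_div, abs_of_pos hR, div_lt_div_iff_of_pos_right hR] at h3
  linarith

/-- volume form of the class count. -/
lemma class_bound {R q : ℝ} (hR : 0 < R) (hq : 0 ≤ q) {B : Set (Fin d → ℝ)}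
    (S : Finset (Fin d → ℤ)) (hS : ∀ y ∈ S, (fun i => (y i : ℝ) / R) ∈ B)
    (hsep : ∀ y ∈ S, ∀ y' ∈ S, y ≠ y' → ∃ i, q ≤ |(y i : ℝ) - y' i|) :
    (S.card : ℝ≥0∞) * ENNReal.ofReal (q / R) ^ d ≤ volume (Metric.cthickening (q / R) B) := by
  have h1 : volume (⋃ y ∈ S, cube R q y) = ∑ y ∈ S, volume (cube R q y) := by
    apply measure_biUnion_finset
    · intro y hy y' hy' hne
      exact cube_disjoint hR y y' (hsep y hy y' hy' hne)
    · intro y _
      exact cube_meas R q y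
  have h2 : (⋃ y ∈ S, cube R q y) ⊆ Metric.cthickening (q / R) B := by
    intro x hx
    simp only [Set.mem_iUnion] at hx
    obtain ⟨y, hy, hxy⟩ := hx
    exact cube_subset hR hq y (hS y hy) hxy
  calc (S.card : ℝ≥0∞) * ENNReal.ofReal (q / R) ^ d
      = ∑ y ∈ S, volume (cube R q y) := by
        simp [volume_cube q _ hR]
    _ = volume (⋃ y ∈ S, cube R q y) := h1.symm
    _ ≤ _ := measure_mono h2

/-- iterated integral of a sum of products of indicators. -/
lemma triple_sum {ι : Type*} (T : Finset ι) (A1 A2 A3 : ι → Set (Fin d → ℝ))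
    (h1 : ∀ p, MeasurableSet (A1 p)) (h2 : ∀ p, MeasurableSet (A2 p))
    (h3 : ∀ p, MeasurableSet (A3 p)) :
    ∫⁻ x, ∫⁻ y, ∫⁻ z, ∑ p ∈ T, ((A1 p).indicator (fun _ => (1 : ℝ≥0∞)) x *
      (A2 p).indicator (fun _ => (1 : ℝ≥0∞)) y * (A3 p).indicator (fun _ => (1 : ℝ≥0∞)) z) =
      ∑ p ∈ T, volume (A1 p) * volume (A2 p) * volume (A3 p) := by
  have m1 : ∀ p, Measurable ((A1 p).indicator (fun _ => (1 : ℝ≥0∞))) :=
    fun p => measurable_const.indicator (h1 p)
  have m2 : ∀ p, Measurable ((A2 p).indicator (fun _ => (1 : ℝ≥0∞))) :=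
    fun p => measurable_const.indicator (h2 p)
  have m3 : ∀ p, Measurable ((A3 p).indicator (fun _ => (1 : ℝ≥0∞))) :=
    fun p => measurable_const.indicator (h3 p)
  have s3 : ∀ x y : Fin d → ℝ, ∫⁻ z, ∑ p ∈ T, ((A1 p).indicator (fun _ => (1 : ℝ≥0∞)) x *
      (A2 p).indicator (fun _ => (1 : ℝ≥0∞)) y * (A3 p).indicator (fun _ => (1 : ℝ≥0∞)) z) =
      ∑ p ∈ T, ((A1 p).indicator (fun _ => (1 : ℝ≥0∞)) x *
      (A2 p).indicator (fun _ => (1 : ℝ≥0∞)) y * volume (A3 p)) := by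
    intro x y
    rw [lintegral_finsetSum _ (fun p _ => (m3 p).const_mul _)]
    refine Finset.sum_congr rfl fun p _ => ?_
    rw [lintegral_const_mul _ (m3 p), lintegral_indicator_const (h3 p), one_mul]
  have s2 : ∀ x : Fin d → ℝ, ∫⁻ y, ∑ p ∈ T, ((A1 p).indicator (fun _ => (1 : ℝ≥0∞)) x *
      (A2 p).indicator (fun _ => (1 : ℝ≥0∞)) y * volume (A3 p)) =
      ∑ p ∈ T, ((A1 p).indicator (fun _ => (1 : ℝ≥0∞)) x * volume (A2 p) * volume (A3 p)) := by
    intro x
    rw [lintegral_finsetSum _ (fun p _ => ((m2 p).const_mul _).mul_const _)]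
    refine Finset.sum_congr rfl fun p _ => ?_
    rw [lintegral_mul_const _ ((m2 p).const_mul _), lintegral_const_mul _ (m2 p),
      lintegral_indicator_const (h2 p), one_mul]
  simp_rw [s3, s2]
  rw [lintegral_finsetSum _ (fun p _ => ((m1 p).mul_const _).mul_const _)]
  refine Finset.sum_congr rfl fun p _ => ?_
  rw [lintegral_mul_const _ ((m1 p).mul_const _), lintegral_mul_const _ (m1 p),
    lintegral_indicator_const (h1 p), one_mul]

lemma cube_unique {R : ℝ} (hR : 0 < R) {a a' : Fin d → ℤ} {x : Fin d → ℝ}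
    (h : x ∈ cube R 1 a) (h' : x ∈ cube R 1 a') : a = a' := by
  by_contra hne
  have : ∃ i, (1 : ℝ) ≤ |(a i : ℝ) - a' i| := by
    obtain ⟨i, hi⟩ := Function.ne_iff.mp hne
    refine ⟨i, ?_⟩
    have h1 : (a i - a' i : ℤ) ≠ 0 := sub_ne_zero.mpr hi
    have h2 : 1 ≤ |a i - a' i| := Int.one_le_abs h1
    have h3 : ((|a i - a' i| : ℤ) : ℝ) = |(a i : ℝ) - a' i| := by push_cast; rfl
    rw [← h3]
    exact_mod_cast h2
  exact Set.disjoint_left.mp (cube_disjoint hR a a' this) h h'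

lemma rpow_indicator_aux (P : Set (Fin d → ℝ)) (x : Fin d → ℝ) :
    (P.indicator (fun _ => (1 : ℝ≥0∞)) x) ^ (4 / 3 : ℝ) = P.indicator (fun _ => (1 : ℝ≥0∞)) x := by
  by_cases h : x ∈ P
  · simp [Set.indicator_of_mem, h]
  · simp only [Set.indicator_of_notMem, h, not_false_eq_true]
    exact ENNReal.zero_rpow_of_pos (by norm_num)

lemma four_rpow (a : ℝ≥0∞) :
    a ^ (3 / 4 : ℝ) * a ^ (3 / 4 : ℝ) * a ^ (3 / 4 : ℝ) * a ^ (3 / 4 : ℝ) = a ^ 3 := by
  have h : (a ^ (3 / 4 : ℝ)) ^ 4 = a ^ 3 := by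
    rw [← ENNReal.rpow_natCast, ← ENNReal.rpow_mul, ← ENNReal.rpow_natCast]
    norm_num
  rw [← h]
  ring

/-- additive energy of a set of lattice points, by `T_bound`. -/
lemma energy_bound (hT : TBoundStmt) {R ε : ℝ} (hR : 0 < R) (hε : 2 / R ≤ ε) {B : Set (Fin d → ℝ)}
    (A : Finset (Fin d → ℤ)) (hA : ∀ y ∈ A, (fun i => (y i : ℝ) / R) ∈ B) (w : Fin d → ℤ) :
    (((A ×ˢ A ×ˢ A ×ˢ A).filter fun p => p.1 + p.2.1 - p.2.2.1 - p.2.2.2 = w).card : ℝ≥0∞) *
        (ENNReal.ofReal (1 / R) ^ d) ^ 3 ≤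
      (63 / 64 : ℝ≥0∞) ^ d * volume (Metric.cthickening ε B) ^ 3 := by
  classical
  set T := (A ×ˢ A ×ˢ A ×ˢ A).filter fun p => p.1 + p.2.1 - p.2.2.1 - p.2.2.2 = w with hTdef
  set P : Set (Fin d → ℝ) := Metric.cthickening ε B with hP
  have hPm : MeasurableSet P := Metric.isClosed_cthickening.measurableSet
  let c : Fin d → ℝ := fun i => (w i : ℝ) / R
  let f : (Fin d → ℝ) → ℝ≥0∞ := P.indicator fun _ => (1 : ℝ≥0∞)
  have hfm : Measurable f := measurable_const.indicator hPm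
  have hf4m : Measurable fun u => f (u - c) := hfm.comp (measurable_id.sub_const c)
  have hbound := hT d f f f (fun u => f (u - c)) hfm hfm hfm hf4m
  have i1 : ∫⁻ x, f x ^ (4 / 3 : ℝ) = volume P := by
    simp_rw [f, rpow_indicator_aux]
    rw [lintegral_indicator_const hPm, one_mul]
  have i2 : ∫⁻ x, f (x - c) ^ (4 / 3 : ℝ) = volume P := by
    have := lintegral_sub_right_eq_self (μ := (volume : Measure (Fin d → ℝ)))
      (fun x => f x ^ (4 / 3 : ℝ)) c
    rw [this, i1]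
  rw [i1, i2, four_rpow] at hbound
  refine le_trans ?_ hbound
  have hvol : ∀ a : Fin d → ℤ, volume (cube R 1 a) = ENNReal.ofReal (1 / R) ^ d :=
    fun a => volume_cube 1 a hR
  have hsum := triple_sum T (fun p => cube R 1 p.1) (fun p => cube R 1 p.2.1)
    (fun p => cube R 1 p.2.2.1) (fun _ => cube_meas _ _ _) (fun _ => cube_meas _ _ _)
    (fun _ => cube_meas _ _ _)
  have hleft : (T.card : ℝ≥0∞) * (ENNReal.ofReal (1 / R) ^ d) ^ 3 =
      ∑ p ∈ T, volume (cube R 1 p.1) * volume (cube R 1 p.2.1) * volume (cube R 1 p.2.2.1) := by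
    simp only [hvol, Finset.sum_const, nsmul_eq_mul]
    ring
  rw [hleft, ← hsum]
  refine lintegral_mono fun x => lintegral_mono fun y => lintegral_mono fun z => ?_
  by_cases h : ∃ p ∈ T, x ∈ cube R 1 p.1 ∧ y ∈ cube R 1 p.2.1 ∧ z ∈ cube R 1 p.2.2.1
  · obtain ⟨p, hp, hx, hy, hz⟩ := h
    have hpmem := (Finset.mem_filter.mp hp)
    have hpA := hpmem.1
    simp only [Finset.mem_product] at hpA
    have hpw : p.1 + p.2.1 - p.2.2.1 - p.2.2.2 = w := hpmem.2
    rw [Finset.sum_eq_single p]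
    · simp only [Set.indicator_of_mem, hx, hy, hz, mul_one]
      have h1R : 1 / R ≤ ε := by
        refine le_trans ?_ hε
        apply div_le_div_of_nonneg_right _ hR.le
        norm_num
      have inP : ∀ (a : Fin d → ℤ) (u : Fin d → ℝ), a ∈ A → u ∈ cube R 1 a → u ∈ P := by
        intro a u ha hu
        exact Metric.cthickening_mono h1R B (cube_subset hR zero_le_one a (hA a ha) hu)
      have hxP := inP _ _ hpA.1 hx
      have hyP := inP _ _ hpA.2.1 hy
      have hzP := inP _ _ hpA.2.2.1 hz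
      have h4P : x + y - z - c ∈ P := by
        refine Metric.mem_cthickening_of_dist_le _ (fun i => (p.2.2.2 i : ℝ) / R) ε B
          (hA _ hpA.2.2.2) ?_
        have hε0 : 0 ≤ ε := le_trans (by positivity) hε
        rw [dist_pi_le_iff hε0]
        intro i
        have hxi := hx i (Set.mem_univ i)
        have hyi := hy i (Set.mem_univ i)
        have hzi := hz i (Set.mem_univ i)
        have hwi : (p.1 i : ℝ) + p.2.1 i - p.2.2.1 i - p.2.2.2 i = w i := by
          have := congrFun hpw i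
          simp only [Pi.sub_apply, Pi.add_apply] at this
          exact_mod_cast this
        have e1 : (p.1 i : ℝ) / R = (p.1 i : ℝ) * (1 / R) := by ring
        have hcom : (x + y - z - c) i - (p.2.2.2 i : ℝ) / R =
            (x i - (p.1 i : ℝ) / R) + (y i - (p.2.1 i : ℝ) / R) - (z i - (p.2.2.1 i : ℝ) / R) := by
          simp only [Pi.sub_apply, Pi.add_apply, c]
          rw [← hwi]
          field_simp
          ring
        have b1 : ((p.1 i : ℝ) + 1) / R = (p.1 i : ℝ) / R + 1 / R := by field_simp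
        have b2 : ((p.2.1 i : ℝ) + 1) / R = (p.2.1 i : ℝ) / R + 1 / R := by field_simp
        have b3 : ((p.2.2.1 i : ℝ) + 1) / R = (p.2.2.1 i : ℝ) / R + 1 / R := by field_simp
        have hxi1 := hxi.1
        have hxi2 := hxi.2
        have hyi1 := hyi.1
        have hyi2 := hyi.2
        have hzi1 := hzi.1
        have hzi2 := hzi.2
        rw [b1] at hxi2
        rw [b2] at hyi2
        rw [b3] at hzi2
        have e2 : 2 / R = 1 / R + 1 / R := by ring
        have hRi : 0 < 1 / R := by positivity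
        rw [Real.dist_eq, hcom, abs_le]
        constructor <;> linarith
      simp only [f, Set.indicator_of_mem, hxP, hyP, hzP, h4P, mul_one]
      exact le_refl _
    · intro p' hp' hne
      by_contra hnz
      have hx' : x ∈ cube R 1 p'.1 := by
        by_contra hn
        apply hnz
        simp [Set.indicator_of_notMem, hn]
      have hy' : y ∈ cube R 1 p'.2.1 := by
        by_contra hn
        apply hnz
        simp [Set.indicator_of_notMem, hn]
      have hz' : z ∈ cube R 1 p'.2.2.1 := by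
        by_contra hn
        apply hnz
        simp [Set.indicator_of_notMem, hn]
      have e1 := cube_unique hR hx hx'
      have e2 := cube_unique hR hy hy'
      have e3 := cube_unique hR hz hz'
      have hpw' : p'.1 + p'.2.1 - p'.2.2.1 - p'.2.2.2 = w := (Finset.mem_filter.mp hp').2
      have e4 : p.2.2.2 = p'.2.2.2 := by
        rw [← e1, ← e2, ← e3] at hpw'
        have := hpw.trans hpw'.symm
        exact sub_right_injective this
      apply hne
      rw [Prod.ext_iff, Prod.ext_iff, Prod.ext_iff]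
      exact ⟨e1.symm, e2.symm, e3.symm, e4.symm⟩
    · intro hnp
      exact absurd hp hnp
  · push Not at h
    rw [Finset.sum_eq_zero]
    · exact zero_le
    · intro p hp
      by_cases hx : x ∈ cube R 1 p.1
      · by_cases hy : y ∈ cube R 1 p.2.1
        · have hz := h p hp hx hy
          simp [Set.indicator_of_notMem, hz]
        · simp [Set.indicator_of_notMem, hy]
      · simp [Set.indicator_of_notMem, hx]

/-- the function `W`. -/
def Wf (D R : ℕ) : ℕ := (2 * D + 1) * (R + 1)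
/-- the function `Q`. -/
def Qf (D R : ℕ) : ℕ := (2 * D + 1) * (Nat.sqrt R + 1)
/-- the constant `θ`. -/
noncomputable def thetaF (D d : ℕ) (V : ℝ) : ℝ := V / (2 * (2 * (D : ℝ) + 1)) ^ d

lemma Wf_tendsto (D : ℕ) : Filter.Tendsto (Wf D) Filter.atTop Filter.atTop := by
  refine Filter.tendsto_atTop_mono (fun R => ?_) Filter.tendsto_id
  simp only [Wf, id]
  nlinarith

lemma Qf_le_Wf (D R : ℕ) : Qf D R ≤ Wf D R := by
  unfold Qf Wf
  have : Nat.sqrt R ≤ R := Nat.sqrt_le_self R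
  gcongr

lemma Wf_le_Qf (D R : ℕ) : Wf D R ≤ Qf D R ^ 4 := by
  unfold Qf Wf
  set c := 2 * D + 1 with hc
  set s := Nat.sqrt R + 1 with hs
  have h1 : R + 1 ≤ s ^ 2 := Nat.succ_le_of_lt (Nat.lt_succ_sqrt' R)
  have hc1 : 1 ≤ c := by omega
  have hs1 : 1 ≤ s := by omega
  calc c * (R + 1) ≤ c * s ^ 2 := by gcongr
    _ ≤ c ^ 4 * s ^ 4 := by
        gcongr
        · exact Nat.le_self_pow (by norm_num) c
        · norm_num
    _ = (c * s) ^ 4 := by ring

lemma Qf_div_small (D : ℕ) {ε : ℝ} (hε : 0 < ε) :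
    ∀ᶠ R : ℕ in Filter.atTop, (Qf D R : ℝ) / R ≤ ε := by
  have hev : ∀ᶠ R : ℕ in Filter.atTop, (4 * (2 * (D : ℝ) + 1) ^ 2 / ε ^ 2 : ℝ) ≤ R :=
    tendsto_natCast_atTop_atTop.eventually_ge_atTop _
  filter_upwards [hev, Filter.eventually_ge_atTop 1] with R hR hR1
  have hRr : (1 : ℝ) ≤ R := by exact_mod_cast hR1
  have hR0 : (0 : ℝ) < R := by linarith
  rw [div_le_iff₀ hR0]
  set c : ℝ := 2 * (D : ℝ) + 1 with hc
  have hc0 : 0 < c := by positivity
  have hs : ((Nat.sqrt R + 1 : ℕ) : ℝ) ^ 2 ≤ 4 * R := by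
    have h1 : Nat.sqrt R * Nat.sqrt R ≤ R := Nat.sqrt_le R
    have h2 : 1 ≤ Nat.sqrt R := by
      rw [Nat.le_sqrt]; simpa using hR1
    have h3 : (Nat.sqrt R + 1) ^ 2 ≤ 4 * R := by nlinarith
    exact_mod_cast h3
  have hQ : (Qf D R : ℝ) = c * ((Nat.sqrt R + 1 : ℕ) : ℝ) := by
    simp [Qf, hc]
  rw [hQ]
  have hsq : (c * ((Nat.sqrt R + 1 : ℕ) : ℝ)) ^ 2 ≤ (ε * R) ^ 2 := by
    have h4 : 4 * c ^ 2 ≤ ε ^ 2 * R := by
      rw [div_le_iff₀ (by positivity)] at hR
      linarith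
    calc (c * ((Nat.sqrt R + 1 : ℕ) : ℝ)) ^ 2 = c ^ 2 * ((Nat.sqrt R + 1 : ℕ) : ℝ) ^ 2 := by ring
      _ ≤ c ^ 2 * (4 * R) := by gcongr
      _ = (4 * c ^ 2) * R := by ring
      _ ≤ (ε ^ 2 * R) * R := by gcongr
      _ = (ε * R) ^ 2 := by ring
  exact le_of_sq_le_sq hsq (by positivity)

lemma exists_thick {B : Set (Fin d → ℝ)} (hK : IsCompact B) {V V' : ℝ} (hv : (volume B).toReal = V)
    (hV' : V < V') : ∃ ε : ℝ, 0 < ε ∧ volume (Metric.cthickening ε B) ≤ ENNReal.ofReal V' := by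
  have h := tendsto_measure_cthickening_of_isCompact (μ := (volume : Measure (Fin d → ℝ))) hK
  have hlt : volume B < ENNReal.ofReal V' := by
    rw [← ENNReal.ofReal_toReal hK.measure_lt_top.ne, hv]
    exact (ENNReal.ofReal_lt_ofReal_iff_of_nonneg (by rw [← hv]; exact ENNReal.toReal_nonneg)).mpr
      hV'
  have hev := (h.eventually (gt_mem_nhds hlt)).filter_mono (nhdsWithin_le_nhds (s := Set.Ioi 0))
  obtain ⟨ε, hε1, hε2⟩ := (hev.and self_mem_nhdsWithin).exists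
  exact ⟨ε, hε2, hε1.le⟩

/-- `63/64` as a real. -/
lemma enn_frac : (63 / 64 : ℝ≥0∞) = ENNReal.ofReal (63 / 64) := by
  rw [ENNReal.ofReal_div_of_pos (by norm_num)]
  norm_num

lemma numeric_kappa (hd : 0 < d) :
    (63 / 64 : ℝ) ^ d * (1001 / 1000 : ℝ) ^ 3 ≤ (99 / 100 : ℝ) ^ d := by
  have h1 : (1001 / 1000 : ℝ) ^ 3 ≤ ((1001 / 1000 : ℝ) ^ 3) ^ d :=
    le_self_pow₀ (by norm_num) hd.ne'
  calc (63 / 64 : ℝ) ^ d * (1001 / 1000 : ℝ) ^ 3
      ≤ (63 / 64 : ℝ) ^ d * ((1001 / 1000 : ℝ) ^ 3) ^ d := by gcongr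
    _ = (63 / 64 * (1001 / 1000 : ℝ) ^ 3) ^ d := by rw [mul_pow]
    _ ≤ (99 / 100 : ℝ) ^ d := by
        apply pow_le_pow_left₀ (by norm_num)
        norm_num

/-- single body version. -/
lemma good_one (hT : TBoundStmt) (hd : 0 < d) {B : Set (Fin d → ℝ)} (hc : Convex ℝ B)
    (hK : IsCompact B) {V : ℝ} (hV : 0 < V) (hv : (volume B).toReal = V) {D : ℕ}
    (hD : ∀ x ∈ B, ∀ i, |x i| ≤ D) :
    ∀ᶠ R : ℕ in Filter.atTop,
      Good (lat B R) ((R : ℝ) ^ d * V) (Wf D R) (Qf D R) (99 / 100) (thetaF D d V) := by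
  obtain ⟨ε, hε, hthick⟩ := exists_thick hK hv (V' := V * (1001 / 1000)) (by nlinarith)
  have hcount := lat_card_tendsto B hc hK
  rw [hv] at hcount
  have ev1 : ∀ᶠ R : ℕ in Filter.atTop, V / 2 < ((lat B R).card : ℝ) / (R : ℝ) ^ d :=
    hcount.eventually (lt_mem_nhds (by linarith))
  have ev2 : ∀ᶠ R : ℕ in Filter.atTop, ((lat B R).card : ℝ) / (R : ℝ) ^ d < 2 * V :=
    hcount.eventually (gt_mem_nhds (by linarith))
  have ev3 : ∀ᶠ R : ℕ in Filter.atTop, (2 / ε : ℝ) ≤ R :=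
    tendsto_natCast_atTop_atTop.eventually_ge_atTop _
  filter_upwards [ev1, ev2, ev3, Filter.eventually_ge_atTop 1, Qf_div_small D hε] with R h1 h2 h3 h4 h5
  have hR1 : (1 : ℝ) ≤ R := by exact_mod_cast h4
  have hR0 : (0 : ℝ) < R := by linarith
  have hRp : (0 : ℝ) < (R : ℝ) ^ d := by positivity
  have hR2 : 2 / (R : ℝ) ≤ ε := by
    rw [div_le_iff₀ hR0]
    rw [div_le_iff₀ hε] at h3
    linarith
  have hmem : ∀ y ∈ lat B R, (fun i => (y i : ℝ) / R) ∈ B :=
    fun y hy => (mem_lat hK.isBounded h4 y).mp hy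
  refine ⟨by positivity, ?_, ?_, ?_, ?_, ?_, ?_⟩
  · -- card_lo
    rw [lt_div_iff₀ hRp] at h1
    linarith
  · rw [div_lt_iff₀ hRp] at h2
    linarith
  · -- box
    intro y hy i
    have h6 : |(y i : ℝ) / R| ≤ D := hD _ (hmem y hy) i
    rw [abs_div, abs_of_pos hR0, div_le_iff₀ hR0] at h6
    have h7 : (2 * |(y i : ℝ)| + 1) ≤ (Wf D R : ℝ) := by
      have : (Wf D R : ℝ) = (2 * (D : ℝ) + 1) * (R + 1) := by simp [Wf]
      rw [this]
      have hD0 : (0 : ℝ) ≤ D := by positivity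
      nlinarith
    have h8 : ((2 * |y i| + 1 : ℤ) : ℝ) ≤ ((Wf D R : ℤ) : ℝ) := by
      push_cast
      simpa using h7
    exact_mod_cast h8
  · -- cls
    intro q hq2 hqQ x
    set S := (lat B R).filter fun y => ∀ i, (q : ℤ) ∣ y i - x i with hS
    have hq0 : (0 : ℝ) < q := by
      have : (2 : ℝ) ≤ q := by exact_mod_cast hq2
      linarith
    have hb := class_bound (R := (R : ℝ)) (q := (q : ℝ)) hR0 hq0.le (B := B) S
      (fun y hy => hmem y (Finset.mem_filter.mp hy).1) (by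
        intro y hy y' hy' hne
        obtain ⟨i, hi⟩ := Function.ne_iff.mp hne
        refine ⟨i, ?_⟩
        have d1 := (Finset.mem_filter.mp hy).2 i
        have d2 := (Finset.mem_filter.mp hy').2 i
        have d3 : (q : ℤ) ∣ y i - y' i := by
          have := dvd_sub d1 d2
          simpa using this
        have h9 : y i - y' i ≠ 0 := sub_ne_zero.mpr hi
        have h10 : (q : ℤ) ≤ |y i - y' i| :=
          Int.le_of_dvd (abs_pos.mpr h9) ((dvd_abs _ _).mpr d3)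
        have h11 : ((|y i - y' i| : ℤ) : ℝ) = |(y i : ℝ) - y' i| := by push_cast; rfl
        rw [← h11]
        exact_mod_cast h10)
    have hqR : (q : ℝ) / R ≤ ε := by
      refine le_trans ?_ h5
      apply div_le_div_of_nonneg_right _ hR0.le
      exact_mod_cast hqQ
    have hb2 : (S.card : ℝ≥0∞) * ENNReal.ofReal ((q : ℝ) / R) ^ d ≤
        ENNReal.ofReal (V * (1001 / 1000)) :=
      hb.trans ((measure_mono (Metric.cthickening_mono hqR B)).trans hthick)
    have hb3 : ((S.card : ℝ)) * ((q : ℝ) / R) ^ d ≤ V * (1001 / 1000) := by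
      have e : (S.card : ℝ≥0∞) * ENNReal.ofReal ((q : ℝ) / R) ^ d =
          ENNReal.ofReal ((S.card : ℝ) * ((q : ℝ) / R) ^ d) := by
        rw [ENNReal.ofReal_mul (by positivity), ENNReal.ofReal_pow (by positivity),
          ENNReal.ofReal_natCast]
      rw [e] at hb2
      exact (ENNReal.ofReal_le_ofReal_iff (by positivity)).mp hb2
    have hqd : (0 : ℝ) < (q : ℝ) ^ d := by positivity
    rw [le_div_iff₀ hqd]
    rw [div_pow, ← mul_div_assoc, div_le_iff₀ hRp] at hb3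
    nlinarith
  · -- energy
    intro w
    have he := energy_bound hT (R := (R : ℝ)) hR0 hR2 (B := B) (lat B R) hmem w
    set N := ((lat B R ×ˢ lat B R ×ˢ lat B R ×ˢ lat B R).filter
      fun p => p.1 + p.2.1 - p.2.2.1 - p.2.2.2 = w).card with hN
    have he2 : (N : ℝ≥0∞) * (ENNReal.ofReal (1 / (R : ℝ)) ^ d) ^ 3 ≤
        (63 / 64 : ℝ≥0∞) ^ d * ENNReal.ofReal (V * (1001 / 1000)) ^ 3 :=
      he.trans (by gcongr)
    have e1 : (N : ℝ≥0∞) * (ENNReal.ofReal (1 / (R : ℝ)) ^ d) ^ 3 =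
        ENNReal.ofReal ((N : ℝ) * ((1 / (R : ℝ)) ^ d) ^ 3) := by
      rw [ENNReal.ofReal_mul (by positivity), ENNReal.ofReal_pow (by positivity),
        ENNReal.ofReal_pow (by positivity), ENNReal.ofReal_natCast]
    have e2 : (63 / 64 : ℝ≥0∞) ^ d * ENNReal.ofReal (V * (1001 / 1000)) ^ 3 =
        ENNReal.ofReal ((63 / 64 : ℝ) ^ d * (V * (1001 / 1000)) ^ 3) := by
      calc (63 / 64 : ℝ≥0∞) ^ d * ENNReal.ofReal (V * (1001 / 1000)) ^ 3
          = ENNReal.ofReal ((63 / 64 : ℝ) ^ d) * ENNReal.ofReal ((V * (1001 / 1000)) ^ 3) := by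
            rw [ENNReal.ofReal_pow (by norm_num), ENNReal.ofReal_pow (by positivity), ← enn_frac]
        _ = _ := (ENNReal.ofReal_mul (by positivity)).symm
    rw [e1, e2] at he2
    have he3 := (ENNReal.ofReal_le_ofReal_iff (by positivity)).mp he2
    have hpow : ((1 / (R : ℝ)) ^ d) ^ 3 = 1 / ((R : ℝ) ^ d) ^ 3 := by
      rw [one_div, inv_pow, inv_pow, one_div]
    rw [hpow, ← mul_div_assoc, mul_one, div_le_iff₀ (by positivity)] at he3
    refine he3.trans ?_
    have hk := numeric_kappa hd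
    have hV3 : 0 ≤ V ^ 3 := by positivity
    calc (63 / 64 : ℝ) ^ d * (V * (1001 / 1000)) ^ 3 * ((R : ℝ) ^ d) ^ 3
        = ((63 / 64 : ℝ) ^ d * (1001 / 1000 : ℝ) ^ 3) * (V ^ 3 * ((R : ℝ) ^ d) ^ 3) := by ring
      _ ≤ (99 / 100 : ℝ) ^ d * (V ^ 3 * ((R : ℝ) ^ d) ^ 3) := by gcongr
      _ = (99 / 100 : ℝ) ^ d * ((R : ℝ) ^ d * V) ^ 3 := by ring
  · -- dense
    have hW : (Wf D R : ℝ) ≤ (2 * (2 * (D : ℝ) + 1)) * R := by
      have : (Wf D R : ℝ) = (2 * (D : ℝ) + 1) * (R + 1) := by simp [Wf]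
      rw [this]
      have hD0 : (0 : ℝ) ≤ D := by positivity
      nlinarith
    have hc0 : (0 : ℝ) < 2 * (2 * (D : ℝ) + 1) := by positivity
    have hW0 : (0 : ℝ) ≤ (Wf D R : ℝ) := by positivity
    have hpow : (Wf D R : ℝ) ^ d ≤ (2 * (2 * (D : ℝ) + 1)) ^ d * (R : ℝ) ^ d := by
      rw [← mul_pow]
      exact pow_le_pow_left₀ hW0 hW d
    unfold thetaF
    rw [div_mul_eq_mul_div, div_le_iff₀ (by positivity)]
    calc V * (Wf D R : ℝ) ^ d ≤ V * ((2 * (2 * (D : ℝ) + 1)) ^ d * (R : ℝ) ^ d) := by gcongr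
      _ = (R : ℝ) ^ d * V * (2 * (2 * (D : ℝ) + 1)) ^ d := by ring

/-- MODULE convex: lattice points of dilates of finitely many convex bodies are `Good`. -/
theorem convex_good_of_T (hT : TBoundStmt) (hd : 0 < d) {U : Type} [Finite U]
    (B : U → Set (Fin d → ℝ)) (V : ℝ)
    (hV : 0 < V) (hc : ∀ u, Convex ℝ (B u)) (hK : ∀ u, IsCompact (B u))
    (hv : ∀ u, (volume (B u)).toReal = V) :
    ∃ (θ : ℝ) (W Q : ℕ → ℕ), 0 < θ ∧ Filter.Tendsto W Filter.atTop Filter.atTop ∧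
      (∀ R, Q R ≤ W R ∧ W R ≤ Q R ^ 4) ∧
      ∀ᶠ R : ℕ in Filter.atTop, ∀ u,
        Good (lat (B u) R) ((R : ℝ) ^ d * V) (W R) (Q R) (99 / 100) θ := by
  classical
  have := Fintype.ofFinite U
  have hbd : ∀ u, ∃ D : ℕ, ∀ x ∈ B u, ∀ i, |x i| ≤ D := by
    intro u
    obtain ⟨C, hC⟩ := (hK u).isBounded.subset_closedBall (0 : Fin d → ℝ)
    obtain ⟨D, hD⟩ := exists_nat_ge C
    refine ⟨D, fun x hx i => ?_⟩
    have h1 := hC hx
    rw [mem_closedBall_zero_iff] at h1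
    have h2 := norm_le_pi_norm x i
    rw [Real.norm_eq_abs] at h2
    linarith
  choose Du hDu using hbd
  let D : ℕ := ∑ u, Du u
  have hDle : ∀ u, (Du u : ℝ) ≤ D := by
    intro u
    have : Du u ≤ D := Finset.single_le_sum (f := Du) (fun _ _ => Nat.zero_le _) (Finset.mem_univ u)
    exact_mod_cast this
  refine ⟨thetaF D d V, Wf D, Qf D, ?_, Wf_tendsto D, fun R => ⟨Qf_le_Wf D R, Wf_le_Qf D R⟩, ?_⟩
  · unfold thetaF
    positivity
  · rw [Filter.eventually_all]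
    intro u
    exact good_one hT hd (hc u) (hK u) hV (hv u)
      (fun x hx i => (hDu u x hx i).trans (hDle u))

end Vale.Agent.Lib.P230
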