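import Mathlib

/-!
# P230, module energy: the four-linear Young estimate with constant `63/64` per coordinate.

One dimensional core: for `∫ φ = ∫ ψ = 1`,
`∫_s (∫_x (φ x * ψ (s - x)) ^ (3/4)) ^ 2 ≤ 63/64`: Cauchy-Schwarz with a weight depending on
the distribution functions of `φ, ψ`, whose law is at most uniform (see notes/P230_blueprint.md).
Then scaling, Cauchy-Schwarz for the form, and tensorisation by Fubini.
-/

set_option autoImplicit false

open MeasureTheory Set Filter Topology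
open scoped ENNReal

namespace Vale.Agent.Lib.P230.EnergyAux

lemma measure_Iio_le_of_forall (μ : Measure ℝ) (b : ℝ) (v : ℝ≥0∞)
    (h : ∀ t < b, μ (Iic t) ≤ v) : μ (Iio b) ≤ v := by
  obtain ⟨u, hmono, hlt, hlim⟩ := exists_seq_strictMono_tendsto b
  have hU : Iio b = ⋃ n, Iic (u n) := by
    ext x
    simp only [mem_Iio, mem_iUnion, mem_Iic]
    constructor
    · intro hx
      have := (hlim.eventually (lt_mem_nhds hx)).exists
      obtain ⟨n, hn⟩ := this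
      exact ⟨n, hn.le⟩
    · rintro ⟨n, hn⟩
      exact lt_of_le_of_lt hn (hlt n)
  have hm : Monotone fun n => Iic (u n) := fun i j hij => Iic_subset_Iic.2 (hmono.monotone hij)
  rw [hU, hm.measure_iUnion]
  exact iSup_le fun n => h _ (hlt n)

lemma measure_Ioi_le_of_forall (μ : Measure ℝ) (a : ℝ) (v : ℝ≥0∞)
    (h : ∀ t > a, μ (Ici t) ≤ v) : μ (Ioi a) ≤ v := by
  obtain ⟨u, hmono, hlt, hlim⟩ := exists_seq_strictAnti_tendsto a
  have hU : Ioi a = ⋃ n, Ici (u n) := by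
    ext x
    simp only [mem_Ioi, mem_iUnion, mem_Ici]
    constructor
    · intro hx
      have := (hlim.eventually (gt_mem_nhds hx)).exists
      obtain ⟨n, hn⟩ := this
      exact ⟨n, hn.le⟩
    · rintro ⟨n, hn⟩
      exact lt_of_lt_of_le (hlt n) hn
  have hm : Monotone fun n => Ici (u n) := fun i j hij => Ici_subset_Ici.2 (hmono.antitone hij)
  rw [hU, hm.measure_iUnion]
  exact iSup_le fun n => h _ (hlt n)

/-- Sublevel sets of the distribution function. -/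
lemma measure_sublevel_le (μ : Measure ℝ) [IsFiniteMeasure μ] [NullSingletonClass μ] (v : ℝ≥0∞) :
    μ {x | μ (Iic x) ≤ v} ≤ v := by
  set D := {x | μ (Iic x) ≤ v} with hD
  have hmono : ∀ {x y : ℝ}, x ≤ y → μ (Iic x) ≤ μ (Iic y) :=
    fun hxy => measure_mono (Iic_subset_Iic.2 hxy)
  by_cases hne : D.Nonempty
  swap
  · rw [not_nonempty_iff_eq_empty.1 hne]; simp
  by_cases hb : BddAbove D
  · have hsub : D ⊆ Iic (sSup D) := fun x hx => le_csSup hb hx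
    calc μ D ≤ μ (Iic (sSup D)) := measure_mono hsub
      _ = μ (Iio (sSup D)) := (measure_congr Iio_ae_eq_Iic).symm
      _ ≤ v := by
        apply measure_Iio_le_of_forall
        intro t ht
        obtain ⟨d, hd, htd⟩ := exists_lt_of_lt_csSup hne ht
        exact (hmono htd.le).trans hd
  · have hall : ∀ t : ℝ, μ (Iic t) ≤ v := by
      intro t
      rw [not_bddAbove_iff] at hb
      obtain ⟨d, hd, htd⟩ := hb t
      exact (hmono htd.le).trans hd
    calc μ D ≤ μ univ := measure_mono (subset_univ _)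
      _ ≤ v := by
        have := tendsto_measure_Iic_atTop (μ := μ)
        exact le_of_tendsto' this hall

/-- Superlevel sets of the distribution function. -/
lemma measure_superlevel_add_le (μ : Measure ℝ) [IsFiniteMeasure μ] [NullSingletonClass μ] (u : ℝ≥0∞)
    (hu : ∃ x, u ≤ μ (Iic x)) :
    μ {x | u ≤ μ (Iic x)} + u ≤ μ univ := by
  set E := {x | u ≤ μ (Iic x)} with hE
  have hmono : ∀ {x y : ℝ}, x ≤ y → μ (Iic x) ≤ μ (Iic y) :=
    fun hxy => measure_mono (Iic_subset_Iic.2 hxy)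
  have hne : E.Nonempty := hu
  have hufin : u ≤ μ univ := by
    obtain ⟨x, hx⟩ := hu
    exact hx.trans (measure_mono (subset_univ _))
  by_cases hb : BddBelow E
  · have hsub : E ⊆ Ici (sInf E) := fun x hx => csInf_le hb hx
    have hkey : μ (Ioi (sInf E)) ≤ μ univ - u := by
      apply measure_Ioi_le_of_forall
      intro t ht
      obtain ⟨e, he, het⟩ := exists_lt_of_csInf_lt hne ht
      have h1 : μ (Ici t) + μ (Iic e) ≤ μ univ := by
        rw [← measure_union (Set.disjoint_left.2 ?_) measurableSet_Iic]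
        · exact measure_mono (subset_univ _)
        · intro x hx hx'
          exact absurd (lt_of_lt_of_le het (le_trans hx (le_of_eq rfl))) (not_lt.2 hx')
      have hue : u ≤ μ (Iic e) := he
      apply ENNReal.le_sub_of_add_le_right (ne_top_of_le_ne_top (measure_ne_top μ univ) hufin)
      exact (add_le_add le_rfl hue).trans h1
    calc μ E + u ≤ μ (Ici (sInf E)) + u := by gcongr
      _ = μ (Ioi (sInf E)) + u := by rw [measure_congr Ioi_ae_eq_Ici]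
      _ ≤ (μ univ - u) + u := by gcongr
      _ = μ univ := tsub_add_cancel_of_le hufin
  · have hall : ∀ t : ℝ, u ≤ μ (Iic t) := by
      intro t
      rw [not_bddBelow_iff] at hb
      obtain ⟨d, hd, htd⟩ := hb t
      exact le_trans hd (hmono htd.le)
    have hu0 : u = 0 := by
      have h0 := tendsto_measure_Ici_atBot (μ := μ)
      have h1 : u + μ univ ≤ μ univ := by
        refine le_of_tendsto' (h0.const_add u) fun t => ?_
        have h2 : μ (Iic (t - 1)) + μ (Ici t) ≤ μ univ := by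
          rw [← measure_union (Set.disjoint_left.2 ?_) measurableSet_Ici]
          · exact measure_mono (subset_univ _)
          · intro x hx hx'
            have hx1 : x ≤ t - 1 := hx
            have hx2 : t ≤ x := hx'
            linarith
        exact (add_le_add (hall _) le_rfl).trans h2
      have h3 : u + μ univ ≤ 0 + μ univ := by simpa using h1
      exact le_zero_iff.1 ((ENNReal.add_le_add_iff_right (measure_ne_top μ univ)).1 h3)
    rw [hu0, add_zero]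
    exact measure_mono (subset_univ _)

/-- The law of the distribution function is at most uniform. -/
lemma measure_level_add_le (μ : Measure ℝ) [IsFiniteMeasure μ] [NullSingletonClass μ] (u v : ℝ≥0∞)
    (huv : u ≤ v) :
    μ {x | u ≤ μ (Iic x) ∧ μ (Iic x) ≤ v} + u ≤ v := by
  set S := {x | u ≤ μ (Iic x) ∧ μ (Iic x) ≤ v} with hS
  by_cases hne : S.Nonempty
  swap
  · rw [not_nonempty_iff_eq_empty.1 hne]; simpa using huv
  obtain ⟨x0, hx0⟩ := hne
  have hmeas : Measurable fun x => μ (Iic x) :=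
    Monotone.measurable fun x y hxy => measure_mono (Iic_subset_Iic.2 hxy)
  have hDm : MeasurableSet {x | μ (Iic x) ≤ v} := measurableSet_le hmeas measurable_const
  have hEm : MeasurableSet {x | u ≤ μ (Iic x)} := measurableSet_le measurable_const hmeas
  have h1 := measure_sublevel_le μ v
  have h2 := measure_superlevel_add_le μ u ⟨x0, hx0.1⟩
  have hU : {x | μ (Iic x) ≤ v} ∪ {x | u ≤ μ (Iic x)} = univ := by
    ext x
    simp only [mem_union, mem_ofPred_eq, mem_univ, iff_true]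
    by_cases h : μ (Iic x) ≤ v
    · exact Or.inl h
    · exact Or.inr (huv.trans (not_le.1 h).le)
  have h3 := measure_union_add_inter {x | μ (Iic x) ≤ v} hEm (μ := μ)
  rw [hU] at h3
  have hSeq : {x | μ (Iic x) ≤ v} ∩ {x | u ≤ μ (Iic x)} = S := by
    ext x
    simp only [mem_inter_iff, mem_ofPred_eq, hS]
    tauto
  rw [hSeq] at h3
  have htop : μ univ ≠ ∞ := measure_ne_top μ univ
  have h4 : μ univ + (μ S + u) ≤ μ univ + v := by
    calc μ univ + (μ S + u) = (μ univ + μ S) + u := by rw [add_assoc]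
      _ = (μ {x | μ (Iic x) ≤ v} + μ {x | u ≤ μ (Iic x)}) + u := by rw [h3]
      _ = μ {x | μ (Iic x) ≤ v} + (μ {x | u ≤ μ (Iic x)} + u) := by rw [add_assoc]
      _ ≤ v + μ univ := add_le_add h1 h2
      _ = μ univ + v := add_comm _ _
  exact (ENNReal.add_le_add_iff_left htop).1 h4

/-- distribution function of a density, as a real number -/
noncomputable def cd (h : ℝ → ℝ≥0∞) (x : ℝ) : ℝ := (∫⁻ t in Iic x, h t).toReal

section density
variable {h : ℝ → ℝ≥0∞}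

lemma setLIntegral_Iic_ne_top (hfin : ∫⁻ t, h t ≠ ∞) (x : ℝ) : ∫⁻ t in Iic x, h t ≠ ∞ :=
  ne_top_of_le_ne_top hfin (setLIntegral_le_lintegral _ _)

lemma ofReal_cd (hfin : ∫⁻ t, h t ≠ ∞) (x : ℝ) : ENNReal.ofReal (cd h x) = ∫⁻ t in Iic x, h t :=
  ENNReal.ofReal_toReal (setLIntegral_Iic_ne_top hfin x)

lemma cd_nonneg (x : ℝ) : 0 ≤ cd h x := ENNReal.toReal_nonneg

lemma cd_mono (hfin : ∫⁻ t, h t ≠ ∞) : Monotone (cd h) := by
  intro x y hxy
  apply ENNReal.toReal_mono (setLIntegral_Iic_ne_top hfin y)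
  exact lintegral_mono_set (Iic_subset_Iic.2 hxy)

lemma measurable_cd (hfin : ∫⁻ t, h t ≠ ∞) : Measurable (cd h) := (cd_mono hfin).measurable

lemma cd_le_total (hfin : ∫⁻ t, h t ≠ ∞) (x : ℝ) : cd h x ≤ (∫⁻ t, h t).toReal :=
  ENNReal.toReal_mono hfin (setLIntegral_le_lintegral _ _)

/-- the measure with density `h` -/
lemma withDensity_nullSingleton (h : ℝ → ℝ≥0∞) :
    NullSingletonClass (volume.withDensity h) :=
  ⟨fun x => (withDensity_absolutelyContinuous volume h) (measure_singleton x)⟩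

lemma level_real (_hh : Measurable h) (hfin : ∫⁻ t, h t ≠ ∞) {u v : ℝ} (hu : 0 ≤ u) (huv : u ≤ v) :
    (∫⁻ x in {x | u ≤ cd h x ∧ cd h x ≤ v}, h x) + ENNReal.ofReal u ≤ ENNReal.ofReal v := by
  have : IsFiniteMeasure (volume.withDensity h) := isFiniteMeasure_withDensity hfin
  have := withDensity_nullSingleton h
  have hmeas : Measurable (cd h) := measurable_cd hfin
  have hS : MeasurableSet {x | u ≤ cd h x ∧ cd h x ≤ v} :=
    (measurableSet_le measurable_const hmeas).inter (measurableSet_le hmeas measurable_const)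
  have key := measure_level_add_le (volume.withDensity h) (ENNReal.ofReal u) (ENNReal.ofReal v)
    (ENNReal.ofReal_le_ofReal huv)
  have hIic : ∀ x, (volume.withDensity h) (Iic x) = ENNReal.ofReal (cd h x) := by
    intro x
    rw [withDensity_apply _ measurableSet_Iic, ofReal_cd hfin]
  simp only [hIic] at key
  have hset : {x | ENNReal.ofReal u ≤ ENNReal.ofReal (cd h x) ∧
      ENNReal.ofReal (cd h x) ≤ ENNReal.ofReal v} = {x | u ≤ cd h x ∧ cd h x ≤ v} := by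
    ext x
    have hc := cd_nonneg (h := h) x
    simp only [mem_ofPred_eq]
    rw [ENNReal.ofReal_le_ofReal_iff hc, ENNReal.ofReal_le_ofReal_iff (hu.trans huv)]
  rw [hset, withDensity_apply _ hS] at key
  exact key

lemma sublevel_real (hh : Measurable h) (hfin : ∫⁻ t, h t ≠ ∞) {v : ℝ} (hv : 0 ≤ v) :
    ∫⁻ x in {x | cd h x ≤ v}, h x ≤ ENNReal.ofReal v := by
  have := level_real hh hfin (le_refl (0 : ℝ)) hv
  simp only [ENNReal.ofReal_zero, add_zero] at this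
  simpa [cd_nonneg] using this

lemma superlevel_real (hh : Measurable h) (hone : ∫⁻ t, h t = 1) {u : ℝ} (hu : 0 ≤ u) (hu1 : u ≤ 1) :
    ∫⁻ x in {x | u ≤ cd h x}, h x ≤ ENNReal.ofReal (1 - u) := by
  have hfin : ∫⁻ t, h t ≠ ∞ := by rw [hone]; exact ENNReal.one_ne_top
  have hle : ∀ x, cd h x ≤ 1 := by
    intro x
    have := cd_le_total hfin x
    rwa [hone, ENNReal.toReal_one] at this
  have := level_real hh hfin hu hu1
  have hset : {x | u ≤ cd h x ∧ cd h x ≤ 1} = {x | u ≤ cd h x} := by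
    ext x
    simp only [mem_ofPred_eq, and_iff_left_iff_imp]
    exact fun _ => hle x
  rw [hset, ENNReal.ofReal_one] at this
  have h2 : ENNReal.ofReal (1 - u) + ENNReal.ofReal u = 1 := by
    rw [← ENNReal.ofReal_add (by linarith) hu]; simp
  have h3 : (∫⁻ x in {x | u ≤ cd h x}, h x) + ENNReal.ofReal u ≤
      ENNReal.ofReal (1 - u) + ENNReal.ofReal u := by rwa [h2]
  exact (ENNReal.add_le_add_iff_right ENNReal.ofReal_ne_top).1 h3

end density

section core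

variable {φ ψ : ℝ → ℝ≥0∞}

/-- Cauchy-Schwarz with weights. -/
lemma cs_weighted {w c k : ℝ → ℝ≥0∞} (hw : Measurable w) (hc : Measurable c) (hk : Measurable k)
    (hck : ∀ x, c x * k x = 1) :
    (∫⁻ x, w x ^ (3 / 4 : ℝ)) ^ 2 ≤
      (∫⁻ x, c x * w x ^ (1 / 2 : ℝ)) * (∫⁻ x, k x * w x) := by
  have hf : AEMeasurable (fun x => (c x * w x ^ (1 / 2 : ℝ)) ^ (1 / 2 : ℝ)) volume :=
    ((hc.mul (hw.pow_const _)).pow_const _).aemeasurable
  have hg : AEMeasurable (fun x => (k x * w x) ^ (1 / 2 : ℝ)) volume :=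
    ((hk.mul hw).pow_const _).aemeasurable
  have hpt : ∀ x, w x ^ (3 / 4 : ℝ) =
      (c x * w x ^ (1 / 2 : ℝ)) ^ (1 / 2 : ℝ) * (k x * w x) ^ (1 / 2 : ℝ) := by
    intro x
    rw [← ENNReal.mul_rpow_of_nonneg _ _ (by norm_num : (0 : ℝ) ≤ 1 / 2)]
    have h1 : c x * w x ^ (1 / 2 : ℝ) * (k x * w x) = (c x * k x) * (w x ^ (1 / 2 : ℝ) * w x) := by
      ring
    rw [h1, hck x, one_mul]
    have h2 : w x ^ (1 / 2 : ℝ) * w x = w x ^ (3 / 2 : ℝ) := by
      conv_lhs => rw [← ENNReal.rpow_one (w x)]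
      rw [ENNReal.rpow_one, ← ENNReal.rpow_one (w x), ENNReal.rpow_one]
      have : (3 / 2 : ℝ) = 1 / 2 + 1 := by norm_num
      rw [this, ENNReal.rpow_add_of_nonneg _ _ (by norm_num) (by norm_num), ENNReal.rpow_one]
    rw [h2, ← ENNReal.rpow_mul]
    norm_num
  have hh := ENNReal.lintegral_mul_le_Lp_mul_Lq volume (Real.HolderConjugate.two_two) hf hg
  have hleft : ∫⁻ x, w x ^ (3 / 4 : ℝ) =
      ∫⁻ x, ((c x * w x ^ (1 / 2 : ℝ)) ^ (1 / 2 : ℝ)) * ((k x * w x) ^ (1 / 2 : ℝ)) :=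
    lintegral_congr hpt
  have hsq : ∀ y : ℝ≥0∞, (y ^ (1 / 2 : ℝ)) ^ (2 : ℝ) = y := by
    intro y
    rw [← ENNReal.rpow_mul]; norm_num
  simp only [hsq] at hh
  rw [hleft]
  calc (∫⁻ x, ((c x * w x ^ (1 / 2 : ℝ)) ^ (1 / 2 : ℝ)) * ((k x * w x) ^ (1 / 2 : ℝ))) ^ 2
      ≤ ((∫⁻ x, c x * w x ^ (1 / 2 : ℝ)) ^ (1 / 2 : ℝ) *
          (∫⁻ x, k x * w x) ^ (1 / 2 : ℝ)) ^ 2 := by
        gcongr
        exact hh
    _ = (∫⁻ x, c x * w x ^ (1 / 2 : ℝ)) * (∫⁻ x, k x * w x) := by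
      rw [mul_pow]
      have : ∀ y : ℝ≥0∞, (y ^ (1 / 2 : ℝ)) ^ (2 : ℕ) = y := by
        intro y
        rw [← ENNReal.rpow_natCast, ← ENNReal.rpow_mul]; norm_num
      rw [this, this]

/-- AM-GM in the extended nonnegative reals. -/
lemma amgm (a b : ℝ≥0∞) : 2 * (a * b) ^ (1 / 2 : ℝ) ≤ a + b := by
  have hy := ENNReal.young_inequality (a ^ (1 / 2 : ℝ)) (b ^ (1 / 2 : ℝ)) Real.HolderConjugate.two_two
  have hsq : ∀ y : ℝ≥0∞, (y ^ (1 / 2 : ℝ)) ^ (2 : ℝ) = y := by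
    intro y
    rw [← ENNReal.rpow_mul]; norm_num
  simp only [hsq] at hy
  rw [ENNReal.mul_rpow_of_nonneg _ _ (by norm_num : (0 : ℝ) ≤ 1 / 2)]
  have h2 : ENNReal.ofReal 2 = 2 := by simp
  rw [h2] at hy
  calc 2 * (a ^ (1 / 2 : ℝ) * b ^ (1 / 2 : ℝ)) ≤ 2 * (a / 2 + b / 2) := by gcongr
    _ = a + b := by
      rw [mul_add, ENNReal.mul_div_cancel (by norm_num) (by norm_num),
        ENNReal.mul_div_cancel (by norm_num) (by norm_num)]

/-- weight `2 σ` -/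
noncomputable def sc (φ ψ : ℝ → ℝ≥0∞) (x y : ℝ) : ℝ≥0∞ :=
  ENNReal.ofReal (if |cd φ x - cd ψ y| ≤ 1 / 2 then 2 else 3 / 2)

/-- weight `1 / (2 σ)` -/
noncomputable def sk (φ ψ : ℝ → ℝ≥0∞) (x y : ℝ) : ℝ≥0∞ :=
  ENNReal.ofReal (if |cd φ x - cd ψ y| ≤ 1 / 2 then 1 / 2 else 2 / 3)

lemma sc_mul_sk (x y : ℝ) : sc φ ψ x y * sk φ ψ x y = 1 := by
  unfold sc sk
  split_ifs <;> rw [← ENNReal.ofReal_mul (by norm_num)] <;> norm_num

lemma measurableSet_near (h1 : ∫⁻ t, φ t ≠ ∞) (h2 : ∫⁻ t, ψ t ≠ ∞) :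
    MeasurableSet {p : ℝ × ℝ | |cd φ p.1 - cd ψ p.2| ≤ 1 / 2} := by
  apply measurableSet_le _ measurable_const
  exact ((measurable_cd h1).comp measurable_fst |>.sub ((measurable_cd h2).comp measurable_snd)).abs

lemma measurable_sc (h1 : ∫⁻ t, φ t ≠ ∞) (h2 : ∫⁻ t, ψ t ≠ ∞) :
    Measurable fun p : ℝ × ℝ => sc φ ψ p.1 p.2 := by
  unfold sc
  apply ENNReal.measurable_ofReal.comp
  exact Measurable.ite (measurableSet_near h1 h2) measurable_const measurable_const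

lemma measurable_sk (h1 : ∫⁻ t, φ t ≠ ∞) (h2 : ∫⁻ t, ψ t ≠ ∞) :
    Measurable fun p : ℝ × ℝ => sk φ ψ p.1 p.2 := by
  unfold sk
  apply ENNReal.measurable_ofReal.comp
  exact Measurable.ite (measurableSet_near h1 h2) measurable_const measurable_const

lemma measurable_sc_sub (h1 : ∫⁻ t, φ t ≠ ∞) (h2 : ∫⁻ t, ψ t ≠ ∞) (s : ℝ) :
    Measurable fun x : ℝ => sc φ ψ x (s - x) := by
  have hpair : Measurable fun x : ℝ => (x, s - x) :=
    measurable_id.prodMk (measurable_const.sub measurable_id)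
  exact Measurable.comp (g := fun p : ℝ × ℝ => sc φ ψ p.1 p.2) (f := fun x : ℝ => (x, s - x))
    (measurable_sc h1 h2) hpair

lemma measurable_sk_sub (h1 : ∫⁻ t, φ t ≠ ∞) (h2 : ∫⁻ t, ψ t ≠ ∞) (s : ℝ) :
    Measurable fun x : ℝ => sk φ ψ x (s - x) := by
  have hpair : Measurable fun x : ℝ => (x, s - x) :=
    measurable_id.prodMk (measurable_const.sub measurable_id)
  exact Measurable.comp (g := fun p : ℝ × ℝ => sk φ ψ p.1 p.2) (f := fun x : ℝ => (x, s - x))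
    (measurable_sk h1 h2) hpair

lemma lintegral_Iic_reflect (hψ : Measurable ψ) (s x : ℝ) :
    ∫⁻ t in Iic x, ψ (s - t) = ∫⁻ u in Ici (s - x), ψ u := by
  have h1 : ∀ t, (Iic x).indicator (fun t => ψ (s - t)) t = (Ici (s - x)).indicator ψ (s - t) := by
    intro t
    by_cases ht : t ≤ x
    · have h' : s - x ≤ s - t := by linarith
      simp [indicator, ht, h']
    · have h' : ¬ s - x ≤ s - t := by
        intro h
        apply ht
        linarith
      simp [indicator, ht, h']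
  rw [← lintegral_indicator measurableSet_Iic, ← lintegral_indicator measurableSet_Ici]
  simp_rw [h1]
  exact lintegral_sub_left_eq_self (fun u => (Ici (s - x)).indicator ψ u) s

lemma lintegral_Iic_add_Ici (a : ℝ) :
    (∫⁻ u in Iic a, ψ u) + ∫⁻ u in Ici a, ψ u = ∫⁻ u, ψ u := by
  have h0 := lintegral_add_compl (μ := volume) ψ (measurableSet_Iic (a := a))
  rw [compl_Iic] at h0
  have h : (Ici a : Set ℝ) =ᵐ[volume] Ioi a := Ioi_ae_eq_Ici.symm
  rw [setLIntegral_congr h]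
  exact h0

/-- the two-sided distribution function -/
lemma cd_two_sided (hφ : Measurable φ) (hψ : Measurable ψ) (h1 : ∫⁻ t, φ t = 1)
    (h2 : ∫⁻ t, ψ t = 1) (s x : ℝ) :
    cd (fun t => φ t + ψ (s - t)) x = cd φ x + 1 - cd ψ (s - x) := by
  have hfin1 : ∫⁻ t, φ t ≠ ∞ := by rw [h1]; exact ENNReal.one_ne_top
  have hfin2 : ∫⁻ t, ψ t ≠ ∞ := by rw [h2]; exact ENNReal.one_ne_top
  unfold cd
  rw [lintegral_add_left hφ, lintegral_Iic_reflect hψ]
  have h3 := lintegral_Iic_add_Ici (ψ := ψ) (s - x)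
  rw [h2] at h3
  have hP : ∫⁻ u in Ici (s - x), ψ u ≠ ∞ :=
    ne_top_of_le_ne_top hfin2 (setLIntegral_le_lintegral _ _)
  have hQ : ∫⁻ u in Iic (s - x), ψ u ≠ ∞ :=
    ne_top_of_le_ne_top hfin2 (setLIntegral_le_lintegral _ _)
  have hA : ∫⁻ t in Iic x, φ t ≠ ∞ :=
    ne_top_of_le_ne_top hfin1 (setLIntegral_le_lintegral _ _)
  rw [ENNReal.toReal_add hA hP]
  have h4 : (∫⁻ u in Iic (s - x), ψ u).toReal + (∫⁻ u in Ici (s - x), ψ u).toReal = 1 := by
    rw [← ENNReal.toReal_add hQ hP, h3, ENNReal.toReal_one]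
  linarith

lemma J_bound (hφ : Measurable φ) (hψ : Measurable ψ) (h1 : ∫⁻ t, φ t = 1)
    (h2 : ∫⁻ t, ψ t = 1) (s : ℝ) :
    ∫⁻ x, sc φ ψ x (s - x) * (φ x * ψ (s - x)) ^ (1 / 2 : ℝ) ≤ ENNReal.ofReal (7 / 4) := by
  have hfin1 : ∫⁻ t, φ t ≠ ∞ := by rw [h1]; exact ENNReal.one_ne_top
  have hfin2 : ∫⁻ t, ψ t ≠ ∞ := by rw [h2]; exact ENNReal.one_ne_top
  set h : ℝ → ℝ≥0∞ := fun t => φ t + ψ (s - t) with hh
  have hm : Measurable h := hφ.add (hψ.comp (measurable_const.sub measurable_id))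
  have htot : ∫⁻ t, h t = 2 := by
    rw [hh, lintegral_add_left hφ, h1, lintegral_sub_left_eq_self (fun u => ψ u) s, h2]
    norm_num
  have hfin : ∫⁻ t, h t ≠ ∞ := by rw [htot]; norm_num
  set Sn : Set ℝ := {x | |cd φ x - cd ψ (s - x)| ≤ 1 / 2} with hSn
  have hSm : MeasurableSet Sn := by
    exact measurableSet_le (f := fun x => |cd φ x - cd ψ (s - x)|) (g := fun _ => (1 / 2 : ℝ))
      ((measurable_cd hfin1).sub
      ((measurable_cd hfin2).comp (measurable_const.sub measurable_id))).abs measurable_const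
  -- the near part has mass at most one
  have hnear : ∫⁻ x in Sn, h x ≤ 1 := by
    have hlev := level_real hm hfin (by norm_num : (0 : ℝ) ≤ 1 / 2) (by norm_num : (1 / 2 : ℝ) ≤ 3 / 2)
    have hsub : Sn ⊆ {x | (1 / 2 : ℝ) ≤ cd h x ∧ cd h x ≤ 3 / 2} := by
      intro x hx
      have hx' : |cd φ x - cd ψ (s - x)| ≤ 1 / 2 := hx
      have hid := cd_two_sided hφ hψ h1 h2 s x
      have := abs_le.1 hx'
      show (1 / 2 : ℝ) ≤ cd h x ∧ cd h x ≤ 3 / 2
      rw [hh, hid]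
      constructor <;> linarith [this.1, this.2]
    have h3 : ∫⁻ x in {x | (1 / 2 : ℝ) ≤ cd h x ∧ cd h x ≤ 3 / 2}, h x ≤ 1 := by
      have h4 : ENNReal.ofReal (3 / 2) = 1 + ENNReal.ofReal (1 / 2) := by
        rw [← ENNReal.ofReal_one, ← ENNReal.ofReal_add (by norm_num) (by norm_num)]
        norm_num
      rw [h4] at hlev
      exact (ENNReal.add_le_add_iff_right ENNReal.ofReal_ne_top).1 hlev
    exact (lintegral_mono_set hsub).trans h3
  -- pointwise bound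
  have hpt : ∀ x, sc φ ψ x (s - x) * (φ x * ψ (s - x)) ^ (1 / 2 : ℝ) ≤
      ENNReal.ofReal (3 / 4) * h x + ENNReal.ofReal (1 / 4) * Sn.indicator h x := by
    intro x
    have hag := amgm (φ x) (ψ (s - x))
    set r := (φ x * ψ (s - x)) ^ (1 / 2 : ℝ) with hr
    have hhx : h x = φ x + ψ (s - x) := rfl
    rw [← hhx] at hag
    by_cases hx : x ∈ Sn
    · have hx' : |cd φ x - cd ψ (s - x)| ≤ 1 / 2 := hx
      have hsc : sc φ ψ x (s - x) = 2 := by
        unfold sc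
        rw [if_pos hx']
        norm_num
      rw [hsc, indicator_of_mem hx, ← add_mul, ← ENNReal.ofReal_add (by norm_num) (by norm_num)]
      norm_num
      exact hag
    · have hx' : ¬ |cd φ x - cd ψ (s - x)| ≤ 1 / 2 := hx
      have hsc : sc φ ψ x (s - x) = ENNReal.ofReal (3 / 4) * 2 := by
        unfold sc
        rw [if_neg hx', show (3 / 2 : ℝ) = 3 / 4 * 2 by norm_num,
          ENNReal.ofReal_mul (by norm_num)]
        norm_num
      rw [hsc, indicator_of_notMem hx, mul_zero, add_zero, mul_assoc]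
      gcongr
  calc ∫⁻ x, sc φ ψ x (s - x) * (φ x * ψ (s - x)) ^ (1 / 2 : ℝ)
      ≤ ∫⁻ x, (ENNReal.ofReal (3 / 4) * h x + ENNReal.ofReal (1 / 4) * Sn.indicator h x) :=
        lintegral_mono hpt
    _ = ENNReal.ofReal (3 / 4) * (∫⁻ x, h x) + ENNReal.ofReal (1 / 4) * ∫⁻ x in Sn, h x := by
        rw [lintegral_add_left (hm.const_mul _), lintegral_const_mul _ hm,
          lintegral_const_mul _ (hm.indicator hSm), lintegral_indicator hSm]
    _ ≤ ENNReal.ofReal (3 / 4) * 2 + ENNReal.ofReal (1 / 4) * 1 := by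
        rw [htot]
        gcongr
    _ = ENNReal.ofReal (7 / 4) := by
        have h5 : (2 : ℝ≥0∞) = ENNReal.ofReal 2 := by norm_num
        rw [h5, ← ENNReal.ofReal_mul (by norm_num), mul_one, ← ENNReal.ofReal_add (by norm_num)
          (by norm_num)]
        norm_num

/-- the far part, for fixed `x` -/
lemma far_bound (hψ : Measurable ψ) (h2 : ∫⁻ t, ψ t = 1) (p : ℝ) (hp0 : 0 ≤ p) (hp1 : p ≤ 1) :
    ∫⁻ y in {y | ¬ |p - cd ψ y| ≤ 1 / 2}, ψ y ≤
      ENNReal.ofReal (if p ≤ 1 / 4 ∨ 3 / 4 ≤ p then 1 / 2 else 1 / 4) := by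
  have hfin2 : ∫⁻ t, ψ t ≠ ∞ := by rw [h2]; exact ENNReal.one_ne_top
  have hle : ∀ y, cd ψ y ≤ 1 := by
    intro y
    have := cd_le_total hfin2 y
    rwa [h2, ENNReal.toReal_one] at this
  have hnn : ∀ y, 0 ≤ cd ψ y := fun y => cd_nonneg y
  by_cases h1 : p ≤ 1 / 4
  · rw [if_pos (Or.inl h1)]
    have hsub : {y | ¬ |p - cd ψ y| ≤ 1 / 2} ⊆ {y | (1 / 2 : ℝ) ≤ cd ψ y} := by
      intro y hy
      have hy' : ¬ |p - cd ψ y| ≤ 1 / 2 := hy
      rw [abs_le, not_and_or, not_le, not_le] at hy'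
      show (1 / 2 : ℝ) ≤ cd ψ y
      have h6 := hnn y
      rcases hy' with h | h <;> linarith
    refine (lintegral_mono_set hsub).trans ?_
    have := superlevel_real hψ h2 (by norm_num : (0 : ℝ) ≤ 1 / 2) (by norm_num)
    norm_num at this ⊢
    exact this
  by_cases h3 : 3 / 4 ≤ p
  · rw [if_pos (Or.inr h3)]
    have hsub : {y | ¬ |p - cd ψ y| ≤ 1 / 2} ⊆ {y | cd ψ y ≤ (1 / 2 : ℝ)} := by
      intro y hy
      have hy' : ¬ |p - cd ψ y| ≤ 1 / 2 := hy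
      rw [abs_le, not_and_or, not_le, not_le] at hy'
      show cd ψ y ≤ (1 / 2 : ℝ)
      have := hle y
      rcases hy' with h | h <;> linarith
    refine (lintegral_mono_set hsub).trans ?_
    exact sublevel_real hψ hfin2 (by norm_num)
  · rw [if_neg (by tauto)]
    by_cases h5 : p ≤ 1 / 2
    · have hsub : {y | ¬ |p - cd ψ y| ≤ 1 / 2} ⊆ {y | (3 / 4 : ℝ) ≤ cd ψ y} := by
        intro y hy
        have hy' : ¬ |p - cd ψ y| ≤ 1 / 2 := hy
        rw [abs_le, not_and_or, not_le, not_le] at hy'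
        show (3 / 4 : ℝ) ≤ cd ψ y
        have h6 := hnn y
        have h7 : 1 / 4 < p := not_le.1 h1
        rcases hy' with h | h <;> linarith
      refine (lintegral_mono_set hsub).trans ?_
      have := superlevel_real hψ h2 (by norm_num : (0 : ℝ) ≤ 3 / 4) (by norm_num)
      norm_num at this ⊢
      exact this
    · have hsub : {y | ¬ |p - cd ψ y| ≤ 1 / 2} ⊆ {y | cd ψ y ≤ (1 / 4 : ℝ)} := by
        intro y hy
        have hy' : ¬ |p - cd ψ y| ≤ 1 / 2 := hy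
        rw [abs_le, not_and_or, not_le, not_le] at hy'
        show cd ψ y ≤ (1 / 4 : ℝ)
        have h6 := hle y
        have h7 : p < 3 / 4 := not_le.1 h3
        have h8 : 1 / 2 < p := not_le.1 h5
        rcases hy' with h | h <;> linarith
      refine (lintegral_mono_set hsub).trans ?_
      exact sublevel_real hψ hfin2 (by norm_num)

/-- the inner integral of the second factor -/
lemma inner_bound (hφ : ∫⁻ t, φ t ≠ ∞) (hψ : Measurable ψ) (h1 : ∀ x, cd φ x ≤ 1)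
    (h2 : ∫⁻ t, ψ t = 1) (x : ℝ) :
    ∫⁻ y, sk φ ψ x y * ψ y ≤
      ENNReal.ofReal (if cd φ x ≤ 1 / 4 ∨ 3 / 4 ≤ cd φ x then 7 / 12 else 13 / 24) := by
  have hfin2 : ∫⁻ t, ψ t ≠ ∞ := by rw [h2]; exact ENNReal.one_ne_top
  set p := cd φ x with hp
  have hFm : MeasurableSet {y | ¬ |p - cd ψ y| ≤ 1 / 2} := by
    have : MeasurableSet {y | |p - cd ψ y| ≤ 1 / 2} :=
      measurableSet_le (f := fun y => |p - cd ψ y|) (g := fun _ => (1 / 2 : ℝ))
        (measurable_const.sub (measurable_cd hfin2)).abs measurable_const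
    exact this.compl
  have hpt : ∀ y, sk φ ψ x y * ψ y ≤ ENNReal.ofReal (1 / 2) * ψ y +
      ENNReal.ofReal (1 / 6) * {y | ¬ |p - cd ψ y| ≤ 1 / 2}.indicator ψ y := by
    intro y
    unfold sk
    by_cases hy : |p - cd ψ y| ≤ 1 / 2
    · rw [← hp, if_pos hy]
      have : y ∉ {y | ¬ |p - cd ψ y| ≤ 1 / 2} := fun h => h hy
      rw [indicator_of_notMem this, mul_zero, add_zero]
    · rw [← hp, if_neg hy]
      have : y ∈ {y | ¬ |p - cd ψ y| ≤ 1 / 2} := hy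
      rw [indicator_of_mem this, ← add_mul, ← ENNReal.ofReal_add (by norm_num) (by norm_num)]
      norm_num
  have hfb := far_bound hψ h2 p (cd_nonneg x) (h1 x)
  calc ∫⁻ y, sk φ ψ x y * ψ y
      ≤ ∫⁻ y, (ENNReal.ofReal (1 / 2) * ψ y +
          ENNReal.ofReal (1 / 6) * {y | ¬ |p - cd ψ y| ≤ 1 / 2}.indicator ψ y) := lintegral_mono hpt
    _ = ENNReal.ofReal (1 / 2) * (∫⁻ y, ψ y) +
          ENNReal.ofReal (1 / 6) * ∫⁻ y in {y | ¬ |p - cd ψ y| ≤ 1 / 2}, ψ y := by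
        rw [lintegral_add_left (hψ.const_mul _), lintegral_const_mul _ hψ,
          lintegral_const_mul _ (hψ.indicator hFm), lintegral_indicator hFm]
    _ ≤ ENNReal.ofReal (1 / 2) * 1 + ENNReal.ofReal (1 / 6) *
          ENNReal.ofReal (if p ≤ 1 / 4 ∨ 3 / 4 ≤ p then 1 / 2 else 1 / 4) := by
        rw [h2]
        gcongr
    _ = ENNReal.ofReal (if p ≤ 1 / 4 ∨ 3 / 4 ≤ p then 7 / 12 else 13 / 24) := by
        rw [mul_one, ← ENNReal.ofReal_mul (by norm_num), ← ENNReal.ofReal_add (by norm_num)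
          (by split_ifs <;> norm_num)]
        congr 1
        split_ifs <;> norm_num

lemma B_bound (hφ : Measurable φ) (hψ : Measurable ψ) (h1 : ∫⁻ t, φ t = 1)
    (h2 : ∫⁻ t, ψ t = 1) :
    ∫⁻ s, ∫⁻ x, sk φ ψ x (s - x) * (φ x * ψ (s - x)) ≤ ENNReal.ofReal (9 / 16) := by
  have hfin1 : ∫⁻ t, φ t ≠ ∞ := by rw [h1]; exact ENNReal.one_ne_top
  have hfin2 : ∫⁻ t, ψ t ≠ ∞ := by rw [h2]; exact ENNReal.one_ne_top
  have hle : ∀ x, cd φ x ≤ 1 := by
    intro y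
    have := cd_le_total hfin1 y
    rwa [h1, ENNReal.toReal_one] at this
  have hmeas : Measurable (fun p : ℝ × ℝ =>
      sk φ ψ p.2 (p.1 - p.2) * (φ p.2 * ψ (p.1 - p.2))) := by
    have h3 : Measurable fun p : ℝ × ℝ => (p.2, p.1 - p.2) :=
      measurable_snd.prodMk (measurable_fst.sub measurable_snd)
    exact ((measurable_sk hfin1 hfin2).comp h3).mul
      ((hφ.comp measurable_snd).mul (hψ.comp (measurable_fst.sub measurable_snd)))
  have hswap : ∫⁻ s, ∫⁻ x, sk φ ψ x (s - x) * (φ x * ψ (s - x)) =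
      ∫⁻ x, ∫⁻ s, sk φ ψ x (s - x) * (φ x * ψ (s - x)) :=
    lintegral_lintegral_swap hmeas.aemeasurable
  rw [hswap]
  have hinner : ∀ x, ∫⁻ s, sk φ ψ x (s - x) * (φ x * ψ (s - x)) =
      φ x * ∫⁻ y, sk φ ψ x y * ψ y := by
    intro x
    have hm : Measurable fun y => sk φ ψ x y * ψ y :=
      ((measurable_sk hfin1 hfin2).comp (measurable_const.prodMk measurable_id)).mul hψ
    rw [← lintegral_const_mul _ hm]
    have := lintegral_sub_right_eq_self (μ := volume)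
      (fun y => φ x * (sk φ ψ x y * ψ y)) x
    rw [← this]
    congr 1
    ext s
    ring
  simp_rw [hinner]
  set T : Set ℝ := {x | cd φ x ≤ 1 / 4 ∨ 3 / 4 ≤ cd φ x} with hT
  have hTm : MeasurableSet T := by
    have hc := measurable_cd hfin1
    exact (measurableSet_le hc measurable_const).union (measurableSet_le measurable_const hc)
  have hpt : ∀ x, φ x * ∫⁻ y, sk φ ψ x y * ψ y ≤
      ENNReal.ofReal (13 / 24) * φ x + ENNReal.ofReal (1 / 24) * T.indicator φ x := by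
    intro x
    have hib := inner_bound hfin1 hψ hle h2 x
    by_cases hx : x ∈ T
    · have hx' : cd φ x ≤ 1 / 4 ∨ 3 / 4 ≤ cd φ x := hx
      rw [if_pos hx'] at hib
      rw [indicator_of_mem hx, ← add_mul, ← ENNReal.ofReal_add (by norm_num) (by norm_num), mul_comm]
      norm_num at hib ⊢
      gcongr
    · have hx' : ¬ (cd φ x ≤ 1 / 4 ∨ 3 / 4 ≤ cd φ x) := hx
      rw [if_neg hx'] at hib
      rw [indicator_of_notMem hx, mul_zero, add_zero, mul_comm]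
      gcongr
  have hTb : ∫⁻ x in T, φ x ≤ ENNReal.ofReal (1 / 2) := by
    have hT' : T = {x | cd φ x ≤ 1 / 4} ∪ {x | 3 / 4 ≤ cd φ x} := rfl
    rw [hT']
    refine (lintegral_union_le _ _ _).trans ?_
    have ha := sublevel_real hφ hfin1 (by norm_num : (0 : ℝ) ≤ 1 / 4)
    have hb := superlevel_real hφ h1 (by norm_num : (0 : ℝ) ≤ 3 / 4) (by norm_num)
    calc _ ≤ ENNReal.ofReal (1 / 4) + ENNReal.ofReal (1 - 3 / 4) := add_le_add ha hb
      _ = ENNReal.ofReal (1 / 2) := by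
        rw [← ENNReal.ofReal_add (by norm_num) (by norm_num)]
        norm_num
  calc ∫⁻ x, φ x * ∫⁻ y, sk φ ψ x y * ψ y
      ≤ ∫⁻ x, (ENNReal.ofReal (13 / 24) * φ x + ENNReal.ofReal (1 / 24) * T.indicator φ x) :=
        lintegral_mono hpt
    _ = ENNReal.ofReal (13 / 24) * (∫⁻ x, φ x) + ENNReal.ofReal (1 / 24) * ∫⁻ x in T, φ x := by
        rw [lintegral_add_left (hφ.const_mul _), lintegral_const_mul _ hφ,
          lintegral_const_mul _ (hφ.indicator hTm), lintegral_indicator hTm]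
    _ ≤ ENNReal.ofReal (13 / 24) * 1 + ENNReal.ofReal (1 / 24) * ENNReal.ofReal (1 / 2) := by
        rw [h1]
        gcongr
    _ = ENNReal.ofReal (9 / 16) := by
        rw [mul_one, ← ENNReal.ofReal_mul (by norm_num), ← ENNReal.ofReal_add (by norm_num)
          (by norm_num)]
        norm_num

/-- The normalised one dimensional estimate. -/
theorem core_normalized (hφ : Measurable φ) (hψ : Measurable ψ) (h1 : ∫⁻ t, φ t = 1)
    (h2 : ∫⁻ t, ψ t = 1) :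
    ∫⁻ s, (∫⁻ x, (φ x * ψ (s - x)) ^ (3 / 4 : ℝ)) ^ 2 ≤ ENNReal.ofReal (63 / 64) := by
  have hfin1 : ∫⁻ t, φ t ≠ ∞ := by rw [h1]; exact ENNReal.one_ne_top
  have hfin2 : ∫⁻ t, ψ t ≠ ∞ := by rw [h2]; exact ENNReal.one_ne_top
  have hpt : ∀ s, (∫⁻ x, (φ x * ψ (s - x)) ^ (3 / 4 : ℝ)) ^ 2 ≤
      ENNReal.ofReal (7 / 4) * ∫⁻ x, sk φ ψ x (s - x) * (φ x * ψ (s - x)) := by
    intro s
    have hmpsi : Measurable fun x => ψ (s - x) := hψ.comp (measurable_const.sub measurable_id)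
    have hw : Measurable fun x => φ x * ψ (s - x) := hφ.mul hmpsi
    have hc : Measurable fun x => sc φ ψ x (s - x) := measurable_sc_sub hfin1 hfin2 s
    have hk : Measurable fun x => sk φ ψ x (s - x) := measurable_sk_sub hfin1 hfin2 s
    have hcs := cs_weighted hw hc hk (fun x => sc_mul_sk (φ := φ) (ψ := ψ) x (s - x))
    refine hcs.trans ?_
    gcongr
    exact J_bound hφ hψ h1 h2 s
  have hm : Measurable (fun s : ℝ => ∫⁻ x, sk φ ψ x (s - x) * (φ x * ψ (s - x))) := by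
    have hmeas : Measurable (fun p : ℝ × ℝ =>
        sk φ ψ p.2 (p.1 - p.2) * (φ p.2 * ψ (p.1 - p.2))) := by
      have h3 : Measurable fun p : ℝ × ℝ => (p.2, p.1 - p.2) :=
        measurable_snd.prodMk (measurable_fst.sub measurable_snd)
      exact ((measurable_sk hfin1 hfin2).comp h3).mul
        ((hφ.comp measurable_snd).mul (hψ.comp (measurable_fst.sub measurable_snd)))
    exact hmeas.lintegral_prod_right'
  calc ∫⁻ s, (∫⁻ x, (φ x * ψ (s - x)) ^ (3 / 4 : ℝ)) ^ 2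
      ≤ ∫⁻ s, ENNReal.ofReal (7 / 4) * ∫⁻ x, sk φ ψ x (s - x) * (φ x * ψ (s - x)) :=
        lintegral_mono hpt
    _ = ENNReal.ofReal (7 / 4) * ∫⁻ s, ∫⁻ x, sk φ ψ x (s - x) * (φ x * ψ (s - x)) :=
        lintegral_const_mul _ hm
    _ ≤ ENNReal.ofReal (7 / 4) * ENNReal.ofReal (9 / 16) := by
        gcongr
        exact B_bound hφ hψ h1 h2
    _ = ENNReal.ofReal (63 / 64) := by
        rw [← ENNReal.ofReal_mul (by norm_num)]
        norm_num

lemma ofReal_63_64 : ENNReal.ofReal (63 / 64) = (63 / 64 : ℝ≥0∞) := by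
  rw [ENNReal.ofReal_div_of_pos (by norm_num)]
  norm_num

/-- Scaling: the one dimensional estimate without normalisation. -/
theorem core_general (hφ : Measurable φ) (hψ : Measurable ψ) :
    ∫⁻ s, (∫⁻ x, (φ x * ψ (s - x)) ^ (3 / 4 : ℝ)) ^ 2 ≤
      (63 / 64 : ℝ≥0∞) * ((∫⁻ t, φ t) ^ (3 / 2 : ℝ) * (∫⁻ t, ψ t) ^ (3 / 2 : ℝ)) := by
  set A := ∫⁻ t, φ t with hA
  set B := ∫⁻ t, ψ t with hB
  by_cases hA0 : A = 0
  · have hz : φ =ᵐ[volume] 0 := (lintegral_eq_zero_iff hφ).1 hA0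
    have hs : ∀ s, ∫⁻ x, (φ x * ψ (s - x)) ^ (3 / 4 : ℝ) = 0 := by
      intro s
      rw [lintegral_eq_zero_iff' ?_]
      · filter_upwards [hz] with x hx
        simp [hx]
      · exact ((hφ.mul (hψ.comp (measurable_const.sub measurable_id))).pow_const _).aemeasurable
    simp [hs]
  by_cases hB0 : B = 0
  · have hs : ∀ s, ∫⁻ x, (φ x * ψ (s - x)) ^ (3 / 4 : ℝ) = 0 := by
      intro s
      have hm : Measurable fun x => ψ (s - x) := hψ.comp (measurable_const.sub measurable_id)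
      have hz0 : ∫⁻ x, ψ (s - x) = 0 := by
        rw [lintegral_sub_left_eq_self (fun u => ψ u) s]
        exact hB0
      have hz : (fun x => ψ (s - x)) =ᵐ[volume] 0 := (lintegral_eq_zero_iff hm).1 hz0
      rw [lintegral_eq_zero_iff' ?_]
      · filter_upwards [hz] with x hx
        have hx' : ψ (s - x) = 0 := hx
        simp [hx']
      · exact ((hφ.mul hm).pow_const _).aemeasurable
    simp [hs]
  by_cases hAt : A = ∞
  · have hB3 : B ^ (3 / 2 : ℝ) ≠ 0 := by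
      rw [Ne, ENNReal.rpow_eq_zero_iff]
      rintro (⟨h, _⟩ | ⟨_, h⟩)
      · exact hB0 h
      · norm_num at h
    rw [hAt, ENNReal.top_rpow_of_pos (by norm_num), ENNReal.top_mul hB3,
      ENNReal.mul_top (by norm_num)]
    exact le_top
  by_cases hBt : B = ∞
  · have hA3 : A ^ (3 / 2 : ℝ) ≠ 0 := by
      rw [Ne, ENNReal.rpow_eq_zero_iff]
      rintro (⟨h, _⟩ | ⟨_, h⟩)
      · exact hA0 h
      · norm_num at h
    rw [hBt, ENNReal.top_rpow_of_pos (by norm_num), ENNReal.mul_top hA3,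
      ENNReal.mul_top (by norm_num)]
    exact le_top
  -- normalise
  set φ' : ℝ → ℝ≥0∞ := fun t => A⁻¹ * φ t with hφ'
  set ψ' : ℝ → ℝ≥0∞ := fun t => B⁻¹ * ψ t with hψ'
  have hφ'm : Measurable φ' := hφ.const_mul _
  have hψ'm : Measurable ψ' := hψ.const_mul _
  have h1 : ∫⁻ t, φ' t = 1 := by
    rw [hφ', lintegral_const_mul _ hφ, ← hA]
    exact ENNReal.inv_mul_cancel hA0 hAt
  have h2 : ∫⁻ t, ψ' t = 1 := by
    rw [hψ', lintegral_const_mul _ hψ, ← hB]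
    exact ENNReal.inv_mul_cancel hB0 hBt
  have hcore := core_normalized hφ'm hψ'm h1 h2
  rw [ofReal_63_64] at hcore
  have hφeq : ∀ t, φ t = A * φ' t := by
    intro t
    rw [hφ', ← mul_assoc, ENNReal.mul_inv_cancel hA0 hAt, one_mul]
  have hψeq : ∀ t, ψ t = B * ψ' t := by
    intro t
    rw [hψ', ← mul_assoc, ENNReal.mul_inv_cancel hB0 hBt, one_mul]
  set K : ℝ≥0∞ := (A * B) ^ (3 / 4 : ℝ) with hK
  have hKne : K ≠ ∞ := by
    apply ENNReal.rpow_ne_top_of_nonneg (by norm_num)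
    exact ENNReal.mul_ne_top hAt hBt
  have hpt : ∀ s, ∫⁻ x, (φ x * ψ (s - x)) ^ (3 / 4 : ℝ) =
      K * ∫⁻ x, (φ' x * ψ' (s - x)) ^ (3 / 4 : ℝ) := by
    intro s
    have hm : Measurable fun x => (φ' x * ψ' (s - x)) ^ (3 / 4 : ℝ) :=
      (hφ'm.mul (hψ'm.comp (measurable_const.sub measurable_id))).pow_const _
    rw [← lintegral_const_mul _ hm]
    congr 1
    ext x
    rw [hφeq x, hψeq (s - x), hK, ← ENNReal.mul_rpow_of_nonneg _ _ (by norm_num)]
    congr 1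
    ring
  simp_rw [hpt, mul_pow]
  have hm2 : Measurable fun s => (∫⁻ x, (φ' x * ψ' (s - x)) ^ (3 / 4 : ℝ)) ^ 2 := by
    have hmeas : Measurable (fun p : ℝ × ℝ => (φ' p.2 * ψ' (p.1 - p.2)) ^ (3 / 4 : ℝ)) :=
      ((hφ'm.comp measurable_snd).mul (hψ'm.comp (measurable_fst.sub measurable_snd))).pow_const _
    exact hmeas.lintegral_prod_right'.pow_const _
  rw [lintegral_const_mul _ hm2]
  have hK2 : K ^ 2 = A ^ (3 / 2 : ℝ) * B ^ (3 / 2 : ℝ) := by
    rw [hK, ← ENNReal.rpow_natCast, ← ENNReal.rpow_mul, ENNReal.mul_rpow_of_nonneg _ _ (by norm_num)]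
    norm_num
  rw [hK2, mul_comm]
  gcongr

end core

section oneD

/-- one dimensional convolution -/
noncomputable def conv (f g : ℝ → ℝ≥0∞) (s : ℝ) : ℝ≥0∞ := ∫⁻ x, f x * g (s - x)

lemma measurable_conv {f g : ℝ → ℝ≥0∞} (hf : Measurable f) (hg : Measurable g) :
    Measurable (conv f g) := by
  have hmeas : Measurable (fun p : ℝ × ℝ => f p.2 * g (p.1 - p.2)) :=
    (hf.comp measurable_snd).mul (hg.comp (measurable_fst.sub measurable_snd))
  exact hmeas.lintegral_prod_right'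

lemma rpow_four_thirds_three_quarters (a : ℝ≥0∞) : (a ^ (4 / 3 : ℝ)) ^ (3 / 4 : ℝ) = a := by
  rw [← ENNReal.rpow_mul]; norm_num

lemma rpow_three_quarters_four_thirds (a : ℝ≥0∞) : (a ^ (3 / 4 : ℝ)) ^ (4 / 3 : ℝ) = a := by
  rw [← ENNReal.rpow_mul]; norm_num

/-- `L^2` bound for the convolution of `L^{4/3}` functions. -/
lemma conv_sq_le {f g : ℝ → ℝ≥0∞} (hf : Measurable f) (hg : Measurable g) :
    ∫⁻ s, conv f g s ^ (2 : ℝ) ≤
      (63 / 64 : ℝ≥0∞) * ((∫⁻ t, f t ^ (4 / 3 : ℝ)) ^ (3 / 2 : ℝ) *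
        (∫⁻ t, g t ^ (4 / 3 : ℝ)) ^ (3 / 2 : ℝ)) := by
  have h := core_general (φ := fun t => f t ^ (4 / 3 : ℝ)) (ψ := fun t => g t ^ (4 / 3 : ℝ))
    (hf.pow_const _) (hg.pow_const _)
  have hpt : ∀ s, conv f g s ^ (2 : ℝ) =
      (∫⁻ x, (f x ^ (4 / 3 : ℝ) * g (s - x) ^ (4 / 3 : ℝ)) ^ (3 / 4 : ℝ)) ^ 2 := by
    intro s
    unfold conv
    rw [← ENNReal.rpow_natCast]
    norm_num
    congr 2
    ext x
    rw [ENNReal.mul_rpow_of_nonneg _ _ (by norm_num), rpow_four_thirds_three_quarters,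
      rpow_four_thirds_three_quarters]
  simp_rw [hpt]
  exact h

/-- four-linear form, one dimension -/
theorem T_one {f₁ f₂ f₃ f₄ : ℝ → ℝ≥0∞} (h₁ : Measurable f₁) (h₂ : Measurable f₂)
    (h₃ : Measurable f₃) (h₄ : Measurable f₄) :
    ∫⁻ x, ∫⁻ y, ∫⁻ z, f₁ x * f₂ y * f₃ z * f₄ (x + y - z) ≤
      (63 / 64 : ℝ≥0∞) *
        ((∫⁻ x, f₁ x ^ (4 / 3 : ℝ)) ^ (3 / 4 : ℝ) * (∫⁻ x, f₂ x ^ (4 / 3 : ℝ)) ^ (3 / 4 : ℝ) *
          (∫⁻ x, f₃ x ^ (4 / 3 : ℝ)) ^ (3 / 4 : ℝ) * (∫⁻ x, f₄ x ^ (4 / 3 : ℝ)) ^ (3 / 4 : ℝ)) := by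
  set C := conv f₃ f₄ with hC
  have hCm : Measurable C := measurable_conv h₃ h₄
  -- reduce to a single integral
  have step1 : ∀ x y, ∫⁻ z, f₁ x * f₂ y * f₃ z * f₄ (x + y - z) = f₁ x * f₂ y * C (x + y) := by
    intro x y
    have hm : Measurable fun z => f₃ z * f₄ (x + y - z) :=
      h₃.mul (h₄.comp (measurable_const.sub measurable_id))
    simp_rw [mul_assoc (f₁ x * f₂ y)]
    rw [lintegral_const_mul _ hm]
    rfl
  simp_rw [step1]
  have step2 : ∀ x, ∫⁻ y, f₁ x * f₂ y * C (x + y) = ∫⁻ s, f₁ x * f₂ (s - x) * C s := by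
    intro x
    have := lintegral_sub_right_eq_self (μ := volume) (fun y => f₁ x * f₂ y * C (x + y)) x
    rw [← this]
    congr 1
    ext s
    congr 2
    ring
  simp_rw [step2]
  have hmeas : Measurable (fun p : ℝ × ℝ => f₁ p.1 * f₂ (p.2 - p.1) * C p.2) :=
    ((h₁.comp measurable_fst).mul (h₂.comp (measurable_snd.sub measurable_fst))).mul
      (hCm.comp measurable_snd)
  have step3 : ∫⁻ x, ∫⁻ s, f₁ x * f₂ (s - x) * C s = ∫⁻ s, conv f₁ f₂ s * C s := by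
    rw [lintegral_lintegral_swap hmeas.aemeasurable]
    congr 1
    ext s
    have hm : Measurable fun x => f₁ x * f₂ (s - x) :=
      h₁.mul (h₂.comp (measurable_const.sub measurable_id))
    rw [lintegral_mul_const _ hm]
    rfl
  rw [step3]
  have hcs := ENNReal.lintegral_mul_le_Lp_mul_Lq volume Real.HolderConjugate.two_two
    (measurable_conv h₁ h₂).aemeasurable hCm.aemeasurable
  refine hcs.trans ?_
  have e12 := conv_sq_le h₁ h₂
  have e34 := conv_sq_le h₃ h₄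
  set A1 := ∫⁻ x, f₁ x ^ (4 / 3 : ℝ)
  set A2 := ∫⁻ x, f₂ x ^ (4 / 3 : ℝ)
  set A3 := ∫⁻ x, f₃ x ^ (4 / 3 : ℝ)
  set A4 := ∫⁻ x, f₄ x ^ (4 / 3 : ℝ)
  have hsq : ∀ a : ℝ≥0∞, (a ^ (3 / 2 : ℝ)) ^ (1 / 2 : ℝ) = a ^ (3 / 4 : ℝ) := by
    intro a
    rw [← ENNReal.rpow_mul]; norm_num
  have hhalf : ((63 / 64 : ℝ≥0∞) ^ (1 / 2 : ℝ)) * ((63 / 64 : ℝ≥0∞) ^ (1 / 2 : ℝ)) = 63 / 64 := by
    rw [← ENNReal.rpow_add_of_nonneg _ _ (by norm_num) (by norm_num)]
    norm_num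
  calc (∫⁻ s, conv f₁ f₂ s ^ (2 : ℝ)) ^ (1 / 2 : ℝ) * (∫⁻ s, C s ^ (2 : ℝ)) ^ (1 / 2 : ℝ)
      ≤ ((63 / 64 : ℝ≥0∞) * (A1 ^ (3 / 2 : ℝ) * A2 ^ (3 / 2 : ℝ))) ^ (1 / 2 : ℝ) *
        ((63 / 64 : ℝ≥0∞) * (A3 ^ (3 / 2 : ℝ) * A4 ^ (3 / 2 : ℝ))) ^ (1 / 2 : ℝ) := by
        gcongr
    _ = (63 / 64 : ℝ≥0∞) * (A1 ^ (3 / 4 : ℝ) * A2 ^ (3 / 4 : ℝ) * A3 ^ (3 / 4 : ℝ) *
          A4 ^ (3 / 4 : ℝ)) := by
        simp only [ENNReal.mul_rpow_of_nonneg _ _ (by norm_num : (0 : ℝ) ≤ 1 / 2), hsq]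
        calc _ = (((63 / 64 : ℝ≥0∞) ^ (1 / 2 : ℝ)) * ((63 / 64 : ℝ≥0∞) ^ (1 / 2 : ℝ))) *
              (A1 ^ (3 / 4 : ℝ) * A2 ^ (3 / 4 : ℝ) * A3 ^ (3 / 4 : ℝ) * A4 ^ (3 / 4 : ℝ)) := by ring
          _ = _ := by rw [hhalf]

end oneD

section tensor

variable {d : ℕ}

/-- glue the first coordinate -/
noncomputable def cons' (a : ℝ) (x : Fin d → ℝ) : Fin (d + 1) → ℝ :=
  (MeasurableEquiv.piFinSuccAbove (fun _ : Fin (d + 1) => ℝ) 0).symm (a, x)

@[fun_prop]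
lemma measurable_cons' {α : Type*} [MeasurableSpace α] {f : α → ℝ} {g : α → Fin d → ℝ}
    (hf : Measurable f) (hg : Measurable g) : Measurable fun p => cons' (f p) (g p) :=
  (MeasurableEquiv.piFinSuccAbove (fun _ : Fin (d + 1) => ℝ) 0).symm.measurable.comp (hf.prodMk hg)

lemma cons'_add_sub (a b c : ℝ) (x y z : Fin d → ℝ) :
    cons' a x + cons' b y - cons' c z = cons' (a + b - c) (x + y - z) := by
  ext i
  refine Fin.cases ?_ (fun j => ?_) i
  · simp [cons', MeasurableEquiv.piFinSuccAbove]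
  · simp [cons', MeasurableEquiv.piFinSuccAbove]

lemma lintegral_succ (g : (Fin (d + 1) → ℝ) → ℝ≥0∞) (hg : Measurable g) :
    ∫⁻ x, g x = ∫⁻ a, ∫⁻ x', g (cons' a x') := by
  have mp := (volume_preserving_piFinSuccAbove (fun _ : Fin (d + 1) => ℝ) 0).symm
  rw [← mp.lintegral_comp hg, Measure.volume_eq_prod, lintegral_prod]
  · rfl
  · exact (hg.comp (MeasurableEquiv.measurable _)).aemeasurable

/-- The form on `Fin (d + 1) → ℝ` as iterated integrals. -/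
lemma form_succ (f₁ f₂ f₃ f₄ : (Fin (d + 1) → ℝ) → ℝ≥0∞)
    (h₁ : Measurable f₁) (h₂ : Measurable f₂) (h₃ : Measurable f₃) (h₄ : Measurable f₄) :
    ∫⁻ x, ∫⁻ y, ∫⁻ z, f₁ x * f₂ y * f₃ z * f₄ (x + y - z) =
    ∫⁻ a, ∫⁻ x', ∫⁻ b, ∫⁻ y', ∫⁻ c, ∫⁻ z', f₁ (cons' a x') * f₂ (cons' b y') * f₃ (cons' c z') *
      f₄ (cons' (a + b - c) (x' + y' - z')) := by
  have hA : ∀ x y, ∫⁻ z, f₁ x * f₂ y * f₃ z * f₄ (x + y - z) =
      ∫⁻ c, ∫⁻ z', f₁ x * f₂ y * f₃ (cons' c z') * f₄ (x + y - cons' c z') := by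
    intro x y
    apply lintegral_succ (fun z => f₁ x * f₂ y * f₃ z * f₄ (x + y - z))
    fun_prop
  simp_rw [hA]
  have hB : ∀ x, ∫⁻ y, ∫⁻ c, ∫⁻ z', f₁ x * f₂ y * f₃ (cons' c z') * f₄ (x + y - cons' c z') =
      ∫⁻ b, ∫⁻ y', ∫⁻ c, ∫⁻ z', f₁ x * f₂ (cons' b y') * f₃ (cons' c z') *
        f₄ (x + cons' b y' - cons' c z') := by
    intro x
    apply lintegral_succ
      (fun y => ∫⁻ c, ∫⁻ z', f₁ x * f₂ y * f₃ (cons' c z') * f₄ (x + y - cons' c z'))
    have h0 : Measurable fun q : ((Fin (d + 1) → ℝ) × ℝ) × (Fin d → ℝ) =>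
        f₁ x * f₂ q.1.1 * f₃ (cons' q.1.2 q.2) * f₄ (x + q.1.1 - cons' q.1.2 q.2) := by fun_prop
    exact h0.lintegral_prod_right'.lintegral_prod_right'
  simp_rw [hB]
  have hC := lintegral_succ
    (fun x => ∫⁻ b, ∫⁻ y', ∫⁻ c, ∫⁻ z', f₁ x * f₂ (cons' b y') * f₃ (cons' c z') *
        f₄ (x + cons' b y' - cons' c z')) (by
      have h0 : Measurable fun q : ((((Fin (d + 1) → ℝ) × ℝ) × (Fin d → ℝ)) × ℝ) × (Fin d → ℝ) =>
          f₁ q.1.1.1.1 * f₂ (cons' q.1.1.1.2 q.1.1.2) * f₃ (cons' q.1.2 q.2) *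
            f₄ (q.1.1.1.1 + cons' q.1.1.1.2 q.1.1.2 - cons' q.1.2 q.2) := by fun_prop
      exact h0.lintegral_prod_right'.lintegral_prod_right'.lintegral_prod_right'.lintegral_prod_right')
  rw [hC]
  simp_rw [cons'_add_sub]

/-- Reordering the iterated integrals. -/
lemma form_reorder (f₁ f₂ f₃ f₄ : (Fin (d + 1) → ℝ) → ℝ≥0∞)
    (h₁ : Measurable f₁) (h₂ : Measurable f₂) (h₃ : Measurable f₃) (h₄ : Measurable f₄) (a : ℝ) :
    ∫⁻ x', ∫⁻ b, ∫⁻ y', ∫⁻ c, ∫⁻ z', f₁ (cons' a x') * f₂ (cons' b y') * f₃ (cons' c z') *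
      f₄ (cons' (a + b - c) (x' + y' - z')) =
    ∫⁻ b, ∫⁻ c, ∫⁻ x', ∫⁻ y', ∫⁻ z', f₁ (cons' a x') * f₂ (cons' b y') * f₃ (cons' c z') *
      f₄ (cons' (a + b - c) (x' + y' - z')) := by
  -- swap `x'` and `b`
  have h1 : Measurable fun q : ((((Fin d → ℝ) × ℝ) × (Fin d → ℝ)) × ℝ) × (Fin d → ℝ) =>
      f₁ (cons' a q.1.1.1.1) * f₂ (cons' q.1.1.1.2 q.1.1.2) * f₃ (cons' q.1.2 q.2) *
        f₄ (cons' (a + q.1.1.1.2 - q.1.2) (q.1.1.1.1 + q.1.1.2 - q.2)) := by fun_prop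
  have s1 := lintegral_lintegral_swap (μ := (volume : Measure (Fin d → ℝ))) (ν := (volume : Measure ℝ))
    (f := fun x' b => ∫⁻ y', ∫⁻ c, ∫⁻ z', f₁ (cons' a x') * f₂ (cons' b y') * f₃ (cons' c z') *
      f₄ (cons' (a + b - c) (x' + y' - z')))
    (h1.lintegral_prod_right'.lintegral_prod_right'.lintegral_prod_right').aemeasurable
  rw [s1]
  congr 1
  ext b
  -- swap `y'` and `c` for fixed `x'`
  have s2 : ∀ x', ∫⁻ y', ∫⁻ c, ∫⁻ z', f₁ (cons' a x') * f₂ (cons' b y') * f₃ (cons' c z') *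
      f₄ (cons' (a + b - c) (x' + y' - z')) =
      ∫⁻ c, ∫⁻ y', ∫⁻ z', f₁ (cons' a x') * f₂ (cons' b y') * f₃ (cons' c z') *
      f₄ (cons' (a + b - c) (x' + y' - z')) := by
    intro x'
    have h2 : Measurable fun q : ((Fin d → ℝ) × ℝ) × (Fin d → ℝ) =>
        f₁ (cons' a x') * f₂ (cons' b q.1.1) * f₃ (cons' q.1.2 q.2) *
          f₄ (cons' (a + b - q.1.2) (x' + q.1.1 - q.2)) := by fun_prop
    exact lintegral_lintegral_swap h2.lintegral_prod_right'.aemeasurable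
  simp_rw [s2]
  -- swap `x'` and `c`
  have h3 : Measurable fun q : (((Fin d → ℝ) × ℝ) × (Fin d → ℝ)) × (Fin d → ℝ) =>
      f₁ (cons' a q.1.1.1) * f₂ (cons' b q.1.2) * f₃ (cons' q.1.1.2 q.2) *
        f₄ (cons' (a + b - q.1.1.2) (q.1.1.1 + q.1.2 - q.2)) := by fun_prop
  exact lintegral_lintegral_swap h3.lintegral_prod_right'.lintegral_prod_right'.aemeasurable

/-- slice norm -/
noncomputable def sliceN (f : (Fin (d + 1) → ℝ) → ℝ≥0∞) (t : ℝ) : ℝ≥0∞ :=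
  (∫⁻ x', f (cons' t x') ^ (4 / 3 : ℝ)) ^ (3 / 4 : ℝ)

lemma measurable_sliceN {f : (Fin (d + 1) → ℝ) → ℝ≥0∞} (hf : Measurable f) :
    Measurable (sliceN f) := by
  have h0 : Measurable fun q : ℝ × (Fin d → ℝ) => f (cons' q.1 q.2) ^ (4 / 3 : ℝ) := by fun_prop
  exact h0.lintegral_prod_right'.pow_const _

lemma lintegral_sliceN {f : (Fin (d + 1) → ℝ) → ℝ≥0∞} (hf : Measurable f) :
    ∫⁻ t, sliceN f t ^ (4 / 3 : ℝ) = ∫⁻ x, f x ^ (4 / 3 : ℝ) := by
  rw [lintegral_succ (fun x => f x ^ (4 / 3 : ℝ)) (hf.pow_const _)]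
  congr 1
  ext t
  unfold sliceN
  rw [rpow_three_quarters_four_thirds]

/-- The four-linear estimate on `ℝ^d`. -/
theorem T_all (d : ℕ) (f₁ f₂ f₃ f₄ : (Fin d → ℝ) → ℝ≥0∞)
    (h₁ : Measurable f₁) (h₂ : Measurable f₂) (h₃ : Measurable f₃) (h₄ : Measurable f₄) :
    ∫⁻ x, ∫⁻ y, ∫⁻ z, f₁ x * f₂ y * f₃ z * f₄ (x + y - z) ≤
      (63 / 64 : ℝ≥0∞) ^ d *
        ((∫⁻ x, f₁ x ^ (4 / 3 : ℝ)) ^ (3 / 4 : ℝ) * (∫⁻ x, f₂ x ^ (4 / 3 : ℝ)) ^ (3 / 4 : ℝ) *
          (∫⁻ x, f₃ x ^ (4 / 3 : ℝ)) ^ (3 / 4 : ℝ) * (∫⁻ x, f₄ x ^ (4 / 3 : ℝ)) ^ (3 / 4 : ℝ)) := by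
  induction d with
  | zero =>
    have hv : (volume : Measure (Fin 0 → ℝ)) univ = 1 := by
      simp [volume_pi]
    have hI : ∀ g : (Fin 0 → ℝ) → ℝ≥0∞, ∫⁻ x, g x = g default := by
      intro g
      rw [lintegral_unique, hv, mul_one]
      exact congrArg g (Subsingleton.elim _ _)
    simp only [hI, pow_zero, one_mul, rpow_four_thirds_three_quarters]
    have : (default + default - default : Fin 0 → ℝ) = default := Subsingleton.elim _ _
    rw [this]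
  | succ d ih =>
    rw [form_succ f₁ f₂ f₃ f₄ h₁ h₂ h₃ h₄]
    simp_rw [form_reorder f₁ f₂ f₃ f₄ h₁ h₂ h₃ h₄]
    set K : ℝ≥0∞ := (63 / 64 : ℝ≥0∞) ^ d with hK
    have hKne : K ≠ ∞ := by
      apply ENNReal.pow_ne_top
      exact ENNReal.div_ne_top (by norm_num) (by norm_num)
    have hW : ∀ a b c, ∫⁻ x', ∫⁻ y', ∫⁻ z', f₁ (cons' a x') * f₂ (cons' b y') * f₃ (cons' c z') *
        f₄ (cons' (a + b - c) (x' + y' - z')) ≤
        K * (sliceN f₁ a * sliceN f₂ b * sliceN f₃ c * sliceN f₄ (a + b - c)) := by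
      intro a b c
      exact ih (fun x' => f₁ (cons' a x')) (fun x' => f₂ (cons' b x')) (fun x' => f₃ (cons' c x'))
        (fun x' => f₄ (cons' (a + b - c) x'))
        (by fun_prop) (by fun_prop) (by fun_prop) (by fun_prop)
    have hone := T_one (measurable_sliceN h₁) (measurable_sliceN h₂) (measurable_sliceN h₃)
      (measurable_sliceN h₄)
    rw [lintegral_sliceN h₁, lintegral_sliceN h₂, lintegral_sliceN h₃, lintegral_sliceN h₄] at hone
    calc ∫⁻ a, ∫⁻ b, ∫⁻ c, ∫⁻ x', ∫⁻ y', ∫⁻ z', f₁ (cons' a x') * f₂ (cons' b y') *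
          f₃ (cons' c z') * f₄ (cons' (a + b - c) (x' + y' - z'))
        ≤ ∫⁻ a, ∫⁻ b, ∫⁻ c, K * (sliceN f₁ a * sliceN f₂ b * sliceN f₃ c * sliceN f₄ (a + b - c)) :=
          lintegral_mono fun a => lintegral_mono fun b => lintegral_mono fun c => hW a b c
      _ = K * ∫⁻ a, ∫⁻ b, ∫⁻ c, sliceN f₁ a * sliceN f₂ b * sliceN f₃ c * sliceN f₄ (a + b - c) := by
          simp_rw [lintegral_const_mul' _ _ hKne]
      _ ≤ K * ((63 / 64 : ℝ≥0∞) * _) := by
          gcongr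
      _ = _ := by
          rw [pow_succ, ← hK]
          ring

end tensor

end Vale.Agent.Lib.P230.EnergyAux

namespace Vale.Agent.Lib.P230

/-- MODULE energy: four-linear Young on `ℝ^d` with constant `63/64` per coordinate. -/
theorem T_bound (d : ℕ) (f₁ f₂ f₃ f₄ : (Fin d → ℝ) → ℝ≥0∞)
    (h₁ : Measurable f₁) (h₂ : Measurable f₂) (h₃ : Measurable f₃) (h₄ : Measurable f₄) :
    ∫⁻ x, ∫⁻ y, ∫⁻ z, f₁ x * f₂ y * f₃ z * f₄ (x + y - z) ≤
      (63 / 64 : ℝ≥0∞) ^ d *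
        ((∫⁻ x, f₁ x ^ (4 / 3 : ℝ)) ^ (3 / 4 : ℝ) * (∫⁻ x, f₂ x ^ (4 / 3 : ℝ)) ^ (3 / 4 : ℝ) *
          (∫⁻ x, f₃ x ^ (4 / 3 : ℝ)) ^ (3 / 4 : ℝ) * (∫⁻ x, f₄ x ^ (4 / 3 : ℝ)) ^ (3 / 4 : ℝ)) :=
  EnergyAux.T_all d f₁ f₂ f₃ f₄ h₁ h₂ h₃ h₄

end Vale.Agent.Lib.P230
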