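import Mathlib

/-! MODULE E3: the kernel of a surjective hom to a finite group is generated by a matrix. -/

set_option autoImplicit false

open Module

namespace Vale.Agent.Lib.P230

/-- MODULE E3: the kernel of a surjective hom to a finite group is generated by a matrix. -/
theorem matrix_of_hom {ι G : Type} [Fintype ι] [DecidableEq ι] [AddCommGroup G] [Fintype G]
    (Φ : (ι → ℤ) →+ G) (hΦ : Function.Surjective Φ) :
    ∃ B : Matrix ι ι ℤ, (∀ m : ι → ℤ, Φ m = 0 ↔ ∃ k : ι → ℤ, m = B.mulVec k) ∧
      |B.det| = (Fintype.card G : ℤ) := by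
  classical
  -- the kernel, as a subgroup of the free module
  let K : AddSubgroup (ι → ℤ) := Φ.ker
  let N : Submodule ℤ (ι → ℤ) := K.toIntSubmodule
  have hN : ∀ m : ι → ℤ, m ∈ N ↔ Φ m = 0 := fun m => by
    change m ∈ Φ.ker ↔ _
    exact AddMonoidHom.mem_ker
  -- the kernel has full rank: multiplication by the order of `G` maps into it
  have hrank : finrank ℤ N = Fintype.card ι := by
    apply le_antisymm
    · have := Submodule.finrank_le N
      simpa using this
    · have hc : 0 < Fintype.card G := Fintype.card_pos
      let f : (ι → ℤ) →ₗ[ℤ] N :=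
        LinearMap.codRestrict N ((Fintype.card G : ℤ) • LinearMap.id) (fun m => by
          rw [hN]
          simp only [LinearMap.smul_apply, LinearMap.id_apply, natCast_zsmul]
          rw [map_nsmul]
          exact card_nsmul_eq_zero)
      have hf : Function.Injective f := by
        intro a b hab
        have h1 : ((Fintype.card G : ℤ) • a) = ((Fintype.card G : ℤ) • b) := by
          have := congrArg (fun x : N => (x : ι → ℤ)) hab
          simpa [f] using this
        have hc' : (Fintype.card G : ℤ) ≠ 0 := by exact_mod_cast hc.ne'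
        exact smul_right_injective _ hc' h1
      have := LinearMap.finrank_le_finrank_of_injective hf
      simpa using this
  -- a basis of the kernel indexed by `ι`
  let bN : Basis ι ℤ N := (Module.finBasisOfFinrankEq ℤ N hrank).reindex (Fintype.equivFin ι).symm
  let B : Matrix ι ι ℤ := Matrix.of (fun i j => (bN j : ι → ℤ) i)
  have hmul : ∀ k : ι → ℤ, B.mulVec k = ((∑ j, k j • bN j : N) : ι → ℤ) := by
    intro k
    ext i
    simp [Matrix.mulVec, dotProduct, B, mul_comm]
  refine ⟨B, fun m => ?_, ?_⟩
  · constructor
    · intro hm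
      have hmN : m ∈ N := (hN m).2 hm
      refine ⟨fun j => bN.repr ⟨m, hmN⟩ j, ?_⟩
      rw [hmul]
      have := bN.sum_repr ⟨m, hmN⟩
      rw [this]
    · rintro ⟨k, rfl⟩
      rw [hmul, ← hN]
      exact Subtype.property _
  · -- the determinant is the index of the kernel
    have hidx : K.index = Fintype.card G := by
      have h1 : K.index = Nat.card Φ.range := AddSubgroup.index_ker Φ
      rw [h1, AddMonoidHom.range_eq_top.2 hΦ]
      simp
    have hdet : (Pi.basisFun ℤ ι).det (fun i => (bN i : ι → ℤ)) = B.det := by
      rw [Basis.det_apply]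
      congr 1
    have hkey : K.index = ((Pi.basisFun ℤ ι).det (fun i => (bN i : ι → ℤ))).natAbs :=
      AddSubgroup.index_eq_natAbs_det (Pi.basisFun ℤ ι) K bN
    rw [← hidx, hkey, hdet]
    simp

end Vale.Agent.Lib.P230
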