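import Vale.Agent.Lib.P230.Assembly1
import Vale.Agent.Lib.P230.ConvexGood
import Vale.Agent.Lib.P230.Energy
import Vale.Agent.Lib.P230.Erosion
import Vale.Agent.Lib.P230.MatrixOfHom

/-!
# P230: assembly, choice of the scale and the abstract covering step.
-/

set_option autoImplicit false
set_option linter.unusedSectionVars false
set_option linter.unusedSimpArgs false
set_option linter.unusedVariables false

open MeasureTheory Finset
open scoped ENNReal Matrix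

namespace Vale.Agent.Lib.P230

variable {d t : ℕ}

/-- Choice of the scale `R` and of the prime `P`. -/
theorem select_R (hd : 2 ≤ d) {U : Type} [Finite U] (B' : U → Set (Fin d → ℝ)) (V₁ : ℝ) (hV₁ : 0 < V₁)
    (hc : ∀ u, Convex ℝ (B' u)) (hK : ∀ u, IsCompact (B' u))
    (hv : ∀ u, (volume (B' u)).toReal = V₁)
    (C₁ C₀ : Set (Fin d → ℝ)) (hC₁c : Convex ℝ C₁) (hC₁K : IsCompact C₁)
    (hC₀c : Convex ℝ C₀) (hC₀K : IsCompact C₀) (v₁ v₀ : ℝ) (hv₁ : 0 < v₁) (hv₀ : 0 < v₀)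
    (hvol1 : (volume C₁).toReal = v₁) (hvol0 : (volume C₀).toReal = v₀)
    (e : ℕ) (r : ℝ) (hr : 0 < r) (W₀fun : ℝ → ℕ) :
    ∃ (θ : ℝ) (R W Q P : ℕ), 0 < θ ∧ 0 < R ∧ P.Prime ∧ W₀fun θ ≤ W ∧ Q ≤ W ∧ W ≤ Q ^ 4 ∧
      (∀ u, Good (lat (B' u) R) ((R : ℝ) ^ d * V₁) W Q (99 / 100) θ) ∧
      2 ^ (e + 1) * (P : ℝ) ≤ (R : ℝ) ^ d * V₁ ∧ (R : ℝ) ^ d * V₁ ≤ 2 ^ (e + 2) * (P : ℝ) ∧
      (1 / 2) * v₁ * (R : ℝ) ^ d ≤ ((lat C₁ R).card : ℝ) ∧
      ((lat C₀ R).card : ℝ) ≤ 2 * v₀ * (R : ℝ) ^ d ∧ 1 / (R : ℝ) ≤ r ∧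
      (∀ y ∈ lat C₀ R, y ≠ 0 → ∃ i, ¬ (P : ℤ) ∣ y i) := by
  obtain ⟨θ, W, Q, hθ, hWt, hQW, hgood⟩ := convex_good_of_T (fun d f₁ f₂ f₃ f₄ h₁ h₂ h₃ h₄ =>
    T_bound d f₁ f₂ f₃ f₄ h₁ h₂ h₃ h₄) (by omega : 0 < d) B' V₁ hV₁ hc hK hv
  have ht1 := lat_card_tendsto C₁ hC₁c hC₁K
  have ht0 := lat_card_tendsto C₀ hC₀c hC₀K
  rw [hvol1] at ht1
  rw [hvol0] at ht0
  have e1 : ∀ᶠ R : ℕ in Filter.atTop, (1 / 2) * v₁ < ((lat C₁ R).card : ℝ) / (R : ℝ) ^ d :=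
    ht1.eventually (lt_mem_nhds (by linarith))
  have e0' : ∀ᶠ R : ℕ in Filter.atTop, ((lat C₀ R).card : ℝ) / (R : ℝ) ^ d < 2 * v₀ :=
    ht0.eventually (gt_mem_nhds (by linarith))
  have e2 : ∀ᶠ R : ℕ in Filter.atTop, W₀fun θ ≤ W R := hWt.eventually_ge_atTop _
  -- boundedness of `C₀`
  obtain ⟨D, hD⟩ : ∃ D : ℕ, ∀ x ∈ C₀, ∀ i, |x i| ≤ D := by
    obtain ⟨C, hC⟩ := hC₀K.isBounded.subset_closedBall (0 : Fin d → ℝ)
    obtain ⟨D, hD⟩ := exists_nat_ge C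
    refine ⟨D, fun x hx i => ?_⟩
    have h1 := hC hx
    rw [mem_closedBall_zero_iff] at h1
    have h2 := norm_le_pi_norm x i
    rw [Real.norm_eq_abs] at h2
    linarith
  have hlim : Filter.Tendsto (fun R : ℕ => (R : ℝ)) Filter.atTop Filter.atTop :=
    tendsto_natCast_atTop_atTop
  have e3 : ∀ᶠ R : ℕ in Filter.atTop, ((D : ℝ) + 1) * 2 ^ (e + 2) / V₁ + 1 / r + 1 ≤ (R : ℝ) :=
    hlim.eventually_ge_atTop _
  obtain ⟨R, hg, h1, h0, h2, h3⟩ := (hgood.and (e1.and (e0'.and (e2.and e3)))).exists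
  have h1r : 0 < 1 / r := by positivity
  have h4 : 0 < ((D : ℝ) + 1) * 2 ^ (e + 2) / V₁ := by positivity
  have hRge1 : (1 : ℝ) ≤ R := by linarith
  have hR0 : (0 : ℝ) < R := by linarith
  have hRpos : 0 < R := by exact_mod_cast hR0
  have hRd : (0 : ℝ) < (R : ℝ) ^ d := by positivity
  set M : ℝ := (R : ℝ) ^ d * V₁ with hM
  have hM0 : 0 < M := by positivity
  have hRD : ((D : ℝ) + 1) * 2 ^ (e + 2) / V₁ ≤ R := by linarith
  have hRD' : ((D : ℝ) + 1) * 2 ^ (e + 2) ≤ R * V₁ := by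
    rwa [div_le_iff₀ hV₁] at hRD
  have hRleM : (R : ℝ) * V₁ * R ≤ M := by
    rw [hM]
    have : (R : ℝ) * R ≤ (R : ℝ) ^ d := by
      calc (R : ℝ) * R = (R : ℝ) ^ 2 := by ring
        _ ≤ (R : ℝ) ^ d := pow_le_pow_right₀ hRge1 hd
    nlinarith
  have hMge : ((D : ℝ) + 1) * 2 ^ (e + 2) * R ≤ M := by
    have : ((D : ℝ) + 1) * 2 ^ (e + 2) * R ≤ R * V₁ * R := by
      apply mul_le_mul_of_nonneg_right hRD' hR0.le
    linarith
  have h2pos : (0 : ℝ) < 2 ^ (e + 2) := by positivity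
  have hquot : ((D : ℝ) + 1) * R ≤ M / 2 ^ (e + 2) := by
    rw [le_div_iff₀ h2pos]
    linarith
  -- the prime
  set n₀ : ℕ := ⌊M / 2 ^ (e + 2)⌋₊ with hn₀
  have hn₀1 : (n₀ : ℝ) ≤ M / 2 ^ (e + 2) := Nat.floor_le (by positivity)
  have hn₀2 : M / 2 ^ (e + 2) < n₀ + 1 := Nat.lt_floor_add_one _
  have hn₀ne : n₀ ≠ 0 := by
    have h5 : (1 : ℝ) ≤ M / 2 ^ (e + 2) := by
      have h6 : (0 : ℝ) ≤ D := by positivity
      nlinarith
    have := Nat.floor_pos.mpr h5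
    omega
  obtain ⟨P, hP, hP1, hP2⟩ := Nat.exists_prime_lt_and_le_two_mul n₀ hn₀ne
  have hP1' : (n₀ : ℝ) + 1 ≤ P := by exact_mod_cast hP1
  have hP2' : (P : ℝ) ≤ 2 * n₀ := by exact_mod_cast hP2
  have hPgt : M / 2 ^ (e + 2) < P := by linarith
  refine ⟨θ, R, W R, Q R, P, hθ, hRpos, hP, h2, (hQW R).1, (hQW R).2,
    hg, ?_, ?_, ?_, ?_, ?_, ?_⟩
  · have h6 : (P : ℝ) ≤ 2 * (M / 2 ^ (e + 2)) := by linarith
    have h7 : (2 : ℝ) ^ (e + 2) = 2 ^ (e + 1) * 2 := by ring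
    rw [h7] at h6
    have h8 : 2 * (M / (2 ^ (e + 1) * 2)) = M / 2 ^ (e + 1) := by
      field_simp
    rw [h8, le_div_iff₀ (by positivity)] at h6
    linarith
  · rw [div_lt_iff₀ h2pos] at hPgt
    linarith
  · have := h1.le
    rwa [le_div_iff₀ hRd] at this
  · have := h0.le
    rwa [div_le_iff₀ hRd] at this
  · rw [div_le_iff₀ hR0]
    have : 1 / r ≤ R := by linarith
    rw [div_le_iff₀ hr] at this
    linarith
  · intro y hy hy0
    have hymem := (mem_lat hC₀K.isBounded hRpos y).mp hy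
    obtain ⟨i, hi⟩ : ∃ i, y i ≠ 0 := by
      by_contra hcon
      push Not at hcon
      exact hy0 (funext hcon)
    refine ⟨i, fun hdvd => ?_⟩
    have hle := hD _ hymem i
    simp only [abs_div, Nat.abs_cast] at hle
    rw [div_le_iff₀ hR0] at hle
    have h6 : (P : ℤ) ≤ |y i| := by
      have := Int.le_of_dvd (abs_pos.mpr hi) ((dvd_abs _ _).mpr hdvd)
      exact this
    have h7 : (P : ℝ) ≤ |(y i : ℝ)| := by
      exact_mod_cast h6
    have h8 : ((D : ℝ) + 1) * R < P := lt_of_le_of_lt hquot hPgt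
    nlinarith

/-- a large subset of a finite abelian group generates -/
lemma surj_of_large {G X : Type} [AddCommGroup G] [Fintype G] [AddCommGroup X] (h : X →+ G)
    (A : Finset X) (ε : ℝ) (hε : ε < 1 / 2)
    [DecidablePred fun c : G => ∀ y ∈ A, h y ≠ c]
    (hvoid : ((univ.filter fun c : G => ∀ y ∈ A, h y ≠ c).card : ℝ) ≤ ε * Fintype.card G) :
    Function.Surjective h := by
  classical
  intro g
  set S : Finset G := A.image h with hS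
  have hG : (0 : ℝ) < Fintype.card G := by exact_mod_cast Fintype.card_pos
  have hcomp : (univ.filter fun c : G => ∀ y ∈ A, h y ≠ c) = univ \ S := by
    ext c
    simp [hS]
  rw [hcomp, Finset.card_sdiff_of_subset (Finset.subset_univ _), Finset.card_univ] at hvoid
  have hSle : S.card ≤ Fintype.card G := Finset.card_le_univ S
  rw [Nat.cast_sub hSle] at hvoid
  have hSbig : (Fintype.card G : ℝ) < 2 * S.card := by
    nlinarith
  set S' : Finset G := S.image fun x => g - x with hS'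
  have hcard : S'.card = S.card := Finset.card_image_of_injective _ (fun a b hab => by
    simpa using hab)
  have hnum : Fintype.card G < S.card + S'.card := by
    rw [hcard]
    have : (Fintype.card G : ℝ) < (S.card + S.card : ℕ) := by
      push_cast
      linarith
    exact_mod_cast this
  have hne : (S ∩ S').Nonempty := by
    apply Finset.inter_nonempty_of_card_lt_card_add_card (s := univ) (subset_univ _) (subset_univ _)
    rwa [Finset.card_univ]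
  obtain ⟨x, hx⟩ := hne
  rw [Finset.mem_inter] at hx
  obtain ⟨hx1, hx2⟩ := hx
  obtain ⟨a, ha, rfl⟩ := Finset.mem_image.mp hx1
  obtain ⟨z, hz, hzeq⟩ := Finset.mem_image.mp hx2
  obtain ⟨b, hb, rfl⟩ := Finset.mem_image.mp hz
  refine ⟨a + b, ?_⟩
  rw [map_add, ← hzeq]
  abel

/-- The abstract covering step: from a surjective hom with small voids to a lattice covering. -/
theorem abstract_cover {G : Type} [AddCommGroup G] [Fintype G]
    (K' : Set ((Fin d → ℝ) × (Fin t → ℝ))) (hK' : Convex ℝ K') (δ : ℝ) (hδ0 : 0 < δ) (hδ1 : δ ≤ 1 / 4)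
    (N : ℕ) (hN0 : 0 < N) (hN : 1 ≤ δ * N) (cy : Fin d → ℝ) (hc : (cy, (0 : Fin t → ℝ)) ∈ K')
    (hwin : ∀ x : Fin t → ℝ, (∀ i, |x i| ≤ 2) → ∃ y, (y, x) ∈ K')
    (C₁ : Set (Fin d → ℝ)) (hsym : ∀ a ∈ C₁, -a ∈ C₁)
    (hC : ∀ a ∈ C₁, ∀ a' ∈ C₁, (cy + δ⁻¹ • (a + a'), (0 : Fin t → ℝ)) ∈ K')
    (R : ℕ) (hR : 0 < R) (htiny : ∀ τ : Fin d → ℝ, (∀ i, 0 ≤ τ i ∧ τ i ≤ 1 / (R : ℝ)) → τ ∈ C₁)
    (h : (Fin d → ℤ) →+ G) (hsurj : Function.Surjective h) (A : (Fin t → ℤ) → Finset (Fin d → ℤ))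
    (hA : ∀ u : Fin t → ℤ, (∀ i, -(N : ℤ) ≤ u i ∧ u i < N) → ∀ a ∈ A u,
      ((1 - 2 * δ)⁻¹ • ((fun i => (a i : ℝ) / R) - (2 * δ) • cy),
        (1 - 2 * δ)⁻¹ • (fun i => (u i : ℝ) / N)) ∈ K')
    (Y₁ : Finset (Fin d → ℤ)) (hY₁ : ∀ m ∈ Y₁, (fun i => (m i : ℝ) / R) ∈ C₁)
    (hinj : Set.InjOn h Y₁) (ε : ℝ) (hε : 0 ≤ ε)
    (hvoid : ∀ u : Fin t → ℤ, (∀ i, -(N : ℤ) ≤ u i ∧ u i < N) →
      ∀ (inst : DecidablePred fun c : G => ∀ y ∈ A u, h y ≠ c),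
      ((univ.filter fun c : G => ∀ y ∈ A u, h y ≠ c).card : ℝ) ≤ ε * Fintype.card G)
    (hcount : ((2 * (N : ℝ)) ^ t) ^ (2 ^ t - 1) * ε ^ (2 ^ t) * Fintype.card G < Y₁.card) :
    ∃ B : Matrix (Fin d ⊕ Fin t) (Fin d ⊕ Fin t) ℤ, |B.det| = (Fintype.card G : ℤ) ∧
      ∀ x : (Fin d → ℝ) × (Fin t → ℝ), ∃ k : Fin d ⊕ Fin t → ℤ,
        (x.1 - (fun i => ((B.mulVec k (Sum.inl i) : ℤ) : ℝ) / R),
          x.2 - (fun i => ((B.mulVec k (Sum.inr i) : ℤ) : ℝ))) ∈ K' := by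
  classical
  obtain ⟨v, hv⟩ := layering (G := G) N hN0 (fun u => univ \ (A u).image h) ε hε (by
    intro u hu
    have h1 := hvoid u hu inferInstance
    have e1 : (univ \ (A u).image h) = (univ.filter fun c : G => ∀ y ∈ A u, h y ≠ c) := by
      ext c
      simp
    rw [e1]
    exact h1)
  have hcount' : ∀ u : Fin t → ℤ, (∀ i, 0 ≤ u i ∧ u i < (N : ℤ)) →
      (interU (N : ℤ) (fun u => univ \ (A u).image h) v u).card < Y₁.card := by
    intro u hu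
    have := (hv u hu).trans_lt hcount
    exact_mod_cast this
  have hcov := erosion_cover K' hK' δ hδ0 hδ1 N hN cy hc hwin C₁ hsym hC R hR htiny h v A hA Y₁ hY₁ hinj
    hcount'
  -- the homomorphism
  let Φ : (Fin d ⊕ Fin t → ℤ) →+ G :=
    { toFun := fun w => h (fun i => w (Sum.inl i)) - ∑ i, w (Sum.inr i) • v i
      map_zero' := by
        show h 0 - ∑ i, (0 : ℤ) • v i = 0
        simp
      map_add' := by
        intro x y
        show h ((fun i => x (Sum.inl i)) + (fun i => y (Sum.inl i))) -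
            ∑ i, (x (Sum.inr i) + y (Sum.inr i)) • v i = _
        simp only [map_add, add_smul, Finset.sum_add_distrib]
        abel }
  have hΦ : Function.Surjective Φ := by
    intro g
    obtain ⟨m, hm⟩ := hsurj g
    refine ⟨Sum.elim m 0, ?_⟩
    show h (fun i => Sum.elim m 0 (Sum.inl i)) - ∑ i, Sum.elim m (0 : Fin t → ℤ) (Sum.inr i) • v i = g
    simp [hm]
  obtain ⟨B, hB, hdet⟩ := matrix_of_hom Φ hΦ
  refine ⟨B, hdet, fun x => ?_⟩
  obtain ⟨m, z, hmz, hmem⟩ := hcov x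
  have hΦ0 : Φ (Sum.elim m z) = 0 := by
    show h (fun i => Sum.elim m z (Sum.inl i)) - ∑ i, Sum.elim m z (Sum.inr i) • v i = 0
    simp [hmz]
  obtain ⟨k, hk⟩ := (hB _).mp hΦ0
  refine ⟨k, ?_⟩
  rw [← hk]
  simpa using hmem

end Vale.Agent.Lib.P230
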