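import Vale.Agent.Lib.P230.Chain

/-!
# P230: the base hash theorem.
-/

set_option autoImplicit false
set_option linter.unusedSectionVars false
set_option linter.unusedSimpArgs false
set_option linter.unusedVariables false

open Finset
open scoped Matrix Classical

namespace Vale.Agent.Lib.P230

/-- level dependent half-independence -/
def mp (d e : ℕ) : ℕ := d / (1000 * max e (Eexp d))

/-- level dependent independence -/
def kk (d r : ℕ) : ℕ := 2 * mp d (efin d + r)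

/-- level deviation -/
noncomputable def dl (i : ℕ) : ℝ := 1 / (8 * ((i : ℝ) + 1) ^ 2)

/-- accumulated deviation -/
noncomputable def ff (r : ℕ) : ℝ := 4 * ∑ i ∈ Finset.Icc 1 r, dl i

/-- target sizes -/
noncomputable def nu (d r : ℕ) : ℝ := 2 ^ (efin d + r - 2) * (1 + ff r)

lemma sum_inv_sq (r : ℕ) :
    ∑ i ∈ Finset.Icc 1 r, 1 / (((i : ℝ) + 1) ^ 2) ≤ 1 - 1 / ((r : ℝ) + 1) := by
  induction r with
  | zero => simp
  | succ r ih =>
    rw [Finset.sum_Icc_succ_top (by omega)]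
    have h1 : (0 : ℝ) ≤ r := Nat.cast_nonneg r
    have h2 : 1 / ((((r + 1 : ℕ) : ℝ) + 1) ^ 2) ≤ 1 / ((r : ℝ) + 1) - 1 / (((r + 1 : ℕ) : ℝ) + 1) := by
      push_cast
      rw [div_sub_div _ _ (by positivity) (by positivity)]
      rw [div_le_div_iff₀ (by positivity) (by positivity)]
      nlinarith
    linarith

lemma ff_nonneg (r : ℕ) : 0 ≤ ff r := by
  unfold ff dl
  positivity

lemma ff_le (r : ℕ) : ff r ≤ 1 / 2 := by
  have h := sum_inv_sq r
  have h0 : (0 : ℝ) ≤ 1 / ((r : ℝ) + 1) := by positivity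
  unfold ff dl
  have : ∑ i ∈ Finset.Icc 1 r, 1 / (8 * ((i : ℝ) + 1) ^ 2) =
      (1 / 8) * ∑ i ∈ Finset.Icc 1 r, 1 / (((i : ℝ) + 1) ^ 2) := by
    rw [Finset.mul_sum]
    apply Finset.sum_congr rfl
    intro i _
    have : ((i : ℝ) + 1) ^ 2 ≠ 0 := by positivity
    field_simp
  rw [this]
  linarith

lemma ff_succ (r : ℕ) : ff (r + 1) = ff r + 4 * dl (r + 1) := by
  unfold ff
  rw [Finset.sum_Icc_succ_top (by omega)]
  ring

lemma dl_pos (i : ℕ) : 0 < dl i := by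
  unfold dl
  positivity

lemma dl_le (i : ℕ) (hi : 1 ≤ i) : dl i ≤ 1 / 32 := by
  unfold dl
  have h1 : (1 : ℝ) ≤ i := by exact_mod_cast hi
  rw [div_le_div_iff₀ (by positivity) (by norm_num)]
  nlinarith

lemma nu_rec (d r : ℕ) (hd : 2 ≤ efin d) : nu d r ≤ (1 / 2 - dl (r + 1)) * nu d (r + 1) := by
  unfold nu
  have e : efin d + (r + 1) - 2 = (efin d + r - 2) + 1 := by omega
  rw [e, pow_succ, ff_succ]
  have h1 := ff_le (r + 1)
  rw [ff_succ] at h1
  have h2 := dl_pos (r + 1)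
  have h3 := ff_nonneg r
  have h4 : (0 : ℝ) < 2 ^ (efin d + r - 2) := by positivity
  set a : ℝ := 2 ^ (efin d + r - 2)
  set f := ff r
  set δ := dl (r + 1)
  have : 0 ≤ 2 * δ * (1 - (f + 4 * δ)) := by
    apply mul_nonneg (by positivity)
    linarith
  nlinarith

lemma nu_lower (d r : ℕ) : (2 : ℝ) ^ (efin d + r - 2) ≤ nu d r := by
  unfold nu
  have h := ff_nonneg r
  have h4 : (0 : ℝ) < 2 ^ (efin d + r - 2) := by positivity
  nlinarith

lemma nu_upper (d r : ℕ) : nu d r ≤ 2 * 2 ^ (efin d + r - 2) := by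
  unfold nu
  have h := ff_le r
  have h4 : (0 : ℝ) < 2 ^ (efin d + r - 2) := by positivity
  nlinarith

lemma nu_pos (d r : ℕ) : 0 < nu d r := lt_of_lt_of_le (by positivity) (nu_lower d r)

lemma four_pow_le (i : ℕ) : (i + 1) ^ 4 ≤ 2 ^ (i + 11) := by
  induction i using Nat.strong_induction_on with
  | _ i ih =>
    by_cases h : i ≤ 6
    · interval_cases i <;> norm_num
    · obtain ⟨j, rfl⟩ : ∃ j, i = j + 1 := ⟨i - 1, by omega⟩
      have h1 := ih j (by omega)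
      have h2 : j + 1 + 1 ≤ 2 * (j + 1) := by omega
      have h3 : (j + 1 + 1) ^ 4 ≤ 2 * (j + 1) ^ 4 := by
        have hj : 6 ≤ j := by omega
        nlinarith [sq_nonneg (j + 1), mul_self_nonneg (j * j), Nat.zero_le j,
          mul_le_mul hj hj (Nat.zero_le _) (Nat.zero_le _),
          mul_le_mul (mul_le_mul hj hj (Nat.zero_le _) (Nat.zero_le _)) hj (Nat.zero_le _) (Nat.zero_le _),
          mul_le_mul (mul_le_mul (mul_le_mul hj hj (Nat.zero_le _) (Nat.zero_le _)) hj (Nat.zero_le _) (Nat.zero_le _)) hj (Nat.zero_le _) (Nat.zero_le _)]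
      calc (j + 1 + 1) ^ 4 ≤ 2 * (j + 1) ^ 4 := h3
        _ ≤ 2 * 2 ^ (j + 11) := by omega
        _ = 2 ^ (j + 1 + 11) := by ring

/-- Size assumptions on the dimension, valid for all large `d`. -/
structure BigD (d : ℕ) : Prop where
  c1 : 1 ≤ Nat.clog 2 d
  big : 2 ^ 11 ≤ d
  m1 : 96 ≤ mstar d
  efin2 : 2 ≤ efin d
  efinm : efin d ≤ mstar d
  em : 12000 * Nat.clog 2 d * mstar d ≤ d
  cd : 10 ^ 7 * Nat.clog 2 d ≤ d

lemma clog_small (K : ℕ) : ∃ d₀ : ℕ, ∀ d ≥ d₀, K * Nat.clog 2 d ≤ d := by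
  -- for `c = clog d ≥ 2`, `2 ^ (c - 1) < d`
  have h : ∃ c₀ : ℕ, ∀ c ≥ c₀, K * c ≤ 2 ^ (c - 1) := by
    refine ⟨2 * K + 10, fun c hc => ?_⟩
    obtain ⟨n, rfl⟩ : ∃ n, c = n + 1 := ⟨c - 1, by omega⟩
    simp only [Nat.add_sub_cancel]
    -- `2^n ≥ n^2/…`; use `n < 2^(n/2)`-free estimate
    have h1 : ∀ a b : ℕ, a * b ≤ 2 ^ (a + b) := by
      intro a b
      have ha : a < 2 ^ a := Nat.lt_two_pow_self
      have hb : b < 2 ^ b := Nat.lt_two_pow_self
      rw [pow_add]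
      exact Nat.mul_le_mul ha.le hb.le
    have h2 : K * (n + 1) ≤ (2 * K) * n := by
      have : 1 ≤ n := by omega
      nlinarith
    have h3 : (2 * K) * n ≤ n * n := by
      apply Nat.mul_le_mul_right
      omega
    have h4 : n * n ≤ 2 ^ n := by
      -- from `n ≥ 10`
      have hn : 4 ≤ n := by omega
      clear * - hn
      induction n, hn using Nat.le_induction with
      | base => norm_num
      | succ n hn ih =>
        rw [pow_succ]
        nlinarith
    omega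
  obtain ⟨c₀, hc₀⟩ := h
  refine ⟨K * c₀ + 3, fun d hd => ?_⟩
  by_cases hc : c₀ ≤ Nat.clog 2 d
  · have h1 := hc₀ _ hc
    have hc2 : 2 ≤ d := by omega
    have h2 : 2 ^ (Nat.clog 2 d - 1) < d := by
      have := Nat.pow_pred_clog_lt_self (b := 2) (by norm_num) (x := d) (by omega)
      simpa using this
    omega
  · have h1 : K * Nat.clog 2 d ≤ K * c₀ := Nat.mul_le_mul_left _ (by omega)
    omega

lemma bigD_eventually : ∃ d₀ : ℕ, ∀ d ≥ d₀, BigD d := by
  obtain ⟨d₁, h₁⟩ := clog_small (10 ^ 9)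
  refine ⟨max d₁ (2 ^ 11), fun d hd => ?_⟩
  have hd1 : d₁ ≤ d := le_trans (le_max_left _ _) hd
  have hd2 : 2 ^ 11 ≤ d := le_trans (le_max_right _ _) hd
  have hc := h₁ d hd1
  have hc1 : 1 ≤ Nat.clog 2 d := by
    apply Nat.clog_pos (by norm_num)
    omega
  have hm : 96 ≤ mstar d := by
    unfold mstar Eexp
    rw [Nat.le_div_iff_mul_le (by positivity)]
    nlinarith
  have hef : efin d ≤ mstar d := by
    unfold efin
    apply Nat.clog_le_of_le_pow
    obtain ⟨n, hn⟩ : ∃ n, mstar d = n + 25 := ⟨mstar d - 25, by omega⟩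
    rw [hn]
    have h1 : n < 2 ^ n := Nat.lt_two_pow_self
    have e : 2 ^ (n + 25) = 2 ^ 19 * (2 ^ 6 * 2 ^ n) := by ring
    rw [e]
    apply Nat.mul_le_mul_left
    nlinarith
  have hef2 : 2 ≤ efin d := by
    unfold efin
    have h1 : 2 ^ 1 < 2 ^ 19 * mstar d := by
      have : 1 ≤ mstar d := by omega
      nlinarith
    by_contra hcon
    have h2 : Nat.clog 2 (2 ^ 19 * mstar d) ≤ 1 := by omega
    have h3 := Nat.le_pow_clog (b := 2) (by norm_num) (2 ^ 19 * mstar d)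
    have h4 : 2 ^ Nat.clog 2 (2 ^ 19 * mstar d) ≤ 2 ^ 1 := Nat.pow_le_pow_right (by norm_num) h2
    omega
  have hem : 12000 * Nat.clog 2 d * mstar d ≤ d := by
    have := Nat.div_mul_le_self d (1000 * Eexp d)
    unfold mstar
    unfold Eexp at this ⊢
    nlinarith
  exact ⟨hc1, hd2, hm, hef2, hef, hem, by nlinarith⟩

lemma BigD.em1 {d : ℕ} (h : BigD d) : 12000 * mstar d ≤ d := by
  have h1 := h.em
  have h3 := h.c1
  have h4 : 12000 * 1 * mstar d ≤ 12000 * Nat.clog 2 d * mstar d := by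
    apply Nat.mul_le_mul_right
    apply Nat.mul_le_mul_left
    exact h3
  omega

lemma mp_le {d : ℕ} (h : BigD d) (e : ℕ) : mp d e ≤ mstar d := by
  unfold mp mstar
  apply Nat.div_le_div_left
  · exact Nat.mul_le_mul_left _ (le_max_right _ _)
  · unfold Eexp
    have := h.c1
    positivity

lemma e3_mp {d : ℕ} (h : BigD d) (e : ℕ) : (e + 3) * (2 * mp d e) ≤ d / 250 := by
  unfold mp
  set X := max e (Eexp d) with hX
  have hE : 12 ≤ Eexp d := by
    unfold Eexp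
    have := h.c1
    omega
  have hX1 : e ≤ X := le_max_left _ _
  have hX2 : Eexp d ≤ X := le_max_right _ _
  have h1 : (d / (1000 * X)) * (1000 * X) ≤ d := Nat.div_mul_le_self _ _
  rw [Nat.le_div_iff_mul_le (by norm_num)]
  set y := d / (1000 * X)
  have h2 : e + 3 ≤ 2 * X := by omega
  calc (e + 3) * (2 * y) * 250 ≤ (2 * X) * (2 * y) * 250 := by
        apply Nat.mul_le_mul_right
        apply Nat.mul_le_mul_right
        exact h2
    _ = y * (1000 * X) := by ring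
    _ ≤ d := h1

lemma mp_pos {d : ℕ} (h : BigD d) (e : ℕ) (he : e ≤ 2 * mstar d) : 1 ≤ mp d e := by
  unfold mp
  apply Nat.div_pos
  · have h1 := h.em
    have h2 := h.m1
    have h3 := h.c1
    have h4 : 12000 * Nat.clog 2 d * 96 ≤ 12000 * Nat.clog 2 d * mstar d :=
      Nat.mul_le_mul_left _ h2
    rcases le_total e (Eexp d) with h5 | h5
    · rw [max_eq_right h5]
      unfold Eexp
      nlinarith
    · rw [max_eq_left h5]
      have h6 : 12000 * 1 * mstar d ≤ 12000 * Nat.clog 2 d * mstar d := by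
        apply Nat.mul_le_mul_right
        apply Nat.mul_le_mul_left
        exact h3
      nlinarith
  · have := h.c1
    unfold Eexp
    have h7 : 0 < max e (12 * Nat.clog 2 d) := lt_of_lt_of_le (by omega) (le_max_right _ _)
    positivity

lemma hstep_main {d : ℕ} (h : BigD d) (r : ℕ) (hr : r < mstar d) (A : Finset (Fin d → ℤ))
    (hν : nu d (r + 1) ≤ A.card) (hNS : NoShort (lift 2 d) A (kk d (r + 1))) :
    ((univ.filter fun x : Fin (d + 1) → ZMod 2 =>
      (((Hx (lift 2 d) x A).card : ℝ) < nu d r)).card : ℝ) ≤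
      (1 / 2) ^ (mstar d / 2) * 2 ^ (d + 1) := by
  set i := r + 1 with hi
  set e := efin d + i with he
  set m := mstar d with hm
  have hefin := h.efinm
  have hefin2 := h.efin2
  have hi1 : 1 ≤ i := by omega
  have him : i ≤ m := by omega
  have he2m : e ≤ 2 * m := by omega
  set m' := mp d e with hm'
  have hm'1 : 1 ≤ m' := mp_pos h e he2m
  have hmle : m' ≤ m := mp_le h e
  have hApos : (0 : ℝ) < A.card := lt_of_lt_of_le (nu_pos d _) hν
  have hA : A.Nonempty := by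
    rw [← Finset.card_pos]
    exact_mod_cast hApos
  have hδ := dl_pos i
  have hδ2 := dl_le i hi1
  have hmom := moment_tail (lift 2 d) A m' hm'1 hNS (dl i) hδ hA
  have hsub : (univ.filter fun x : Fin (d + 1) → ZMod 2 =>
      (((Hx (lift 2 d) x A).card : ℝ) < nu d r)) ⊆
      (univ.filter fun x : Fin (d + 1) → ZMod 2 =>
      (((Hx (lift 2 d) x A).card : ℝ) < (1 / 2 - dl i) * A.card)) := by
    intro x hx
    simp only [mem_filter, mem_univ, true_and] at hx ⊢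
    have h1 := nu_rec d r hefin2
    have h2 : (1 / 2 - dl i) * nu d (r + 1) ≤ (1 / 2 - dl i) * A.card :=
      mul_le_mul_of_nonneg_left hν (by linarith)
    linarith
  have hle : ((univ.filter fun x : Fin (d + 1) → ZMod 2 =>
      (((Hx (lift 2 d) x A).card : ℝ) < nu d r)).card : ℝ) ≤
      ((univ.filter fun x : Fin (d + 1) → ZMod 2 =>
      (((Hx (lift 2 d) x A).card : ℝ) < (1 / 2 - dl i) * A.card)).card : ℝ) := by
    exact_mod_cast Finset.card_le_card hsub
  refine le_trans hle (le_trans hmom ?_)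
  rw [mul_comm]
  apply mul_le_mul_of_nonneg_right _ (by positivity)
  -- the main estimate
  set Z : ℝ := (m' : ℝ) / (2 * dl i ^ 2 * A.card) with hZ
  have hZ0 : 0 ≤ Z := by positivity
  have hi0 : (0 : ℝ) < (i : ℝ) + 1 := by positivity
  have hepos : 2 ≤ e := by omega
  set Y : ℝ := 128 * (m' : ℝ) * ((i : ℝ) + 1) ^ 4 / 2 ^ e with hY
  have hZY : Z ≤ Y := by
    have h1 : (2 : ℝ) ^ (e - 2) ≤ A.card := by
      have h2 := nu_lower d (r + 1)
      have h3 : efin d + (r + 1) - 2 = e - 2 := by omega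
      rw [h3] at h2
      linarith
    have h2 : (2 : ℝ) ^ e = 4 * 2 ^ (e - 2) := by
      have : e = (e - 2) + 2 := by omega
      conv_lhs => rw [this, pow_add]
      ring
    rw [hZ, hY, dl]
    rw [div_le_div_iff₀ (by positivity) (by positivity)]
    have h3 : (1 / (8 * ((i : ℝ) + 1) ^ 2)) ^ 2 * ((i : ℝ) + 1) ^ 4 = 1 / 64 := by
      field_simp
      ring
    have h4 : (m' : ℝ) * 2 ^ e ≤ (m' : ℝ) * (4 * A.card) := by
      apply mul_le_mul_of_nonneg_left _ (by positivity)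
      rw [h2]
      linarith
    calc (m' : ℝ) * 2 ^ e ≤ (m' : ℝ) * (4 * A.card) := h4
      _ = 128 * (m' : ℝ) * ((1 / (8 * ((i : ℝ) + 1) ^ 2)) ^ 2 * ((i : ℝ) + 1) ^ 4) * (2 * A.card) := by
          rw [h3]
          ring
      _ = _ := by ring
  have hY0 : 0 ≤ Y := by positivity
  have hfin : Y ^ m' ≤ (1 / 2) ^ (m / 2) := by
    by_cases hE : e < Eexp d
    · -- low levels
      have hmm : m' = m := by
        rw [hm', hm]
        unfold mp mstar
        rw [max_eq_right hE.le]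
      have hmpos : (0 : ℝ) < m := by
        have := h.m1
        have : 0 < m := by omega
        exact_mod_cast this
      have h1 : (2 : ℝ) ^ 19 * m * 2 ^ i ≤ 2 ^ e := by
        have h2 : 2 ^ 19 * m ≤ 2 ^ efin d := Nat.le_pow_clog (by norm_num) _
        have h3 : (2 : ℝ) ^ 19 * m ≤ 2 ^ efin d := by exact_mod_cast h2
        have h4 : (2 : ℝ) ^ e = 2 ^ efin d * 2 ^ i := by rw [he, pow_add]
        rw [h4]
        exact mul_le_mul_of_nonneg_right h3 (by positivity)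
      have h2 : ((i : ℝ) + 1) ^ 4 ≤ 2 ^ (i + 11) := by
        exact_mod_cast four_pow_le i
      have hY2 : Y ≤ 1 / 2 := by
        rw [hY, hmm]
        rw [div_le_iff₀ (by positivity)]
        calc 128 * (m : ℝ) * ((i : ℝ) + 1) ^ 4 ≤ 128 * (m : ℝ) * 2 ^ (i + 11) :=
              mul_le_mul_of_nonneg_left h2 (by positivity)
          _ = 1 / 2 * (2 ^ 19 * m * 2 ^ i) := by
              rw [pow_add]
              ring
          _ ≤ 1 / 2 * 2 ^ e := mul_le_mul_of_nonneg_left h1 (by norm_num)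
      calc Y ^ m' ≤ (1 / 2) ^ m' := pow_le_pow_left₀ hY0 hY2 _
        _ = (1 / 2) ^ m := by rw [hmm]
        _ ≤ (1 / 2) ^ (m / 2) := pow_le_pow_of_le_one (by norm_num) (by norm_num) (Nat.div_le_self _ _)
    · -- high levels
      push Not at hE
      have hmax : max e (Eexp d) = e := max_eq_left hE
      have hd : (2 : ℝ) ^ 11 ≤ d := by exact_mod_cast h.big
      have hdpos : (0 : ℝ) < d := by linarith [show (0:ℝ) < 2 ^ 11 by norm_num]
      have h1 : (m' : ℝ) ≤ d := by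
        have : m' ≤ d := by
          rw [hm']
          unfold mp
          exact Nat.div_le_self _ _
        exact_mod_cast this
      have him2 : i + 1 ≤ 2 * d := by
        have h2 : 12000 * m ≤ d := BigD.em1 h
        omega
      have h2 : ((i : ℝ) + 1) ≤ 2 * d := by exact_mod_cast him2
      have h3 : (2 : ℝ) ^ (e / 2) * (d : ℝ) ^ 6 ≤ 2 ^ e := by
        have h4 : e / 2 + (e - e / 2) = e := by omega
        have h5 : 6 * Nat.clog 2 d ≤ e - e / 2 := by
          unfold Eexp at hE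
          omega
        have h6 : (d : ℝ) ≤ 2 ^ Nat.clog 2 d := by
          exact_mod_cast Nat.le_pow_clog (by norm_num) d
        have h7 : (d : ℝ) ^ 6 ≤ 2 ^ (e - e / 2) := by
          calc (d : ℝ) ^ 6 ≤ (2 ^ Nat.clog 2 d) ^ 6 := pow_le_pow_left₀ hdpos.le h6 _
            _ = 2 ^ (6 * Nat.clog 2 d) := by
                rw [← pow_mul, mul_comm]
            _ ≤ _ := pow_le_pow_right₀ (by norm_num) h5
        calc (2 : ℝ) ^ (e / 2) * (d : ℝ) ^ 6 ≤ 2 ^ (e / 2) * 2 ^ (e - e / 2) :=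
              mul_le_mul_of_nonneg_left h7 (by positivity)
          _ = 2 ^ e := by rw [← pow_add, h4]
      have hY2 : Y ≤ (1 / 2) ^ (e / 2) := by
        rw [hY, one_div, inv_pow, ← one_div]
        rw [div_le_div_iff₀ (by positivity) (by positivity)]
        have h4 : ((i : ℝ) + 1) ^ 4 ≤ (2 * d) ^ 4 := pow_le_pow_left₀ hi0.le h2 _
        calc 128 * (m' : ℝ) * ((i : ℝ) + 1) ^ 4 * 2 ^ (e / 2)
            ≤ 128 * (d : ℝ) * (2 * d) ^ 4 * 2 ^ (e / 2) := by
              apply mul_le_mul_of_nonneg_right _ (by positivity)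
              apply mul_le_mul _ h4 (by positivity) (by positivity)
              exact mul_le_mul_of_nonneg_left h1 (by norm_num)
          _ = 2 ^ 11 * ((d : ℝ) ^ 5 * 2 ^ (e / 2)) := by ring
          _ ≤ d * ((d : ℝ) ^ 5 * 2 ^ (e / 2)) := mul_le_mul_of_nonneg_right hd (by positivity)
          _ = 2 ^ (e / 2) * (d : ℝ) ^ 6 := by ring
          _ ≤ 2 ^ e := h3
          _ = 1 * 2 ^ e := by ring
      have hexp : m / 2 ≤ (e / 2) * m' := by
        have h4 : d < 1000 * e * (m' + 1) := by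
          have := Nat.div_add_mod d (1000 * e)
          have h5 : d % (1000 * e) < 1000 * e := Nat.mod_lt _ (by omega)
          have h6 : m' = d / (1000 * e) := by
            rw [hm']
            unfold mp
            rw [hmax]
          rw [h6]
          nlinarith
        have h5 : 1000 * e * (m' + 1) ≤ 2000 * e * m' := by nlinarith
        have h8 : 12000 * m ≤ d := BigD.em1 h
        have h9 : e ≤ 4 * (e / 2) := by omega
        have h10 : e * m' ≤ 4 * (e / 2) * m' := Nat.mul_le_mul_right _ h9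
        have h11 : m ≤ (e / 2) * m' := by nlinarith
        exact le_trans (Nat.div_le_self _ _) h11
      calc Y ^ m' ≤ ((1 / 2) ^ (e / 2)) ^ m' := pow_le_pow_left₀ hY0 hY2 _
        _ = (1 / 2) ^ ((e / 2) * m') := by rw [pow_mul]
        _ ≤ (1 / 2) ^ (m / 2) := pow_le_pow_of_le_one (by norm_num) (by norm_num) hexp
  exact le_trans (pow_le_pow_left₀ hZ0 hZY _) hfin

lemma two_pow_half (a b : ℕ) : (2 : ℝ) ^ a * (1 / 2) ^ (a + b) = (1 / 2) ^ b := by
  rw [pow_add, ← mul_assoc, ← mul_pow]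
  norm_num

/-- Size of the error term `X_j`. -/
lemma X_bound {d : ℕ} (h : BigD d) (M P : ℝ) (hP : 0 < P) (hMP : M ≤ 2 ^ (e0 d + 2) * P) (j : ℕ)
    (hj : j ≤ 2 * mstar d) :
    (2 * M / P) / 2 ^ d + 2 ^ j * (99 / 100 : ℝ) ^ d + 3 ^ (2 * j + 3) / 3 ^ d + 1 / 2 ^ d ≤
      2 ^ (2 * mstar d + 2) * (1 / 2) ^ (d / 70) := by
  have hem := BigD.em1 h
  have hm := h.m1
  have hef := h.efinm
  have hq : (d / 70) * 70 ≤ d := Nat.div_mul_le_self _ _
  have he0 : e0 d + 3 ≤ d := by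
    unfold e0
    omega
  have hq1 : d / 70 ≤ d - (e0 d + 3) := by
    unfold e0
    omega
  have hq2 : d / 70 ≤ d - (2 * j + 3) := by omega
  have hq3 : 2 * j + 3 ≤ d := by omega
  set B : ℝ := (1 / 2) ^ (d / 70) with hB
  have hB0 : 0 < B := by positivity
  have ha : (2 * M / P) / 2 ^ d ≤ B := by
    have h1 : 2 * M / P ≤ 2 ^ (e0 d + 3) := by
      rw [div_le_iff₀ hP, pow_succ]
      have e : (2 : ℝ) ^ (e0 d + 2) * 2 * P = 2 * (2 ^ (e0 d + 2) * P) := by ring
      rw [e]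
      linarith
    have h2 : (2 : ℝ) ^ d = 2 ^ (e0 d + 3) * 2 ^ (d - (e0 d + 3)) := by
      rw [← pow_add, Nat.add_sub_cancel' he0]
    calc (2 * M / P) / 2 ^ d ≤ 2 ^ (e0 d + 3) / 2 ^ d :=
          div_le_div_of_nonneg_right h1 (by positivity)
      _ = (1 / 2) ^ (d - (e0 d + 3)) := by
          rw [h2, one_div, inv_pow]
          have : (2 : ℝ) ^ (e0 d + 3) ≠ 0 := by positivity
          field_simp
      _ ≤ B := pow_le_pow_of_le_one (by norm_num) (by norm_num) hq1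
  have hb : 2 ^ j * (99 / 100 : ℝ) ^ d ≤ 2 ^ (2 * mstar d) * B := by
    apply mul_le_mul (pow_le_pow_right₀ (by norm_num) hj) _ (by positivity) (by positivity)
    calc (99 / 100 : ℝ) ^ d ≤ (99 / 100 : ℝ) ^ (70 * (d / 70)) :=
          pow_le_pow_of_le_one (by norm_num) (by norm_num) (by omega)
      _ = ((99 / 100 : ℝ) ^ 70) ^ (d / 70) := by rw [pow_mul]
      _ ≤ B := pow_le_pow_left₀ (by norm_num) (by norm_num) _
  have hc : (3 : ℝ) ^ (2 * j + 3) / 3 ^ d ≤ B := by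
    have h2 : (3 : ℝ) ^ d = 3 ^ (2 * j + 3) * 3 ^ (d - (2 * j + 3)) := by
      rw [← pow_add, Nat.add_sub_cancel' hq3]
    calc (3 : ℝ) ^ (2 * j + 3) / 3 ^ d = (1 / 3) ^ (d - (2 * j + 3)) := by
          rw [h2, one_div, inv_pow]
          have : (3 : ℝ) ^ (2 * j + 3) ≠ 0 := by positivity
          field_simp
      _ ≤ (1 / 2) ^ (d - (2 * j + 3)) := pow_le_pow_left₀ (by norm_num) (by norm_num) _
      _ ≤ B := pow_le_pow_of_le_one (by norm_num) (by norm_num) hq2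
  have hd : (1 : ℝ) / 2 ^ d ≤ B := by
    rw [one_div, ← inv_pow, ← one_div]
    exact pow_le_pow_of_le_one (by norm_num) (by norm_num) (Nat.div_le_self _ _)
  have h1 : (1 : ℝ) ≤ 2 ^ (2 * mstar d) := one_le_pow₀ (by norm_num)
  have e : (2 : ℝ) ^ (2 * mstar d + 2) = 4 * 2 ^ (2 * mstar d) := by
    rw [pow_add]
    ring
  rw [e]
  nlinarith

lemma lift_two_ne (d : ℕ) (y : Fin d → ℤ) : lift 2 d y ≠ 0 := by
  intro h
  have := congrFun h 0
  simp [lift] at this

/-- The total void probability of one set under the prime hash followed by the chain. -/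
lemma total_bound {d P : ℕ} [Fact P.Prime] (h : BigD d) (A : Finset (Fin d → ℤ)) (M : ℝ)
    (hM : 0 < M) (hlo : M / 2 ≤ A.card)
    (hinj : ∀ y ∈ A, ∀ y' ∈ A, y ≠ y' → ∃ i, ¬ (P : ℤ) ∣ y i - y' i)
    (hP1 : 2 ^ (e0 d + 1) * (P : ℝ) ≤ M) (hP2 : M ≤ 2 ^ (e0 d + 2) * (P : ℝ))
    (hcirc : ∀ j, 2 ≤ j → j ≤ 2 * mstar d →
      ∑ T ∈ (A.powersetCard j).filter (fun T => IsCirc (lift 2 d) T),
        (((univ.filter fun x : Fin (d + 1) → ZMod P => ∀ y ∈ T, x ⬝ᵥ lift P d y = 0).card : ℝ) /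
          (P : ℝ) ^ (d + 1)) ≤
      (2 * M / P) ^ (j - 1) *
        ((2 * M / P) / 2 ^ d + 2 ^ j * (99 / 100 : ℝ) ^ d + 3 ^ (2 * j + 3) / 3 ^ d + 1 / 2 ^ d)) :
    ∑ x : Fin (d + 1) → ZMod P, voidP (lift 2 d) (mstar d) (Hx (lift P d) x A) ≤
      (P : ℝ) ^ (d + 1) * (5 * (1 / 2) ^ mstar d + mstar d * (1 / 2) ^ (mstar d / 2)) := by
  set m := mstar d with hm
  have hPpos : (0 : ℝ) < P := by
    have : 0 < P := (Fact.out : P.Prime).pos
    exact_mod_cast this
  have hPd : (0 : ℝ) < (P : ℝ) ^ (d + 1) := by positivity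
  set ξ : ℝ := (1 / 2) ^ (m / 2) with hξ
  have hchain := chain (lift 2 d) (lift_two_ne d) (kk d) (nu d) ξ (nu_pos d 0) (by positivity) m
    (fun r hr A' hν hNS => hstep_main h r hr A' hν hNS) m le_rfl
  set H : (Fin (d + 1) → ZMod P) → Finset (Fin d → ℤ) := fun x => Hx (lift P d) x A with hH
  have hcardx : ∑ _x : Fin (d + 1) → ZMod P, (1 : ℝ) = (P : ℝ) ^ (d + 1) := by
    simp [Finset.card_univ, ZMod.card]
  -- first term
  have hApos : (0 : ℝ) < A.card := by linarith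
  have hA : A.Nonempty := by
    rw [← Finset.card_pos]
    exact_mod_cast hApos
  have hAP : (2 : ℝ) ^ e0 d ≤ (A.card : ℝ) / P := by
    rw [le_div_iff₀ hPpos]
    rw [pow_succ] at hP1
    nlinarith
  have h1 : ∑ x, (if ((H x).card : ℝ) < nu d m then (1 : ℝ) else 0) ≤
      (P : ℝ) ^ (d + 1) * (4 * (1 / 2) ^ m) := by
    have e1 : ∑ x, (if ((H x).card : ℝ) < nu d m then (1 : ℝ) else 0) =
        ((univ.filter fun x : Fin (d + 1) → ZMod P => (((H x).card : ℝ) < nu d m)).card : ℝ) := by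
      rw [Finset.card_filter]
      push_cast
      rfl
    rw [e1]
    have hsub : (univ.filter fun x : Fin (d + 1) → ZMod P => (((H x).card : ℝ) < nu d m)) ⊆
        (univ.filter fun x : Fin (d + 1) → ZMod P =>
          (((Hx (lift P d) x A).card : ℝ) < (A.card : ℝ) / P / 2)) := by
      intro x hx
      simp only [mem_filter, mem_univ, true_and] at hx ⊢
      have h2 := nu_upper d m
      have h3 : efin d + m - 2 + 1 = e0 d - 1 := by
        unfold e0
        have := h.efin2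
        omega
      have h4 : (2 : ℝ) * 2 ^ (efin d + m - 2) = 2 ^ (e0 d - 1) := by
        rw [← h3, pow_succ]
        ring
      have h5 : (2 : ℝ) ^ e0 d = 2 * 2 ^ (e0 d - 1) := by
        have : e0 d = (e0 d - 1) + 1 := by
          unfold e0
          have := h.efin2
          omega
        conv_lhs => rw [this, pow_succ]
        ring
      have h6 : (H x).card = (Hx (lift P d) x A).card := rfl
      rw [← h6]
      linarith
    have h2 := top_cheb A hinj hA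
    have h3 : ((univ.filter fun x : Fin (d + 1) → ZMod P => (((H x).card : ℝ) < nu d m)).card : ℝ) ≤
        ((univ.filter fun x : Fin (d + 1) → ZMod P =>
          (((Hx (lift P d) x A).card : ℝ) < (A.card : ℝ) / P / 2)).card : ℝ) := by
      exact_mod_cast Finset.card_le_card hsub
    refine le_trans h3 (le_trans h2 ?_)
    apply mul_le_mul_of_nonneg_left _ hPd.le
    have h4 : (0 : ℝ) < 2 ^ e0 d := by positivity
    calc 4 / ((A.card : ℝ) / P) ≤ 4 / 2 ^ e0 d := div_le_div_of_nonneg_left (by norm_num) h4 hAP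
      _ = 4 * (1 / 2) ^ e0 d := by
          rw [one_div, inv_pow]
          rfl
      _ ≤ 4 * (1 / 2) ^ m := by
          apply mul_le_mul_of_nonneg_left _ (by norm_num)
          apply pow_le_pow_of_le_one (by norm_num) (by norm_num)
          unfold e0
          omega
  -- second term
  have h2 : ∑ x, pot (lift 2 d) (kk d) m (H x) ≤ (P : ℝ) ^ (d + 1) * (1 / 2) ^ m := by
    unfold pot
    rw [Finset.sum_comm]
    have hem := BigD.em1 h
    have hmm := h.m1
    set Tm : ℝ := 2 ^ (d / 250) * (2 ^ (2 * m + 2) * (1 / 2) ^ (d / 70)) with hTm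
    have hTm0 : 0 ≤ Tm := by positivity
    have hterm : ∀ r' ∈ Finset.Icc 1 m, ∑ x, ∑ j ∈ Finset.Icc 2 (kk d r'),
        (circ (lift 2 d) j (H x) : ℝ) * (1 / 2) ^ ((m - r') * (j - 1)) ≤
        (P : ℝ) ^ (d + 1) * (2 * m * Tm) := by
      intro r' hr'
      have hr1 := (Finset.mem_Icc.mp hr').1
      have hr2 := (Finset.mem_Icc.mp hr').2
      rw [Finset.sum_comm]
      have hkk : kk d r' ≤ 2 * m := by
        unfold kk
        have := mp_le h (efin d + r')
        omega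
      have hj : ∀ j ∈ Finset.Icc 2 (kk d r'), ∑ x, (circ (lift 2 d) j (H x) : ℝ) *
          (1 / 2) ^ ((m - r') * (j - 1)) ≤ (P : ℝ) ^ (d + 1) * Tm := by
        intro j hj
        have hj1 := (Finset.mem_Icc.mp hj).1
        have hj2 := (Finset.mem_Icc.mp hj).2
        have hj3 : j ≤ 2 * m := le_trans hj2 hkk
        rw [← Finset.sum_mul]
        have e1 := sum_circ_Hx (lift 2 d) (lift P d) j A
        have e2 : ∑ x, (circ (lift 2 d) j (H x) : ℝ) =
            (P : ℝ) ^ (d + 1) *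
            ∑ T ∈ (A.powersetCard j).filter (fun T => IsCirc (lift 2 d) T),
            (((univ.filter fun x : Fin (d + 1) → ZMod P => ∀ y ∈ T, x ⬝ᵥ lift P d y = 0).card : ℝ) /
              (P : ℝ) ^ (d + 1)) := by
          rw [e1, Finset.mul_sum]
          apply Finset.sum_congr rfl
          intro T _
          field_simp
        rw [e2, mul_assoc]
        apply mul_le_mul_of_nonneg_left _ hPd.le
        have h3 := hcirc j hj1 hj3
        have h4 := X_bound h M P hPpos hP2 j hj3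
        set SS := ∑ T ∈ (A.powersetCard j).filter (fun T => IsCirc (lift 2 d) T),
            (((univ.filter fun x : Fin (d + 1) → ZMod P => ∀ y ∈ T, x ⬝ᵥ lift P d y = 0).card : ℝ) /
              (P : ℝ) ^ (d + 1))
        set y : ℝ := 2 * M / P with hy
        have hy0 : 0 ≤ y := by positivity
        have hy1 : y ≤ 2 ^ (e0 d + 3) := by
          rw [hy, div_le_iff₀ hPpos, pow_succ]
          have e : (2 : ℝ) ^ (e0 d + 2) * 2 * P = 2 * (2 ^ (e0 d + 2) * P) := by ring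
          rw [e]
          linarith
        have h5 : y ^ (j - 1) * (1 / 2 : ℝ) ^ ((m - r') * (j - 1)) ≤ 2 ^ (d / 250) := by
          have e3 : (1 / 2 : ℝ) ^ ((m - r') * (j - 1)) = ((1 / 2 : ℝ) ^ (m - r')) ^ (j - 1) := by
            rw [pow_mul]
          rw [e3, ← mul_pow]
          have e4 : y * (1 / 2 : ℝ) ^ (m - r') ≤ 2 ^ (efin d + r' + 3) := by
            have e5 : (2 : ℝ) ^ (e0 d + 3) = 2 ^ (efin d + r' + 3) * 2 ^ (m - r') := by
              rw [← pow_add]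
              unfold e0
              congr 1
              omega
            rw [e5] at hy1
            have h6 : (0 : ℝ) < 2 ^ (m - r') := by positivity
            rw [one_div, inv_pow]
            rw [← div_eq_mul_inv, div_le_iff₀ h6]
            exact hy1
          calc (y * (1 / 2 : ℝ) ^ (m - r')) ^ (j - 1) ≤ (2 ^ (efin d + r' + 3)) ^ (j - 1) :=
                pow_le_pow_left₀ (by positivity) e4 _
            _ = 2 ^ ((efin d + r' + 3) * (j - 1)) := by rw [pow_mul]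
            _ ≤ 2 ^ (d / 250) := by
                apply pow_le_pow_right₀ (by norm_num)
                have h7 := e3_mp h (efin d + r')
                have h8 : j - 1 ≤ 2 * mp d (efin d + r') := by
                  have : j ≤ kk d r' := hj2
                  unfold kk at this
                  omega
                exact le_trans (Nat.mul_le_mul_left _ h8) h7
        calc SS * (1 / 2) ^ ((m - r') * (j - 1)) ≤
            (y ^ (j - 1) * (y / 2 ^ d + 2 ^ j * (99 / 100 : ℝ) ^ d + 3 ^ (2 * j + 3) / 3 ^ d +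
              1 / 2 ^ d)) * (1 / 2) ^ ((m - r') * (j - 1)) :=
              mul_le_mul_of_nonneg_right h3 (by positivity)
          _ = (y ^ (j - 1) * (1 / 2) ^ ((m - r') * (j - 1))) *
              (y / 2 ^ d + 2 ^ j * (99 / 100 : ℝ) ^ d + 3 ^ (2 * j + 3) / 3 ^ d + 1 / 2 ^ d) := by
              ring
          _ ≤ 2 ^ (d / 250) * (2 ^ (2 * m + 2) * (1 / 2) ^ (d / 70)) := by
              apply mul_le_mul h5 h4 (by positivity) (by positivity)
          _ = Tm := rfl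
      calc _ ≤ ∑ _j ∈ Finset.Icc 2 (kk d r'), (P : ℝ) ^ (d + 1) * Tm := Finset.sum_le_sum hj
        _ = (Finset.Icc 2 (kk d r')).card * ((P : ℝ) ^ (d + 1) * Tm) := by simp
        _ ≤ (2 * m : ℝ) * ((P : ℝ) ^ (d + 1) * Tm) := by
            apply mul_le_mul_of_nonneg_right _ (by positivity)
            have : (Finset.Icc 2 (kk d r')).card ≤ 2 * m := by
              rw [Nat.card_Icc]
              omega
            exact_mod_cast this
        _ = _ := by ring
    calc _ ≤ ∑ _r' ∈ Finset.Icc 1 m, (P : ℝ) ^ (d + 1) * (2 * m * Tm) := Finset.sum_le_sum hterm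
      _ = (m : ℝ) * ((P : ℝ) ^ (d + 1) * (2 * m * Tm)) := by simp
      _ ≤ (P : ℝ) ^ (d + 1) * (1 / 2) ^ m := by
          have e0' : (m : ℝ) * ((P : ℝ) ^ (d + 1) * (2 * m * Tm)) =
              (P : ℝ) ^ (d + 1) * (2 * (m : ℝ) * m * Tm) := by ring
          rw [e0']
          apply mul_le_mul_of_nonneg_left _ hPd.le
          have hc1 : 2 * m ≤ 2 ^ Nat.clog 2 d := by
            have := Nat.le_pow_clog (b := 2) (by norm_num) d
            omega
          have hc2 : (2 * (m : ℝ)) ≤ 2 ^ Nat.clog 2 d := by exact_mod_cast hc1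
          have hc3 : 2 * (m : ℝ) * m ≤ 2 ^ (2 * Nat.clog 2 d) := by
            have hm0 : (0 : ℝ) ≤ m := Nat.cast_nonneg _
            have : (m : ℝ) ≤ 2 ^ Nat.clog 2 d := by nlinarith
            rw [two_mul (Nat.clog 2 d), pow_add]
            exact mul_le_mul hc2 this hm0 (by positivity)
          have hexp : 2 * Nat.clog 2 d + d / 250 + (2 * m + 2) + m ≤ d / 70 := by
            have h1 := Nat.div_mul_le_self d 250
            have h2 := Nat.div_add_mod d 70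
            have h3 := Nat.mod_lt d (show 0 < 70 by norm_num)
            have h4 := h.cd
            omega
          have hfin : (2 : ℝ) ^ (2 * Nat.clog 2 d) * Tm ≤ (1 / 2) ^ m := by
            rw [hTm]
            have e : (2 : ℝ) ^ (2 * Nat.clog 2 d) * (2 ^ (d / 250) * (2 ^ (2 * m + 2) * (1 / 2) ^ (d / 70))) =
                2 ^ (2 * Nat.clog 2 d + d / 250 + (2 * m + 2)) * (1 / 2) ^ (d / 70) := by
              rw [pow_add, pow_add]
              ring
            rw [e]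
            obtain ⟨z, hz⟩ := Nat.exists_eq_add_of_le hexp
            rw [hz, add_assoc (2 * Nat.clog 2 d + d / 250 + (2 * m + 2)) m z, two_pow_half]
            exact pow_le_pow_of_le_one (by norm_num) (by norm_num) (Nat.le_add_right _ _)
          calc 2 * (m : ℝ) * m * Tm ≤ 2 ^ (2 * Nat.clog 2 d) * Tm :=
                mul_le_mul_of_nonneg_right hc3 hTm0
            _ ≤ _ := hfin
  -- assemble
  have hsum : ∑ x, voidP (lift 2 d) m (H x) ≤ ∑ x, ((if ((H x).card : ℝ) < nu d m then (1 : ℝ) else 0) +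
      pot (lift 2 d) (kk d) m (H x) + m * ξ) := Finset.sum_le_sum fun x _ => hchain (H x)
  rw [Finset.sum_add_distrib, Finset.sum_add_distrib] at hsum
  have h3 : ∑ _x : Fin (d + 1) → ZMod P, (m : ℝ) * ξ = (P : ℝ) ^ (d + 1) * (m * ξ) := by
    simp [Finset.card_univ, ZMod.card]
  rw [h3] at hsum
  calc _ ≤ _ := hsum
    _ ≤ (P : ℝ) ^ (d + 1) * (4 * (1 / 2) ^ m) + (P : ℝ) ^ (d + 1) * (1 / 2) ^ m +
        (P : ℝ) ^ (d + 1) * (m * ξ) := by
        linarith
    _ = _ := by ring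

/-- the affine coordinates of a hyperplane functional -/
def phiEq (p d : ℕ) : ZMod p × (Fin d → ZMod p) ≃ (Fin (d + 1) → ZMod p) :=
  (Equiv.prodCongr (Equiv.neg _) (Equiv.refl _)).trans (Fin.consEquiv (fun _ : Fin (d + 1) => ZMod p))

lemma phiEq_apply (p d : ℕ) (c : ZMod p) (r : Fin d → ZMod p) :
    phiEq p d (c, r) = Fin.cons (-c) r := rfl

lemma dot_lift (p d : ℕ) (a : ZMod p) (r : Fin d → ZMod p) (y : Fin d → ℤ) :
    (Fin.cons a r : Fin (d + 1) → ZMod p) ⬝ᵥ lift p d y = a + ∑ i, r i * (y i : ZMod p) := by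
  simp [dotProduct, Fin.sum_univ_succ, lift]

/-- the sequence of hash functionals -/
def psiEq (d S : ℕ) : (Fin S → ZMod 2) × (Fin S → Fin d → ZMod 2) ≃ (Fin S → Fin (d + 1) → ZMod 2) :=
  (Equiv.arrowProdEquivProdArrow (Fin S) (fun _ => ZMod 2) (fun _ => Fin d → ZMod 2)).symm.trans
    (Equiv.arrowCongr (Equiv.refl _) (phiEq 2 d))

lemma psiEq_apply (d S : ℕ) (κ : Fin S → ZMod 2) (ρ : Fin S → Fin d → ZMod 2) (l : Fin S) :
    psiEq d S (κ, ρ) l = Fin.cons (-κ l) (ρ l) := rfl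

lemma cond_iff {d P S : ℕ} (A : Finset (Fin d → ℤ)) (c : ZMod P) (r : Fin d → ZMod P)
    (κ : Fin S → ZMod 2) (ρ : Fin S → Fin d → ZMod 2) :
    (∀ y ∈ Hx (lift P d) (phiEq P d (c, r)) A, ∃ l, (psiEq d S (κ, ρ)) l ⬝ᵥ lift 2 d y ≠ 0) ↔
      ∀ y ∈ A, hash r ρ y ≠ (c, κ) := by
  simp only [phiEq_apply, psiEq_apply, dot_lift]
  constructor
  · intro h y hy heq
    have h1 : ∑ i, r i * (y i : ZMod P) = c := congrArg Prod.fst heq
    have h2 : ∀ l, ∑ i, ρ l i * (y i : ZMod 2) = κ l := fun l =>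
      congrFun (congrArg Prod.snd heq) l
    obtain ⟨l, hl⟩ := h y (Finset.mem_filter.mpr ⟨hy, by
      rw [dot_lift, h1]
      ring⟩)
    apply hl
    rw [h2]
    ring
  · intro h y hy
    obtain ⟨hyA, hy0⟩ := Finset.mem_filter.mp hy
    rw [dot_lift] at hy0
    by_contra hcon
    push Not at hcon
    apply h y hyA
    have h1 : ∑ i, r i * (y i : ZMod P) = c := by linear_combination hy0
    refine Prod.ext h1 (funext fun l => ?_)
    have := hcon l
    show ∑ i, ρ l i * (y i : ZMod 2) = κ l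
    linear_combination this

lemma sum_void_eq {d P S : ℕ} [Fact P.Prime] (A : Finset (Fin d → ℤ)) :
    ∑ r : Fin d → ZMod P, ∑ ρ : Fin S → Fin d → ZMod 2,
      ((univ.filter fun c : ZMod P × (Fin S → ZMod 2) => ∀ y ∈ A, hash r ρ y ≠ c).card : ℝ) =
    ((2 : ℝ) ^ (d + 1)) ^ S * ∑ x : Fin (d + 1) → ZMod P,
      voidP (lift 2 d) S (Hx (lift P d) x A) := by
  simp_rw [voidP_unroll]
  rw [← Finset.sum_div, mul_div_cancel₀ _ (by positivity : ((2 : ℝ) ^ (d + 1)) ^ S ≠ 0)]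
  rw [← (phiEq P d).sum_comp, Fintype.sum_prod_type]
  simp_rw [← (psiEq d S).sum_comp, Fintype.sum_prod_type]
  have e : ∀ (c : ZMod P) (r : Fin d → ZMod P) (κ : Fin S → ZMod 2) (ρ : Fin S → Fin d → ZMod 2),
      (if (∀ y ∈ Hx (lift P d) (phiEq P d (c, r)) A, ∃ l, (psiEq d S (κ, ρ)) l ⬝ᵥ lift 2 d y ≠ 0)
        then (1 : ℝ) else 0) = if (∀ y ∈ A, hash r ρ y ≠ (c, κ)) then (1 : ℝ) else 0 := by
    intro c r κ ρ
    simp only [cond_iff]
  simp_rw [e]
  have e2 : ∀ (r : Fin d → ZMod P) (ρ : Fin S → Fin d → ZMod 2),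
      ((univ.filter fun c : ZMod P × (Fin S → ZMod 2) => ∀ y ∈ A, hash r ρ y ≠ c).card : ℝ) =
      ∑ c : ZMod P, ∑ κ : Fin S → ZMod 2, if (∀ y ∈ A, hash r ρ y ≠ (c, κ)) then (1 : ℝ) else 0 := by
    intro r ρ
    rw [Finset.card_filter]
    push_cast
    rw [Fintype.sum_prod_type]
  simp_rw [e2]
  have e3 : ∀ r : Fin d → ZMod P, ∑ ρ : Fin S → Fin d → ZMod 2, ∑ c : ZMod P, ∑ κ : Fin S → ZMod 2,
      (if (∀ y ∈ A, hash r ρ y ≠ (c, κ)) then (1 : ℝ) else 0) =
      ∑ c : ZMod P, ∑ κ : Fin S → ZMod 2, ∑ ρ : Fin S → Fin d → ZMod 2,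
      (if (∀ y ∈ A, hash r ρ y ≠ (c, κ)) then (1 : ℝ) else 0) := by
    intro r
    rw [Finset.sum_comm]
    exact Finset.sum_congr rfl fun c _ => Finset.sum_comm
  simp_rw [e3]
  rw [Finset.sum_comm]

lemma numeric_final (m : ℕ) (hm : 96 ≤ m) (Uc : ℝ) (hU0 : 0 ≤ Uc) (hU : Uc ≤ 2 ^ (m / 16)) :
    8 / 7 * Uc * (5 * (1 / 2) ^ m + m * (1 / 2) ^ (m / 2)) ≤ (1 / 2) ^ (m / 4) := by
  set y := m / 16 with hy
  have hy6 : 6 ≤ y := by omega
  have h1 : (1 / 2 : ℝ) ^ m ≤ (1 / 2) ^ (8 * y) :=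
    pow_le_pow_of_le_one (by norm_num) (by norm_num) (by omega)
  have h2 : (1 / 2 : ℝ) ^ (m / 2) ≤ (1 / 2) ^ (8 * y) :=
    pow_le_pow_of_le_one (by norm_num) (by norm_num) (by omega)
  have h3 : (m : ℝ) ≤ 16 * y + 15 := by
    have : m ≤ 16 * y + 15 := by omega
    exact_mod_cast this
  have h4 : (1 / 2 : ℝ) ^ (4 * y + 3) ≤ (1 / 2) ^ (m / 4) :=
    pow_le_pow_of_le_one (by norm_num) (by norm_num) (by omega)
  refine le_trans ?_ h4
  set B : ℝ := (1 / 2) ^ (8 * y)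
  have hB : 0 ≤ B := by positivity
  have h5 : 5 * (1 / 2 : ℝ) ^ m + m * (1 / 2) ^ (m / 2) ≤ (16 * y + 20) * B := by
    have : (m : ℝ) * (1 / 2) ^ (m / 2) ≤ (16 * y + 15) * B :=
      mul_le_mul h3 h2 (by positivity) (by positivity)
    nlinarith
  have h6 : 2 * (16 * (y : ℝ) + 20) ≤ 2 ^ (3 * y - 3) := by
    have h7 : y + 1 ≤ 2 ^ y := Nat.lt_two_pow_self
    have h8 : (2 : ℕ) ^ 9 ≤ 2 ^ (2 * y - 3) := Nat.pow_le_pow_right (by norm_num) (by omega)
    have h9 : 2 ^ (3 * y - 3) = 2 ^ y * 2 ^ (2 * y - 3) := by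
      rw [← pow_add]
      congr 1
      omega
    have h10 : 2 * (16 * y + 20) ≤ 2 ^ (3 * y - 3) := by
      rw [h9]
      nlinarith
    exact_mod_cast h10
  have e1 : (2 : ℝ) ^ y * B = (1 / 2) ^ (4 * y + 3) * (1 / 2) ^ (3 * y - 3) := by
    have hz : 8 * y = y + ((4 * y + 3) + (3 * y - 3)) := by omega
    simp only [B]
    rw [hz, two_pow_half, pow_add]
  have h11 : (1 / 2 : ℝ) ^ (3 * y - 3) * 2 ^ (3 * y - 3) = 1 := by
    rw [← mul_pow]
    norm_num
  have hp : (0 : ℝ) ≤ (1 / 2) ^ (4 * y + 3) := by positivity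
  have hq : (0 : ℝ) ≤ (1 / 2) ^ (3 * y - 3) := by positivity
  calc 8 / 7 * Uc * (5 * (1 / 2) ^ m + m * (1 / 2) ^ (m / 2))
      ≤ 8 / 7 * 2 ^ y * ((16 * y + 20) * B) := by
        apply mul_le_mul (by linarith) h5 (by positivity) (by positivity)
    _ = 8 / 7 * (16 * y + 20) * ((1 / 2) ^ (4 * y + 3) * (1 / 2) ^ (3 * y - 3)) := by
        rw [← e1]
        ring
    _ ≤ (1 / 2) ^ (4 * y + 3) * (2 * (16 * y + 20) * (1 / 2) ^ (3 * y - 3)) := by
        have hy0 : (0 : ℝ) ≤ y := Nat.cast_nonneg _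
        have : 8 / 7 * (16 * (y : ℝ) + 20) ≤ 2 * (16 * y + 20) := by nlinarith
        calc _ = (8 / 7 * (16 * (y : ℝ) + 20)) * ((1 / 2) ^ (3 * y - 3) * (1 / 2) ^ (4 * y + 3)) := by ring
          _ ≤ (2 * (16 * (y : ℝ) + 20)) * ((1 / 2) ^ (3 * y - 3) * (1 / 2) ^ (4 * y + 3)) :=
            mul_le_mul_of_nonneg_right this (by positivity)
          _ = _ := by ring
    _ ≤ (1 / 2) ^ (4 * y + 3) * (2 ^ (3 * y - 3) * (1 / 2) ^ (3 * y - 3)) := by
        apply mul_le_mul_of_nonneg_left _ hp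
        exact mul_le_mul_of_nonneg_right h6 hq
    _ = _ := by
        rw [mul_comm ((2 : ℝ) ^ (3 * y - 3)), h11, mul_one]

/-- counting: most `r` avoid the kernel condition -/
lemma goodR_card {d P : ℕ} [Fact P.Prime] (hd : 1 ≤ d) (Y0 : Finset (Fin d → ℤ))
    (hY0 : ∀ y ∈ Y0, ∃ i, ¬ (P : ℤ) ∣ y i) (hY0c : 8 * Y0.card ≤ P) :
    (7 / 8 : ℝ) * (P : ℝ) ^ d ≤
      ((univ.filter fun r : Fin d → ZMod P => ∀ y ∈ Y0, ∑ i, r i * (y i : ZMod P) ≠ 0).card : ℝ) := by
  set GoodR : Finset (Fin d → ZMod P) :=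
    univ.filter fun r => ∀ y ∈ Y0, ∑ i, r i * (y i : ZMod P) ≠ 0 with hGoodR
  have hcardR : (Fintype.card (Fin d → ZMod P) : ℝ) = (P : ℝ) ^ d := by
    rw [Fintype.card_fun, ZMod.card, Fintype.card_fin]
    push_cast
    rfl
  have hbad1 : ∀ y ∈ Y0, (univ.filter fun r : Fin d → ZMod P =>
      ∑ i, r i * (y i : ZMod P) = 0).card = P ^ (d - 1) := by
    intro y hy
    obtain ⟨i₀, hi₀⟩ := hY0 y hy
    have hne : (fun i => (y i : ZMod P)) ≠ 0 := by
      intro h0
      apply hi₀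
      have := congrFun h0 i₀
      simp only [Pi.zero_apply] at this
      exact (ZMod.intCast_zmod_eq_zero_iff_dvd _ _).mp this
    have hli : LinearIndependent (ZMod P)
        (fun _ : Fin 1 => (fun i => (y i : ZMod P) : Fin d → ZMod P)) :=
      LinearIndependent.of_subsingleton 0 hne
    have := card_annihilator (fun _ : Fin 1 => (fun i => (y i : ZMod P) : Fin d → ZMod P)) hli
    rw [← this]
    congr 1
    ext r
    simp [dotProduct]
  have hbad : (((univ : Finset (Fin d → ZMod P)) \ GoodR).card : ℝ) ≤ Y0.card * (P : ℝ) ^ (d - 1) := by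
    have hsub : (univ : Finset (Fin d → ZMod P)) \ GoodR ⊆
        Y0.biUnion fun y => univ.filter fun r : Fin d → ZMod P => ∑ i, r i * (y i : ZMod P) = 0 := by
      intro r hr
      simp only [hGoodR, Finset.mem_sdiff, Finset.mem_univ, Finset.mem_filter, true_and, not_forall,
        not_not] at hr
      obtain ⟨y, hy, hr⟩ := hr
      simp only [Finset.mem_biUnion, Finset.mem_filter, Finset.mem_univ, true_and]
      exact ⟨y, hy, hr⟩
    have h1 := (Finset.card_le_card hsub).trans Finset.card_biUnion_le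
    have h2 : ∑ y ∈ Y0, (univ.filter fun r : Fin d → ZMod P =>
        ∑ i, r i * (y i : ZMod P) = 0).card = Y0.card * P ^ (d - 1) := by
      rw [Finset.sum_congr rfl hbad1]
      simp
    rw [h2] at h1
    exact_mod_cast h1
  have hP_pow : (P : ℝ) ^ d = P * (P : ℝ) ^ (d - 1) := by
    rw [← pow_succ']
    congr 1
    omega
  have h1 : ((univ : Finset (Fin d → ZMod P)) \ GoodR).card + GoodR.card =
      Fintype.card (Fin d → ZMod P) := by
    rw [Finset.card_sdiff_add_card_eq_card (Finset.subset_univ _)]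
    rfl
  have h2 : (((univ : Finset (Fin d → ZMod P)) \ GoodR).card : ℝ) + GoodR.card = (P : ℝ) ^ d := by
    rw [← hcardR]
    exact_mod_cast h1
  have h3 : (8 : ℝ) * Y0.card ≤ P := by exact_mod_cast hY0c
  have hPd1 : (0 : ℝ) ≤ (P : ℝ) ^ (d - 1) := by positivity
  have h4 : (Y0.card : ℝ) * (P : ℝ) ^ (d - 1) ≤ (1 / 8) * (P * (P : ℝ) ^ (d - 1)) := by
    nlinarith
  rw [hP_pow] at h2 ⊢
  linarith

/-- abstract averaging -/
lemma extract_avg {R T : Type*} [Fintype R] [Fintype T] [Nonempty T] (GoodR : Finset R)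
    (hG : GoodR.Nonempty) (Φ : R → T → ℝ) (hΦ0 : ∀ r t, 0 ≤ Φ r t) (Tot B : ℝ)
    (htot : ∑ r, ∑ t, Φ r t ≤ Tot)
    (hB : Tot ≤ (GoodR.card : ℝ) * ((Fintype.card T : ℝ) * B)) :
    ∃ r ∈ GoodR, ∃ t, Φ r t ≤ B := by
  by_contra hcon
  push Not at hcon
  have h1 : ∑ r ∈ GoodR, ∑ _t : T, B < ∑ r ∈ GoodR, ∑ t : T, Φ r t := by
    apply Finset.sum_lt_sum_of_nonempty hG
    intro r hr
    apply Finset.sum_lt_sum_of_nonempty Finset.univ_nonempty
    intro t _
    exact hcon r hr t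
  have h2 : ∑ r ∈ GoodR, ∑ t : T, Φ r t ≤ ∑ r : R, ∑ t : T, Φ r t :=
    Finset.sum_le_sum_of_subset_of_nonneg (Finset.subset_univ _)
      (fun r _ _ => Finset.sum_nonneg fun t _ => hΦ0 r t)
  have h3 : ∑ r ∈ GoodR, ∑ _t : T, B = (GoodR.card : ℝ) * ((Fintype.card T : ℝ) * B) := by
    simp [Finset.card_univ]
  linarith

/-- the prime is larger than the box -/
lemma prime_big {d : ℕ} (hd2 : 2 ≤ d) (θ M : ℝ) (hθ : 0 < θ) (W P : ℕ) (e : ℕ) (hPpos : (0 : ℝ) < P)
    (hWpos : 1 ≤ W) (hWθ : (2 : ℝ) ^ (e + 3) ≤ θ * W) (hdense : θ * (W : ℝ) ^ d ≤ M)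
    (hP2 : M ≤ 2 ^ (e + 2) * (P : ℝ)) : (W : ℝ) ≤ P := by
  have hWR : (1 : ℝ) ≤ W := by exact_mod_cast hWpos
  have h2 : (W : ℝ) * W ≤ (W : ℝ) ^ d := by
    calc (W : ℝ) * W = (W : ℝ) ^ 2 := by ring
      _ ≤ (W : ℝ) ^ d := pow_le_pow_right₀ hWR hd2
  have h3 : θ * ((W : ℝ) * W) ≤ M := le_trans (mul_le_mul_of_nonneg_left h2 hθ.le) hdense
  have h4 : (2 : ℝ) ^ (e + 3) * W ≤ θ * ((W : ℝ) * W) := by
    calc (2 : ℝ) ^ (e + 3) * W ≤ (θ * W) * W := mul_le_mul_of_nonneg_right hWθ (by positivity)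
      _ = _ := by ring
  have h5 : (2 : ℝ) ^ (e + 3) = 2 * 2 ^ (e + 2) := by
    rw [pow_succ]
    ring
  have hpos : (0 : ℝ) < 2 ^ (e + 2) := by positivity
  rw [h5] at h4
  have h6 : 2 ^ (e + 2) * (2 * (W : ℝ)) ≤ 2 ^ (e + 2) * P := by
    calc 2 ^ (e + 2) * (2 * (W : ℝ)) = 2 * 2 ^ (e + 2) * W := by ring
      _ ≤ 2 ^ (e + 2) * P := by linarith
  have h7 := le_of_mul_le_mul_left h6 hpos
  linarith

/-- one member of the family -/
lemma member_bound {d P : ℕ} [Fact P.Prime] (h : BigD d) (θ : ℝ) (W₀' : ℕ)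
    (hW₀' : ∀ (A : Finset (Fin d → ℤ)) (M : ℝ) (W Q P : ℕ) [Fact P.Prime] (κ : ℝ),
      Good A M W Q κ θ → 0 ≤ κ → W₀' ≤ W → Q ≤ W → W ≤ Q ^ 4 → M ≤ 2 ^ d * (P : ℝ) →
      ∀ j, 2 ≤ j → j ≤ 2 * mstar d →
        ∑ T ∈ (A.powersetCard j).filter (fun T => IsCirc (lift 2 d) T),
          (((univ.filter fun x : Fin (d + 1) → ZMod P => ∀ y ∈ T, x ⬝ᵥ lift P d y = 0).card : ℝ) /
            (P : ℝ) ^ (d + 1)) ≤
        (2 * M / P) ^ (j - 1) *
          ((2 * M / P) / 2 ^ d + 2 ^ j * κ ^ d + 3 ^ (2 * j + 3) / 3 ^ d + 1 / 2 ^ d))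
    (A : Finset (Fin d → ℤ)) (M : ℝ) (W Q : ℕ) (hg : Good A M W Q (99 / 100) θ)
    (hW1 : W₀' ≤ W) (hQ1 : Q ≤ W) (hQ2 : W ≤ Q ^ 4) (hWP : (W : ℝ) ≤ P)
    (hP1 : 2 ^ (e0 d + 1) * (P : ℝ) ≤ M) (hP2 : M ≤ 2 ^ (e0 d + 2) * (P : ℝ)) :
    ∑ r : Fin d → ZMod P, ∑ ρ : Fin (mstar d) → Fin d → ZMod 2,
      ((univ.filter fun c : ZMod P × (Fin (mstar d) → ZMod 2) =>
        ∀ y ∈ A, hash r ρ y ≠ c).card : ℝ) ≤
      ((2 : ℝ) ^ (d + 1)) ^ mstar d *
        ((P : ℝ) ^ (d + 1) * (5 * (1 / 2) ^ mstar d + mstar d * (1 / 2) ^ (mstar d / 2))) := by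
  have hPpos : (0 : ℝ) < P := by
    have : 0 < P := (Fact.out : P.Prime).pos
    exact_mod_cast this
  rw [sum_void_eq]
  apply mul_le_mul_of_nonneg_left _ (by positivity)
  have hem := BigD.em1 h
  have he0d : e0 d + 2 ≤ d := by
    have := h.efinm
    have := h.m1
    unfold e0
    omega
  have hMd : M ≤ 2 ^ d * (P : ℝ) := by
    refine le_trans hP2 (mul_le_mul_of_nonneg_right ?_ hPpos.le)
    exact pow_le_pow_right₀ (by norm_num) he0d
  refine total_bound h A M hg.M_pos hg.card_lo ?_ hP1 hP2 ?_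
  · intro y hy y' hy' hne
    obtain ⟨i, hi⟩ := Function.ne_iff.mp hne
    refine ⟨i, fun hdvd => ?_⟩
    have h1 := hg.box y hy i
    have h2 := hg.box y' hy' i
    have h3 : |y i - y' i| < (P : ℤ) := by
      have h4 : (W : ℤ) ≤ P := by exact_mod_cast hWP
      have h5 : |y i - y' i| ≤ |y i| + |y' i| := abs_sub _ _
      have h6 : 0 ≤ |y i| := abs_nonneg _
      have h7 : 0 ≤ |y' i| := abs_nonneg _
      omega
    have h8 := Int.eq_zero_of_abs_lt_dvd hdvd h3
    apply hi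
    omega
  · intro j hj1 hj2
    exact hW₀' A M W Q P (99 / 100) hg (by norm_num) hW1 hQ1 hQ2 hMd j hj1 hj2

/-- averaging over the whole family -/
lemma family_extract {d P m : ℕ} [Fact P.Prime] {U : Type} [Fintype U]
    (Afam : U → Finset (Fin d → ℤ)) (Y0 : Finset (Fin d → ℤ)) (Bd : ℝ) (hBd0 : 0 ≤ Bd)
    (hmember : ∀ u, ∑ r : Fin d → ZMod P, ∑ ρ : Fin m → Fin d → ZMod 2,
      ((univ.filter fun c : ZMod P × (Fin m → ZMod 2) =>
        ∀ y ∈ Afam u, hash r ρ y ≠ c).card : ℝ) ≤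
      ((2 : ℝ) ^ (d + 1)) ^ m * ((P : ℝ) ^ (d + 1) * Bd))
    (hgoodcard : (7 / 8 : ℝ) * (P : ℝ) ^ d ≤
      ((univ.filter fun r : Fin d → ZMod P => ∀ y ∈ Y0, ∑ i, r i * (y i : ZMod P) ≠ 0).card : ℝ)) :
    ∃ (r : Fin d → ZMod P) (ρ : Fin m → Fin d → ZMod 2),
      (∀ y ∈ Y0, hash r ρ y ≠ 0) ∧
      ∀ u, (((univ.filter fun c : ZMod P × (Fin m → ZMod 2) =>
          ∀ y ∈ Afam u, hash r ρ y ≠ c).card : ℝ) ≤
        (8 / 7 * (Fintype.card U : ℝ) * Bd) * ((P : ℝ) * 2 ^ m)) := by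
  have hPpos : (0 : ℝ) < P := by
    have : 0 < P := (Fact.out : P.Prime).pos
    exact_mod_cast this
  have hΦ0 : ∀ (r : Fin d → ZMod P) (ρ : Fin m → Fin d → ZMod 2), 0 ≤
      ∑ u, ((univ.filter fun c : ZMod P × (Fin m → ZMod 2) =>
        ∀ y ∈ Afam u, hash r ρ y ≠ c).card : ℝ) :=
    fun r ρ => Finset.sum_nonneg fun u _ => Nat.cast_nonneg _
  have htot : ∑ r : Fin d → ZMod P, ∑ ρ : Fin m → Fin d → ZMod 2,
      ∑ u, ((univ.filter fun c : ZMod P × (Fin m → ZMod 2) =>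
        ∀ y ∈ Afam u, hash r ρ y ≠ c).card : ℝ) ≤
      (Fintype.card U : ℝ) * (((2 : ℝ) ^ (d + 1)) ^ m * ((P : ℝ) ^ (d + 1) * Bd)) := by
    calc _ = ∑ u, ∑ r : Fin d → ZMod P, ∑ ρ : Fin m → Fin d → ZMod 2,
          ((univ.filter fun c : ZMod P × (Fin m → ZMod 2) =>
            ∀ y ∈ Afam u, hash r ρ y ≠ c).card : ℝ) := by
          refine (Finset.sum_congr rfl fun r _ => Finset.sum_comm).trans Finset.sum_comm
      _ ≤ ∑ _u : U, (((2 : ℝ) ^ (d + 1)) ^ m * ((P : ℝ) ^ (d + 1) * Bd)) :=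
          Finset.sum_le_sum fun u _ => hmember u
      _ = _ := by
          rw [Finset.sum_const, Finset.card_univ, nsmul_eq_mul]
  have hGoodne : (univ.filter fun r : Fin d → ZMod P =>
      ∀ y ∈ Y0, ∑ i, r i * (y i : ZMod P) ≠ 0).Nonempty := by
    rw [← Finset.card_pos]
    have h0 : (0 : ℝ) < (P : ℝ) ^ d := by positivity
    have : (0 : ℝ) < ((univ.filter fun r : Fin d → ZMod P =>
      ∀ y ∈ Y0, ∑ i, r i * (y i : ZMod P) ≠ 0).card : ℝ) := by
      have : (0 : ℝ) < 7 / 8 * (P : ℝ) ^ d := by positivity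
      linarith
    exact_mod_cast this
  have hcardT : (Fintype.card (Fin m → Fin d → ZMod 2) : ℝ) = ((2 : ℝ) ^ d) ^ m := by
    rw [Fintype.card_fun, Fintype.card_fun, ZMod.card, Fintype.card_fin, Fintype.card_fin]
    push_cast
    rfl
  have hex := extract_avg _ hGoodne _ hΦ0 _
    ((8 / 7 * (Fintype.card U : ℝ) * Bd) * ((P : ℝ) * 2 ^ m)) htot (by
    rw [hcardT]
    have h4 := mul_le_mul_of_nonneg_right hgoodcard
      (show 0 ≤ ((2 : ℝ) ^ d) ^ m * ((8 / 7 * (Fintype.card U : ℝ) * Bd) * ((P : ℝ) * 2 ^ m)) by positivity)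
    refine le_trans (le_of_eq ?_) h4
    rw [pow_succ (2 : ℝ) d, mul_pow, pow_succ (P : ℝ) d]
    ring)
  obtain ⟨r, hr, ρ, hρ⟩ := hex
  refine ⟨r, ρ, ?_, ?_⟩
  · intro y hy hzero
    have h1 := (Finset.mem_filter.mp hr).2 y hy
    apply h1
    have := congrArg Prod.fst hzero
    exact this
  · intro u
    refine le_trans ?_ hρ
    exact Finset.single_le_sum
      (f := fun u => ((univ.filter fun c : ZMod P × (Fin m → ZMod 2) =>
        ∀ y ∈ Afam u, hash r ρ y ≠ c).card : ℝ)) (fun _ _ => Nat.cast_nonneg _) (Finset.mem_univ u)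

/-- MODULE base: the hash with small void for a whole family. -/
theorem base_hash : ∃ d₀ : ℕ, ∀ d ≥ d₀, ∀ θ : ℝ, 0 < θ → ∃ W₀ : ℕ,
    ∀ (U : Type) [Fintype U] (Afam : U → Finset (Fin d → ℤ)) (M : ℝ) (W Q P : ℕ) [Fact P.Prime]
      (Y0 : Finset (Fin d → ℤ)),
      (Fintype.card U : ℝ) ≤ 2 ^ (mstar d / 16) → W₀ ≤ W → Q ≤ W → W ≤ Q ^ 4 →
      (∀ u, Good (Afam u) M W Q (99 / 100) θ) →
      2 ^ (e0 d + 1) * (P : ℝ) ≤ M → M ≤ 2 ^ (e0 d + 2) * (P : ℝ) →
      (∀ y ∈ Y0, ∃ i, ¬ (P : ℤ) ∣ y i) → 8 * Y0.card ≤ P →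
      ∃ (r : Fin d → ZMod P) (ρ : Fin (mstar d) → Fin d → ZMod 2),
        (∀ y ∈ Y0, hash r ρ y ≠ 0) ∧
        ∀ u, (((univ.filter fun c : ZMod P × (Fin (mstar d) → ZMod 2) =>
            ∀ y ∈ Afam u, hash r ρ y ≠ c).card : ℝ) ≤
          (1 / 2 : ℝ) ^ (mstar d / 4) * ((P : ℝ) * 2 ^ mstar d)) := by
  obtain ⟨d₁, hd₁⟩ := bigD_eventually
  refine ⟨d₁, fun d hd θ hθ => ?_⟩
  have h := hd₁ d hd
  set m := mstar d with hm
  have hem : 12000 * m ≤ d := BigD.em1 h
  have hm96 : 96 ≤ m := h.m1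
  have hk : 6 * (2 * m) ≤ d := by omega
  obtain ⟨W₀', hW₀'⟩ := circ_top_bound d (2 * m) hk θ hθ
  set W₁ : ℕ := ⌈(2 : ℝ) ^ (e0 d + 3) / θ⌉₊ + 1 with hW₁
  refine ⟨max W₀' W₁, ?_⟩
  intro U _ Afam M W Q P _ Y0 hU hW hQ1 hQ2 hgood hP1 hP2 hY0 hY0c
  have hW1 : W₀' ≤ W := le_trans (le_max_left _ _) hW
  have hW2 : W₁ ≤ W := le_trans (le_max_right _ _) hW
  have hPpos : (0 : ℝ) < P := by
    have : 0 < P := (Fact.out : P.Prime).pos
    exact_mod_cast this
  have hWθ : (2 : ℝ) ^ (e0 d + 3) ≤ θ * W := by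
    have h1 : (2 : ℝ) ^ (e0 d + 3) / θ ≤ W := by
      have h2 := Nat.le_ceil ((2 : ℝ) ^ (e0 d + 3) / θ)
      have h3 : ((⌈(2 : ℝ) ^ (e0 d + 3) / θ⌉₊ : ℕ) : ℝ) ≤ W := by
        have : ⌈(2 : ℝ) ^ (e0 d + 3) / θ⌉₊ ≤ W := by omega
        exact_mod_cast this
      linarith
    rw [div_le_iff₀ hθ] at h1
    linarith
  have hWpos : 1 ≤ W := by omega
  have hd2 : 2 ≤ d := by omega
  have hWP : ∀ u : U, (W : ℝ) ≤ P := fun u =>
    prime_big hd2 θ M hθ W P (e0 d) hPpos hWpos hWθ (hgood u).dense hP2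
  set Bd : ℝ := 5 * (1 / 2) ^ m + m * (1 / 2) ^ (m / 2) with hBd
  have hBd0 : 0 ≤ Bd := by positivity
  have hmember : ∀ u, ∑ r : Fin d → ZMod P, ∑ ρ : Fin m → Fin d → ZMod 2,
      ((univ.filter fun c : ZMod P × (Fin m → ZMod 2) =>
        ∀ y ∈ Afam u, hash r ρ y ≠ c).card : ℝ) ≤
      ((2 : ℝ) ^ (d + 1)) ^ m * ((P : ℝ) ^ (d + 1) * Bd) := fun u =>
    member_bound h θ W₀' hW₀' (Afam u) M W Q (hgood u) hW1 hQ1 hQ2 (hWP u) hP1 hP2
  have hgoodcard := goodR_card (P := P) (by omega) Y0 hY0 hY0c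
  obtain ⟨r, ρ, hr, hρ⟩ := family_extract (P := P) (m := m) Afam Y0 Bd hBd0 hmember hgoodcard
  refine ⟨r, ρ, hr, fun u => le_trans (hρ u) ?_⟩
  have h2 : 8 / 7 * (Fintype.card U : ℝ) * Bd ≤ (1 / 2) ^ (m / 4) :=
    numeric_final m hm96 _ (Nat.cast_nonneg _) hU
  exact mul_le_mul_of_nonneg_right h2 (by positivity)

end Vale.Agent.Lib.P230
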