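import Vale.Agent.Lib.P230.Assembly2
import Vale.Agent.Lib.P230.Base

/-!
# P230: assembly, the lattice in the window.
-/

set_option autoImplicit false
set_option linter.unusedSectionVars false
set_option linter.unusedSimpArgs false
set_option linter.unusedVariables false

open MeasureTheory Finset
open scoped ENNReal Matrix

namespace Vale.Agent.Lib.P230

variable {d t : ℕ}

lemma e0_add_six_le (h : BigD d) : e0 d + 6 ≤ d := by
  have h1 := BigD.em1 h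
  have h2 := h.m1
  have h3 := h.efinm
  unfold e0
  omega

lemma num_Y0 (h : BigD d) (δ : ℝ) (hδ0 : 0 < δ) (hδ1 : δ ≤ 1 / 8) :
    16 * (δ / 2) ^ d * 2 ^ (e0 d + 2) ≤ (1 - 2 * δ) ^ d := by
  have h6 := e0_add_six_le h
  have h1 : (δ / 2) ^ d ≤ (1 / 16 : ℝ) ^ d := by
    apply pow_le_pow_left₀ (by positivity)
    linarith
  have h2 : (1 / 2 : ℝ) ^ d ≤ (1 - 2 * δ) ^ d := by
    apply pow_le_pow_left₀ (by norm_num)
    linarith
  have h3 : (2 : ℝ) ^ (e0 d + 6) ≤ 2 ^ d := pow_le_pow_right₀ (by norm_num) h6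
  have h4 : (2 : ℝ) ^ d * (1 / 16 : ℝ) ^ d = (1 / 8 : ℝ) ^ d := by
    rw [← mul_pow]
    norm_num
  have h5 : (1 / 8 : ℝ) ^ d ≤ (1 / 2 : ℝ) ^ d := by
    apply pow_le_pow_left₀ (by norm_num)
    norm_num
  have e : 16 * (δ / 2) ^ d * 2 ^ (e0 d + 2) = (2 : ℝ) ^ (e0 d + 6) * (δ / 2) ^ d := by
    rw [show e0 d + 6 = (e0 d + 2) + 4 by ring, pow_add]
    ring
  rw [e]
  calc (2 : ℝ) ^ (e0 d + 6) * (δ / 2) ^ d ≤ 2 ^ d * (1 / 16 : ℝ) ^ d := by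
        apply mul_le_mul h3 h1 (by positivity) (by positivity)
    _ = (1 / 8 : ℝ) ^ d := h4
    _ ≤ (1 / 2 : ℝ) ^ d := h5
    _ ≤ _ := h2

/-- The box of heights. -/
noncomputable def hbox (t n : ℕ) : Finset (Fin t → ℤ) := Fintype.piFinset fun _ => Finset.Ico (-(n : ℤ)) n

lemma mem_hbox {t n : ℕ} (u : Fin t → ℤ) : u ∈ hbox t n ↔ ∀ i, -(n : ℤ) ≤ u i ∧ u i < n := by
  simp [hbox, Fintype.mem_piFinset]

lemma card_hbox (t n : ℕ) : (hbox t n).card = (2 * n) ^ t := by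
  simp only [hbox, Fintype.card_piFinset, Int.card_Ico, Finset.prod_const, Finset.card_univ,
    Fintype.card_fin]
  congr 1
  have : ((n : ℤ) - -(n : ℤ)).toNat = 2 * n := by omega
  exact this

lemma abs_height_le {t n : ℕ} (hn : 0 < n) (u : Fin t → ℤ) (hu : u ∈ hbox t n) (i : Fin t) :
    |(u i : ℝ) / n| ≤ 1 := by
  have h := (mem_hbox u).mp hu i
  have hn' : (0 : ℝ) < n := by exact_mod_cast hn
  rw [abs_div, Nat.abs_cast, div_le_one hn', abs_le]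
  constructor
  · have : (-(n : ℤ) : ℤ) ≤ u i := h.1
    exact_mod_cast this
  · have : u i ≤ (n : ℤ) := h.2.le
    exact_mod_cast this

/-- the counting inequality -/
lemma num_count (Zt e2 g Rd V₀ Y : ℝ) (hnum2 : Zt * e2 < (1 / 2) * Y) (hg0 : 0 ≤ g) (hg : g ≤ Rd * V₀)
    (hZ : 0 ≤ Zt * e2) (hRV : 0 < Rd * V₀) :
    Zt * e2 * g < (1 / 2) * Y * (Rd * V₀) := by
  calc Zt * e2 * g ≤ Zt * e2 * (Rd * V₀) := mul_le_mul_of_nonneg_left hg hZ
    _ < (1 / 2) * Y * (Rd * V₀) := mul_lt_mul_of_pos_right hnum2 hRV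

/-- Existence of the lattice in the window. -/
theorem lattice_data : ∃ d₀ : ℕ, ∀ d ≥ d₀, ∀ t n : ℕ, n = d + t → 8 ≤ n →
    ((2 * (n : ℝ)) ^ t ≤ 2 ^ (mstar d / 16)) →
    (((2 * (n : ℝ)) ^ t) ^ (2 ^ t - 1) * ((1 / 2 : ℝ) ^ (mstar d / 4)) ^ (2 ^ t) <
      (1 / 2) * (1 / (4 * (n : ℝ))) ^ d) →
    ∀ K' : Set ((Fin d → ℝ) × (Fin t → ℝ)), Convex ℝ K' → IsCompact K' → ∀ V₀ : ℝ, 0 < V₀ →
    (∀ x : Fin t → ℝ, (∀ i, |x i| ≤ 2) →
      ENNReal.ofReal V₀ ≤ volume {y : Fin d → ℝ | (y, x) ∈ K'}) →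
    ∃ (B : Matrix (Fin d ⊕ Fin t) (Fin d ⊕ Fin t) ℤ) (R : ℕ), 0 < R ∧
      (∀ x : (Fin d → ℝ) × (Fin t → ℝ), ∃ k : Fin d ⊕ Fin t → ℤ,
        (x.1 - (fun i => ((B.mulVec k (Sum.inl i) : ℤ) : ℝ) / R),
          x.2 - (fun i => ((B.mulVec k (Sum.inr i) : ℤ) : ℝ))) ∈ K') ∧
      (R : ℝ) ^ d * ((1 - 2 / (n : ℝ)) ^ d * V₀) / 2 ^ (efin d + 2) ≤ |(B.det : ℝ)| := by
  classical
  obtain ⟨d₁, hd₁⟩ := base_hash
  obtain ⟨d₂, hd₂⟩ := bigD_eventually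
  refine ⟨max d₁ d₂, fun d hd t n hn hn8 hnum1 hnum2 K' hK'c hK' V₀ hV₀ hwin => ?_⟩
  have hBig := hd₂ d (le_trans (le_max_right _ _) hd)
  have hbase := hd₁ d (le_trans (le_max_left _ _) hd)
  have hdge : 2 ≤ d := by
    have := hBig.big
    omega
  have hd0 : 0 < d := by omega
  have hn0 : 0 < n := by omega
  have hnR : (8 : ℝ) ≤ n := by exact_mod_cast hn8
  have hnR0 : (0 : ℝ) < n := by linarith
  set δ : ℝ := 1 / (n : ℝ) with hδ
  have hδ0 : 0 < δ := by positivity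
  have hδ8 : δ ≤ 1 / 8 := by
    rw [hδ]
    apply one_div_le_one_div_of_le (by norm_num) hnR
  have hδ1 : δ ≤ 1 / 4 := by linarith
  have hκ : 1 - 2 * δ = 1 - 2 / (n : ℝ) := by
    rw [hδ]
    ring
  have hκ0 : 0 < 1 - 2 * δ := by linarith
  have hκ1 : 1 - 2 * δ ≤ 1 := by linarith
  obtain ⟨cy, C₁, C₀, hcy, hC₁c, hC₁K, hC₀c, hC₀K, hsym, hC, hadd, hv₁, hv₀, r, hr, hball⟩ :=
    eroder hd0 K' hK'c hK' V₀ hV₀ hwin δ hδ0
  -- the family of bodies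
  let U : Type := ↥(hbox t n)
  have hx₀ : ∀ u : U, ∀ i, |(u.1 i : ℝ) / n| ≤ 1 := fun u i => abs_height_le hn0 u.1 u.2 i
  choose B' hB'c hB'K hB'v hB'mem using fun u : U =>
    body_family hd0 K' hK'c hK' V₀ hV₀ hwin δ hδ0 hδ1 cy (fun i => (u.1 i : ℝ) / n) (hx₀ u)
  set V₁ : ℝ := (1 - 2 * δ) ^ d * V₀ with hV₁def
  have hV₁ : 0 < V₁ := by positivity
  have hB'v' : ∀ u, (volume (B' u)).toReal = V₁ := by
    intro u
    rw [hB'v u, ENNReal.toReal_ofReal hV₁.le]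
  choose! W₀fun hW₀fun using hbase
  have hv₁' : (volume C₁).toReal = (δ / 4) ^ d * V₀ := by
    rw [hv₁, ENNReal.toReal_ofReal (by positivity)]
  have hv₀' : (volume C₀).toReal = (δ / 2) ^ d * V₀ := by
    rw [hv₀, ENNReal.toReal_ofReal (by positivity)]
  obtain ⟨θ, R, W, Q, P, hθ, hR, hP, hW, hQ1, hQ2, hgood, hP1, hP2, hY1c, hY0c, hRr, hPdvd⟩ :=
    select_R hdge B' V₁ hV₁ hB'c hB'K hB'v' C₁ C₀ hC₁c hC₁K hC₀c hC₀K ((δ / 4) ^ d * V₀)
      ((δ / 2) ^ d * V₀) (by positivity) (by positivity) hv₁' hv₀' (e0 d) r hr W₀fun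
  have : Fact P.Prime := ⟨hP⟩
  have hR0 : (0 : ℝ) < R := by exact_mod_cast hR
  have hRd : (0 : ℝ) < (R : ℝ) ^ d := by positivity
  have hPpos : (0 : ℝ) < P := by exact_mod_cast hP.pos
  set Y0 : Finset (Fin d → ℤ) := (lat C₀ R).erase 0 with hY0
  have hY0dvd : ∀ y ∈ Y0, ∃ i, ¬ (P : ℤ) ∣ y i := by
    intro y hy
    rw [hY0, Finset.mem_erase] at hy
    exact hPdvd y hy.2 hy.1
  have hY0card : 8 * Y0.card ≤ P := by
    have h1 : (Y0.card : ℝ) ≤ (lat C₀ R).card := by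
      exact_mod_cast Finset.card_erase_le
    have h2 := num_Y0 hBig δ hδ0 hδ8
    have h3 : 16 * ((δ / 2) ^ d * V₀ * (R : ℝ) ^ d) * 2 ^ (e0 d + 2) ≤ (R : ℝ) ^ d * V₁ := by
      have h4 := mul_le_mul_of_nonneg_right h2 (by positivity : 0 ≤ V₀ * (R : ℝ) ^ d)
      rw [hV₁def]
      nlinarith
    have h5 : 8 * (Y0.card : ℝ) ≤ P := by
      have h6 : 8 * (Y0.card : ℝ) * 2 ^ (e0 d + 2) ≤ (P : ℝ) * 2 ^ (e0 d + 2) := by
        have h7 : 8 * (Y0.card : ℝ) ≤ 16 * ((δ / 2) ^ d * V₀ * (R : ℝ) ^ d) := by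
          linarith
        have h8 : (0 : ℝ) < 2 ^ (e0 d + 2) := by positivity
        nlinarith
      exact le_of_mul_le_mul_right h6 (by positivity)
    exact_mod_cast h5
  have hUcard : (Fintype.card U : ℝ) = (2 * (n : ℝ)) ^ t := by
    have : Fintype.card U = (2 * n) ^ t := by
      rw [Fintype.card_coe, card_hbox]
    rw [this]
    push_cast
    ring
  obtain ⟨r', ρ, hne, hvoid⟩ := hW₀fun θ hθ U (fun u => lat (B' u) R) ((R : ℝ) ^ d * V₁) W Q P Y0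
    (by rw [hUcard]; exact hnum1) hW hQ1 hQ2 hgood hP1 hP2 hY0dvd hY0card
  have hcardG : (Fintype.card (ZMod P × (Fin (mstar d) → ZMod 2)) : ℝ) = (P : ℝ) * 2 ^ mstar d := by
    simp [Fintype.card_prod, ZMod.card, Fintype.card_fun]
  have hm := hBig.m1
  set ε : ℝ := (1 / 2 : ℝ) ^ (mstar d / 4) with hε
  have hε0 : 0 ≤ ε := by positivity
  have hε1 : ε < 1 / 2 := by
    have h1 : (1 / 2 : ℝ) ^ (mstar d / 4) ≤ (1 / 2 : ℝ) ^ 2 :=
      pow_le_pow_of_le_one (by norm_num) (by norm_num) (by omega)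
    rw [hε]
    norm_num at h1 ⊢
    linarith
  have hcardmul : ∀ (S : Finset (ZMod P × (Fin (mstar d) → ZMod 2))), ((S.card : ℝ) ≤ ε * ((P : ℝ) * 2 ^ mstar d)) →
      (S.card : ℝ) ≤ ε * (Fintype.card (ZMod P × (Fin (mstar d) → ZMod 2)) : ℝ) := by
    intro S hS
    rw [hcardG]
    exact hS
  -- the family of lattice points
  let A : (Fin t → ℤ) → Finset (Fin d → ℤ) := fun u =>
    if hu : u ∈ hbox t n then lat (B' ⟨u, hu⟩) R else ∅
  have hAeq : ∀ u (hu : u ∈ hbox t n), A u = lat (B' ⟨u, hu⟩) R := fun u hu => dif_pos hu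
  have hA : ∀ u : Fin t → ℤ, (∀ i, -(n : ℤ) ≤ u i ∧ u i < n) → ∀ a ∈ A u,
      ((1 - 2 * δ)⁻¹ • ((fun i => (a i : ℝ) / R) - (2 * δ) • cy),
        (1 - 2 * δ)⁻¹ • (fun i => (u i : ℝ) / n)) ∈ K' := by
    intro u hu a ha
    have hu' := (mem_hbox u).mpr hu
    rw [hAeq u hu'] at ha
    have h1 := (mem_lat (hB'K ⟨u, hu'⟩).isBounded hR a).mp ha
    exact hB'mem ⟨u, hu'⟩ _ h1
  have hvoid' : ∀ u : Fin t → ℤ, (∀ i, -(n : ℤ) ≤ u i ∧ u i < n) →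
      ∀ (inst : DecidablePred fun c : ZMod P × (Fin (mstar d) → ZMod 2) => ∀ y ∈ A u, hash r' ρ y ≠ c),
      ((univ.filter fun c : ZMod P × (Fin (mstar d) → ZMod 2) => ∀ y ∈ A u, hash r' ρ y ≠ c).card : ℝ) ≤
        ε * Fintype.card (ZMod P × (Fin (mstar d) → ZMod 2)) := by
    intro u hu inst
    have hu' := (mem_hbox u).mpr hu
    have h1 := hvoid ⟨u, hu'⟩
    apply hcardmul
    convert h1 using 3
    ext c
    simp only [Finset.mem_filter, Finset.mem_univ, true_and, hAeq u hu']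
  have hu0 : (0 : Fin t → ℤ) ∈ hbox t n := by
    rw [mem_hbox]
    intro i
    have : (0 : ℤ) < n := by exact_mod_cast hn0
    simp only [Pi.zero_apply]
    omega
  have hsurj : Function.Surjective (hash r' ρ) :=
    surj_of_large (hash r' ρ) (lat (B' ⟨0, hu0⟩) R) ε hε1 (hcardmul _ (hvoid ⟨0, hu0⟩))
  have hinj : Set.InjOn (hash r' ρ) (lat C₁ R : Set (Fin d → ℤ)) := by
    intro a ha b hb hab
    by_contra hne'
    have ha' := (mem_lat hC₁K.isBounded hR a).mp ha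
    have hb' := (mem_lat hC₁K.isBounded hR b).mp hb
    have hsum : (fun i => ((a - b) i : ℝ) / R) ∈ C₀ := by
      have h1 := hadd _ ha' _ (hsym _ hb')
      convert h1 using 1
      ext i
      simp only [Pi.sub_apply, Int.cast_sub, Pi.add_apply, Pi.neg_apply]
      ring
    have hmem : a - b ∈ Y0 := by
      rw [hY0, Finset.mem_erase]
      exact ⟨sub_ne_zero.mpr hne', (mem_lat hC₀K.isBounded hR _).mpr hsum⟩
    exact hne _ hmem (by rw [map_sub, hab, sub_self])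
  have he0 : e0 d = efin d + mstar d := rfl
  have hcardle : (P : ℝ) * 2 ^ mstar d ≤ (R : ℝ) ^ d * V₀ := by
    have h1 : (2 : ℝ) ^ mstar d ≤ 2 ^ (e0 d + 1) :=
      pow_le_pow_right₀ (by norm_num) (by rw [he0]; omega)
    have h2 : (P : ℝ) * 2 ^ mstar d ≤ (R : ℝ) ^ d * V₁ := by
      have := mul_le_mul_of_nonneg_left h1 hPpos.le
      linarith
    have h3 : V₁ ≤ V₀ := by
      rw [hV₁def]
      have : (1 - 2 * δ) ^ d ≤ 1 := pow_le_one₀ hκ0.le hκ1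
      nlinarith
    have h4 : (R : ℝ) ^ d * V₁ ≤ (R : ℝ) ^ d * V₀ := mul_le_mul_of_nonneg_left h3 hRd.le
    linarith
  have hdel4 : δ / 4 = 1 / (4 * (n : ℝ)) := by
    rw [hδ]
    field_simp
  have hcount : ((2 * (n : ℝ)) ^ t) ^ (2 ^ t - 1) * ε ^ (2 ^ t) *
      Fintype.card (ZMod P × (Fin (mstar d) → ZMod 2)) < (lat C₁ R).card := by
    rw [hcardG]
    have h0 : 0 ≤ ((2 * (n : ℝ)) ^ t) ^ (2 ^ t - 1) * ε ^ (2 ^ t) := by positivity
    have hRV : 0 < (R : ℝ) ^ d * V₀ := by positivity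
    have h1 := num_count _ _ _ _ _ _ hnum2 (by positivity) hcardle h0 hRV
    refine lt_of_lt_of_le h1 ?_
    refine le_trans (le_of_eq ?_) hY1c
    rw [hdel4]
    ring
  have hcov := abstract_cover (G := ZMod P × (Fin (mstar d) → ZMod 2)) K' hK'c δ hδ0 hδ1 n hn0
    (by rw [hδ]; field_simp; exact le_refl _) cy hcy (by
      intro x hx
      have h1 := hwin x hx
      have h2 : 0 < volume {y : Fin d → ℝ | (y, x) ∈ K'} :=
        lt_of_lt_of_le (by simp only [ENNReal.ofReal_pos]; exact hV₀) h1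
      obtain ⟨y, hy⟩ := nonempty_of_measure_ne_zero h2.ne'
      exact ⟨y, hy⟩)
    C₁ hsym hC R hR (by
      intro τ hτ
      apply hball
      intro i
      rw [abs_of_nonneg (hτ i).1]
      exact (hτ i).2.trans hRr) (hash r' ρ) hsurj A hA (lat C₁ R)
    (fun m hm => (mem_lat hC₁K.isBounded hR m).mp hm) hinj ε hε0 hvoid' hcount
  obtain ⟨B, hdet, hB⟩ := hcov
  refine ⟨B, R, hR, hB, ?_⟩
  have hdet' : |(B.det : ℝ)| = (P : ℝ) * 2 ^ mstar d := by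
    rw [← hcardG]
    have h1 : ((|B.det| : ℤ) : ℝ) = ((Fintype.card (ZMod P × (Fin (mstar d) → ZMod 2)) : ℤ) : ℝ) := by
      rw [hdet]
    simpa using h1
  rw [hdet', ← hκ, div_le_iff₀ (by positivity)]
  have h2 : (2 : ℝ) ^ (e0 d + 2) = 2 ^ mstar d * 2 ^ (efin d + 2) := by
    rw [he0, ← pow_add]
    congr 1
    ring
  rw [h2] at hP2
  calc (R : ℝ) ^ d * ((1 - 2 * δ) ^ d * V₀) ≤ 2 ^ mstar d * 2 ^ (efin d + 2) * (P : ℝ) := hP2
    _ = _ := by ring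

end Vale.Agent.Lib.P230
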