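import Mathlib

/-! MODULE F1 of P230: the linear algebra of the covering lattice in product coordinates. -/

set_option autoImplicit false

open MeasureTheory
open scoped ENNReal Matrix

namespace Vale.Agent.Lib.P230

/-- MODULE F1: the linear algebra of the covering lattice in product coordinates. -/
theorem core_step {d t : ℕ} (K : Set ((Fin d → ℝ) × (Fin t → ℝ))) (S : Matrix (Fin t) (Fin t) ℝ)
    (z₀ : Fin t → ℝ) (hS : S.det ≠ 0) (K' : Set ((Fin d → ℝ) × (Fin t → ℝ)))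
    (hK' : ∀ p, p ∈ K' ↔ (p.1, z₀ + S.mulVec p.2) ∈ K)
    (B : Matrix (Fin d ⊕ Fin t) (Fin d ⊕ Fin t) ℤ) (R : ℕ) (hR : 0 < R)
    (hcover : ∀ x : (Fin d → ℝ) × (Fin t → ℝ), ∃ k : Fin d ⊕ Fin t → ℤ,
      (x.1 - (fun i => ((B.mulVec k (Sum.inl i) : ℤ) : ℝ) / R),
        x.2 - (fun i => ((B.mulVec k (Sum.inr i) : ℤ) : ℝ))) ∈ K') :
    ∃ A₂ : Matrix (Fin d ⊕ Fin t) (Fin d ⊕ Fin t) ℝ,
      |A₂.det| = ((R : ℝ) ^ d)⁻¹ * |S.det| * |(B.det : ℝ)| ∧
      ∀ x : (Fin d → ℝ) × (Fin t → ℝ), ∃ u ∈ K, ∃ m : Fin d ⊕ Fin t → ℤ,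
        x = u + (fun i => A₂.mulVec (fun j => (m j : ℝ)) (Sum.inl i),
          fun i => A₂.mulVec (fun j => (m j : ℝ)) (Sum.inr i)) := by
  have hRpos : (0 : ℝ) < (R : ℝ) := by exact_mod_cast hR
  -- the diagonal block matrix
  set D : Matrix (Fin d ⊕ Fin t) (Fin d ⊕ Fin t) ℝ :=
    Matrix.fromBlocks (((R : ℝ)⁻¹) • (1 : Matrix (Fin d) (Fin d) ℝ)) 0 0 S with hD
  set Bc : Matrix (Fin d ⊕ Fin t) (Fin d ⊕ Fin t) ℝ := B.map (Int.castRingHom ℝ) with hBc
  -- determinant of the integer part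
  have hBdet : Bc.det = (B.det : ℝ) := by
    have := (RingHom.map_det (Int.castRingHom ℝ) B).symm
    simpa [hBc] using this
  -- determinant of the diagonal block
  have hDdet : D.det = ((R : ℝ)⁻¹) ^ d * S.det := by
    rw [hD, Matrix.det_fromBlocks_zero₂₁, Matrix.det_smul, Matrix.det_one]
    simp
  -- the action of `Bc` on integer vectors
  have hBaction : ∀ (k : Fin d ⊕ Fin t → ℤ) (i : Fin d ⊕ Fin t),
      Bc.mulVec (fun j => (k j : ℝ)) i = ((B.mulVec k i : ℤ) : ℝ) := by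
    intro k i
    simp only [Matrix.mulVec, dotProduct, hBc, Matrix.map_apply, Int.cast_sum, Int.cast_mul,
      Int.coe_castRingHom]
  refine ⟨D * Bc, ?_, ?_⟩
  · rw [Matrix.det_mul, hDdet, hBdet, abs_mul, abs_mul, abs_pow, abs_of_pos (inv_pos.mpr hRpos),
      inv_pow]
  · intro x
    -- apply the cover at the transformed point
    obtain ⟨k, hk⟩ := hcover (x.1, S⁻¹.mulVec (x.2 - z₀))
    have hK := (hK' _).1 hk
    -- the unit of `S`
    have hSu : IsUnit S.det := isUnit_iff_ne_zero.mpr hS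
    have hSS : S * S⁻¹ = 1 := Matrix.mul_nonsing_inv S hSu
    set w : Fin d ⊕ Fin t → ℝ := fun j => ((B.mulVec k j : ℤ) : ℝ) with hw
    have hBw : Bc.mulVec (fun j => (k j : ℝ)) = w := funext (hBaction k)
    -- the action of `D`
    have hDinl : ∀ i : Fin d, D.mulVec w (Sum.inl i) = w (Sum.inl i) / R := by
      intro i
      have h1 : (D.mulVec w) (Sum.inl i)
          = (((R : ℝ)⁻¹ • (1 : Matrix (Fin d) (Fin d) ℝ)).mulVec (w ∘ Sum.inl)
              + (0 : Matrix (Fin d) (Fin t) ℝ).mulVec (w ∘ Sum.inr)) i := by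
        have hwsplit : w = Sum.elim (w ∘ Sum.inl) (w ∘ Sum.inr) := by
          funext j; cases j <;> rfl
        conv_lhs => rw [hwsplit, hD, Matrix.fromBlocks_mulVec]
        rfl
      rw [h1]
      simp [Matrix.smul_mulVec, div_eq_inv_mul]
    have hDinr : ∀ i : Fin t, D.mulVec w (Sum.inr i) = S.mulVec (w ∘ Sum.inr) i := by
      intro i
      have h1 : (D.mulVec w) (Sum.inr i)
          = ((0 : Matrix (Fin t) (Fin d) ℝ).mulVec (w ∘ Sum.inl)
              + S.mulVec (w ∘ Sum.inr)) i := by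
        have hwsplit : w = Sum.elim (w ∘ Sum.inl) (w ∘ Sum.inr) := by
          funext j; cases j <;> rfl
        conv_lhs => rw [hwsplit, hD, Matrix.fromBlocks_mulVec]
        rfl
      rw [h1]
      simp
    have hA : ∀ j, (D * Bc).mulVec (fun j => (k j : ℝ)) j = D.mulVec w j := by
      intro j
      rw [← Matrix.mulVec_mulVec, hBw]
    -- the witness
    refine ⟨(x.1 - (fun i => w (Sum.inl i) / R), x.2 - S.mulVec (w ∘ Sum.inr)), ?_, k, ?_⟩
    · -- membership in `K`
      have h2 : z₀ + S.mulVec (S⁻¹.mulVec (x.2 - z₀) - fun i => ((B.mulVec k (Sum.inr i) : ℤ) : ℝ))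
          = x.2 - S.mulVec (w ∘ Sum.inr) := by
        rw [Matrix.mulVec_sub, Matrix.mulVec_mulVec, hSS, Matrix.one_mulVec]
        have : (fun i => ((B.mulVec k (Sum.inr i) : ℤ) : ℝ)) = w ∘ Sum.inr := rfl
        rw [this]
        abel
      simp only [] at hK
      rw [h2] at hK
      exact hK
    · -- the decomposition of `x`
      refine Prod.ext ?_ ?_
      · funext i
        simp only [Prod.fst_add, Pi.add_apply, Pi.sub_apply]
        rw [hA, hDinl]
        ring
      · funext i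
        simp only [Prod.snd_add, Pi.add_apply, Pi.sub_apply]
        rw [hA, hDinr]
        ring

end Vale.Agent.Lib.P230
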