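import Vale.Agent.Lib.P230.Assembly3
import Vale.Agent.Lib.P230.CoreStep

/-!
# P230: assembly, the main statement in product coordinates.
-/

set_option autoImplicit false
set_option linter.unusedSectionVars false
set_option linter.unusedSimpArgs false
set_option linter.unusedVariables false

open MeasureTheory Finset
open scoped ENNReal Matrix

namespace Vale.Agent.Lib.P230

lemma num_final (Rd κd V₀ E bd : ℝ) (hRd : 0 < Rd) (hκd : 0 < κd) (hE : 0 < E)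
    (h : Rd * (κd * V₀) / E ≤ bd) : V₀ ≤ κd⁻¹ * E * (Rd⁻¹ * bd) := by
  rw [div_le_iff₀ hE] at h
  have e : κd⁻¹ * E * (Rd⁻¹ * bd) = (bd * E) / (Rd * κd) := by
    field_simp
  rw [e, le_div_iff₀ (by positivity)]
  linarith

/-- The main statement in product coordinates. -/
theorem core : ∃ d₀ : ℕ, ∀ d ≥ d₀, ∀ t n : ℕ, n = d + t → 1 ≤ t → 8 ≤ n →
    ((2 * (n : ℝ)) ^ t ≤ 2 ^ (mstar d / 16)) →
    (((2 * (n : ℝ)) ^ t) ^ (2 ^ t - 1) * ((1 / 2 : ℝ) ^ (mstar d / 4)) ^ (2 ^ t) <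
      (1 / 2) * (1 / (4 * (n : ℝ))) ^ d) →
    ∀ K₂ : Set ((Fin d → ℝ) × (Fin t → ℝ)), Convex ℝ K₂ → IsCompact K₂ → 0 < volume K₂ →
      ∃ A₂ : Matrix (Fin d ⊕ Fin t) (Fin d ⊕ Fin t) ℝ, A₂.det ≠ 0 ∧
        (∀ x : (Fin d → ℝ) × (Fin t → ℝ), ∃ u ∈ K₂, ∃ m : Fin d ⊕ Fin t → ℤ,
          x = u + (fun i => A₂.mulVec (fun j => (m j : ℝ)) (Sum.inl i),
            fun i => A₂.mulVec (fun j => (m j : ℝ)) (Sum.inr i))) ∧
        (volume K₂).toReal ≤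
          ((2 ^ 16 * (t : ℝ) ^ 2) ^ t * ((1 - 2 / (n : ℝ))⁻¹) ^ d * 2 ^ (efin d + 2)) * |A₂.det| := by
  obtain ⟨d₀, hd₀⟩ := lattice_data
  refine ⟨d₀, fun d hd t n hn ht hn8 hnum1 hnum2 K₂ hc hK hvol => ?_⟩
  obtain ⟨S, z₀, V₀, K', hS, hV₀, hK'c, hK'K, hK'def, hwin, hvolK⟩ := window_data ht K₂ hc hK hvol
  obtain ⟨B, R, hR, hcover, hdetB⟩ := hd₀ d hd t n hn hn8 hnum1 hnum2 K' hK'c hK'K V₀ hV₀ hwin
  obtain ⟨A₂, hdetA, hcov⟩ := core_step K₂ S z₀ hS K' hK'def B R hR hcover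
  have hnR : (8 : ℝ) ≤ n := by exact_mod_cast hn8
  have hκ0 : 0 < 1 - 2 / (n : ℝ) := by
    have : 2 / (n : ℝ) ≤ 2 / 8 := by
      apply div_le_div_of_nonneg_left (by norm_num) (by norm_num) hnR
    linarith
  have hR0 : (0 : ℝ) < R := by exact_mod_cast hR
  have hRd : (0 : ℝ) < (R : ℝ) ^ d := by positivity
  have hκd : 0 < (1 - 2 / (n : ℝ)) ^ d := by positivity
  have hE : (0 : ℝ) < 2 ^ (efin d + 2) := by positivity
  have hSpos : 0 < |S.det| := abs_pos.mpr hS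
  have hV := num_final _ _ V₀ _ _ hRd hκd hE hdetB
  have hbpos : 0 < |(B.det : ℝ)| := by
    refine lt_of_lt_of_le ?_ hdetB
    positivity
  refine ⟨A₂, ?_, hcov, ?_⟩
  · have : 0 < |A₂.det| := by
      rw [hdetA]
      positivity
    exact abs_pos.mp this
  · have h1 : (volume K₂).toReal ≤ (2 ^ 16 * (t : ℝ) ^ 2) ^ t * V₀ * |S.det| :=
      ENNReal.toReal_le_of_le_ofReal (by positivity) hvolK
    refine h1.trans ?_
    rw [hdetA, inv_pow]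
    have hc0 : (0 : ℝ) ≤ (2 ^ 16 * (t : ℝ) ^ 2) ^ t := by positivity
    calc (2 ^ 16 * (t : ℝ) ^ 2) ^ t * V₀ * |S.det|
        ≤ (2 ^ 16 * (t : ℝ) ^ 2) ^ t * (((1 - 2 / (n : ℝ)) ^ d)⁻¹ * 2 ^ (efin d + 2) *
            (((R : ℝ) ^ d)⁻¹ * |(B.det : ℝ)|)) * |S.det| := by
          apply mul_le_mul_of_nonneg_right _ hSpos.le
          exact mul_le_mul_of_nonneg_left hV hc0
      _ = _ := by ring

end Vale.Agent.Lib.P230
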