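import Vale.Agent.Lib.P230.ParamsLog

/-! MODULE G6: the numerics of the tuned fine window, final bound `n (log n)^15`. The gain of one
power of `log n` comes from `2 ^ efin d ≤ 2 ^ 20 * mstar d` and `mstar d * clog d ≤ d`. -/

set_option autoImplicit false

open Filter Topology

namespace Vale.Agent.Lib.P230

namespace ParamsAux2

open ParamsAux

lemma bigS2 (s : ℕ) (hs : 40 ≤ s) :
    8 * (5602 * (18 + 2 * s) ^ 2 + 28335 * (18 + 2 * s) + 11) ≤ 2 ^ (s - 2) := by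
  induction s, hs using Nat.le_induction with
  | base => norm_num
  | succ s hs ih =>
    have h1 : s + 1 - 2 = (s - 2) + 1 := by omega
    rw [h1, pow_succ]
    have h2 : 5602 * (18 + 2 * (s + 1)) ^ 2 + 28335 * (18 + 2 * (s + 1)) + 11 ≤
        2 * (5602 * (18 + 2 * s) ^ 2 + 28335 * (18 + 2 * s) + 11) := by
      obtain ⟨k, rfl⟩ : ∃ k, s = k + 40 := ⟨s - 40, by omega⟩
      ring_nf
      omega
    calc 8 * (5602 * (18 + 2 * (s + 1)) ^ 2 + 28335 * (18 + 2 * (s + 1)) + 11)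
        ≤ 8 * (2 * (5602 * (18 + 2 * s) ^ 2 + 28335 * (18 + 2 * s) + 11)) :=
          Nat.mul_le_mul_left _ h2
      _ = (8 * (5602 * (18 + 2 * s) ^ 2 + 28335 * (18 + 2 * s) + 11)) * 2 := by ring
      _ ≤ 2 ^ (s - 2) * 2 := Nat.mul_le_mul_right _ ih

lemma C4' {n t s L : ℕ} (ht : t = 18 + 2 * s) (hs40 : 40 ≤ s) (hL3 : 3 ≤ L) (hn : 0 < n)
    (hLn : 2 ^ (L - 3) ≤ n) (hs : 2 ^ (s - 2) ≤ L - 3) :
    1600 * ((5602 * (t : ℝ) + 1) ^ t) * ((49 / 4) * (t : ℝ)) * Real.exp (28322 * (t : ℝ)) ≤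
      Real.sqrt n := by
  have hn0 : (0 : ℝ) < n := by exact_mod_cast hn
  have ht0 : (0 : ℝ) ≤ t := Nat.cast_nonneg t
  have hlog := log_lower hL3 hn hLn hs
  obtain ⟨y, hy⟩ : ∃ y : ℝ, y = 5602 * (t : ℝ) ^ 2 + 28335 * (t : ℝ) + 11 := ⟨_, rfl⟩
  -- the bound of the left side by an exponential
  have h64 : (1600 : ℝ) ≤ Real.exp 11 := by
    have h1 : (2 : ℝ) ≤ Real.exp 1 := by
      have := Real.add_one_le_exp (1 : ℝ)
      linarith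
    have h2 : Real.exp 11 = Real.exp 1 ^ 11 := by
      rw [← Real.exp_nat_mul]
      norm_num
    rw [h2]
    calc (1600 : ℝ) ≤ 2 ^ 11 := by norm_num
      _ ≤ _ := pow_le_pow_left₀ (by norm_num) h1 11
  have hb : (5602 * (t : ℝ) + 1) ^ t ≤ Real.exp (5602 * (t : ℝ) ^ 2) := by
    have h1 : 5602 * (t : ℝ) + 1 ≤ Real.exp (5602 * (t : ℝ)) := Real.add_one_le_exp _
    calc (5602 * (t : ℝ) + 1) ^ t ≤ Real.exp (5602 * (t : ℝ)) ^ t :=
          pow_le_pow_left₀ (by positivity) h1 t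
      _ = Real.exp (5602 * (t : ℝ) ^ 2) := by
          rw [← Real.exp_nat_mul]
          congr 1
          ring
  have hc : (49 / 4) * (t : ℝ) ≤ Real.exp (13 * (t : ℝ)) := by
    have := Real.add_one_le_exp (13 * (t : ℝ))
    nlinarith
  have hle : 1600 * ((5602 * (t : ℝ) + 1) ^ t) * ((49 / 4) * (t : ℝ)) * Real.exp (28322 * (t : ℝ)) ≤
      Real.exp y := by
    rw [hy]
    calc 1600 * ((5602 * (t : ℝ) + 1) ^ t) * ((49 / 4) * (t : ℝ)) * Real.exp (28322 * (t : ℝ))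
        ≤ Real.exp 11 * Real.exp (5602 * (t : ℝ) ^ 2) * Real.exp (13 * (t : ℝ)) *
            Real.exp (28322 * (t : ℝ)) := by
          gcongr
      _ = Real.exp (5602 * (t : ℝ) ^ 2 + 28335 * (t : ℝ) + 11) := by
          rw [← Real.exp_add, ← Real.exp_add, ← Real.exp_add]
          congr 1
          ring
  refine le_trans hle ?_
  -- `2 y ≤ log n`
  have hbig := bigS2 s hs40
  rw [← ht] at hbig
  have hbig' : 8 * y ≤ (2 : ℝ) ^ (s - 2) := by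
    have : ((8 * (5602 * t ^ 2 + 28335 * t + 11) : ℕ) : ℝ) ≤ ((2 ^ (s - 2) : ℕ) : ℝ) := by
      exact_mod_cast hbig
    push_cast at this
    rw [hy]
    linarith
  have hy0 : 0 ≤ y := by rw [hy]; positivity
  have h2y : 2 * y ≤ Real.log n := by nlinarith
  apply Real.le_sqrt_of_sq_le
  rw [← Real.exp_nat_mul]
  have : ((2 : ℕ) : ℝ) * y = 2 * y := by norm_num
  rw [this]
  calc Real.exp (2 * y) ≤ Real.exp (Real.log n) := Real.exp_le_exp.2 h2y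
    _ = n := Real.exp_log hn0

/-- The refined form of `efin_le`. -/
lemma efin_le' (d : ℕ) (hm : 1 ≤ mstar d) : 2 ^ efin d ≤ 2 ^ 20 * mstar d := by
  unfold efin
  set m := mstar d with hmdef
  have hx : 1 < 2 ^ 19 * m := by
    have : 2 ^ 19 * 1 ≤ 2 ^ 19 * m := Nat.mul_le_mul_left _ hm
    omega
  have h1 := Nat.pow_pred_clog_lt_self (b := 2) (by norm_num) hx
  have hc : 0 < Nat.clog 2 (2 ^ 19 * m) := Nat.clog_pos (by norm_num) (by omega)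
  have h2 : 2 ^ Nat.clog 2 (2 ^ 19 * m) = 2 * 2 ^ (Nat.clog 2 (2 ^ 19 * m)).pred := by
    obtain ⟨k, hk⟩ : ∃ k, Nat.clog 2 (2 ^ 19 * m) = k + 1 :=
      ⟨Nat.clog 2 (2 ^ 19 * m) - 1, by omega⟩
    rw [hk]
    simp [pow_succ, mul_comm]
  rw [h2]
  calc 2 * 2 ^ (Nat.clog 2 (2 ^ 19 * m)).pred ≤ 2 * (2 ^ 19 * m) := by
        apply Nat.mul_le_mul_left
        exact h1.le
    _ = 2 ^ 20 * m := by ring

lemma mstar_mul_clog_le (d : ℕ) : mstar d * Nat.clog 2 d ≤ d := by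
  have hmst : mstar d = d / (1000 * (12 * Nat.clog 2 d)) := by
    simp [mstar, Eexp]
  rw [hmst]
  generalize Nat.clog 2 d = cl
  rcases Nat.eq_zero_or_pos cl with rfl | hcl
  · simp
  · have h := Nat.div_mul_le_self d (1000 * (12 * cl))
    calc d / (1000 * (12 * cl)) * cl ≤ d / (1000 * (12 * cl)) * (1000 * (12 * cl)) :=
          Nat.mul_le_mul_left _ (by omega)
      _ ≤ d := h

lemma C3log2 {n t d s L : ℕ} (hn8 : 8 ≤ n) (hdn : d ≤ n) (hnd : n ≤ 2 * d)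
    (hLn : 2 ^ (L - 3) ≤ n) (h4n : 4 * n ≤ 2 ^ L) (hL64 : 64 ≤ L)
    (hs : 2 ^ (s - 2) ≤ L - 3) (ht : t = 18 + 2 * s) (hm1 : 1 ≤ mstar d) (hs2 : 2 ≤ s)
    (hZ : ((1156 / 1155 * 4 * (215 : ℝ) ^ 18 * 2 ^ 29) ^ 2 * 6 ^ 31) ≤ Real.log n) :
    (1156 / 1155) * (4 * 215 ^ t) * ((1 - 2 / (n : ℝ))⁻¹) ^ d * 2 ^ (efin d + 2) ≤
      (n : ℝ) * (Real.log n) ^ 15 := by
  have hl2a := Real.log_two_gt_d9
  have hl2b := Real.log_two_lt_d9
  have hn0 : (0 : ℝ) < n := by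
    have : 0 < n := by omega
    exact_mod_cast this
  obtain ⟨x, hx⟩ : ∃ x, x = Real.log n := ⟨_, rfl⟩
  rw [← hx] at hZ ⊢
  obtain ⟨C₁, hC₁⟩ : ∃ C₁ : ℝ, C₁ = 1156 / 1155 * 4 * (215 : ℝ) ^ 18 * 2 ^ 29 := ⟨_, rfl⟩
  rw [← hC₁] at hZ
  have hC0 : 0 < C₁ := by rw [hC₁]; positivity
  have hC1 : 1 ≤ C₁ ^ 2 * 6 ^ 31 := by
    have h1 : 1 ≤ C₁ := by rw [hC₁]; norm_num
    have h2 : (1 : ℝ) ≤ C₁ ^ 2 := one_le_pow₀ h1
    have h3 : (1 : ℝ) ≤ 6 ^ 31 := one_le_pow₀ (by norm_num)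
    nlinarith
  have hx1 : 1 ≤ x := le_trans hC1 hZ
  have hx0 : 0 < x := by linarith
  -- the size of `2 ^ s`
  have hQ : (2 : ℝ) ^ s ≤ 6 * x := by
    have h1 : ((2 : ℝ) ^ (L - 3)) ≤ n := by exact_mod_cast hLn
    have h2 := Real.log_le_log (by positivity) h1
    rw [Real.log_pow, ← hx] at h2
    have h3 : ((2 ^ (s - 2) : ℕ) : ℝ) ≤ ((L - 3 : ℕ) : ℝ) := by exact_mod_cast hs
    push_cast at h3
    have h5 : (0 : ℝ) ≤ ((L - 3 : ℕ) : ℝ) := Nat.cast_nonneg _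
    have e : (2 : ℝ) ^ s = 4 * 2 ^ (s - 2) := by
      conv_lhs => rw [show s = (s - 2) + 2 by omega, pow_add]
      ring
    rw [e]
    nlinarith
  -- the main power bound
  have hmain : C₁ * 215 ^ (2 * s) ≤ x ^ 16 := by
    have h5 : (C₁ * 215 ^ (2 * s)) ^ 2 ≤ (x ^ 16) ^ 2 := by
      have e1 : (C₁ * (215 : ℝ) ^ (2 * s)) ^ 2 = C₁ ^ 2 * (((215 : ℝ) ^ 4)) ^ s := by
        rw [mul_pow, ← pow_mul, ← pow_mul]
        congr 2
        ring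
      have e2 : ((215 : ℝ) ^ 4) ^ s ≤ (2 ^ 31) ^ s :=
        pow_le_pow_left₀ (by positivity) (by norm_num) _
      have e3 : ((2 : ℝ) ^ 31) ^ s = ((2 : ℝ) ^ s) ^ 31 := by
        rw [← pow_mul, ← pow_mul]
        congr 1
        ring
      have e4 : ((2 : ℝ) ^ s) ^ 31 ≤ (6 * x) ^ 31 :=
        pow_le_pow_left₀ (by positivity) hQ 31
      have e5 : (C₁ ^ 2 * 6 ^ 31) * x ^ 31 ≤ x * x ^ 31 :=
        mul_le_mul_of_nonneg_right hZ (by positivity)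
      have e6 : x * x ^ 31 ≤ (x ^ 16) ^ 2 := by
        rw [← pow_succ', ← pow_mul]
      have hC5 : 0 ≤ C₁ ^ 2 := by positivity
      calc (C₁ * (215 : ℝ) ^ (2 * s)) ^ 2 = C₁ ^ 2 * ((215 : ℝ) ^ 4) ^ s := e1
        _ ≤ C₁ ^ 2 * (6 * x) ^ 31 :=
            mul_le_mul_of_nonneg_left (e2.trans (e3.le.trans e4)) hC5
        _ = (C₁ ^ 2 * 6 ^ 31) * x ^ 31 := by rw [mul_pow]; ring
        _ ≤ x * x ^ 31 := e5
        _ ≤ _ := e6
    exact (pow_le_pow_iff_left₀ (by positivity) (by positivity) (by norm_num)).1 h5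
  -- the other factors
  have P2 := inv_pow_le n d hn8 hdn
  have heff := efin_le' d hm1
  have P3 : (2 : ℝ) ^ (efin d + 2) ≤ 2 ^ 22 * (mstar d : ℝ) := by
    have : 2 ^ (efin d + 2) ≤ 2 ^ 22 * mstar d := by
      rw [pow_add]
      calc 2 ^ efin d * 2 ^ 2 ≤ (2 ^ 20 * mstar d) * 2 ^ 2 := Nat.mul_le_mul_right _ heff
        _ = 2 ^ 22 * mstar d := by ring
    exact_mod_cast this
  -- `log n ≤ clog d`
  have hcl : (x : ℝ) ≤ (Nat.clog 2 d : ℝ) := by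
    have h1 : 2 ^ (L - 4) ≤ d := by
      have e : 2 ^ (L - 3) = 2 * 2 ^ (L - 4) := by
        rw [show L - 3 = (L - 4) + 1 by omega, pow_succ]
        ring
      omega
    have h2 : d ≤ 2 ^ Nat.clog 2 d := Nat.le_pow_clog (by norm_num) _
    have h3 : L - 4 ≤ Nat.clog 2 d :=
      (Nat.pow_le_pow_iff_right (by norm_num)).1 (h1.trans h2)
    have h4 : (L : ℝ) - 4 ≤ (Nat.clog 2 d : ℝ) := by
      have : L ≤ Nat.clog 2 d + 4 := by omega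
      have h5 : (L : ℝ) ≤ (Nat.clog 2 d : ℝ) + 4 := by exact_mod_cast this
      linarith
    have h6 : (n : ℝ) ≤ 2 ^ L := by
      have : n ≤ 2 ^ L := by omega
      exact_mod_cast this
    have h7 := Real.log_le_log hn0 h6
    rw [Real.log_pow, ← hx] at h7
    have h8 : (64 : ℝ) ≤ L := by exact_mod_cast hL64
    nlinarith
  have hmx : (mstar d : ℝ) * x ≤ n := by
    have h1 : mstar d * Nat.clog 2 d ≤ n := (mstar_mul_clog_le d).trans hdn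
    have h2 : (mstar d : ℝ) * (Nat.clog 2 d : ℝ) ≤ n := by exact_mod_cast h1
    have h3 : (mstar d : ℝ) * x ≤ (mstar d : ℝ) * (Nat.clog 2 d : ℝ) :=
      mul_le_mul_of_nonneg_left hcl (Nat.cast_nonneg _)
    linarith
  have hinv0 : 0 ≤ ((1 - 2 / (n : ℝ))⁻¹) ^ d := by
    have hx' : 2 / (n : ℝ) ≤ 1 := by
      rw [div_le_one hn0]
      have : (8 : ℝ) ≤ n := by exact_mod_cast hn8
      linarith
    exact pow_nonneg (inv_nonneg.2 (by linarith)) _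
  have e7 : (215 : ℝ) ^ t = 215 ^ 18 * 215 ^ (2 * s) := by
    rw [ht, pow_add]
  have hstep : (1156 / 1155) * (4 * 215 ^ t) * ((1 - 2 / (n : ℝ))⁻¹) ^ d * 2 ^ (efin d + 2) ≤
      (mstar d : ℝ) * (C₁ * 215 ^ (2 * s)) := by
    calc (1156 / 1155) * (4 * 215 ^ t) * ((1 - 2 / (n : ℝ))⁻¹) ^ d * 2 ^ (efin d + 2)
        ≤ (1156 / 1155) * (4 * 215 ^ t) * 2 ^ 7 * (2 ^ 22 * (mstar d : ℝ)) := by
          apply mul_le_mul (mul_le_mul_of_nonneg_left P2 (by positivity)) P3 (by positivity)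
            (by positivity)
      _ = (mstar d : ℝ) * (C₁ * 215 ^ (2 * s)) := by
          rw [e7, hC₁]
          ring
  have hfin : (1156 / 1155) * (4 * 215 ^ t) * ((1 - 2 / (n : ℝ))⁻¹) ^ d * 2 ^ (efin d + 2) * x ≤
      (n : ℝ) * x ^ 15 * x := by
    calc (1156 / 1155) * (4 * 215 ^ t) * ((1 - 2 / (n : ℝ))⁻¹) ^ d * 2 ^ (efin d + 2) * x
        ≤ ((mstar d : ℝ) * (C₁ * 215 ^ (2 * s))) * x :=
          mul_le_mul_of_nonneg_right hstep hx0.le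
      _ = ((mstar d : ℝ) * x) * (C₁ * 215 ^ (2 * s)) := by ring
      _ ≤ (n : ℝ) * x ^ 16 :=
          mul_le_mul hmx hmain (by positivity) hn0.le
      _ = (n : ℝ) * x ^ 15 * x := by ring
  exact le_of_mul_le_mul_right hfin hx0

end ParamsAux2

open ParamsAux ParamsAux2 in
/-- MODULE G6: numerics, as `params_log`. `t = 18 + 2 clog clog (4 n)` as in Params.lean. -/
theorem params_log2 (d₀ : ℕ) : ∃ n₀ : ℕ, ∀ n ≥ n₀, ∃ d t : ℕ,
    d + t = n ∧ 3 ≤ t ∧ d₀ ≤ d ∧ 8 ≤ n ∧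
    ((2 * (n : ℝ)) ^ t ≤ 2 ^ (mstar d / 16)) ∧
    (((2 * (n : ℝ)) ^ t) ^ (2 ^ t - 1) * ((1 / 2 : ℝ) ^ (mstar d / 4)) ^ (2 ^ t) <
      (1 / 2) * (1 / (4 * (n : ℝ))) ^ d) ∧
    (1600 * ((5602 * (t : ℝ) + 1) ^ t) * ((49 / 4) * (t : ℝ)) * Real.exp (28322 * (t : ℝ)) ≤ Real.sqrt n) ∧
    ((1156 / 1155) * (4 * 215 ^ t) * ((1 - 2 / (n : ℝ))⁻¹) ^ d * 2 ^ (efin d + 2) ≤
      (n : ℝ) * (Real.log n) ^ 15) := by
  have e1 : Tendsto (fun n : ℕ => Real.log n) atTop atTop :=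
    Real.tendsto_log_atTop.comp tendsto_natCast_atTop_atTop
  obtain ⟨Z, hZ⟩ : ∃ Z : ℝ, Z = (1156 / 1155 * 4 * (215 : ℝ) ^ 18 * 2 ^ 29) ^ 2 * 6 ^ 31 := ⟨_, rfl⟩
  obtain ⟨a, ha⟩ := eventually_atTop.1 (e1.eventually_ge_atTop Z)
  obtain ⟨s₁, hs₁⟩ : ∃ s₁ : ℕ, s₁ = 40 := ⟨_, rfl⟩
  have hs₁7 : 7 ≤ s₁ := by omega
  refine ⟨2 ^ (2 ^ s₁) + 2 * d₀ + a + 2 ^ 64, fun n hn => ?_⟩
  have hn1 : 2 ^ (2 ^ s₁) ≤ n := by
    generalize 2 ^ (2 ^ s₁) = A at hn ⊢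
    omega
  have hn2 : 2 * d₀ ≤ n := by
    generalize 2 ^ (2 ^ s₁) = A at hn
    omega
  have hna : a ≤ n := by
    generalize 2 ^ (2 ^ s₁) = A at hn
    omega
  have hn3 : 8 ≤ n := by
    generalize 2 ^ (2 ^ s₁) = A at hn
    omega
  have hz := ha n hna
  rw [hZ] at hz
  obtain ⟨L, s, h4n, hLs, hss, hL64, hLn, hsL, hsL'⟩ := scale_facts hs₁7 hn1
  have hs40 : 40 ≤ s := by omega
  obtain ⟨t, ht⟩ : ∃ t, t = 18 + 2 * s := ⟨_, rfl⟩
  have ht1 : 1 ≤ t := by omega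
  have htL : t ≤ 18 + 2 * L := by omega
  have hbigL := bigL L hL64
  have hbign : 400000 * L ^ 2 * t ≤ n :=
    le_trans (Nat.mul_le_mul_left _ htL) (le_trans hbigL hLn)
  have ht2 : t ≤ n := by
    have hLsq : 1 ≤ 400000 * L ^ 2 := Nat.mul_pos (by norm_num) (Nat.pow_pos (by omega))
    exact le_trans (Nat.le_mul_of_pos_left _ hLsq) hbign
  obtain ⟨d, hdt⟩ : ∃ d, d + t = n := ⟨n - t, by omega⟩
  obtain ⟨hd2, hdbig, hd1⟩ := dim_facts hbign hL64 ht1 hdt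
  have hdn : d ≤ n := by omega
  have hclL : Nat.clog 2 d ≤ L := by
    have h5 := Nat.clog_mono_right 2 (le_trans (le_trans hdn (by omega)) h4n)
    rwa [Nat.clog_pow 2 _ (by norm_num)] at h5
  obtain ⟨hLt_a, hk, hm1⟩ := arith_m hdbig hclL hd1 (by omega) ht1 hLs ht
  have hA : (2 * (n : ℝ)) ^ t ≤ 2 ^ (mstar d / 16) := C1 h4n hLt_a
  refine ⟨d, t, hdt, by omega, by omega, hn3, hA, ?_, ?_, ?_⟩
  · exact C2 (by omega) h4n hA hk
  · exact C4' ht hs40 (by omega) (by omega) hLn hsL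
  · exact C3log2 hn3 hdn hd2 hLn h4n hL64 hsL ht hm1 (by omega) hz

end Vale.Agent.Lib.P230
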