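import Vale.Agent.Lib.P245.PLT

/-!
# P230: truncation keeps the second moment (MODULE W4b).

`borell_mean`: a convex compact `K ⊆ ℝⁿ` with `∫_K |x|² = n vol K`. Its part `G` in the ball
`|x|² ≤ 10 n` has at least `9/10` of the volume of `K`, and `∫_G |x|² ≥ (n / 61) vol G`.
Markov twice, then Borell's lemma from the Prekopa-Leindler inequality.
-/

set_option autoImplicit false

open MeasureTheory Finset
open scoped ENNReal

namespace Vale.Agent.Lib.P230

namespace BorellAux

variable {n : ℕ}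

lemma sqrt_sum_eq (x : Fin n → ℝ) :
    Real.sqrt (∑ j, x j ^ 2) = ‖(WithLp.toLp 2 x : EuclideanSpace ℝ (Fin n))‖ := by
  rw [EuclideanSpace.norm_eq]
  simp [Real.norm_eq_abs, sq_abs]

/-- A convex combination of a far point and a point of the small ball is outside the small ball. -/
lemma out_of_ball {ρ : ℝ} (k : ℕ) {x y : Fin n → ℝ}
    (hx : (2 * (k : ℝ) + 1) * ρ < Real.sqrt (∑ j, x j ^ 2))
    (hy : Real.sqrt (∑ j, y j ^ 2) ≤ ρ) :
    ρ < Real.sqrt (∑ j, ((1 / ((k : ℝ) + 1)) • x + ((k : ℝ) / ((k : ℝ) + 1)) • y) j ^ 2) := by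
  have hk : (0 : ℝ) < (k : ℝ) + 1 := by positivity
  set z : Fin n → ℝ := (1 / ((k : ℝ) + 1)) • x + ((k : ℝ) / ((k : ℝ) + 1)) • y with hz
  have hxz : x = ((k : ℝ) + 1) • z - (k : ℝ) • y := by
    ext j
    simp only [hz, Pi.sub_apply, Pi.smul_apply, Pi.add_apply, smul_eq_mul]
    field_simp
    ring
  rw [sqrt_sum_eq] at hx hy ⊢
  have hE : (WithLp.toLp 2 x : EuclideanSpace ℝ (Fin n)) =
      ((k : ℝ) + 1) • (WithLp.toLp 2 z : EuclideanSpace ℝ (Fin n)) -
        (k : ℝ) • (WithLp.toLp 2 y : EuclideanSpace ℝ (Fin n)) := by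
    rw [hxz]
    simp only [WithLp.toLp_sub, WithLp.toLp_smul]
  have hle : ‖(WithLp.toLp 2 x : EuclideanSpace ℝ (Fin n))‖ ≤
      ((k : ℝ) + 1) * ‖(WithLp.toLp 2 z : EuclideanSpace ℝ (Fin n))‖ +
        (k : ℝ) * ‖(WithLp.toLp 2 y : EuclideanSpace ℝ (Fin n))‖ := by
    rw [hE]
    refine (norm_sub_le _ _).trans ?_
    rw [norm_smul, norm_smul, Real.norm_eq_abs, Real.norm_eq_abs, abs_of_pos hk,
      abs_of_nonneg (Nat.cast_nonneg k)]
  have hk0 : (0 : ℝ) ≤ (k : ℝ) := Nat.cast_nonneg k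
  have h2 : (k : ℝ) * ‖(WithLp.toLp 2 y : EuclideanSpace ℝ (Fin n))‖ ≤ (k : ℝ) * ρ :=
    mul_le_mul_of_nonneg_left hy hk0
  have h3 : ((k : ℝ) + 1) * ρ < ((k : ℝ) + 1) * ‖(WithLp.toLp 2 z : EuclideanSpace ℝ (Fin n))‖ := by
    nlinarith
  exact lt_of_mul_lt_mul_left h3 hk.le

/-- Prekopa-Leindler for indicators. -/
lemma pl_sets {t : ℝ} (ht0 : 0 < t) (ht1 : t < 1) {S1 S2 S3 : Set (Fin n → ℝ)}
    (m1 : MeasurableSet S1) (m2 : MeasurableSet S2) (m3 : MeasurableSet S3)
    (h : ∀ x ∈ S1, ∀ y ∈ S2, (1 - t) • x + t • y ∈ S3) :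
    volume S1 ^ (1 - t) * volume S2 ^ t ≤ volume S3 := by
  have key := Vale.Agent.Lib.P245.pl_pi (n := n) ht0 ht1
    (f := S1.indicator fun _ => (1 : ℝ≥0∞)) (g := S2.indicator fun _ => (1 : ℝ≥0∞))
    (h := S3.indicator fun _ => (1 : ℝ≥0∞))
    (measurable_const.indicator m1) (measurable_const.indicator m2)
    (measurable_const.indicator m3) (by
      intro x y
      by_cases hx : x ∈ S1
      · by_cases hy : y ∈ S2
        · have hxy := h x hx y hy
          simp [Set.indicator_of_mem, hx, hy, hxy]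
        · have e : (0 : ℝ≥0∞) ^ t = 0 := ENNReal.zero_rpow_of_pos ht0
          simp [Set.indicator_of_notMem, hy, e]
      · have e : (0 : ℝ≥0∞) ^ (1 - t) = 0 := ENNReal.zero_rpow_of_pos (by linarith)
        simp [Set.indicator_of_notMem, hx, e])
  simpa only [lintegral_indicator_const m1, lintegral_indicator_const m2,
    lintegral_indicator_const m3, one_mul] using key

/-- The multiplicative form in reals: `vol S1 * (vol S2)^k ≤ (vol S3)^(k+1)`. -/
lemma step_real {k : ℕ} (hk : 0 < k) {S1 S2 S3 : Set (Fin n → ℝ)}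
    (m1 : MeasurableSet S1) (m2 : MeasurableSet S2) (m3 : MeasurableSet S3)
    (f1 : volume S1 ≠ ∞) (f2 : volume S2 ≠ ∞) (f3 : volume S3 ≠ ∞)
    (h : ∀ x ∈ S1, ∀ y ∈ S2, (1 / ((k : ℝ) + 1)) • x + ((k : ℝ) / ((k : ℝ) + 1)) • y ∈ S3) :
    (volume S1).toReal * (volume S2).toReal ^ k ≤ (volume S3).toReal ^ (k + 1) := by
  have hk1 : (0 : ℝ) < (k : ℝ) + 1 := by positivity
  have hk0 : (0 : ℝ) < (k : ℝ) := by exact_mod_cast hk
  have ht0 : (0 : ℝ) < (k : ℝ) / ((k : ℝ) + 1) := by positivity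
  have ht1 : (k : ℝ) / ((k : ℝ) + 1) < 1 := by
    rw [div_lt_one hk1]
    linarith
  have e1 : 1 - (k : ℝ) / ((k : ℝ) + 1) = 1 / ((k : ℝ) + 1) := by
    field_simp
    ring
  have key := pl_sets ht0 ht1 m1 m2 m3 (by
    intro x hx y hy
    rw [e1]
    exact h x hx y hy)
  rw [e1] at key
  have hr := ENNReal.toReal_mono f3 key
  rw [ENNReal.toReal_mul, ← ENNReal.toReal_rpow, ← ENNReal.toReal_rpow] at hr
  set a := (volume S1).toReal with ha
  set b := (volume S2).toReal with hb
  set c := (volume S3).toReal with hc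
  have a0 : 0 ≤ a := ENNReal.toReal_nonneg
  have b0 : 0 ≤ b := ENNReal.toReal_nonneg
  have hp := pow_le_pow_left₀ (mul_nonneg (Real.rpow_nonneg a0 _) (Real.rpow_nonneg b0 _)) hr (k + 1)
  have e2 : (a ^ (1 / ((k : ℝ) + 1))) ^ (k + 1) = a := by
    rw [← Real.rpow_natCast, ← Real.rpow_mul a0]
    have : 1 / ((k : ℝ) + 1) * ((k + 1 : ℕ) : ℝ) = 1 := by
      push_cast
      field_simp
    rw [this, Real.rpow_one]
  have e3 : (b ^ ((k : ℝ) / ((k : ℝ) + 1))) ^ (k + 1) = b ^ k := by
    rw [← Real.rpow_natCast, ← Real.rpow_mul b0]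
    have : (k : ℝ) / ((k : ℝ) + 1) * ((k + 1 : ℕ) : ℝ) = (k : ℝ) := by
      push_cast
      field_simp
    rw [this, Real.rpow_natCast]
  rw [mul_pow, e2, e3] at hp
  exact hp

lemma coeff_le (k : ℕ) : ((2 * (k : ℝ) + 3) ^ 2) ≤ 9 * (25 / 9 : ℝ) ^ k := by
  induction k with
  | zero => norm_num
  | succ k ih =>
    have hk : (0 : ℝ) ≤ (k : ℝ) := Nat.cast_nonneg k
    have h1 : (2 * ((k + 1 : ℕ) : ℝ) + 3) ^ 2 ≤ (25 / 9) * (2 * (k : ℝ) + 3) ^ 2 := by
      push_cast
      nlinarith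
    calc (2 * ((k + 1 : ℕ) : ℝ) + 3) ^ 2 ≤ (25 / 9) * (2 * (k : ℝ) + 3) ^ 2 := h1
      _ ≤ (25 / 9) * (9 * (25 / 9 : ℝ) ^ k) := by
          apply mul_le_mul_of_nonneg_left ih
          norm_num
      _ = 9 * (25 / 9 : ℝ) ^ (k + 1) := by ring

lemma geom_le (m : ℕ) : ∑ k ∈ range m, (475 / 729 : ℝ) ^ k ≤ 729 / 254 := by
  have h : ∀ m : ℕ, ∑ k ∈ range m, (475 / 729 : ℝ) ^ k + (729 / 254) * (475 / 729 : ℝ) ^ m ≤ 729 / 254 := by
    intro m
    induction m with
    | zero => simp
    | succ m ih =>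
      rw [sum_range_succ]
      have : (729 / 254 : ℝ) * (475 / 729 : ℝ) ^ (m + 1) =
          (729 / 254) * (475 / 729 : ℝ) ^ m - (475 / 729 : ℝ) ^ m := by
        rw [pow_succ]
        ring
      rw [this]
      linarith
  have h2 := h m
  have h3 : (0 : ℝ) ≤ (729 / 254) * (475 / 729 : ℝ) ^ m := by positivity
  linarith

end BorellAux

open BorellAux

variable {n : ℕ}

/-- MODULE W4b: truncation keeps the second moment, by Borell's lemma. -/
theorem borell_mean (hn : 0 < n) (K : Set (Fin n → ℝ)) (hc : Convex ℝ K) (hK : IsCompact K)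
    (hvol : 0 < volume K)
    (hsum : ∫ x in K, ∑ j, x j ^ 2 = (n : ℝ) * (volume K).toReal) :
    0 < volume (K ∩ {x | ∑ j, x j ^ 2 ≤ 10 * (n : ℝ)}) ∧
    (volume K).toReal ≤ (10 / 9) * (volume (K ∩ {x | ∑ j, x j ^ 2 ≤ 10 * (n : ℝ)})).toReal ∧
    ((n : ℝ) / 61) * (volume (K ∩ {x | ∑ j, x j ^ 2 ≤ 10 * (n : ℝ)})).toReal ≤
      ∫ x in K ∩ {x | ∑ j, x j ^ 2 ≤ 10 * (n : ℝ)}, ∑ j, x j ^ 2 := by
  classical
  set s : (Fin n → ℝ) → ℝ := fun x => ∑ j, x j ^ 2 with hs
  have hs_cont : Continuous s := continuous_finsetSum _ (fun j _ => (continuous_apply j).pow 2)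
  have hs_nn : ∀ x, 0 ≤ s x := fun x => Finset.sum_nonneg (fun j _ => sq_nonneg _)
  have mK : MeasurableSet K := hK.measurableSet
  have Vfin : volume K ≠ ∞ := hK.measure_lt_top.ne
  have hn0 : (0 : ℝ) < (n : ℝ) := by exact_mod_cast hn
  set V := (volume K).toReal with hV
  have Vpos : 0 < V := ENNReal.toReal_pos hvol.ne' Vfin
  -- finiteness and integrability on subsets of `K`
  have fin_sub : ∀ {L : Set (Fin n → ℝ)}, L ⊆ K → volume L ≠ ∞ := fun hL =>
    ((measure_mono hL).trans_lt hK.measure_lt_top).ne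
  have int_on : ∀ {L : Set (Fin n → ℝ)}, L ⊆ K → IntegrableOn s L :=
    fun hL => (hs_cont.continuousOn.integrableOn_compact hK).mono_set hL
  -- Markov
  have markov : ∀ {L : Set (Fin n → ℝ)}, L ⊆ K → MeasurableSet L → ∀ ε : ℝ,
      ε * (volume (L ∩ {x | ε ≤ s x})).toReal ≤ ∫ x in L, s x := by
    intro L hL mL ε
    have h := mul_meas_ge_le_integral_of_nonneg (μ := volume.restrict L) (f := s)
      (Filter.Eventually.of_forall hs_nn) (int_on hL) ε
    have mε : MeasurableSet {x | ε ≤ s x} := measurableSet_le measurable_const hs_cont.measurable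
    have e : (volume.restrict L).real {x | ε ≤ s x} = (volume (L ∩ {x | ε ≤ s x})).toReal := by
      rw [Measure.real, Measure.restrict_apply mε, Set.inter_comm]
    rw [e] at h
    exact h
  -- subadditivity in reals
  have sub_add : ∀ {A B C : Set (Fin n → ℝ)}, A ⊆ K → B ⊆ K → C ⊆ A ∪ B →
      (volume C).toReal ≤ (volume A).toReal + (volume B).toReal := by
    intro A B C hA hB hC
    rw [← ENNReal.toReal_add (fin_sub hA) (fin_sub hB)]
    refine ENNReal.toReal_mono (ENNReal.add_ne_top.2 ⟨fin_sub hA, fin_sub hB⟩) ?_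
    exact (measure_mono hC).trans (measure_union_le _ _)
  -- the set `G`
  set G : Set (Fin n → ℝ) := K ∩ {x | s x ≤ 10 * (n : ℝ)} with hG
  have GK : G ⊆ K := Set.inter_subset_left
  have mG : MeasurableSet G := mK.inter (measurableSet_le hs_cont.measurable measurable_const)
  set Gv := (volume G).toReal with hGv
  -- first Markov
  have h1 : (volume (K ∩ {x | 10 * (n : ℝ) ≤ s x})).toReal ≤ V / 10 := by
    have h := markov (L := K) subset_rfl mK (10 * (n : ℝ))
    rw [hsum] at h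
    have h10 : 0 < 10 * (n : ℝ) := by positivity
    have : 10 * (n : ℝ) * (volume (K ∩ {x | 10 * (n : ℝ) ≤ s x})).toReal ≤ 10 * (n : ℝ) * (V / 10) := by
      calc _ ≤ (n : ℝ) * V := h
        _ = _ := by ring
    exact le_of_mul_le_mul_left this h10
  have hGbig : (9 / 10) * V ≤ Gv := by
    have h := sub_add (A := G) (B := K ∩ {x | 10 * (n : ℝ) ≤ s x}) (C := K) GK
      Set.inter_subset_left (by
        intro x hx
        by_cases hx2 : s x ≤ 10 * (n : ℝ)
        · exact Or.inl ⟨hx, hx2⟩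
        · exact Or.inr ⟨hx, (not_le.1 hx2).le⟩)
    linarith
  have Gpos : 0 < Gv := by
    have : 0 < (9 / 10) * V := by positivity
    linarith
  refine ⟨(ENNReal.toReal_pos_iff.1 Gpos).1, by linarith, ?_⟩
  by_contra hcon
  push Not at hcon
  -- the radius
  set R : ℝ := 10 * (n : ℝ) / 61 with hR
  have Rpos : 0 < R := by positivity
  have h2 : (volume (G ∩ {x | R ≤ s x})).toReal ≤ Gv / 10 := by
    have h := markov (L := G) GK mG R
    have : R * (volume (G ∩ {x | R ≤ s x})).toReal ≤ R * (Gv / 10) := by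
      calc _ ≤ ∫ x in G, s x := h
        _ ≤ (n : ℝ) / 61 * Gv := hcon.le
        _ = _ := by rw [hR]; ring
    exact le_of_mul_le_mul_left this Rpos
  set A : Set (Fin n → ℝ) := K ∩ {x | s x ≤ R} with hA
  have AK : A ⊆ K := Set.inter_subset_left
  have mA : MeasurableSet A := mK.inter (measurableSet_le hs_cont.measurable measurable_const)
  set Av := (volume A).toReal with hAv
  have hAbig : (81 / 100) * V ≤ Av := by
    have h := sub_add (A := A) (B := G ∩ {x | R ≤ s x}) (C := G) AK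
      (Set.inter_subset_left.trans GK) (by
        intro x hx
        by_cases hx2 : s x ≤ R
        · exact Or.inl ⟨hx.1, hx2⟩
        · exact Or.inr ⟨hx, (not_le.1 hx2).le⟩)
    nlinarith
  -- the far sets
  let D : ℕ → Set (Fin n → ℝ) := fun k => K ∩ {x | (2 * (k : ℝ) + 1) ^ 2 * R < s x}
  have DK : ∀ k, D k ⊆ K := fun k => Set.inter_subset_left
  have mT : ∀ k : ℕ, MeasurableSet {x | (2 * (k : ℝ) + 1) ^ 2 * R < s x} := fun k =>
    measurableSet_lt measurable_const hs_cont.measurable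
  have mD : ∀ k, MeasurableSet (D k) := fun k => mK.inter (mT k)
  have hD0 : (volume (D 0)).toReal ≤ (19 / 100) * V := by
    have hdisj : Disjoint A (D 0) := by
      rw [Set.disjoint_left]
      intro x hx hx2
      have h3 : (2 * ((0 : ℕ) : ℝ) + 1) ^ 2 * R < s x := hx2.2
      have h4 : s x ≤ R := hx.2
      norm_num at h3
      linarith
    have hu : volume (A ∪ D 0) = volume A + volume (D 0) := measure_union hdisj (mD 0)
    have hle : (volume (A ∪ D 0)).toReal ≤ V :=
      ENNReal.toReal_mono Vfin (measure_mono (Set.union_subset AK (DK 0)))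
    rw [hu, ENNReal.toReal_add (fin_sub AK) (fin_sub (DK 0))] at hle
    linarith
  have hρ : (Real.sqrt R) ^ 2 = R := Real.sq_sqrt Rpos.le
  have hρ0 : 0 ≤ Real.sqrt R := Real.sqrt_nonneg R
  -- Borell
  have hBorell : ∀ k : ℕ, (volume (D k)).toReal * Av ^ k ≤ (volume (D 0)).toReal ^ (k + 1) := by
    intro k
    rcases Nat.eq_zero_or_pos k with rfl | hk
    · simp
    · refine step_real hk (mD k) mA (mD 0) (fin_sub (DK k)) (fin_sub AK) (fin_sub (DK 0)) ?_
      intro x hx y hy
      have hk1 : (0 : ℝ) < (k : ℝ) + 1 := by positivity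
      have hk0 : (0 : ℝ) ≤ (k : ℝ) := Nat.cast_nonneg k
      refine ⟨hc hx.1 hy.1 (by positivity) (by positivity) (by field_simp; ring), ?_⟩
      have hx2 : (2 * (k : ℝ) + 1) * Real.sqrt R < Real.sqrt (∑ j, x j ^ 2) := by
        refine (Real.lt_sqrt (by positivity)).2 ?_
        rw [mul_pow, hρ]
        exact hx.2
      have hy2 : Real.sqrt (∑ j, y j ^ 2) ≤ Real.sqrt R := Real.sqrt_le_sqrt hy.2
      have hz := out_of_ball k hx2 hy2
      have hz2 := (Real.lt_sqrt hρ0).1 hz
      rw [hρ] at hz2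
      have e0 : (2 * ((0 : ℕ) : ℝ) + 1) ^ 2 * R = R := by norm_num
      show (2 * ((0 : ℕ) : ℝ) + 1) ^ 2 * R < s _
      rw [e0]
      exact hz2
  -- decay
  have hDecay : ∀ k : ℕ, (volume (D k)).toReal ≤ (19 / 100) * V * (19 / 81 : ℝ) ^ k := by
    intro k
    have hpos : 0 < ((81 / 100) * V) ^ k := by positivity
    have h3 : (volume (D k)).toReal * ((81 / 100) * V) ^ k ≤
        (volume (D k)).toReal * Av ^ k :=
      mul_le_mul_of_nonneg_left (pow_le_pow_left₀ (by positivity) hAbig k) ENNReal.toReal_nonneg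
    have h4 : (volume (D 0)).toReal ^ (k + 1) ≤ ((19 / 100) * V) ^ (k + 1) :=
      pow_le_pow_left₀ ENNReal.toReal_nonneg hD0 _
    have h5 : ((19 / 100) * V) ^ (k + 1) = (19 / 100) * V * (19 / 81 : ℝ) ^ k * ((81 / 100) * V) ^ k := by
      rw [pow_succ, mul_assoc ((19 / 100) * V), ← mul_pow]
      have : (19 / 81 : ℝ) * ((81 / 100) * V) = (19 / 100) * V := by ring
      rw [this]
      ring
    have h6 := (h3.trans (hBorell k)).trans h4
    rw [h5] at h6
    exact le_of_mul_le_mul_right h6 hpos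
  -- bound on `K`
  obtain ⟨M, hM⟩ := hK.bddAbove_image hs_cont.continuousOn
  have hM' : ∀ x ∈ K, s x ≤ M := fun x hx => hM ⟨x, hx, rfl⟩
  obtain ⟨N, hN⟩ := exists_nat_ge (M / R)
  have hN' : M ≤ (N : ℝ) * R := by
    rwa [div_le_iff₀ Rpos] at hN
  -- the majorant
  let T : ℕ → Set (Fin n → ℝ) := fun k => {x | (2 * (k : ℝ) + 1) ^ 2 * R < s x}
  let g : (Fin n → ℝ) → ℝ := fun x =>
    R * (1 + ∑ k ∈ range (N + 1), (2 * (k : ℝ) + 3) ^ 2 * (T k).indicator (fun _ => (1 : ℝ)) x)
  have hpt : ∀ x ∈ K, s x ≤ g x := by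
    intro x hx
    have hnn : ∀ k ∈ range (N + 1), 0 ≤ (2 * (k : ℝ) + 3) ^ 2 * (T k).indicator (fun _ => (1 : ℝ)) x := by
      intro k _
      refine mul_nonneg (sq_nonneg _) (Set.indicator_nonneg (fun _ _ => zero_le_one) _)
    by_cases hx1 : s x ≤ R
    · have : 0 ≤ ∑ k ∈ range (N + 1), (2 * (k : ℝ) + 3) ^ 2 * (T k).indicator (fun _ => (1 : ℝ)) x :=
        Finset.sum_nonneg hnn
      show s x ≤ R * (1 + _)
      nlinarith
    · have hex : ∃ k : ℕ, s x ≤ (2 * (k : ℝ) + 3) ^ 2 * R := by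
        refine ⟨N, (hM' x hx).trans (hN'.trans ?_)⟩
        have hN0 : (0 : ℝ) ≤ (N : ℝ) := Nat.cast_nonneg N
        refine mul_le_mul_of_nonneg_right ?_ Rpos.le
        nlinarith
      classical
      let k := Nat.find hex
      have hk : s x ≤ (2 * (k : ℝ) + 3) ^ 2 * R := Nat.find_spec hex
      have hkN : k ≤ N := by
        refine Nat.find_min' hex ((hM' x hx).trans (hN'.trans ?_))
        have hN0 : (0 : ℝ) ≤ (N : ℝ) := Nat.cast_nonneg N
        refine mul_le_mul_of_nonneg_right ?_ Rpos.le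
        nlinarith
      have hmem : x ∈ T k := by
        show (2 * (k : ℝ) + 1) ^ 2 * R < s x
        rcases Nat.eq_zero_or_pos k with h0 | h0
        · rw [h0]
          norm_num
          exact not_le.1 hx1
        · have hlt : k - 1 < k := Nat.sub_lt h0 Nat.one_pos
          have hmin := Nat.find_min hex hlt
          have : (2 * ((k - 1 : ℕ) : ℝ) + 3) = 2 * (k : ℝ) + 1 := by
            rw [Nat.cast_sub h0]
            push_cast
            ring
          rw [this] at hmin
          exact not_le.1 hmin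
      have hsingle := Finset.single_le_sum hnn (Finset.mem_range.2 (Nat.lt_succ_of_le hkN))
      rw [Set.indicator_of_mem hmem, mul_one] at hsingle
      show s x ≤ R * (1 + _)
      nlinarith
  -- integrate
  have hT : ∀ k, MeasurableSet (T k) := mT
  have finK : IsFiniteMeasure (volume.restrict K) := ⟨by simpa using hK.measure_lt_top⟩
  have hintT : ∀ k, Integrable ((T k).indicator (fun _ => (1 : ℝ))) (volume.restrict K) := by
    intro k
    exact (integrable_const (1 : ℝ)).indicator (hT k)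
  have hintT' : ∀ k : ℕ, ∫ x in K, (T k).indicator (fun _ => (1 : ℝ)) x = (volume (D k)).toReal := by
    intro k
    rw [integral_indicator (hT k)]
    simp only [integral_const, smul_eq_mul, mul_one, MeasurableSet.univ, Measure.real,
      Measure.restrict_apply, Set.univ_inter]
    rw [Measure.restrict_apply (hT k), Set.inter_comm]
  have hintg : IntegrableOn g K := by
    refine Integrable.const_mul ?_ R
    exact (integrable_const (1 : ℝ)).add (integrable_finsetSum _ (fun k _ => (hintT k).const_mul _))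
  have hmain : (n : ℝ) * V ≤ R * (V + ∑ k ∈ range (N + 1), (2 * (k : ℝ) + 3) ^ 2 * (volume (D k)).toReal) := by
    rw [← hsum]
    have h := setIntegral_mono_on (int_on subset_rfl) hintg mK hpt
    refine h.trans (le_of_eq ?_)
    show ∫ x in K, R * (1 + _) = _
    rw [integral_const_mul, integral_add (integrable_const _) (integrable_finsetSum _ (fun k _ => (hintT k).const_mul _)),
      integral_finsetSum _ (fun k _ => (hintT k).const_mul _)]
    congr 1
    congr 1
    · simp [Measure.real, hV]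
    · refine Finset.sum_congr rfl (fun k _ => ?_)
      rw [integral_const_mul, hintT' k]
  -- the series
  have hseries : ∑ k ∈ range (N + 1), (2 * (k : ℝ) + 3) ^ 2 * (volume (D k)).toReal ≤
      (171 / 100) * V * (729 / 254) := by
    calc ∑ k ∈ range (N + 1), (2 * (k : ℝ) + 3) ^ 2 * (volume (D k)).toReal
        ≤ ∑ k ∈ range (N + 1), (171 / 100) * V * (475 / 729 : ℝ) ^ k := by
          refine Finset.sum_le_sum (fun k _ => ?_)
          have h3 := coeff_le k
          have h4 := hDecay k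
          calc (2 * (k : ℝ) + 3) ^ 2 * (volume (D k)).toReal
              ≤ (9 * (25 / 9 : ℝ) ^ k) * ((19 / 100) * V * (19 / 81 : ℝ) ^ k) :=
                mul_le_mul h3 h4 ENNReal.toReal_nonneg (by positivity)
            _ = (171 / 100) * V * ((25 / 9 : ℝ) ^ k * (19 / 81 : ℝ) ^ k) := by ring
            _ = (171 / 100) * V * (475 / 729 : ℝ) ^ k := by
                rw [← mul_pow]
                norm_num
      _ = (171 / 100) * V * ∑ k ∈ range (N + 1), (475 / 729 : ℝ) ^ k := by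
          rw [Finset.mul_sum]
      _ ≤ (171 / 100) * V * (729 / 254) :=
          mul_le_mul_of_nonneg_left (geom_le _) (by positivity)
  have hfinal : (n : ℝ) * V ≤ R * (V + (171 / 100) * V * (729 / 254)) :=
    hmain.trans (mul_le_mul_of_nonneg_left (by linarith) Rpos.le)
  have hpos : 0 < (n : ℝ) * V := by positivity
  have : R * (V + (171 / 100) * V * (729 / 254)) < (n : ℝ) * V := by
    rw [hR]
    have : 10 * (n : ℝ) / 61 * (V + 171 / 100 * V * (729 / 254)) =
        (10 / 61 * (1 + 171 / 100 * (729 / 254))) * ((n : ℝ) * V) := by ring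
    rw [this]
    have h7 : (10 / 61 * (1 + 171 / 100 * (729 / 254)) : ℝ) < 1 := by norm_num
    nlinarith
  linarith

end Vale.Agent.Lib.P230
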