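import Vale.Agent.Lib.P230.Assembly3
import Vale.Agent.Lib.P230.CoreStep

/-!
# P230: the covering lattice from a window on the section function.
-/

set_option autoImplicit false
set_option linter.unusedSectionVars false
set_option linter.unusedSimpArgs false
set_option linter.unusedVariables false

open MeasureTheory Finset
open scoped ENNReal Matrix

namespace Vale.Agent.Lib.P230

variable {d t : ℕ}

/-- The body in window coordinates. -/
theorem window_body (K : Set ((Fin d → ℝ) × (Fin t → ℝ))) (hc : Convex ℝ K) (hK : IsCompact K)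
    (S : Matrix (Fin t) (Fin t) ℝ) (z₀ : Fin t → ℝ) (V₀ : ℝ) (hS : S.det ≠ 0)
    (hwin : ∀ x : Fin t → ℝ, (∀ i, |x i| ≤ 2) → V₀ ≤ secVol K (z₀ + S.mulVec x)) :
    ∃ K' : Set ((Fin d → ℝ) × (Fin t → ℝ)),
      Convex ℝ K' ∧ IsCompact K' ∧
      (∀ p, p ∈ K' ↔ (p.1, z₀ + S.mulVec p.2) ∈ K) ∧
      (∀ x : Fin t → ℝ, (∀ i, |x i| ≤ 2) → ENNReal.ofReal V₀ ≤ volume {y : Fin d → ℝ | (y, x) ∈ K'}) := by
  refine ⟨{p | (p.1, z₀ + S.mulVec p.2) ∈ K}, ?_, ?_, fun p => Iff.rfl, ?_⟩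
  · -- convex
    intro p hp q hq a b ha hb hab
    simp only [Set.mem_setOf_eq] at hp hq ⊢
    have := hc hp hq ha hb hab
    convert this using 1
    ext i
    · simp
    · simp only [Prod.snd_add, Prod.smul_snd, Matrix.mulVec_add, Matrix.mulVec_smul, Prod.mk_add_mk,
        Prod.smul_mk]
      have h1 : z₀ = a • z₀ + b • z₀ := by
        rw [← add_smul, hab, one_smul]
      have h2 : z₀ + (a • S.mulVec p.2 + b • S.mulVec q.2) =
          (a • z₀ + b • z₀) + (a • S.mulVec p.2 + b • S.mulVec q.2) := by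
        rw [← h1]
      rw [h2]
      simp only [Pi.add_apply, Pi.smul_apply, smul_eq_mul]
      ring
  · -- compact
    have hunit : IsUnit S.det := isUnit_iff_ne_zero.mpr hS
    have himg : {p : (Fin d → ℝ) × (Fin t → ℝ) | (p.1, z₀ + S.mulVec p.2) ∈ K} =
        (fun p : (Fin d → ℝ) × (Fin t → ℝ) => (p.1, S⁻¹.mulVec (p.2 - z₀))) '' K := by
      ext p
      constructor
      · intro hp
        refine ⟨_, hp, ?_⟩
        ext i
        · rfl
        · simp only [add_sub_cancel_left, Matrix.mulVec_mulVec, Matrix.nonsing_inv_mul _ hunit,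
            Matrix.one_mulVec]
      · rintro ⟨q, hq, rfl⟩
        simp only [Set.mem_setOf_eq, Matrix.mulVec_mulVec, Matrix.mul_nonsing_inv _ hunit,
          Matrix.one_mulVec, add_sub_cancel]
        exact hq
    rw [himg]
    apply hK.image
    have hcont : Continuous fun v : Fin t → ℝ => S⁻¹.mulVec v := by
      exact Continuous.matrix_mulVec continuous_const continuous_id
    exact continuous_fst.prodMk (hcont.comp (continuous_snd.sub continuous_const))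
  · intro x hx
    have h1 := hwin x hx
    have h2 : {y : Fin d → ℝ | (y, x) ∈ {p : (Fin d → ℝ) × (Fin t → ℝ) | (p.1, z₀ + S.mulVec p.2) ∈ K}} =
        {y : Fin d → ℝ | (y, z₀ + S.mulVec x) ∈ K} := rfl
    rw [h2]
    unfold secVol at h1
    have hfin : volume {y : Fin d → ℝ | (y, z₀ + S.mulVec x) ∈ K} ≠ ⊤ := by
      have hcomp : IsCompact {y : Fin d → ℝ | (y, z₀ + S.mulVec x) ∈ K} := by
        have hcl : IsClosed {y : Fin d → ℝ | (y, z₀ + S.mulVec x) ∈ K} :=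
          hK.isClosed.preimage (continuous_id.prodMk continuous_const)
        obtain ⟨C, hC⟩ := hK.isBounded.subset_closedBall ((0 : Fin d → ℝ), (0 : Fin t → ℝ))
        refine Metric.isCompact_of_isClosed_isBounded hcl ?_
        refine (Metric.isBounded_closedBall (x := (0 : Fin d → ℝ)) (r := C)).subset ?_
        intro y hy
        have := hC hy
        simp only [Metric.mem_closedBall, Prod.dist_eq, dist_zero_right, max_le_iff] at this ⊢
        exact this.1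
      exact hcomp.measure_lt_top.ne
    rw [ENNReal.ofReal_le_iff_le_toReal hfin]
    exact h1

lemma num_final_w (Rd κd V₀ E bd : ℝ) (hRd : 0 < Rd) (hκd : 0 < κd) (hE : 0 < E)
    (h : Rd * (κd * V₀) / E ≤ bd) : V₀ ≤ κd⁻¹ * E * (Rd⁻¹ * bd) := by
  rw [div_le_iff₀ hE] at h
  have e : κd⁻¹ * E * (Rd⁻¹ * bd) = (bd * E) / (Rd * κd) := by
    field_simp
  rw [e, le_div_iff₀ (by positivity)]
  linarith

/-- The covering lattice from a window on the section function. -/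
theorem core_window : ∃ d₀ : ℕ, ∀ d ≥ d₀, ∀ t n : ℕ, n = d + t → 8 ≤ n →
    ((2 * (n : ℝ)) ^ t ≤ 2 ^ (mstar d / 16)) →
    (((2 * (n : ℝ)) ^ t) ^ (2 ^ t - 1) * ((1 / 2 : ℝ) ^ (mstar d / 4)) ^ (2 ^ t) <
      (1 / 2) * (1 / (4 * (n : ℝ))) ^ d) →
    ∀ K₂ : Set ((Fin d → ℝ) × (Fin t → ℝ)), Convex ℝ K₂ → IsCompact K₂ →
    ∀ (S : Matrix (Fin t) (Fin t) ℝ) (z₀ : Fin t → ℝ) (V₀ : ℝ), S.det ≠ 0 → 0 < V₀ →
    (∀ x : Fin t → ℝ, (∀ i, |x i| ≤ 2) → V₀ ≤ secVol K₂ (z₀ + S.mulVec x)) →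
      ∃ A₂ : Matrix (Fin d ⊕ Fin t) (Fin d ⊕ Fin t) ℝ, A₂.det ≠ 0 ∧
        (∀ x : (Fin d → ℝ) × (Fin t → ℝ), ∃ u ∈ K₂, ∃ m : Fin d ⊕ Fin t → ℤ,
          x = u + (fun i => A₂.mulVec (fun j => (m j : ℝ)) (Sum.inl i),
            fun i => A₂.mulVec (fun j => (m j : ℝ)) (Sum.inr i))) ∧
        V₀ * |S.det| ≤ (((1 - 2 / (n : ℝ))⁻¹) ^ d * 2 ^ (efin d + 2)) * |A₂.det| := by
  obtain ⟨d₀, hd₀⟩ := lattice_data
  refine ⟨d₀, fun d hd t n hn hn8 hnum1 hnum2 K₂ hc hK S z₀ V₀ hS hV₀ hwin => ?_⟩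
  obtain ⟨K', hK'c, hK'K, hK'def, hwin'⟩ := window_body K₂ hc hK S z₀ V₀ hS hwin
  obtain ⟨B, R, hR, hcover, hdetB⟩ := hd₀ d hd t n hn hn8 hnum1 hnum2 K' hK'c hK'K V₀ hV₀ hwin'
  obtain ⟨A₂, hdetA, hcov⟩ := core_step K₂ S z₀ hS K' hK'def B R hR hcover
  have hnR : (8 : ℝ) ≤ n := by exact_mod_cast hn8
  have hκ0 : 0 < 1 - 2 / (n : ℝ) := by
    have : 2 / (n : ℝ) ≤ 2 / 8 := by
      apply div_le_div_of_nonneg_left (by norm_num) (by norm_num) hnR
    linarith
  have hR0 : (0 : ℝ) < R := by exact_mod_cast hR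
  have hRd : (0 : ℝ) < (R : ℝ) ^ d := by positivity
  have hκd : 0 < (1 - 2 / (n : ℝ)) ^ d := by positivity
  have hE : (0 : ℝ) < 2 ^ (efin d + 2) := by positivity
  have hSpos : 0 < |S.det| := abs_pos.mpr hS
  have hV := num_final_w _ _ V₀ _ _ hRd hκd hE hdetB
  have hbpos : 0 < |(B.det : ℝ)| := by
    refine lt_of_lt_of_le ?_ hdetB
    positivity
  refine ⟨A₂, ?_, hcov, ?_⟩
  · have : 0 < |A₂.det| := by
      rw [hdetA]
      positivity
    exact abs_pos.mp this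
  · rw [hdetA, inv_pow]
    calc V₀ * |S.det|
        ≤ (((1 - 2 / (n : ℝ)) ^ d)⁻¹ * 2 ^ (efin d + 2) *
            (((R : ℝ) ^ d)⁻¹ * |(B.det : ℝ)|)) * |S.det| :=
          mul_le_mul_of_nonneg_right hV hSpos.le
      _ = _ := by ring

end Vale.Agent.Lib.P230
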