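import Vale.Agent.Lib.P230.FineDefs

/-! MODULE W4a: isotropic position for the second moment matrix about the origin. -/

set_option autoImplicit false

open MeasureTheory Finset
open scoped ENNReal Matrix

namespace Vale.Agent.Lib.P230

variable {n : ℕ}

namespace IsoAux

/-- The second moment matrix of a set. -/
noncomputable def momM (K : Set (Fin n → ℝ)) : Matrix (Fin n) (Fin n) ℝ :=
  Matrix.of fun i j => ∫ x in K, x i * x j

theorem integrableOn_of_cont {K : Set (Fin n → ℝ)} (hK : IsCompact K) {f : (Fin n → ℝ) → ℝ}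
    (hf : Continuous f) : IntegrableOn f K :=
  hf.continuousOn.integrableOn_compact hK

theorem quad_eq {K : Set (Fin n → ℝ)} (hK : IsCompact K) (b : Fin n → ℝ) :
    ∫ x in K, (b ⬝ᵥ x) ^ 2 = b ⬝ᵥ (momM K *ᵥ b) := by
  have e : ∀ x : Fin n → ℝ, (b ⬝ᵥ x) ^ 2 = ∑ i, ∑ j, (b i * b j) * (x i * x j) := by
    intro x
    simp only [dotProduct, sq, Finset.sum_mul_sum]
    refine Finset.sum_congr rfl fun i _ => Finset.sum_congr rfl fun j _ => ?_
    ring
  simp_rw [e]
  rw [integral_finsetSum]
  · simp only [dotProduct, Matrix.mulVec, momM, Matrix.of_apply]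
    refine Finset.sum_congr rfl fun i _ => ?_
    rw [integral_finsetSum]
    · rw [Finset.mul_sum]
      refine Finset.sum_congr rfl fun j _ => ?_
      rw [integral_const_mul]
      ring
    · intro j _
      exact (integrableOn_of_cont hK (by fun_prop)).const_mul _
  · intro i _
    refine integrable_finsetSum _ fun j _ => ?_
    exact (integrableOn_of_cont hK (by fun_prop)).const_mul _

theorem exists_ne_zero_on_interior {K : Set (Fin n → ℝ)} (hi : (interior K).Nonempty)
    {a : Fin n → ℝ} (ha : a ≠ 0) : ∃ x ∈ interior K, a ⬝ᵥ x ≠ 0 := by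
  by_contra hcon
  push Not at hcon
  let H : Submodule ℝ (Fin n → ℝ) :=
    { carrier := {x | a ⬝ᵥ x = 0}
      add_mem' := by
        intro x y hx hy
        simp only [Set.mem_ofPred_eq] at hx hy ⊢
        rw [dotProduct_add, hx, hy, add_zero]
      zero_mem' := by simp
      smul_mem' := by
        intro c x hx
        simp only [Set.mem_ofPred_eq] at hx ⊢
        rw [dotProduct_smul, hx, smul_zero] }
  have hH : (interior (H : Set (Fin n → ℝ))).Nonempty := by
    obtain ⟨x, hx⟩ := hi
    exact ⟨x, interior_mono (s := interior K) (fun y hy => hcon y hy) (by rwa [interior_interior])⟩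
  have htop : H = ⊤ := Submodule.eq_top_of_nonempty_interior' H hH
  apply ha
  apply dotProduct_eq_zero
  intro w
  have : w ∈ H := by rw [htop]; trivial
  exact this

theorem quad_pos {K : Set (Fin n → ℝ)} (hK : IsCompact K) (hi : (interior K).Nonempty)
    {a : Fin n → ℝ} (ha : a ≠ 0) : 0 < ∫ x in K, (a ⬝ᵥ x) ^ 2 := by
  have hc0 : Continuous fun x : Fin n → ℝ => a ⬝ᵥ x := by
    show Continuous fun x : Fin n → ℝ => ∑ i, a i * x i
    fun_prop
  have hc : Continuous fun x : Fin n → ℝ => (a ⬝ᵥ x) ^ 2 := hc0.pow 2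
  have hint : IntegrableOn (fun x : Fin n → ℝ => (a ⬝ᵥ x) ^ 2) K := integrableOn_of_cont hK hc
  rw [setIntegral_pos_iff_support_of_nonneg_ae (Filter.Eventually.of_forall fun x => by positivity) hint]
  obtain ⟨x, hx, hax⟩ := exists_ne_zero_on_interior hi ha
  have hU : IsOpen (interior K ∩ {y : Fin n → ℝ | a ⬝ᵥ y ≠ 0}) := by
    exact isOpen_interior.inter (isOpen_ne_fun hc0 continuous_const)
  have hne : (interior K ∩ {y : Fin n → ℝ | a ⬝ᵥ y ≠ 0}).Nonempty := ⟨x, hx, hax⟩
  refine lt_of_lt_of_le (hU.measure_pos volume hne) (measure_mono ?_)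
  rintro y ⟨hy1, hy2⟩
  refine ⟨?_, interior_subset hy1⟩
  simpa [Function.mem_support] using hy2

theorem momM_posDef {K : Set (Fin n → ℝ)} (hK : IsCompact K) (hi : (interior K).Nonempty) :
    (momM K).PosDef := by
  refine Matrix.PosDef.of_dotProduct_mulVec_pos ?_ ?_
  · ext i j
    simp only [Matrix.conjTranspose_apply, momM, Matrix.of_apply, star_trivial]
    congr 1
    ext x
    ring
  · intro x hx
    have := quad_pos hK hi hx
    rw [quad_eq hK] at this
    simpa using this

/-- A positive definite matrix is congruent to a given positive multiple of the identity. -/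
theorem exists_congr {S : Matrix (Fin n) (Fin n) ℝ} (hS : S.PosDef) {V : ℝ} (hV : 0 < V) :
    ∃ L : Matrix (Fin n) (Fin n) ℝ, L.det ≠ 0 ∧ L * S * L.transpose = V • (1 : Matrix (Fin n) (Fin n) ℝ) := by
  classical
  let T := LDL.lowerInv hS
  let d := LDL.diagEntries hS
  have hT : T * S * T.transpose = Matrix.diagonal d := by
    have := LDL.diag_eq_lowerInv_conj hS
    rw [LDL.diag, Matrix.conjTranspose_eq_transpose_of_trivial] at this
    exact this.symm
  have hTdet : T.det ≠ 0 := by
    have : IsUnit T.det := (Matrix.isUnit_iff_isUnit_det T).1 (isUnit_of_invertible (LDL.lowerInv hS))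
    exact this.ne_zero
  have hd : ∀ i, 0 < d i := by
    intro i
    have hne : T i ≠ 0 := by
      intro h0
      exact hTdet (Matrix.det_eq_zero_of_row_eq_zero i (fun j => by simpa using congrFun h0 j))
    have h1 := hS.dotProduct_mulVec_pos hne
    have h2 : d i = (T * S * T.transpose) i i := by rw [hT]; simp
    rw [h2]
    have h3 : (T * S * T.transpose) i i = T i ⬝ᵥ (S *ᵥ T i) := by
      rw [Matrix.mul_assoc, Matrix.mul_apply]
      simp [dotProduct, Matrix.mulVec, Matrix.mul_apply, Matrix.transpose_apply]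
    rw [h3]
    simpa using h1
  let r : Fin n → ℝ := fun i => Real.sqrt (V / d i)
  have hr : ∀ i, r i * d i * r i = V := by
    intro i
    have hp : 0 ≤ V / d i := (div_pos hV (hd i)).le
    have h5 : r i * r i = V / d i := Real.mul_self_sqrt hp
    have hne := (hd i).ne'
    calc r i * d i * r i = (r i * r i) * d i := by ring
      _ = V := by rw [h5]; field_simp
  refine ⟨Matrix.diagonal r * T, ?_, ?_⟩
  · rw [Matrix.det_mul, Matrix.det_diagonal]
    refine mul_ne_zero (Finset.prod_ne_zero_iff.2 fun i _ => ?_) hTdet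
    exact (Real.sqrt_pos.2 (div_pos hV (hd i))).ne'
  · have e : Matrix.diagonal r * T * S * (Matrix.diagonal r * T).transpose
        = Matrix.diagonal r * (T * S * T.transpose) * Matrix.diagonal r := by
      rw [Matrix.transpose_mul, Matrix.diagonal_transpose]
      simp only [Matrix.mul_assoc]
    rw [e, hT, Matrix.diagonal_mul_diagonal, Matrix.diagonal_mul_diagonal]
    ext i j
    by_cases h : i = j
    · subst h
      simp [hr]
    · simp [Matrix.diagonal_apply_ne _ h, Matrix.one_apply_ne h]

end IsoAux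

open IsoAux in
/-- MODULE W4a: isotropic position for the second moment matrix about the origin. `M i j = ∫_K x_i x_j`
is positive definite since `K` has interior points; take `L` with `L M Lᵀ = vol(K) |det L| ... `, i.e. normalise
so that the second moment matrix of the image, divided by its volume, is the identity. -/
theorem isotropic_position (K : Set (Fin n → ℝ)) (hK : IsCompact K) (hi : (interior K).Nonempty) :
    ∃ L : Matrix (Fin n) (Fin n) ℝ, L.det ≠ 0 ∧ ∀ a : Fin n → ℝ,
      ∫ x in L.mulVec '' K, (a ⬝ᵥ x) ^ 2 = (∑ j, a j ^ 2) * (volume (L.mulVec '' K)).toReal := by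
  classical
  have hVpos : 0 < (volume K).toReal :=
    ENNReal.toReal_pos
      (lt_of_lt_of_le (isOpen_interior.measure_pos volume hi) (measure_mono interior_subset)).ne'
      hK.measure_lt_top.ne
  obtain ⟨L, hdet, hL⟩ := exists_congr (momM_posDef hK hi) hVpos
  refine ⟨L, hdet, fun a => ?_⟩
  have hdet' : LinearMap.det (Matrix.toLin' L) = L.det := LinearMap.det_toLin' L
  have himg : L.mulVec '' K = (Matrix.toLin' L) '' K := by
    ext y
    simp [Matrix.toLin'_apply]
  -- volume of the image
  have hvol : (volume (L.mulVec '' K)).toReal = |L.det| * (volume K).toReal := by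
    rw [himg, Measure.addHaar_image_linearMap, hdet', ENNReal.toReal_mul,
      ENNReal.toReal_ofReal (abs_nonneg _)]
  -- change of variables
  have hinj : Set.InjOn L.mulVec K := by
    have : Function.Injective L.mulVec :=
      Matrix.mulVec_injective_of_isUnit ((Matrix.isUnit_iff_isUnit_det L).2 hdet.isUnit)
    exact this.injOn
  let ℓ : (Fin n → ℝ) →L[ℝ] (Fin n → ℝ) := LinearMap.toContinuousLinearMap (Matrix.toLin' L)
  have hℓ : ∀ x, ℓ x = L.mulVec x := fun x => by simp [ℓ, Matrix.toLin'_apply]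
  have hℓf : (ℓ : (Fin n → ℝ) → (Fin n → ℝ)) = L.mulVec := funext hℓ
  have hdetℓ : ℓ.det = L.det := by
    show LinearMap.det (ℓ : (Fin n → ℝ) →ₗ[ℝ] (Fin n → ℝ)) = L.det
    have : (ℓ : (Fin n → ℝ) →ₗ[ℝ] (Fin n → ℝ)) = Matrix.toLin' L := by
      ext x
      simp [ℓ]
    rw [this, hdet']
  have hcv := integral_image_eq_integral_abs_det_fderiv_smul (μ := volume) (s := K)
    (f := L.mulVec) (f' := fun _ => ℓ) hK.measurableSet
    (fun x _ => by rw [← hℓf]; exact ℓ.hasFDerivWithinAt) hinj (fun x => (a ⬝ᵥ x) ^ 2)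
  rw [hcv, hvol]
  simp only [hdetℓ, smul_eq_mul]
  rw [integral_const_mul]
  have hrew : ∀ x : Fin n → ℝ, a ⬝ᵥ (L *ᵥ x) = (a ᵥ* L) ⬝ᵥ x := fun x => Matrix.dotProduct_mulVec _ _ _
  simp_rw [hrew]
  rw [quad_eq hK]
  have hq : (a ᵥ* L) ⬝ᵥ (momM K *ᵥ (a ᵥ* L)) = (volume K).toReal * ∑ j, a j ^ 2 := by
    have e1 : a ᵥ* L = L.transpose *ᵥ a := (Matrix.mulVec_transpose L a).symm
    have h1 : a ⬝ᵥ ((L * momM K * L.transpose) *ᵥ a) = (a ᵥ* L) ⬝ᵥ (momM K *ᵥ (a ᵥ* L)) := by
      rw [Matrix.mul_assoc, ← Matrix.mulVec_mulVec, ← Matrix.mulVec_mulVec, Matrix.dotProduct_mulVec,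
        ← e1]
    rw [← h1, hL]
    simp only [Matrix.smul_mulVec, Matrix.one_mulVec, dotProduct_smul, smul_eq_mul]
    congr 1
    simp only [dotProduct, sq]
  rw [hq]
  ring

end Vale.Agent.Lib.P230
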