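import Vale.Agent.Lib.P230.Params

/-! MODULE W6: the numerics of the window with exponential loss. -/

set_option autoImplicit false

open Filter Topology

namespace Vale.Agent.Lib.P230

namespace ParamsAux

lemma bigS (s : ℕ) (hs : 40 ≤ s) :
    8 * (102 * (18 + 2 * s) ^ 2 + 10290000 * (18 + 2 * s) + 6) ≤ 2 ^ (s - 2) := by
  induction s, hs using Nat.le_induction with
  | base => norm_num
  | succ s hs ih =>
    have h1 : s + 1 - 2 = (s - 2) + 1 := by omega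
    rw [h1, pow_succ]
    have h2 : 102 * (18 + 2 * (s + 1)) ^ 2 + 10290000 * (18 + 2 * (s + 1)) + 6 ≤
        2 * (102 * (18 + 2 * s) ^ 2 + 10290000 * (18 + 2 * s) + 6) := by
      obtain ⟨k, rfl⟩ : ∃ k, s = k + 40 := ⟨s - 40, by omega⟩
      ring_nf
      omega
    calc 8 * (102 * (18 + 2 * (s + 1)) ^ 2 + 10290000 * (18 + 2 * (s + 1)) + 6)
        ≤ 8 * (2 * (102 * (18 + 2 * s) ^ 2 + 10290000 * (18 + 2 * s) + 6)) :=
          Nat.mul_le_mul_left _ h2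
      _ = (8 * (102 * (18 + 2 * s) ^ 2 + 10290000 * (18 + 2 * s) + 6)) * 2 := by ring
      _ ≤ 2 ^ (s - 2) * 2 := Nat.mul_le_mul_right _ ih

/-- the size of `n` in terms of the scale -/
lemma log_lower {n L s : ℕ} (hL3 : 3 ≤ L) (hn : 0 < n) (hLn : 2 ^ (L - 3) ≤ n)
    (hs : 2 ^ (s - 2) ≤ L - 3) :
    (0.69 : ℝ) * (2 : ℝ) ^ (s - 2) ≤ Real.log n := by
  have hl2a := Real.log_two_gt_d9
  have h1 : ((2 : ℝ) ^ (L - 3)) ≤ n := by exact_mod_cast hLn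
  have h2 := Real.log_le_log (by positivity) h1
  rw [Real.log_pow] at h2
  have h3 : ((2 ^ (s - 2) : ℕ) : ℝ) ≤ ((L - 3 : ℕ) : ℝ) := by exact_mod_cast hs
  push_cast at h3
  have h4 : (0 : ℝ) ≤ (2 : ℝ) ^ (s - 2) := by positivity
  have h5 : (0 : ℝ) ≤ ((L - 3 : ℕ) : ℝ) := Nat.cast_nonneg _
  nlinarith

lemma C4 {n t s L : ℕ} (ht : t = 18 + 2 * s) (hs40 : 40 ≤ s) (hL3 : 3 ≤ L) (hn : 0 < n)
    (hLn : 2 ^ (L - 3) ≤ n) (hs : 2 ^ (s - 2) ≤ L - 3) :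
    64 * ((102 * (t : ℝ) + 1) ^ t) * (490000 * (t : ℝ)) * Real.exp (9800000 * (t : ℝ)) ≤
      Real.sqrt n := by
  have hn0 : (0 : ℝ) < n := by exact_mod_cast hn
  have ht0 : (0 : ℝ) ≤ t := Nat.cast_nonneg t
  have hlog := log_lower hL3 hn hLn hs
  obtain ⟨y, hy⟩ : ∃ y : ℝ, y = 102 * (t : ℝ) ^ 2 + 10290000 * (t : ℝ) + 6 := ⟨_, rfl⟩
  -- the bound of the left side by an exponential
  have h64 : (64 : ℝ) ≤ Real.exp 6 := by
    have h1 : (2 : ℝ) ≤ Real.exp 1 := by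
      have := Real.add_one_le_exp (1 : ℝ)
      linarith
    have h2 : Real.exp 6 = Real.exp 1 ^ 6 := by
      rw [← Real.exp_nat_mul]
      norm_num
    rw [h2]
    calc (64 : ℝ) = 2 ^ 6 := by norm_num
      _ ≤ _ := pow_le_pow_left₀ (by norm_num) h1 6
  have hb : (102 * (t : ℝ) + 1) ^ t ≤ Real.exp (102 * (t : ℝ) ^ 2) := by
    have h1 : 102 * (t : ℝ) + 1 ≤ Real.exp (102 * (t : ℝ)) := Real.add_one_le_exp _
    calc (102 * (t : ℝ) + 1) ^ t ≤ Real.exp (102 * (t : ℝ)) ^ t :=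
          pow_le_pow_left₀ (by positivity) h1 t
      _ = Real.exp (102 * (t : ℝ) ^ 2) := by
          rw [← Real.exp_nat_mul]
          congr 1
          ring
  have hc : 490000 * (t : ℝ) ≤ Real.exp (490000 * (t : ℝ)) := by
    have := Real.add_one_le_exp (490000 * (t : ℝ))
    linarith
  have hle : 64 * ((102 * (t : ℝ) + 1) ^ t) * (490000 * (t : ℝ)) * Real.exp (9800000 * (t : ℝ)) ≤
      Real.exp y := by
    rw [hy]
    calc 64 * ((102 * (t : ℝ) + 1) ^ t) * (490000 * (t : ℝ)) * Real.exp (9800000 * (t : ℝ))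
        ≤ Real.exp 6 * Real.exp (102 * (t : ℝ) ^ 2) * Real.exp (490000 * (t : ℝ)) *
            Real.exp (9800000 * (t : ℝ)) := by
          gcongr
      _ = Real.exp (102 * (t : ℝ) ^ 2 + 10290000 * (t : ℝ) + 6) := by
          rw [← Real.exp_add, ← Real.exp_add, ← Real.exp_add]
          congr 1
          ring
  refine le_trans hle ?_
  -- `2 y ≤ log n`
  have hbig := bigS s hs40
  rw [← ht] at hbig
  have hbig' : 8 * y ≤ (2 : ℝ) ^ (s - 2) := by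
    have : ((8 * (102 * t ^ 2 + 10290000 * t + 6) : ℕ) : ℝ) ≤ ((2 ^ (s - 2) : ℕ) : ℝ) := by
      exact_mod_cast hbig
    push_cast at this
    rw [hy]
    linarith
  have hy0 : 0 ≤ y := by rw [hy]; positivity
  have h2y : 2 * y ≤ Real.log n := by nlinarith
  apply Real.le_sqrt_of_sq_le
  rw [← Real.exp_nat_mul]
  have : ((2 : ℕ) : ℝ) * y = 2 * y := by norm_num
  rw [this]
  calc Real.exp (2 * y) ≤ Real.exp (Real.log n) := Real.exp_le_exp.2 h2y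
    _ = n := Real.exp_log hn0

lemma C3log {n t d s L : ℕ} (hn8 : 8 ≤ n) (hdn : d ≤ n) (hLn : 2 ^ (L - 3) ≤ n)
    (hs : 2 ^ (s - 2) ≤ L - 3) (ht : t = 18 + 2 * s) (heff : 2 ^ efin d ≤ 2 ^ 20 * n)
    (hL3 : 3 ≤ L) (hs2 : 2 ≤ s)
    (hZ : ((10 / 9 * 4 * (1120000 : ℝ) ^ 18 * 2 ^ 29) ^ 5 * 6 ^ 202) ≤ Real.log n) :
    (10 / 9) * (4 * 1120000 ^ t) * ((1 - 2 / (n : ℝ))⁻¹) ^ d * 2 ^ (efin d + 2) ≤
      (n : ℝ) * (Real.log n) ^ 41 := by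
  have hl2a := Real.log_two_gt_d9
  have hn0 : (0 : ℝ) < n := by
    have : 0 < n := by omega
    exact_mod_cast this
  obtain ⟨x, hx⟩ : ∃ x, x = Real.log n := ⟨_, rfl⟩
  rw [← hx] at hZ ⊢
  obtain ⟨C₁, hC₁⟩ : ∃ C₁ : ℝ, C₁ = 10 / 9 * 4 * (1120000 : ℝ) ^ 18 * 2 ^ 29 := ⟨_, rfl⟩
  rw [← hC₁] at hZ
  have hC0 : 0 < C₁ := by rw [hC₁]; positivity
  have hC1 : 1 ≤ C₁ ^ 5 * 6 ^ 202 := by
    have h1 : 1 ≤ C₁ := by rw [hC₁]; norm_num
    have h2 : (1 : ℝ) ≤ C₁ ^ 5 := one_le_pow₀ h1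
    have h3 : (1 : ℝ) ≤ 6 ^ 202 := one_le_pow₀ (by norm_num)
    nlinarith
  have hx1 : 1 ≤ x := le_trans hC1 hZ
  have hx0 : 0 ≤ x := by linarith
  -- the size of `2 ^ s`
  have hQ : (2 : ℝ) ^ s ≤ 6 * x := by
    have h1 : ((2 : ℝ) ^ (L - 3)) ≤ n := by exact_mod_cast hLn
    have h2 := Real.log_le_log (by positivity) h1
    rw [Real.log_pow, ← hx] at h2
    have h3 : ((2 ^ (s - 2) : ℕ) : ℝ) ≤ ((L - 3 : ℕ) : ℝ) := by exact_mod_cast hs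
    push_cast at h3
    have h5 : (0 : ℝ) ≤ ((L - 3 : ℕ) : ℝ) := Nat.cast_nonneg _
    have e : (2 : ℝ) ^ s = 4 * 2 ^ (s - 2) := by
      conv_lhs => rw [show s = (s - 2) + 2 by omega, pow_add]
      ring
    rw [e]
    nlinarith
  -- the main power bound
  have hmain : C₁ * 1120000 ^ (2 * s) ≤ x ^ 41 := by
    have h5 : (C₁ * 1120000 ^ (2 * s)) ^ 5 ≤ (x ^ 41) ^ 5 := by
      have e1 : (C₁ * (1120000 : ℝ) ^ (2 * s)) ^ 5 = C₁ ^ 5 * ((1120000 : ℝ) ^ 5) ^ (2 * s) := by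
        rw [mul_pow, ← pow_mul, ← pow_mul, mul_comm (2 * s) 5]
      have e2 : ((1120000 : ℝ) ^ 5) ^ (2 * s) ≤ (2 ^ 101) ^ (2 * s) :=
        pow_le_pow_left₀ (by positivity) (by norm_num) _
      have e3 : ((2 : ℝ) ^ 101) ^ (2 * s) = ((2 : ℝ) ^ s) ^ 202 := by
        rw [← pow_mul, ← pow_mul]
        congr 1
        ring
      have e4 : ((2 : ℝ) ^ s) ^ 202 ≤ (6 * x) ^ 202 :=
        pow_le_pow_left₀ (by positivity) hQ 202
      have e5 : (C₁ ^ 5 * 6 ^ 202) * x ^ 202 ≤ x * x ^ 202 :=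
        mul_le_mul_of_nonneg_right hZ (by positivity)
      have e6 : x * x ^ 202 ≤ (x ^ 41) ^ 5 := by
        rw [← pow_succ', ← pow_mul]
        exact pow_le_pow_right₀ hx1 (by norm_num)
      have hC5 : 0 ≤ C₁ ^ 5 := by positivity
      calc (C₁ * (1120000 : ℝ) ^ (2 * s)) ^ 5 = C₁ ^ 5 * ((1120000 : ℝ) ^ 5) ^ (2 * s) := e1
        _ ≤ C₁ ^ 5 * (6 * x) ^ 202 :=
            mul_le_mul_of_nonneg_left (e2.trans (e3.le.trans e4)) hC5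
        _ = (C₁ ^ 5 * 6 ^ 202) * x ^ 202 := by rw [mul_pow]; ring
        _ ≤ x * x ^ 202 := e5
        _ ≤ _ := e6
    exact (pow_le_pow_iff_left₀ (by positivity) (by positivity) (by norm_num)).1 h5
  -- the other factors
  have P2 := inv_pow_le n d hn8 hdn
  have P3 : (2 : ℝ) ^ (efin d + 2) ≤ 2 ^ 22 * n := by
    have : 2 ^ (efin d + 2) ≤ 2 ^ 22 * n := by
      rw [pow_add]
      calc 2 ^ efin d * 2 ^ 2 ≤ (2 ^ 20 * n) * 2 ^ 2 := Nat.mul_le_mul_right _ heff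
        _ = 2 ^ 22 * n := by ring
    exact_mod_cast this
  have hinv0 : 0 ≤ ((1 - 2 / (n : ℝ))⁻¹) ^ d := by
    have hx' : 2 / (n : ℝ) ≤ 1 := by
      rw [div_le_one hn0]
      have : (8 : ℝ) ≤ n := by exact_mod_cast hn8
      linarith
    exact pow_nonneg (inv_nonneg.2 (by linarith)) _
  have e7 : (1120000 : ℝ) ^ t = 1120000 ^ 18 * 1120000 ^ (2 * s) := by
    rw [ht, pow_add]
  calc (10 / 9) * (4 * 1120000 ^ t) * ((1 - 2 / (n : ℝ))⁻¹) ^ d * 2 ^ (efin d + 2)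
      ≤ (10 / 9) * (4 * 1120000 ^ t) * 2 ^ 7 * (2 ^ 22 * n) := by
        apply mul_le_mul (mul_le_mul_of_nonneg_left P2 (by positivity)) P3 (by positivity)
          (by positivity)
    _ = (n : ℝ) * (C₁ * 1120000 ^ (2 * s)) := by
        rw [e7, hC₁]
        ring
    _ ≤ (n : ℝ) * x ^ 41 := mul_le_mul_of_nonneg_left hmain hn0.le

end ParamsAux

open ParamsAux in
/-- MODULE W6: numerics. `t = 18 + 2 clog clog (4 n)` as in Params.lean. -/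
theorem params_log (d₀ : ℕ) : ∃ n₀ : ℕ, ∀ n ≥ n₀, ∃ d t : ℕ,
    d + t = n ∧ 1 ≤ t ∧ d₀ ≤ d ∧ 8 ≤ n ∧
    ((2 * (n : ℝ)) ^ t ≤ 2 ^ (mstar d / 16)) ∧
    (((2 * (n : ℝ)) ^ t) ^ (2 ^ t - 1) * ((1 / 2 : ℝ) ^ (mstar d / 4)) ^ (2 ^ t) <
      (1 / 2) * (1 / (4 * (n : ℝ))) ^ d) ∧
    (64 * ((102 * (t : ℝ) + 1) ^ t) * (490000 * (t : ℝ)) * Real.exp (9800000 * (t : ℝ)) ≤ Real.sqrt n) ∧
    ((10 / 9) * (4 * 1120000 ^ t) * ((1 - 2 / (n : ℝ))⁻¹) ^ d * 2 ^ (efin d + 2) ≤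
      (n : ℝ) * (Real.log n) ^ 41) := by
  have e1 : Tendsto (fun n : ℕ => Real.log n) atTop atTop :=
    Real.tendsto_log_atTop.comp tendsto_natCast_atTop_atTop
  obtain ⟨Z, hZ⟩ : ∃ Z : ℝ, Z = (10 / 9 * 4 * (1120000 : ℝ) ^ 18 * 2 ^ 29) ^ 5 * 6 ^ 202 := ⟨_, rfl⟩
  obtain ⟨a, ha⟩ := eventually_atTop.1 (e1.eventually_ge_atTop Z)
  obtain ⟨s₁, hs₁⟩ : ∃ s₁ : ℕ, s₁ = 40 := ⟨_, rfl⟩
  have hs₁7 : 7 ≤ s₁ := by omega
  refine ⟨2 ^ (2 ^ s₁) + 2 * d₀ + a + 2 ^ 64, fun n hn => ?_⟩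
  have hn1 : 2 ^ (2 ^ s₁) ≤ n := by
    generalize 2 ^ (2 ^ s₁) = A at hn ⊢
    omega
  have hn2 : 2 * d₀ ≤ n := by
    generalize 2 ^ (2 ^ s₁) = A at hn
    omega
  have hna : a ≤ n := by
    generalize 2 ^ (2 ^ s₁) = A at hn
    omega
  have hn3 : 8 ≤ n := by
    generalize 2 ^ (2 ^ s₁) = A at hn
    omega
  have hz := ha n hna
  rw [hZ] at hz
  obtain ⟨L, s, h4n, hLs, hss, hL64, hLn, hsL, hsL'⟩ := scale_facts hs₁7 hn1
  have hs40 : 40 ≤ s := by omega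
  obtain ⟨t, ht⟩ : ∃ t, t = 18 + 2 * s := ⟨_, rfl⟩
  have ht1 : 1 ≤ t := by omega
  have htL : t ≤ 18 + 2 * L := by omega
  have hbigL := bigL L hL64
  have hbign : 400000 * L ^ 2 * t ≤ n :=
    le_trans (Nat.mul_le_mul_left _ htL) (le_trans hbigL hLn)
  have ht2 : t ≤ n := by
    have hLsq : 1 ≤ 400000 * L ^ 2 := Nat.mul_pos (by norm_num) (Nat.pow_pos (by omega))
    exact le_trans (Nat.le_mul_of_pos_left _ hLsq) hbign
  obtain ⟨d, hdt⟩ : ∃ d, d + t = n := ⟨n - t, by omega⟩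
  obtain ⟨hd2, hdbig, hd1⟩ := dim_facts hbign hL64 ht1 hdt
  have hdn : d ≤ n := by omega
  have hclL : Nat.clog 2 d ≤ L := by
    have h5 := Nat.clog_mono_right 2 (le_trans (le_trans hdn (by omega)) h4n)
    rwa [Nat.clog_pow 2 _ (by norm_num)] at h5
  obtain ⟨hLt_a, hk, hm1⟩ := arith_m hdbig hclL hd1 (by omega) ht1 hLs ht
  have hA : (2 * (n : ℝ)) ^ t ≤ 2 ^ (mstar d / 16) := C1 h4n hLt_a
  have heff : 2 ^ efin d ≤ 2 ^ 20 * n :=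
    le_trans (efin_le d hm1) (Nat.mul_le_mul_left _ hdn)
  refine ⟨d, t, hdt, ht1, by omega, hn3, hA, ?_, ?_, ?_⟩
  · exact C2 (by omega) h4n hA hk
  · exact C4 ht hs40 (by omega) (by omega) hLn hsL
  · exact C3log hn3 hdn hLn hsL ht heff (by omega) (by omega) hz

end Vale.Agent.Lib.P230
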