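import Mathlib

/-! P230: transfer of a covering statement for one body from product coordinates to
`Fin (d + t) → ℝ`. -/

set_option autoImplicit false

open MeasureTheory
open scoped ENNReal Matrix

namespace Vale.Agent.Lib.P230

/-- The coordinate identification. -/
private def wrapPhi {d t : ℕ} (p : (Fin d → ℝ) × (Fin t → ℝ)) : Fin (d + t) → ℝ :=
  fun i => Sum.elim p.1 p.2 (finSumFinEquiv.symm i)

private def wrapPsi {d t : ℕ} (f : Fin (d + t) → ℝ) : (Fin d → ℝ) × (Fin t → ℝ) :=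
  (fun i => f (finSumFinEquiv (Sum.inl i)), fun j => f (finSumFinEquiv (Sum.inr j)))

private lemma wrapPhi_psi {d t : ℕ} (f : Fin (d + t) → ℝ) : wrapPhi (wrapPsi f) = f := by
  funext i
  obtain ⟨j, rfl⟩ := finSumFinEquiv.surjective i
  cases j <;> simp [wrapPhi, wrapPsi]

private lemma wrapPsi_phi {d t : ℕ} (p : (Fin d → ℝ) × (Fin t → ℝ)) : wrapPsi (wrapPhi p) = p := by
  ext i <;> simp [wrapPhi, wrapPsi]

private lemma wrapPsi_continuous {d t : ℕ} : Continuous (wrapPsi (d := d) (t := t)) := by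
  unfold wrapPsi
  fun_prop

private lemma wrapPhi_add_smul {d t : ℕ} (a b : ℝ) (p q : (Fin d → ℝ) × (Fin t → ℝ)) :
    wrapPhi (a • p + b • q) = a • wrapPhi p + b • wrapPhi q := by
  funext i
  obtain ⟨j, rfl⟩ := finSumFinEquiv.surjective i
  cases j <;> simp [wrapPhi]

/-- The measure-preserving equivalence. -/
private noncomputable def wrapEquiv (d t : ℕ) :
    ((Fin d → ℝ) × (Fin t → ℝ)) ≃ᵐ (Fin (d + t) → ℝ) :=
  (MeasurableEquiv.sumPiEquivProdPi (fun _ : Fin d ⊕ Fin t => ℝ)).symm.trans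
    (MeasurableEquiv.piCongrLeft (fun _ : Fin (d + t) => ℝ) finSumFinEquiv)

private lemma wrapEquiv_apply {d t : ℕ} (p : (Fin d → ℝ) × (Fin t → ℝ)) :
    wrapEquiv d t p = wrapPhi p := by
  funext i
  obtain ⟨j, rfl⟩ := finSumFinEquiv.surjective i
  have h := MeasurableEquiv.piCongrLeft_apply_apply (β := fun _ : Fin (d + t) => ℝ)
    (finSumFinEquiv : Fin d ⊕ Fin t ≃ Fin (d + t))
    ((MeasurableEquiv.sumPiEquivProdPi (fun _ : Fin d ⊕ Fin t => ℝ)).symm p) j
  simp only [wrapEquiv, MeasurableEquiv.trans_apply]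
  rw [h]
  cases j <;> simp [wrapPhi, MeasurableEquiv.sumPiEquivProdPi, Equiv.sumPiEquivProdPi]

private lemma wrapEquiv_mp (d t : ℕ) : MeasurePreserving (wrapEquiv d t) volume volume := by
  have h1 := volume_measurePreserving_sumPiEquivProdPi (fun _ : Fin d ⊕ Fin t => ℝ)
  have h2 := volume_measurePreserving_piCongrLeft (fun _ : Fin (d + t) => ℝ)
    (finSumFinEquiv : Fin d ⊕ Fin t ≃ Fin (d + t))
  exact h2.comp h1.symm

/-- Transfer of a covering statement for one body from product coordinates to `Fin (d + t) → ℝ`. -/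
theorem wrap_at {d t : ℕ} (C : ℝ) (K : Set (Fin (d + t) → ℝ)) (K₂ : Set ((Fin d → ℝ) × (Fin t → ℝ)))
    (hK₂def : K₂ = (fun x : Fin (d + t) → ℝ =>
      ((fun i => x (Fin.castAdd t i), fun i => x (Fin.natAdd d i)) : (Fin d → ℝ) × (Fin t → ℝ))) '' K)
    (A₂ : Matrix (Fin d ⊕ Fin t) (Fin d ⊕ Fin t) ℝ) (hdet : A₂.det ≠ 0)
    (hcov : ∀ x : (Fin d → ℝ) × (Fin t → ℝ), ∃ u ∈ K₂, ∃ m : Fin d ⊕ Fin t → ℤ,
      x = u + (fun i => A₂.mulVec (fun j => (m j : ℝ)) (Sum.inl i),
        fun i => A₂.mulVec (fun j => (m j : ℝ)) (Sum.inr i)))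
    (hle : (volume K₂).toReal ≤ C * |A₂.det|) :
    ∃ A : Matrix (Fin (d + t)) (Fin (d + t)) ℝ, A.det ≠ 0 ∧
      (∀ x : Fin (d + t) → ℝ, ∃ u ∈ K, ∃ m : Fin (d + t) → ℤ,
        x = u + A.mulVec (fun i => (m i : ℝ))) ∧
      (volume K).toReal ≤ C * |A.det| := by
  classical
  have hpsi : (fun x : Fin (d + t) → ℝ =>
      ((fun i => x (Fin.castAdd t i), fun i => x (Fin.natAdd d i)) : (Fin d → ℝ) × (Fin t → ℝ))) = wrapPsi := by
    funext x
    simp [wrapPsi]
  rw [hpsi] at hK₂def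
  have hK₂' : K₂ = wrapPhi ⁻¹' K := by
    rw [hK₂def]
    ext p
    constructor
    · rintro ⟨f, hf, rfl⟩
      show wrapPhi (wrapPsi f) ∈ K
      rwa [wrapPhi_psi]
    · intro hp
      exact ⟨wrapPhi p, hp, wrapPsi_phi p⟩
  have hvol : volume K₂ = volume K := by
    have h := (wrapEquiv_mp d t).measure_preimage_equiv K
    have he : (⇑(wrapEquiv d t)) ⁻¹' K = K₂ := by
      ext p
      rw [hK₂']
      simp only [Set.mem_preimage]
      rw [wrapEquiv_apply]
    rw [he] at h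
    exact h
  refine ⟨Matrix.reindex finSumFinEquiv finSumFinEquiv A₂, ?_, ?_, ?_⟩
  · rwa [Matrix.det_reindex_self]
  · intro x
    obtain ⟨u, hu, m, hx⟩ := hcov (wrapPsi x)
    have hu' : wrapPhi u ∈ K := by
      rw [hK₂'] at hu
      exact hu
    refine ⟨wrapPhi u, hu', fun i => m (finSumFinEquiv.symm i), ?_⟩
    have key : ∀ j : Fin d ⊕ Fin t,
        (Matrix.reindex finSumFinEquiv finSumFinEquiv A₂).mulVec
            (fun i => ((m (finSumFinEquiv.symm i) : ℤ) : ℝ)) (finSumFinEquiv j)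
          = A₂.mulVec (fun k => (m k : ℝ)) j := by
      intro j
      simp only [Matrix.mulVec, dotProduct, Matrix.reindex_apply, Matrix.submatrix_apply,
        Equiv.symm_apply_apply]
      rw [← Equiv.sum_comp finSumFinEquiv (fun i =>
        A₂ j (finSumFinEquiv.symm i) * ((m (finSumFinEquiv.symm i) : ℤ) : ℝ))]
      simp
    funext i
    obtain ⟨j, rfl⟩ := finSumFinEquiv.surjective i
    rw [Pi.add_apply, key j]
    have h1 := congrArg Prod.fst hx
    have h2 := congrArg Prod.snd hx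
    cases j with
    | inl j =>
      have := congrFun h1 j
      simpa [wrapPhi, wrapPsi] using this
    | inr j =>
      have := congrFun h2 j
      simpa [wrapPhi, wrapPsi] using this
  · rw [Matrix.det_reindex_self, ← hvol]
    exact hle

end Vale.Agent.Lib.P230
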