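import Vale.Agent.Lib.P230.FineDefs

/-! MODULES W5a, W5b of P230: extending a frame, and the law of the frame projection. -/

set_option autoImplicit false

open MeasureTheory Finset
open scoped ENNReal Matrix

namespace Vale.Agent.Lib.P230

variable {t d : ℕ}

/-- MODULE W5a: linearly independent rows extend to an invertible matrix. -/
theorem extend_frame (θ : Fin t → Fin (d + t) → ℝ) (hθ : LinearIndependent ℝ θ) :
    ∃ E : Matrix (Fin (d + t)) (Fin (d + t)) ℝ, E.det ≠ 0 ∧ ∀ i, E (Fin.natAdd d i) = θ i := by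
  classical
  let W : Submodule ℝ (Fin (d + t) → ℝ) := Submodule.span ℝ (Set.range θ)
  obtain ⟨W', hW'⟩ := Submodule.exists_isCompl W
  have hfW : Module.finrank ℝ W = t := by
    simpa [W] using finrank_span_eq_card hθ
  have hsum := Submodule.finrank_add_eq_of_isCompl hW'
  have hfW' : Module.finrank ℝ W' = d := by
    rw [Module.finrank_fintype_fun_eq_card, hfW] at hsum
    simp only [Fintype.card_fin] at hsum
    omega
  let b := Module.finBasisOfFinrankEq ℝ W' hfW'
  let v : Fin d → (Fin (d + t) → ℝ) := fun j => (b j : Fin (d + t) → ℝ)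
  have hv : LinearIndependent ℝ v := b.linearIndependent.map' W'.subtype W'.ker_subtype
  have hle : Submodule.span ℝ (Set.range v) ≤ W' := by
    rw [Submodule.span_le]
    rintro _ ⟨j, rfl⟩
    exact (b j).2
  have hdisj : Disjoint (Submodule.span ℝ (Set.range v)) (Submodule.span ℝ (Set.range θ)) :=
    (hW'.disjoint.symm).mono_left hle
  have hli := hv.sum_type hθ hdisj
  let E : Matrix (Fin (d + t)) (Fin (d + t)) ℝ := fun i => Sum.elim v θ (finSumFinEquiv.symm i)
  have hrow : LinearIndependent ℝ E.row := hli.comp _ finSumFinEquiv.symm.injective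
  have hunit : IsUnit E := Matrix.linearIndependent_rows_iff_isUnit.1 hrow
  have hdet := (Matrix.isUnit_iff_isUnit_det E).1 hunit
  refine ⟨E, hdet.ne_zero, fun i => ?_⟩
  simp [E]

/-- Gluing of the two coordinates blocks. -/
private noncomputable def fcGlue (d t : ℕ) (p : (Fin d → ℝ) × (Fin t → ℝ)) : Fin (d + t) → ℝ :=
  fun i => Sum.elim p.1 p.2 (finSumFinEquiv.symm i)

private lemma splitMap_glue (p : (Fin d → ℝ) × (Fin t → ℝ)) : splitMap d t (fcGlue d t p) = p := by
  ext i <;> simp [splitMap, fcGlue]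

private lemma glue_splitMap (x : Fin (d + t) → ℝ) : fcGlue d t (splitMap d t x) = x := by
  funext i
  obtain ⟨j, rfl⟩ := finSumFinEquiv.surjective i
  cases j <;> simp [splitMap, fcGlue]

/-- The measure-preserving equivalence. -/
private noncomputable def fcEquiv (d t : ℕ) :
    ((Fin d → ℝ) × (Fin t → ℝ)) ≃ᵐ (Fin (d + t) → ℝ) :=
  (MeasurableEquiv.sumPiEquivProdPi (fun _ : Fin d ⊕ Fin t => ℝ)).symm.trans
    (MeasurableEquiv.piCongrLeft (fun _ : Fin (d + t) => ℝ) finSumFinEquiv)

private lemma fcEquiv_apply (p : (Fin d → ℝ) × (Fin t → ℝ)) : fcEquiv d t p = fcGlue d t p := by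
  funext i
  obtain ⟨j, rfl⟩ := finSumFinEquiv.surjective i
  have h := MeasurableEquiv.piCongrLeft_apply_apply (β := fun _ : Fin (d + t) => ℝ)
    (finSumFinEquiv : Fin d ⊕ Fin t ≃ Fin (d + t))
    ((MeasurableEquiv.sumPiEquivProdPi (fun _ : Fin d ⊕ Fin t => ℝ)).symm p) j
  simp only [fcEquiv, MeasurableEquiv.trans_apply]
  rw [h]
  cases j <;> simp [fcGlue, MeasurableEquiv.sumPiEquivProdPi, Equiv.sumPiEquivProdPi]

private lemma fcEquiv_mp (d t : ℕ) : MeasurePreserving (fcEquiv d t) volume volume := by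
  have h1 := volume_measurePreserving_sumPiEquivProdPi (fun _ : Fin d ⊕ Fin t => ℝ)
  have h2 := volume_measurePreserving_piCongrLeft (fun _ : Fin (d + t) => ℝ)
    (finSumFinEquiv : Fin d ⊕ Fin t ≃ Fin (d + t))
  exact h2.comp h1.symm

private lemma splitMap_continuous : Continuous (splitMap d t) := by
  unfold splitMap
  fun_prop

/-- MODULE W5b: the law of the frame projection has density `secVol`: change of variables `x ↦ E x`, the
measure preserving `splitMap` (`MeasurableEquiv.sumPiEquivProdPi`, `finSumFinEquiv`,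
`volume_measurePreserving_sumPiEquivProdPi`), Tonelli on the product. -/
theorem frame_marginal (E : Matrix (Fin (d + t)) (Fin (d + t)) ℝ) (hE : E.det ≠ 0)
    (K₀ : Set (Fin (d + t) → ℝ)) (hK₀ : IsCompact K₀) (g : (Fin t → ℝ) → ℝ≥0∞) (hg : Measurable g) :
    ENNReal.ofReal |E.det| * ∫⁻ x in K₀, g (fun i => E (Fin.natAdd d i) ⬝ᵥ x) =
      ∫⁻ z, g z * ENNReal.ofReal (secVol (splitMap d t '' (E.mulVec '' K₀)) z) := by
  classical
  -- the sets
  have hcont : Continuous E.mulVec := by
    have : E.mulVec = fun x => E.mulVec x := rfl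
    fun_prop
  set K₁ := E.mulVec '' K₀ with hK₁
  have hK₁c : IsCompact K₁ := hK₀.image hcont
  set K₂ := splitMap d t '' K₁ with hK₂
  have hK₂c : IsCompact K₂ := hK₁c.image splitMap_continuous
  have hK₂m : MeasurableSet K₂ := hK₂c.measurableSet
  have hK₁m : MeasurableSet K₁ := hK₁c.measurableSet
  -- injectivity
  have hinj : Function.Injective E.mulVec := Matrix.mulVec_injective_of_isUnit
    ((Matrix.isUnit_iff_isUnit_det E).2 (isUnit_iff_ne_zero.2 hE))
  -- change of variables
  let h : (Fin (d + t) → ℝ) → ℝ≥0∞ :=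
    K₁.indicator (fun y => g (fun i => y (Fin.natAdd d i)))
  have hgl : Measurable fun y : Fin (d + t) → ℝ => g (fun i => y (Fin.natAdd d i)) :=
    hg.comp (measurable_pi_lambda _ fun i => measurable_pi_apply _)
  have hhm : Measurable h := hgl.indicator hK₁m
  have hmap := Real.map_matrix_volume_pi_eq_smul_volume_pi hE
  have hmeas : Measurable (Matrix.toLin' E) := (Matrix.toLin' E).continuous_of_finiteDimensional.measurable
  have hcv : ∫⁻ x, h (E.mulVec x) = ENNReal.ofReal |(E.det)⁻¹| * ∫⁻ y, h y := by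
    have h1 : ∫⁻ y, h y ∂(Measure.map (Matrix.toLin' E) volume) =
        ∫⁻ x, h (Matrix.toLin' E x) := lintegral_map hhm hmeas
    rw [hmap, lintegral_smul_measure] at h1
    simpa [Matrix.toLin'_apply] using h1.symm
  have hleft : ∫⁻ x, h (E.mulVec x) = ∫⁻ x in K₀, g (fun i => E (Fin.natAdd d i) ⬝ᵥ x) := by
    rw [← lintegral_indicator hK₀.measurableSet]
    refine lintegral_congr fun x => ?_
    by_cases hx : x ∈ K₀
    · have hx1 : E.mulVec x ∈ K₁ := ⟨x, hx, rfl⟩
      simp only [h, Set.indicator_of_mem hx1, Set.indicator_of_mem hx]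
      rfl
    · have hx1 : E.mulVec x ∉ K₁ := by
        rintro ⟨y, hy, hyx⟩
        exact hx (hinj hyx ▸ hy)
      simp only [h, Set.indicator_of_notMem hx1, Set.indicator_of_notMem hx]
  have hp : ∫⁻ y, h y = ∫⁻ p, K₂.indicator (fun p => g p.2) p := by
    rw [← (fcEquiv_mp d t).lintegral_comp_emb (fcEquiv d t).measurableEmbedding h]
    refine lintegral_congr fun p => ?_
    rw [fcEquiv_apply]
    by_cases hpK : p ∈ K₂
    · have hmem : fcGlue d t p ∈ K₁ := by
        obtain ⟨y, hy, rfl⟩ := hpK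
        rw [glue_splitMap]
        exact hy
      simp only [h, Set.indicator_of_mem hmem, Set.indicator_of_mem hpK]
      congr 1
      exact congrArg Prod.snd (splitMap_glue p)
    · have hmem : fcGlue d t p ∉ K₁ := fun hm => hpK ⟨_, hm, splitMap_glue p⟩
      simp only [h, Set.indicator_of_notMem hmem, Set.indicator_of_notMem hpK]
  have hF : Measurable (K₂.indicator (fun p : (Fin d → ℝ) × (Fin t → ℝ) => g p.2)) :=
    (hg.comp measurable_snd).indicator hK₂m
  have htn : ∫⁻ p, K₂.indicator (fun p => g p.2) p =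
      ∫⁻ z, g z * ENNReal.ofReal (secVol K₂ z) := by
    rw [Measure.volume_eq_prod, lintegral_prod_symm _ hF.aemeasurable]
    refine lintegral_congr fun z => ?_
    have hsecm : MeasurableSet {u : Fin d → ℝ | (u, z) ∈ K₂} := measurable_prodMk_right hK₂m
    have hsec : (fun u : Fin d → ℝ => K₂.indicator (fun p => g p.2) (u, z)) =
        {u : Fin d → ℝ | (u, z) ∈ K₂}.indicator (fun _ => g z) := by
      funext u
      by_cases hu : (u, z) ∈ K₂
      · rw [Set.indicator_of_mem hu, Set.indicator_of_mem (by exact hu)]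
      · rw [Set.indicator_of_notMem hu, Set.indicator_of_notMem (by exact hu)]
    rw [hsec, lintegral_indicator_const hsecm]
    have hfin : volume {u : Fin d → ℝ | (u, z) ∈ K₂} ≠ ⊤ := by
      refine ((measure_mono ?_).trans_lt (hK₂c.image continuous_fst).measure_lt_top).ne
      intro u hu
      exact ⟨(u, z), hu, rfl⟩
    rw [secVol, ENNReal.ofReal_toReal hfin]
  have hdet : ENNReal.ofReal |E.det| * ENNReal.ofReal |(E.det)⁻¹| = 1 := by
    rw [← ENNReal.ofReal_mul (abs_nonneg _), ← abs_mul, mul_inv_cancel₀ hE]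
    simp
  calc ENNReal.ofReal |E.det| * ∫⁻ x in K₀, g (fun i => E (Fin.natAdd d i) ⬝ᵥ x)
      = ENNReal.ofReal |E.det| * (ENNReal.ofReal |(E.det)⁻¹| * ∫⁻ y, h y) := by
        rw [← hleft, hcv]
    _ = ∫⁻ y, h y := by
        rw [← mul_assoc, hdet, one_mul]
    _ = _ := by
        rw [hp, htn]

end Vale.Agent.Lib.P230
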