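import Vale.Agent.Lib.P230.FineDefs

/-!
# P230, module W2: from the test points to all directions, by convexity.
-/

set_option autoImplicit false

open MeasureTheory Finset
open scoped ENNReal Matrix

namespace Vale.Agent.Lib.P230

namespace LapAllAux

variable {n t : ℕ}

lemma cont_lin (θ : Fin t → Fin n → ℝ) (w : Fin t → ℝ) :
    Continuous fun x : Fin n → ℝ => ∑ i, w i * (θ i ⬝ᵥ x) := by
  unfold dotProduct
  fun_prop

lemma cont_sq : Continuous fun x : Fin n → ℝ => ∑ j, x j ^ 2 := by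
  fun_prop

/-- On the support, coordinates are bounded. -/
lemma coord_bound {x : Fin n → ℝ} {B : ℝ} (h : ∑ j, x j ^ 2 ≤ B) (j : Fin n) : |x j| ≤ Real.sqrt B := by
  apply Real.abs_le_sqrt
  calc x j ^ 2 ≤ ∑ j, x j ^ 2 :=
        Finset.single_le_sum (f := fun j => x j ^ 2) (fun _ _ => sq_nonneg _) (Finset.mem_univ j)
    _ ≤ B := h

lemma lin_bound (θ : Fin t → Fin n → ℝ) (w : Fin t → ℝ) {B : ℝ} {x : Fin n → ℝ}
    (h : ∑ j, x j ^ 2 ≤ B) :
    |∑ i, w i * (θ i ⬝ᵥ x)| ≤ ∑ i, ∑ j, |w i| * |θ i j| * Real.sqrt B := by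
  calc |∑ i, w i * (θ i ⬝ᵥ x)| ≤ ∑ i, |w i * (θ i ⬝ᵥ x)| := Finset.abs_sum_le_sum_abs _ _
    _ ≤ ∑ i, ∑ j, |w i| * |θ i j| * Real.sqrt B := by
      apply Finset.sum_le_sum
      intro i _
      rw [abs_mul]
      unfold dotProduct
      calc |w i| * |∑ j, θ i j * x j| ≤ |w i| * ∑ j, |θ i j * x j| := by
            apply mul_le_mul_of_nonneg_left (Finset.abs_sum_le_sum_abs _ _) (abs_nonneg _)
        _ = ∑ j, |w i| * |θ i j * x j| := by rw [Finset.mul_sum]
        _ ≤ ∑ j, |w i| * |θ i j| * Real.sqrt B := by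
            apply Finset.sum_le_sum
            intro j _
            rw [abs_mul, mul_assoc]
            apply mul_le_mul_of_nonneg_left _ (abs_nonneg _)
            exact mul_le_mul_of_nonneg_left (coord_bound h j) (abs_nonneg _)

variable {P : Measure (Fin n → ℝ)} [IsProbabilityMeasure P]

lemma integrable_exp_lin (hsupp : ∀ᵐ x ∂P, ∑ j, x j ^ 2 ≤ 10 * (n : ℝ))
    (θ : Fin t → Fin n → ℝ) (w : Fin t → ℝ) :
    Integrable (fun x => Real.exp (∑ i, w i * (θ i ⬝ᵥ x))) P := by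
  refine Integrable.of_bound ((Real.continuous_exp.comp (cont_lin θ w)).aestronglyMeasurable)
    (Real.exp (∑ i, ∑ j, |w i| * |θ i j| * Real.sqrt (10 * (n : ℝ)))) ?_
  filter_upwards [hsupp] with x hx
  rw [Real.norm_eq_abs, abs_of_pos (Real.exp_pos _)]
  exact Real.exp_le_exp.2 (le_trans (le_abs_self _) (lin_bound θ w hx))

lemma integrable_sq (hsupp : ∀ᵐ x ∂P, ∑ j, x j ^ 2 ≤ 10 * (n : ℝ)) :
    Integrable (fun x : Fin n → ℝ => ∑ j, x j ^ 2) P := by
  refine Integrable.of_bound (cont_sq.aestronglyMeasurable) (10 * (n : ℝ)) ?_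
  filter_upwards [hsupp] with x hx
  rw [Real.norm_eq_abs, abs_of_nonneg (Finset.sum_nonneg fun _ _ => sq_nonneg _)]
  exact hx

/-- Integrating the pointwise AM-GM: `frameLap ξ' ^ 2 ≤ frameLap ξ * frameLap ξ₂`. -/
lemma frame_cs (hsupp : ∀ᵐ x ∂P, ∑ j, x j ^ 2 ≤ 10 * (n : ℝ)) (θ : Fin t → Fin n → ℝ)
    (ξ ξ₂ ξ' : Fin t → ℝ) (h : ∀ i, ξ' i = (ξ i + ξ₂ i) / 2) :
    frameLap P θ ξ' ^ 2 ≤ frameLap P θ ξ * frameLap P θ ξ₂ := by
  have hL' : 0 < frameLap P θ ξ' := integral_exp_pos (integrable_exp_lin hsupp θ ξ')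
  have hL : 0 < frameLap P θ ξ := integral_exp_pos (integrable_exp_lin hsupp θ ξ)
  have hL2 : 0 < frameLap P θ ξ₂ := integral_exp_pos (integrable_exp_lin hsupp θ ξ₂)
  set L' := frameLap P θ ξ' with hL'def
  set L := frameLap P θ ξ with hLdef
  set L2 := frameLap P θ ξ₂ with hL2def
  -- s = L2 / L'
  set s : ℝ := L2 / L' with hs
  have hspos : 0 < s := div_pos hL2 hL'
  have key : ∀ x : Fin n → ℝ, 2 * Real.exp (∑ i, ξ' i * (θ i ⬝ᵥ x)) ≤
      s * Real.exp (∑ i, ξ i * (θ i ⬝ᵥ x)) + s⁻¹ * Real.exp (∑ i, ξ₂ i * (θ i ⬝ᵥ x)) := by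
    intro x
    set a := (∑ i, ξ i * (θ i ⬝ᵥ x)) / 2 with ha
    set b := (∑ i, ξ₂ i * (θ i ⬝ᵥ x)) / 2 with hb
    have e1 : ∑ i, ξ' i * (θ i ⬝ᵥ x) = a + b := by
      rw [ha, hb, ← add_div, ← Finset.sum_add_distrib, Finset.sum_div]
      apply Finset.sum_congr rfl
      intro i _
      rw [h i]
      ring
    have e2 : ∑ i, ξ i * (θ i ⬝ᵥ x) = 2 * a := by rw [ha]; ring
    have e3 : ∑ i, ξ₂ i * (θ i ⬝ᵥ x) = 2 * b := by rw [hb]; ring
    rw [e1, e2, e3]
    have x2 : Real.exp (2 * a) = Real.exp a * Real.exp a := by rw [← Real.exp_add]; ring_nf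
    have y2 : Real.exp (2 * b) = Real.exp b * Real.exp b := by rw [← Real.exp_add]; ring_nf
    rw [Real.exp_add, x2, y2]
    have hX := Real.exp_pos a
    have hY := Real.exp_pos b
    set X := Real.exp a
    set Y := Real.exp b
    have hne : s ≠ 0 := hspos.ne'
    have : s * (X * X) + s⁻¹ * (Y * Y) - 2 * (X * Y) = (s * X - Y) ^ 2 * s⁻¹ := by
      field_simp
      ring
    have h2 : 0 ≤ (s * X - Y) ^ 2 * s⁻¹ := by positivity
    linarith
  have hint : 2 * L' ≤ s * L + s⁻¹ * L2 := by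
    have I1 := (integrable_exp_lin hsupp θ ξ').const_mul 2
    have I2 := ((integrable_exp_lin hsupp θ ξ).const_mul s).add
      ((integrable_exp_lin hsupp θ ξ₂).const_mul s⁻¹)
    have := integral_mono I1 I2 key
    simp only [Pi.add_apply] at this
    rw [integral_const_mul, integral_add ((integrable_exp_lin hsupp θ ξ).const_mul s)
      ((integrable_exp_lin hsupp θ ξ₂).const_mul s⁻¹), integral_const_mul, integral_const_mul]
      at this
    exact this
  have hs2 : s⁻¹ * L2 = L' := by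
    rw [hs]
    field_simp
  rw [hs2] at hint
  have h3 : L' ≤ s * L := by linarith
  have h4 : L' * L' ≤ L2 * L := by
    have := mul_le_mul_of_nonneg_right h3 hL'.le
    calc L' * L' ≤ s * L * L' := this
      _ = L2 * L := by rw [hs]; field_simp
  nlinarith

/-- `exp(ξ₂ i y) ≤ exp(7 y) + exp(-7 y)` for `|ξ₂ i| ≤ 7`. -/
lemma exp_two_sided {a y : ℝ} (ha : |a| ≤ 7) :
    Real.exp (a * y) ≤ Real.exp (7 * y) + Real.exp (-7 * y) := by
  have hp1 := Real.exp_pos (7 * y)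
  have hp2 := Real.exp_pos (-7 * y)
  rcases le_total 0 y with hy | hy
  · have : a * y ≤ 7 * y := mul_le_mul_of_nonneg_right (le_trans (le_abs_self _) ha) hy
    have := Real.exp_le_exp.2 this
    linarith
  · have : a * y ≤ -7 * y := by
      have h1 : -7 ≤ a := by
        have := neg_abs_le a
        linarith
      nlinarith
    have := Real.exp_le_exp.2 this
    linarith

/-- Sign vectors. -/
noncomputable def sgn (S : Finset (Fin t)) (i : Fin t) : ℝ := if i ∈ S then 7 else -7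

lemma sgn_sq (S : Finset (Fin t)) (i : Fin t) : sgn S i ^ 2 = 49 := by
  unfold sgn
  split_ifs <;> norm_num

lemma sgn_sum (S : Finset (Fin t)) : ∑ i, sgn S i ^ 2 = 49 * (t : ℝ) := by
  simp [sgn_sq]
  ring

lemma exp_sum_le_sgn (θ : Fin t → Fin n → ℝ) (ξ₂ : Fin t → ℝ) (h : ∀ i, |ξ₂ i| ≤ 7) (x : Fin n → ℝ) :
    Real.exp (∑ i, ξ₂ i * (θ i ⬝ᵥ x)) ≤
      ∑ S ∈ (Finset.univ : Finset (Fin t)).powerset, Real.exp (∑ i, sgn S i * (θ i ⬝ᵥ x)) := by
  classical
  rw [Real.exp_sum]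
  calc ∏ i, Real.exp (ξ₂ i * (θ i ⬝ᵥ x))
      ≤ ∏ i, (Real.exp (7 * (θ i ⬝ᵥ x)) + Real.exp (-7 * (θ i ⬝ᵥ x))) := by
        apply Finset.prod_le_prod
        · intro i _
          exact (Real.exp_pos _).le
        · intro i _
          exact exp_two_sided (h i)
    _ = ∑ S ∈ (Finset.univ : Finset (Fin t)).powerset,
          (∏ i ∈ S, Real.exp (7 * (θ i ⬝ᵥ x))) *
            ∏ i ∈ (Finset.univ : Finset (Fin t)) \ S, Real.exp (-7 * (θ i ⬝ᵥ x)) := by
        rw [Finset.prod_add]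
    _ = ∑ S ∈ (Finset.univ : Finset (Fin t)).powerset, Real.exp (∑ i, sgn S i * (θ i ⬝ᵥ x)) := by
        apply Finset.sum_congr rfl
        intro S _
        rw [Real.exp_sum]
        have : ∀ i, Real.exp (sgn S i * (θ i ⬝ᵥ x)) =
            if i ∈ S then Real.exp (7 * (θ i ⬝ᵥ x)) else Real.exp (-7 * (θ i ⬝ᵥ x)) := by
          intro i
          unfold sgn
          split_ifs <;> rfl
        simp_rw [this]
        rw [Finset.prod_ite]
        congr 1
        · apply Finset.prod_congr _ (fun _ _ => rfl)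
          ext i
          simp
        · apply Finset.prod_congr _ (fun _ _ => rfl)
          ext i
          simp

lemma mem_testGrid (k : Fin t → ℤ) (hk : ∀ i, (k i : ℝ) ^ 2 ≤ (51 * (t : ℝ)) ^ 2)
    (hs : ∑ i, (7 * (k i : ℝ)) ^ 2 ≤ 490000 * (t : ℝ)) :
    (fun i => 7 * (k i : ℝ)) ∈ testGrid t := by
  classical
  unfold testGrid
  rw [Finset.mem_filter]
  refine ⟨?_, hs⟩
  rw [Finset.mem_image]
  refine ⟨k, ?_, rfl⟩
  rw [Fintype.mem_piFinset]
  intro i
  rw [Finset.mem_Icc]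
  have h1 := abs_le_of_sq_le_sq' (hk i) (by positivity)
  constructor
  · have : (-(51 * (t : ℤ)) : ℝ) ≤ (k i : ℝ) := by
      have := h1.1
      simpa using this
    exact_mod_cast this
  · have : (k i : ℝ) ≤ ((51 * (t : ℤ) : ℤ) : ℝ) := by
      have := h1.2
      simpa using this
    exact_mod_cast this

end LapAllAux

open LapAllAux in
/-- MODULE W2: from the test points to all directions, by convexity. -/
theorem laplace_all {n t : ℕ} (hn : 0 < n) (ht : 1 ≤ t) (P : Measure (Fin n → ℝ)) [IsProbabilityMeasure P]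
    (hsupp : ∀ᵐ x ∂P, ∑ j, x j ^ 2 ≤ 10 * (n : ℝ))
    (hmean : (n : ℝ) / 61 ≤ ∫ x, ∑ j, x j ^ 2 ∂P) (θ : Fin t → Fin n → ℝ)
    (hθ : ∀ w ∈ testGrid t, (1 / 2) * frameMean P w ≤ frameLap P θ w ∧
      frameLap P θ w ≤ (3 / 2) * frameMean P w) (ξ : Fin t → ℝ)
    (hξ : ∑ i, ξ i ^ 2 = 490000 * (t : ℝ)) :
    Real.exp (490000 * (t : ℝ) / 300) ≤ frameLap P θ ξ := by
  classical
  have htR : (1 : ℝ) ≤ t := by exact_mod_cast ht
  have hnR : (0 : ℝ) < n := by exact_mod_cast hn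
  -- rounding
  set k : Fin t → ℤ := fun i => round (ξ i / 14) with hk
  set ξ' : Fin t → ℝ := fun i => 7 * (k i : ℝ) with hξ'
  set ξ₂ : Fin t → ℝ := fun i => 2 * ξ' i - ξ i with hξ₂
  have hround : ∀ i, |ξ i / 14 - (k i : ℝ)| ≤ 1 / 2 := fun i => abs_sub_round (ξ i / 14)
  have hξ₂b : ∀ i, |ξ₂ i| ≤ 7 := by
    intro i
    have h1 := abs_le.1 (hround i)
    rw [abs_le]
    simp only [hξ₂, hξ']
    constructor <;> linarith [h1.1, h1.2]
  have hmid : ∀ i, ξ' i = (ξ i + ξ₂ i) / 2 := by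
    intro i
    simp only [hξ₂]
    ring
  -- squares
  have hb2 : ∑ i, ξ₂ i ^ 2 ≤ 49 * (t : ℝ) := by
    calc ∑ i, ξ₂ i ^ 2 ≤ ∑ _i : Fin t, (49 : ℝ) := by
          apply Finset.sum_le_sum
          intro i _
          have := abs_le.1 (hξ₂b i)
          nlinarith [this.1, this.2]
      _ = 49 * (t : ℝ) := by simp; ring
  have hcs : (∑ i, ξ i * ξ₂ i) ^ 2 ≤ (∑ i, ξ i ^ 2) * ∑ i, ξ₂ i ^ 2 :=
    Finset.sum_mul_sq_le_sq_mul_sq _ _ _
  have hab : |∑ i, ξ i * ξ₂ i| ≤ 4900 * (t : ℝ) := by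
    apply abs_le_of_sq_le_sq _ (by positivity)
    rw [hξ] at hcs
    have hb0 : 0 ≤ ∑ i, ξ₂ i ^ 2 := Finset.sum_nonneg fun _ _ => sq_nonneg _
    have : (490000 * (t : ℝ)) * ∑ i, ξ₂ i ^ 2 ≤ (490000 * (t : ℝ)) * (49 * (t : ℝ)) :=
      mul_le_mul_of_nonneg_left hb2 (by positivity)
    nlinarith
  have hexp : ∑ i, ξ' i ^ 2 = (∑ i, ξ i ^ 2 + 2 * ∑ i, ξ i * ξ₂ i + ∑ i, ξ₂ i ^ 2) / 4 := by
    rw [Finset.mul_sum, ← Finset.sum_add_distrib, ← Finset.sum_add_distrib, Finset.sum_div]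
    apply Finset.sum_congr rfl
    intro i _
    rw [hmid i]
    ring
  have hb0 : 0 ≤ ∑ i, ξ₂ i ^ 2 := Finset.sum_nonneg fun _ _ => sq_nonneg _
  have hab' := abs_le.1 hab
  have hlow : 120050 * (t : ℝ) ≤ ∑ i, ξ' i ^ 2 := by
    rw [hexp, hξ]
    linarith [hab'.1]
  have hup : ∑ i, ξ' i ^ 2 ≤ 490000 * (t : ℝ) := by
    rw [hexp, hξ]
    linarith [hab'.2]
  -- membership of ξ'
  have hkbd : ∀ i, (k i : ℝ) ^ 2 ≤ (51 * (t : ℝ)) ^ 2 := by
    intro i
    have hi : ξ i ^ 2 ≤ 490000 * (t : ℝ) := by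
      rw [← hξ]
      exact Finset.single_le_sum (f := fun i => ξ i ^ 2) (fun _ _ => sq_nonneg _) (Finset.mem_univ i)
    have hξabs : |ξ i| ≤ 700 * (t : ℝ) := by
      apply abs_le_of_sq_le_sq _ (by positivity)
      nlinarith
    have h1 := abs_le.1 (hround i)
    have h2 := abs_le.1 hξabs
    have h3 : (k i : ℝ) ≤ 51 * (t : ℝ) := by linarith [h1.1, h2.2]
    have h4 : -(51 * (t : ℝ)) ≤ (k i : ℝ) := by linarith [h1.2, h2.1]
    exact sq_le_sq' h4 h3
  have hmem : ξ' ∈ testGrid t := mem_testGrid k hkbd hup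
  -- Jensen
  have hG := integrable_sq (P := P) hsupp
  set G : (Fin n → ℝ) → ℝ := fun x => ∑ j, x j ^ 2 with hGdef
  have hsuppG : ∀ᵐ x ∂P, G x ≤ 10 * (n : ℝ) := hsupp
  have hmeanlow : Real.exp (984 * (t : ℝ)) ≤ frameMean P ξ' := by
    set W := ∑ i, ξ' i ^ 2 with hW
    have hW0 : 0 ≤ W := Finset.sum_nonneg fun _ _ => sq_nonneg _
    have hf : Integrable (fun x => W * G x / (2 * (n : ℝ))) P := (hG.const_mul W).div_const _
    have hg : Integrable (Real.exp ∘ fun x => W * G x / (2 * (n : ℝ))) P := by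
      refine Integrable.of_bound ?_ (Real.exp (W * (10 * (n : ℝ)) / (2 * (n : ℝ)))) ?_
      · apply Continuous.aestronglyMeasurable
        apply Real.continuous_exp.comp
        have := cont_sq (n := n)
        fun_prop
      · filter_upwards [hsuppG] with x hx
        simp only [Function.comp]
        rw [Real.norm_eq_abs, abs_of_pos (Real.exp_pos _)]
        apply Real.exp_le_exp.2
        apply div_le_div_of_nonneg_right _ (by positivity)
        exact mul_le_mul_of_nonneg_left hx hW0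
    have hJ := convexOn_exp.map_integral_le (s := Set.univ) (μ := P)
      (f := fun x => W * G x / (2 * (n : ℝ))) Real.continuous_exp.continuousOn isClosed_univ
      (by simp) hf hg
    have hval : ∫ x, W * G x / (2 * (n : ℝ)) ∂P = W * (∫ x, G x ∂P) / (2 * (n : ℝ)) := by
      rw [integral_div, integral_const_mul]
    have hval2 : 984 * (t : ℝ) ≤ W * (∫ x, G x ∂P) / (2 * (n : ℝ)) := by
      rw [le_div_iff₀ (by positivity)]
      have h1 : W * ((n : ℝ) / 61) ≤ W * ∫ x, G x ∂P := mul_le_mul_of_nonneg_left hmean hW0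
      have h2 : 120050 * (t : ℝ) * ((n : ℝ) / 61) ≤ W * ((n : ℝ) / 61) :=
        mul_le_mul_of_nonneg_right hlow (by positivity)
      have h3 : 984 * (t : ℝ) * (2 * (n : ℝ)) ≤ 120050 * (t : ℝ) * ((n : ℝ) / 61) := by
        have : 0 ≤ (t : ℝ) * n := by positivity
        nlinarith
      linarith
    calc Real.exp (984 * (t : ℝ)) ≤ Real.exp (W * (∫ x, G x ∂P) / (2 * (n : ℝ))) :=
          Real.exp_le_exp.2 hval2
      _ = Real.exp (∫ x, W * G x / (2 * (n : ℝ)) ∂P) := by rw [hval]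
      _ ≤ _ := hJ
  -- upper bound of frameLap ξ₂
  have hsgnmem : ∀ S : Finset (Fin t), sgn S ∈ testGrid t := by
    intro S
    have hk1 : sgn S = fun i => 7 * (((if i ∈ S then 1 else -1 : ℤ)) : ℝ) := by
      funext i
      unfold sgn
      split_ifs <;> norm_num
    rw [hk1]
    apply mem_testGrid
    · intro i
      have h51 : (1 : ℝ) ≤ (51 * (t : ℝ)) ^ 2 := by nlinarith
      split_ifs <;> norm_num <;> linarith
    · have : ∑ i, (7 * (((if i ∈ S then 1 else -1 : ℤ)) : ℝ)) ^ 2 = ∑ i, sgn S i ^ 2 := by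
        apply Finset.sum_congr rfl
        intro i _
        rw [hk1]
      rw [this, sgn_sum]
      nlinarith
  have hmeanup : ∀ S : Finset (Fin t), frameMean P (sgn S) ≤ Real.exp (245 * (t : ℝ)) := by
    intro S
    unfold frameMean
    rw [sgn_sum]
    have hle : ∀ᵐ x ∂P, Real.exp (49 * (t : ℝ) * (∑ j, x j ^ 2) / (2 * (n : ℝ))) ≤
        Real.exp (245 * (t : ℝ)) := by
      filter_upwards [hsupp] with x hx
      apply Real.exp_le_exp.2
      rw [div_le_iff₀ (by positivity)]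
      have : 49 * (t : ℝ) * (∑ j, x j ^ 2) ≤ 49 * (t : ℝ) * (10 * (n : ℝ)) :=
        mul_le_mul_of_nonneg_left hx (by positivity)
      nlinarith
    have := integral_mono_of_nonneg (μ := P)
      (f := fun x => Real.exp (49 * (t : ℝ) * (∑ j, x j ^ 2) / (2 * (n : ℝ))))
      (g := fun _ => Real.exp (245 * (t : ℝ)))
      (Filter.Eventually.of_forall fun x => (Real.exp_pos _).le)
      (integrable_const _) hle
    simpa using this
  have hL2up : frameLap P θ ξ₂ ≤ 2 ^ t * ((3 / 2) * Real.exp (245 * (t : ℝ))) := by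
    have hI : ∀ S : Finset (Fin t), Integrable
        (fun x => Real.exp (∑ i, sgn S i * (θ i ⬝ᵥ x))) P :=
      fun S => integrable_exp_lin hsupp θ (sgn S)
    have h1 : frameLap P θ ξ₂ ≤ ∑ S ∈ (Finset.univ : Finset (Fin t)).powerset, frameLap P θ (sgn S) := by
      unfold frameLap
      rw [← integral_finsetSum _ (fun S _ => hI S)]
      apply integral_mono (integrable_exp_lin hsupp θ ξ₂)
        (integrable_finsetSum _ (fun S _ => hI S))
      intro x
      exact exp_sum_le_sgn θ ξ₂ hξ₂b x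
    have h2 : ∑ S ∈ (Finset.univ : Finset (Fin t)).powerset, frameLap P θ (sgn S) ≤
        ∑ _S ∈ (Finset.univ : Finset (Fin t)).powerset, (3 / 2) * Real.exp (245 * (t : ℝ)) := by
      apply Finset.sum_le_sum
      intro S _
      have h3 := (hθ (sgn S) (hsgnmem S)).2
      have h4 := hmeanup S
      linarith
    have h5 : ∑ _S ∈ (Finset.univ : Finset (Fin t)).powerset, (3 / 2) * Real.exp (245 * (t : ℝ)) =
        2 ^ t * ((3 / 2) * Real.exp (245 * (t : ℝ))) := by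
      rw [Finset.sum_const, Finset.card_powerset, Finset.card_univ, Fintype.card_fin]
      simp
    linarith
  -- combine
  have hcs2 := frame_cs hsupp θ ξ ξ₂ ξ' hmid
  have hL2pos : 0 < frameLap P θ ξ₂ := integral_exp_pos (integrable_exp_lin hsupp θ ξ₂)
  have hL'low : (1 / 2) * Real.exp (984 * (t : ℝ)) ≤ frameLap P θ ξ' := by
    have := (hθ ξ' hmem).1
    linarith
  have hsq : ((1 / 2) * Real.exp (984 * (t : ℝ))) ^ 2 ≤ frameLap P θ ξ' ^ 2 :=
    pow_le_pow_left₀ (by positivity) hL'low 2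
  have hnum : Real.exp (490000 * (t : ℝ) / 300) * (2 ^ t * ((3 / 2) * Real.exp (245 * (t : ℝ)))) ≤
      ((1 / 2) * Real.exp (984 * (t : ℝ))) ^ 2 := by
    have h2t : (2 : ℝ) ^ t ≤ Real.exp (t : ℝ) := by
      have h21 : (2 : ℝ) ≤ Real.exp 1 := by
        have := Real.add_one_le_exp (1 : ℝ)
        linarith
      calc (2 : ℝ) ^ t ≤ (Real.exp 1) ^ t := pow_le_pow_left₀ (by norm_num) h21 t
        _ = Real.exp (t : ℝ) := by rw [← Real.exp_nat_mul]; simp
    have h6 : (6 : ℝ) ≤ Real.exp (5 * (t : ℝ)) := by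
      have := Real.add_one_le_exp (5 * (t : ℝ))
      linarith
    have hA : (6 : ℝ) * 2 ^ t ≤ Real.exp (6 * (t : ℝ)) := by
      have : Real.exp (6 * (t : ℝ)) = Real.exp (5 * (t : ℝ)) * Real.exp (t : ℝ) := by
        rw [← Real.exp_add]; ring_nf
      rw [this]
      exact mul_le_mul h6 h2t (by positivity) (Real.exp_pos _).le
    have hB : Real.exp (490000 * (t : ℝ) / 300) * Real.exp (245 * (t : ℝ)) * Real.exp (6 * (t : ℝ)) ≤
        Real.exp (984 * (t : ℝ)) * Real.exp (984 * (t : ℝ)) := by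
      rw [← Real.exp_add, ← Real.exp_add, ← Real.exp_add]
      apply Real.exp_le_exp.2
      nlinarith
    have hC : 0 < Real.exp (490000 * (t : ℝ) / 300) * Real.exp (245 * (t : ℝ)) := by positivity
    have hD := mul_le_mul_of_nonneg_left hA hC.le
    have : ((1 / 2) * Real.exp (984 * (t : ℝ))) ^ 2 =
        (1 / 4) * (Real.exp (984 * (t : ℝ)) * Real.exp (984 * (t : ℝ))) := by ring
    rw [this]
    nlinarith
  have hfinal : Real.exp (490000 * (t : ℝ) / 300) * frameLap P θ ξ₂ ≤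
      frameLap P θ ξ * frameLap P θ ξ₂ := by
    calc Real.exp (490000 * (t : ℝ) / 300) * frameLap P θ ξ₂
        ≤ Real.exp (490000 * (t : ℝ) / 300) * (2 ^ t * ((3 / 2) * Real.exp (245 * (t : ℝ)))) :=
          mul_le_mul_of_nonneg_left hL2up (Real.exp_pos _).le
      _ ≤ _ := hnum
      _ ≤ _ := hsq
      _ ≤ _ := hcs2
  exact le_of_mul_le_mul_right hfinal hL2pos

end Vale.Agent.Lib.P230
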