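import Vale.Agent.Lib.P230.Defs

/-!
# P230, module W3 `window_from_laplace`: a Gaussian Laplace transform forces a large value of a
log-concave function on a cube.
-/

set_option autoImplicit false

open MeasureTheory Finset
open scoped ENNReal

namespace Vale.Agent.Lib.P230
namespace WinLap

variable {t : ℕ}

/-- A continuous factor times a bounded, boundedly supported measurable function is integrable. -/
lemma integrable_cont_mul {A φ : (Fin t → ℝ) → ℝ} (hm : Measurable A) (hc : Continuous φ)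
    {c : ℝ} (hb : ∀ z, |A z| ≤ c) (hs : Bornology.IsBounded {z | A z ≠ 0}) :
    Integrable (fun z => φ z * A z) := by
  obtain ⟨R, hR⟩ := hs.subset_closedBall 0
  have hK : IsCompact (Metric.closedBall (0 : Fin t → ℝ) R) := isCompact_closedBall 0 R
  obtain ⟨M, hM⟩ := hK.exists_bound_of_continuousOn hc.continuousOn
  have hc0 : 0 ≤ c := le_trans (abs_nonneg _) (hb 0)
  have hon : IntegrableOn (fun z => φ z * A z) (Metric.closedBall 0 R) := by
    refine Measure.integrableOn_of_bounded (M := M * c) hK.measure_lt_top.ne ?_ ?_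
    · exact (hc.measurable.mul hm).aestronglyMeasurable
    · filter_upwards [ae_restrict_mem hK.measurableSet] with z hz
      rw [norm_mul, Real.norm_eq_abs (A z)]
      exact mul_le_mul (hM z hz) (hb z) (abs_nonneg _) (le_trans (norm_nonneg _) (hM z hz))
  refine (integrableOn_iff_integrable_of_support_subset ?_).1 hon
  intro z hz
  apply hR
  intro hA
  apply hz
  simp [show A z = 0 by simpa using hA]

lemma integrable_base {A : (Fin t → ℝ) → ℝ} (hm : Measurable A)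
    {c : ℝ} (hb : ∀ z, |A z| ≤ c) (hs : Bornology.IsBounded {z | A z ≠ 0}) : Integrable A := by
  simpa using integrable_cont_mul (φ := fun _ => (1 : ℝ)) hm continuous_const hb hs

lemma integrable_sqrt {A : (Fin t → ℝ) → ℝ} (hm : Measurable A)
    {c : ℝ} (hb : ∀ z, |A z| ≤ c) (hs : Bornology.IsBounded {z | A z ≠ 0}) :
    Integrable (fun z => Real.sqrt (A z)) := by
  refine integrable_base (c := Real.sqrt c) hm.sqrt ?_ (hs.subset ?_)
  · intro z
    rw [abs_of_nonneg (Real.sqrt_nonneg _)]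
    exact Real.sqrt_le_sqrt (le_trans (le_abs_self _) (hb z))
  · intro z hz hA
    apply hz
    simp [show A z = 0 by simpa using hA]

/-- `√f₀ ∫ √A ≤ 2^t ∫ A` for a log-concave `A`. -/
lemma sqrt_integral {A : (Fin t → ℝ) → ℝ}
    (hl : LogConc A) (hI : Integrable A) (z₀ : Fin t → ℝ) :
    Real.sqrt (A z₀) * ∫ z, Real.sqrt (A z) ≤ 2 ^ t * ∫ z, A z := by
  set f : (Fin t → ℝ) → ℝ := fun y => Real.sqrt (A (z₀ + y)) with hf
  have h1 : ∫ z, Real.sqrt (A z) = ∫ y, f y :=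
    (integral_add_left_eq_self (fun z => Real.sqrt (A z)) z₀).symm
  have h2 : ∫ u, f ((2 : ℝ) • u) = (2 ^ t : ℝ)⁻¹ * ∫ y, f y := by
    have := Measure.integral_comp_smul (volume : Measure (Fin t → ℝ)) f (2 : ℝ)
    rw [this]
    simp [abs_of_pos (by positivity : (0 : ℝ) < 2 ^ t)]
  have h3 : ∫ y, f y = 2 ^ t * ∫ u, f ((2 : ℝ) • u) := by
    rw [h2]; field_simp
  have h4 : ∫ u, Real.sqrt (A z₀) * f ((2 : ℝ) • u) ≤ ∫ u, A (z₀ + u) := by
    refine integral_mono_of_nonneg ?_ (hI.comp_add_left z₀) ?_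
    · exact Filter.Eventually.of_forall fun u => mul_nonneg (Real.sqrt_nonneg _) (Real.sqrt_nonneg _)
    · refine Filter.Eventually.of_forall fun u => ?_
      have h := hl z₀ (z₀ + (2 : ℝ) • u) (1 / 2) (by norm_num) (by norm_num)
      have h5 : (1 - 1 / 2 : ℝ) • z₀ + (1 / 2 : ℝ) • (z₀ + (2 : ℝ) • u) = z₀ + u := by
        ext i
        simp only [Pi.add_apply, Pi.smul_apply, smul_eq_mul]
        ring
      rw [h5, show (1 - 1 / 2 : ℝ) = 1 / 2 by norm_num, ← Real.sqrt_eq_rpow,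
        ← Real.sqrt_eq_rpow] at h
      exact h
  have h6 : ∫ u, A (z₀ + u) = ∫ z, A z := integral_add_left_eq_self A z₀
  rw [integral_const_mul, h6] at h4
  rw [h1, h3]
  have h7 : (0 : ℝ) < 2 ^ t := by positivity
  calc Real.sqrt (A z₀) * (2 ^ t * ∫ u, f ((2 : ℝ) • u))
      = 2 ^ t * (Real.sqrt (A z₀) * ∫ u, f ((2 : ℝ) • u)) := by ring
    _ ≤ 2 ^ t * ∫ z, A z := mul_le_mul_of_nonneg_left h4 h7.le

/-- The constant of the one dimensional Gaussian. -/
noncomputable def g0 : ℝ := Real.sqrt (Real.pi / (1 / 2))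

lemma g0_pos : 0 < g0 := by
  unfold g0
  exact Real.sqrt_pos.2 (by positivity)

lemma g0_le : g0 ≤ 2.51 := by
  unfold g0
  rw [show (2.51 : ℝ) = Real.sqrt (2.51 ^ 2) by rw [Real.sqrt_sq (by norm_num)]]
  apply Real.sqrt_le_sqrt
  have := Real.pi_lt_d2
  norm_num at this ⊢
  linarith

lemma integrable_gauss : Integrable (fun z : Fin t → ℝ => ∏ i, Real.exp (-(1 / 2 : ℝ) * z i ^ 2)) := by
  rw [volume_pi]
  exact Integrable.fintype_prod (f := fun (_ : Fin t) (x : ℝ) => Real.exp (-(1 / 2 : ℝ) * x ^ 2))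
    (μ := fun _ => volume) fun _ => integrable_exp_neg_mul_sq (by norm_num)

lemma integral_gauss : ∫ z : Fin t → ℝ, ∏ i, Real.exp (-(1 / 2 : ℝ) * z i ^ 2) = g0 ^ t := by
  have := integral_fintype_prod_volume_eq_pow (𝕜 := ℝ) (ι := Fin t)
    (fun (x : ℝ) => Real.exp (-(1 / 2 : ℝ) * x ^ 2))
  rw [this, integral_gaussian]
  simp [g0]

/-- The anchor point. -/
lemma anchor (ht : 1 ≤ t) {A : (Fin t → ℝ) → ℝ} (h0 : ∀ z, 0 ≤ A z) (hm : Measurable A)
    {c : ℝ} (hb : ∀ z, |A z| ≤ c) (hs : Bornology.IsBounded {z | A z ≠ 0})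
    {V : ℝ} (hV0 : 0 < V) (hV : ∫ z, A z = V)
    (hsq : ∫ z, (∑ i, z i ^ 2) * A z ≤ (20 / 9) * (t : ℝ) * V) :
    ∃ z₀ : Fin t → ℝ, ∑ i, z₀ i ^ 2 ≤ (40 / 9) * (t : ℝ) ∧
      V / (4 * g0 ^ t * Real.exp ((20 / 9) * (t : ℝ))) ≤ A z₀ := by
  by_contra hcon
  push Not at hcon
  have htR : (1 : ℝ) ≤ t := by exact_mod_cast ht
  have htpos : (0 : ℝ) < t := by linarith
  set a₀ := V / (4 * g0 ^ t * Real.exp ((20 / 9) * (t : ℝ))) with ha₀
  have hg : 0 < g0 ^ t := pow_pos g0_pos t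
  have hE : 0 < Real.exp ((20 / 9) * (t : ℝ)) := Real.exp_pos _
  have ha₀pos : 0 < a₀ := by rw [ha₀]; positivity
  have hpt : ∀ z : Fin t → ℝ, A z ≤
      a₀ * Real.exp ((20 / 9) * (t : ℝ)) * (∏ i, Real.exp (-(1 / 2 : ℝ) * z i ^ 2)) +
        (9 / (40 * (t : ℝ))) * ((∑ i, z i ^ 2) * A z) := by
    intro z
    have hprod : (∏ i, Real.exp (-(1 / 2 : ℝ) * z i ^ 2)) = Real.exp (-(1 / 2 : ℝ) * ∑ i, z i ^ 2) := by
      rw [← Real.exp_sum, Finset.mul_sum]
    have hS : 0 ≤ ∑ i, z i ^ 2 := Finset.sum_nonneg fun i _ => sq_nonneg _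
    have hAz := h0 z
    by_cases hz : ∑ i, z i ^ 2 ≤ (40 / 9) * (t : ℝ)
    · have h1 := hcon z hz
      have h2 : 1 ≤ Real.exp ((20 / 9) * (t : ℝ)) * (∏ i, Real.exp (-(1 / 2 : ℝ) * z i ^ 2)) := by
        rw [hprod, ← Real.exp_add]
        apply Real.one_le_exp
        linarith
      have h3 : a₀ ≤ a₀ * Real.exp ((20 / 9) * (t : ℝ)) * (∏ i, Real.exp (-(1 / 2 : ℝ) * z i ^ 2)) := by
        rw [mul_assoc]
        nlinarith
      have h4 : 0 ≤ (9 / (40 * (t : ℝ))) * ((∑ i, z i ^ 2) * A z) := by positivity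
      linarith
    · push Not at hz
      have h1 : 1 ≤ (9 / (40 * (t : ℝ))) * (∑ i, z i ^ 2) := by
        rw [div_mul_eq_mul_div, le_div_iff₀ (by positivity)]
        nlinarith
      have h2 : 0 ≤ a₀ * Real.exp ((20 / 9) * (t : ℝ)) * (∏ i, Real.exp (-(1 / 2 : ℝ) * z i ^ 2)) := by
        have : 0 ≤ ∏ i, Real.exp (-(1 / 2 : ℝ) * z i ^ 2) :=
          Finset.prod_nonneg fun i _ => (Real.exp_pos _).le
        positivity
      have h3 : A z ≤ (9 / (40 * (t : ℝ))) * ((∑ i, z i ^ 2) * A z) := by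
        rw [← mul_assoc]
        nlinarith
      linarith
  have hI := integrable_base hm hb hs
  have hI1 := (integrable_gauss (t := t)).const_mul (a₀ * Real.exp ((20 / 9) * (t : ℝ)))
  have hI2 : Integrable (fun z : Fin t → ℝ => (∑ i, z i ^ 2) * A z) :=
    integrable_cont_mul (φ := fun z => ∑ i, z i ^ 2) hm (by fun_prop) hb hs
  have hint := integral_mono hI (hI1.add (hI2.const_mul (9 / (40 * (t : ℝ))))) hpt
  have hint' : ∫ z, A z ≤ a₀ * Real.exp ((20 / 9) * (t : ℝ)) * g0 ^ t +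
      (9 / (40 * (t : ℝ))) * ∫ z, (∑ i, z i ^ 2) * A z := by
    have h := hint
    rw [integral_add' hI1 (hI2.const_mul (9 / (40 * (t : ℝ)))), integral_const_mul,
      integral_const_mul, integral_gauss] at h
    exact h
  have h1 : a₀ * Real.exp ((20 / 9) * (t : ℝ)) * g0 ^ t = V / 4 := by
    rw [ha₀]; field_simp
  have h2 : (9 / (40 * (t : ℝ))) * ∫ z, (∑ i, z i ^ 2) * A z ≤ V / 2 := by
    have h3 : (9 / (40 * (t : ℝ))) * ((20 / 9) * (t : ℝ) * V) = V / 2 := by field_simp; ring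
    rw [← h3]
    exact mul_le_mul_of_nonneg_left hsq (by positivity)
  rw [hV, h1] at hint'
  linarith

/-- Passage from the closure to the set itself on a smaller cube. -/
lemma cube_of_closure {L : Set (Fin t → ℝ)} (hc : Convex ℝ L) {s : ℝ} (hs : 0 < s)
    (h : ∀ v : Fin t → ℝ, (∀ i, |v i| ≤ s) → v ∈ closure L) :
    ∀ x : Fin t → ℝ, (∀ i, |x i| ≤ s / 2) → x ∈ L := by
  intro x hx
  let v : (Fin t → Bool) → Fin t → ℝ := fun σ i => if σ i then s else -s
  have hv : ∀ σ i, |v σ i| ≤ s := by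
    intro σ i
    by_cases hσ : σ i <;> simp [v, hσ, abs_of_pos hs]
  have hp : ∀ σ, ∃ p ∈ L, dist (v σ) p < s / 2 := fun σ =>
    Metric.mem_closure_iff.1 (h (v σ) (hv σ)) (s / 2) (by linarith)
  choose p hpL hpd using hp
  have hHL : convexHull ℝ (Set.range p) ⊆ L :=
    convexHull_min (Set.range_subset_iff.2 hpL) hc
  apply hHL
  by_contra hxH
  have hcl : IsClosed (convexHull ℝ (Set.range p)) :=
    ((Set.finite_range p).isCompact_convexHull (𝕜 := ℝ)).isClosed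
  obtain ⟨f, u, hf1, hf2⟩ := geometric_hahn_banach_closed_point (convex_convexHull ℝ _) hcl hxH
  let β : Fin t → ℝ := fun i => f (Pi.single i 1)
  have hf : ∀ y : Fin t → ℝ, f y = ∑ i, β i * y i := by
    intro y
    have h1 : y = ∑ i, y i • (Pi.single i (1 : ℝ) : Fin t → ℝ) := by
      ext j
      simp [Finset.sum_apply, Pi.single_apply]
    conv_lhs => rw [h1]
    rw [map_sum]
    refine Finset.sum_congr rfl fun i _ => ?_
    rw [map_smul, smul_eq_mul, mul_comm]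
  let σ : Fin t → Bool := fun i => decide (0 ≤ β i)
  have hle : f x ≤ f (p σ) := by
    rw [hf, hf]
    refine Finset.sum_le_sum fun i _ => ?_
    have hd : dist (v σ i) (p σ i) < s / 2 := lt_of_le_of_lt (dist_le_pi_dist _ _ i) (hpd σ)
    rw [Real.dist_eq, abs_lt] at hd
    have hxi := abs_le.1 (hx i)
    by_cases hb : 0 ≤ β i
    · have hvi : v σ i = s := by simp [v, σ, hb]
      rw [hvi] at hd
      exact mul_le_mul_of_nonneg_left (by linarith [hd.1, hd.2, hxi.1, hxi.2]) hb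
    · have hvi : v σ i = -s := by simp [v, σ, hb]
      rw [hvi] at hd
      push Not at hb
      exact mul_le_mul_of_nonpos_left (by linarith [hd.1, hd.2, hxi.1, hxi.2]) hb.le
  have h3 := hf1 (p σ) (subset_convexHull ℝ _ (Set.mem_range_self σ))
  linarith

lemma convex_level {A : (Fin t → ℝ) → ℝ} (hl : LogConc A) (z₀ : Fin t → ℝ) {V₀ : ℝ} (hV₀ : 0 < V₀) :
    Convex ℝ {y : Fin t → ℝ | V₀ ≤ A (z₀ + y)} := by
  rw [convex_iff_forall_pos]
  intro x hx y hy a b ha hb hab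
  have h := hl (z₀ + x) (z₀ + y) b hb (by linarith)
  rw [show 1 - b = a by linarith] at h
  have he : a • (z₀ + x) + b • (z₀ + y) = z₀ + (a • x + b • y) := by
    have : z₀ = (a + b) • z₀ := by rw [hab, one_smul]
    conv_rhs => rw [this]
    simp only [smul_add, add_smul]
    abel
  rw [he] at h
  refine le_trans ?_ h
  have h1 : V₀ ^ a * V₀ ^ b = V₀ := by
    rw [← Real.rpow_add hV₀, hab, Real.rpow_one]
  calc V₀ = V₀ ^ a * V₀ ^ b := h1.symm
    _ ≤ A (z₀ + x) ^ a * A (z₀ + y) ^ b := by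
      have hx' : V₀ ≤ A (z₀ + x) := hx
      have hy' : V₀ ≤ A (z₀ + y) := hy
      exact mul_le_mul (Real.rpow_le_rpow hV₀.le hx' ha.le) (Real.rpow_le_rpow hV₀.le hy' hb.le)
        (by positivity) (by have : 0 < A (z₀ + x) := by linarith
                            positivity)

/-- Separation: a unit vector `b` with `⟨y, b⟩ < √t / 1400` on the level set. -/
lemma separate {L : Set (Fin t → ℝ)} (hLc : Convex ℝ L) (h0L : (0 : Fin t → ℝ) ∈ L)
    (v : Fin t → ℝ) (hv : ∀ i, |v i| ≤ 1 / 1400) (hvn : v ∉ closure L) :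
    ∃ b : Fin t → ℝ, ∑ i, b i ^ 2 = 1 ∧ ∀ y ∈ L, ∑ i, b i * y i < Real.sqrt (t : ℝ) / 1400 := by
  obtain ⟨f, u, hf1, hf2⟩ := geometric_hahn_banach_closed_point hLc.closure isClosed_closure hvn
  let β : Fin t → ℝ := fun i => f (Pi.single i 1)
  have hf : ∀ y : Fin t → ℝ, f y = ∑ i, β i * y i := by
    intro y
    have h1 : y = ∑ i, y i • (Pi.single i (1 : ℝ) : Fin t → ℝ) := by
      ext j
      simp [Finset.sum_apply, Pi.single_apply]
    conv_lhs => rw [h1]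
    rw [map_sum]
    refine Finset.sum_congr rfl fun i _ => ?_
    rw [map_smul, smul_eq_mul, mul_comm]
  have hu0 : 0 < u := by simpa using hf1 0 (subset_closure h0L)
  have hfv : 0 < f v := by linarith
  have hN2 : 0 < ∑ i, β i ^ 2 := by
    by_contra hcon
    have h1 : ∑ i, β i ^ 2 = 0 :=
      le_antisymm (not_lt.1 hcon) (Finset.sum_nonneg fun i _ => sq_nonneg _)
    have h2 : ∀ i, β i = 0 := by
      intro i
      have := (Finset.sum_eq_zero_iff_of_nonneg (fun i _ => sq_nonneg (β i))).1 h1 i (mem_univ i)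
      simpa using this
    rw [hf] at hfv
    simp [h2] at hfv
  obtain ⟨N, hN, hNN⟩ : ∃ N : ℝ, 0 < N ∧ N ^ 2 = ∑ i, β i ^ 2 :=
    ⟨Real.sqrt (∑ i, β i ^ 2), Real.sqrt_pos.2 hN2, Real.sq_sqrt hN2.le⟩
  refine ⟨fun i => β i / N, ?_, ?_⟩
  · simp only [div_pow]
    rw [← Finset.sum_div, ← hNN]
    field_simp
  · intro y hy
    have h1 := hf1 y (subset_closure hy)
    rw [hf] at h1
    have h2 : f v ≤ (1 / 1400) * ∑ i, |β i| := by
      rw [hf, Finset.mul_sum]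
      refine Finset.sum_le_sum fun i _ => ?_
      calc β i * v i ≤ |β i * v i| := le_abs_self _
        _ = |β i| * |v i| := abs_mul _ _
        _ ≤ |β i| * (1 / 1400) := mul_le_mul_of_nonneg_left (hv i) (abs_nonneg _)
        _ = 1 / 1400 * |β i| := mul_comm _ _
    have h3 : ∑ i, |β i| ≤ Real.sqrt (t : ℝ) * N := by
      have h4 : (∑ i, |β i|) ^ 2 ≤ (Finset.univ.card : ℝ) * ∑ i, |β i| ^ 2 :=
        sq_sum_le_card_mul_sum_sq
      simp only [sq_abs, Finset.card_univ, Fintype.card_fin] at h4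
      have h5 : (∑ i, |β i|) ^ 2 ≤ (Real.sqrt (t : ℝ) * N) ^ 2 := by
        rw [mul_pow, Real.sq_sqrt (Nat.cast_nonneg t), hNN]
        exact h4
      exact le_of_sq_le_sq h5 (by positivity)
    have h6 : ∑ i, β i / N * y i = (∑ i, β i * y i) / N := by
      rw [Finset.sum_div]
      refine Finset.sum_congr rfl fun i _ => ?_
      ring
    rw [h6, div_lt_iff₀ hN]
    have h7 : (1 / 1400 : ℝ) * ∑ i, |β i| ≤ (1 / 1400) * (Real.sqrt (t : ℝ) * N) :=
      mul_le_mul_of_nonneg_left h3 (by norm_num)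
    have h8 : Real.sqrt (t : ℝ) / 1400 * N = (1 / 1400) * (Real.sqrt (t : ℝ) * N) := by ring
    linarith

/-- The far part: the real exponent inequality from log-concavity. -/
lemma far_part {A : (Fin t → ℝ) → ℝ} (h0 : ∀ z, 0 ≤ A z) (hl : LogConc A)
    {z₀ : Fin t → ℝ} (hf0 : 0 < A z₀) {b : Fin t → ℝ} {st μ τ₁ : ℝ} (hstpos : 0 < st)
    (hτ₁ : τ₁ = st / 700) (hμτ₁ : μ * τ₁ = t)
    (hsep : ∀ y : Fin t → ℝ, Real.exp (-(2 * (t : ℝ))) * A z₀ ≤ A (z₀ + y) →
      ∑ i, b i * y i < st / 1400)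
    (z : Fin t → ℝ) (hτ' : τ₁ < ∑ i, b i * (z - z₀) i) :
    Real.exp (μ * ∑ i, b i * (z - z₀) i) * A z ≤ Real.sqrt (A z₀) * Real.sqrt (A z) := by
  set y := z - z₀ with hy
  set τ := ∑ i, b i * y i with hτdef
  have ha := h0 z
  have hτ₁pos : 0 < τ₁ := by rw [hτ₁]; positivity
  by_cases ha0 : A z = 0
  · simp [ha0]
  have hapos : 0 < A z := lt_of_le_of_ne ha (Ne.symm ha0)
  have hτpos : 0 < τ := lt_trans hτ₁pos hτ'
  set lam := τ₁ / τ with hlam
  have hlam0 : 0 < lam := div_pos hτ₁pos hτpos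
  have hlam1 : lam < 1 := (div_lt_one hτpos).2 hτ'
  have hlamτ : lam * τ = τ₁ := by
    rw [hlam]; field_simp
  have hy' : ¬ (Real.exp (-(2 * (t : ℝ))) * A z₀ ≤ A (z₀ + lam • y)) := by
    intro hmem
    have h1 := hsep _ hmem
    have h2 : ∑ i, b i * (lam • y) i = lam * τ := by
      rw [hτdef, Finset.mul_sum]
      refine Finset.sum_congr rfl fun i _ => ?_
      simp only [Pi.smul_apply, smul_eq_mul]
      ring
    rw [h2, hlamτ, hτ₁] at h1
    have : st / 1400 ≤ st / 700 := by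
      apply div_le_div_of_nonneg_left hstpos.le (by norm_num) (by norm_num)
    linarith
  have hlt : A (z₀ + lam • y) < Real.exp (-(2 * (t : ℝ))) * A z₀ := not_le.1 hy'
  have hlc := hl z₀ z lam hlam0 hlam1
  have heq : (1 - lam) • z₀ + lam • z = z₀ + lam • y := by
    ext i
    simp only [hy, Pi.add_apply, Pi.smul_apply, Pi.sub_apply, smul_eq_mul]
    ring
  rw [heq] at hlc
  have hlog : (1 - lam) * Real.log (A z₀) + lam * Real.log (A z) <
      -(2 * (t : ℝ)) + Real.log (A z₀) := by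
    have h1 : A z₀ ^ (1 - lam) * A z ^ lam < Real.exp (-(2 * (t : ℝ))) * A z₀ :=
      lt_of_le_of_lt hlc hlt
    have h2 := Real.log_lt_log (by positivity) h1
    rwa [Real.log_mul (by positivity) (by positivity), Real.log_rpow hf0, Real.log_rpow hapos,
      Real.log_mul (by positivity) (by positivity), Real.log_exp] at h2
  have hkey : 2 * (μ * τ) + Real.log (A z) < Real.log (A z₀) := by
    have h3 : lam * (μ * τ) = t := by
      rw [← hμτ₁, ← hlamτ]; ring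
    have h4 : lam * (2 * (μ * τ) + Real.log (A z) - Real.log (A z₀)) < 0 := by
      nlinarith
    have h5 : 2 * (μ * τ) + Real.log (A z) - Real.log (A z₀) < 0 := by
      by_contra hh
      have := mul_nonneg hlam0.le (not_lt.1 hh)
      linarith
    linarith
  have hexp : Real.exp (2 * (μ * τ)) * A z < A z₀ := by
    have h6 := Real.exp_lt_exp.2 hkey
    rwa [Real.exp_add, Real.exp_log hapos, Real.exp_log hf0] at h6
  have hsa : Real.sqrt (A z) ^ 2 = A z := Real.sq_sqrt ha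
  have hE2 : Real.exp (2 * (μ * τ)) = Real.exp (μ * τ) ^ 2 := by
    rw [← Real.exp_nat_mul]; norm_num
  have h7 : (Real.exp (μ * τ) * Real.sqrt (A z)) ^ 2 < Real.sqrt (A z₀) ^ 2 := by
    rw [mul_pow, hsa, Real.sq_sqrt hf0.le, ← hE2]
    exact hexp
  have h8 : Real.exp (μ * τ) * Real.sqrt (A z) < Real.sqrt (A z₀) :=
    lt_of_pow_lt_pow_left₀ 2 (Real.sqrt_nonneg _) h7
  have h9 : Real.exp (μ * τ) * A z = (Real.exp (μ * τ) * Real.sqrt (A z)) * Real.sqrt (A z) := by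
    rw [mul_assoc (Real.exp (μ * τ)), Real.mul_self_sqrt ha]
  have h10 := mul_le_mul_of_nonneg_right h8.le (Real.sqrt_nonneg (A z))
  linarith

/-- The pointwise bound. -/
lemma pointwise {A : (Fin t → ℝ) → ℝ} (h0 : ∀ z, 0 ≤ A z) (hl : LogConc A)
    {z₀ : Fin t → ℝ} (hf0 : 0 < A z₀) {b : Fin t → ℝ} {st μ τ₁ : ℝ} (hstpos : 0 < st)
    (hμpos : 0 < μ) (hτ₁ : τ₁ = st / 700) (hμτ₁ : μ * τ₁ = t)
    (hsep : ∀ y : Fin t → ℝ, Real.exp (-(2 * (t : ℝ))) * A z₀ ≤ A (z₀ + y) →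
      ∑ i, b i * y i < st / 1400) (z : Fin t → ℝ) :
    Real.exp (∑ i, (μ * b i) * z i) * A z ≤
      Real.exp (∑ i, (μ * b i) * z₀ i) *
        (Real.exp (t : ℝ) * A z + Real.sqrt (A z₀) * Real.sqrt (A z)) := by
  have hsplit : ∑ i, (μ * b i) * z i =
      ∑ i, (μ * b i) * z₀ i + μ * ∑ i, b i * (z - z₀) i := by
    rw [Finset.mul_sum, ← Finset.sum_add_distrib]
    refine Finset.sum_congr rfl fun i _ => ?_
    simp only [Pi.sub_apply]
    ring
  rw [hsplit, Real.exp_add, mul_assoc]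
  refine mul_le_mul_of_nonneg_left ?_ (Real.exp_pos _).le
  have ha := h0 z
  have hsn : 0 ≤ Real.sqrt (A z₀) * Real.sqrt (A z) := by positivity
  by_cases hτ : ∑ i, b i * (z - z₀) i ≤ τ₁
  · have h1 : Real.exp (μ * ∑ i, b i * (z - z₀) i) ≤ Real.exp (t : ℝ) :=
      Real.exp_le_exp.2 (by rw [← hμτ₁]; exact mul_le_mul_of_nonneg_left hτ hμpos.le)
    have h2 := mul_le_mul_of_nonneg_right h1 ha
    linarith
  · have h := far_part h0 hl hf0 hstpos hτ₁ hμτ₁ hsep z (not_le.1 hτ)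
    have h11 : 0 ≤ Real.exp (t : ℝ) * A z := by positivity
    linarith

/-- Numerical end of the contradiction. -/
lemma numeric_end (ht : 1 ≤ t) {E₀ V S : ℝ} (hV0 : 0 < V) (hS : 0 ≤ S)
    (hE₀ : E₀ ≤ 1477 * (t : ℝ)) (h2S : S ≤ 2 ^ t * V)
    (hup : V * Real.exp (490000 * (t : ℝ) / 300) ≤ Real.exp E₀ * (Real.exp (t : ℝ) * V + S)) :
    False := by
  have htR : (1 : ℝ) ≤ t := by exact_mod_cast ht
  have h2t : (2 : ℝ) ^ t ≤ Real.exp (t : ℝ) := by
    rw [← Real.exp_one_pow]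
    exact pow_le_pow_left₀ (by norm_num) (by linarith [Real.add_one_le_exp (1 : ℝ)]) t
  have hE : 0 < Real.exp (t : ℝ) := Real.exp_pos _
  have hup1 : V * Real.exp (490000 * (t : ℝ) / 300) ≤
      Real.exp (1477 * (t : ℝ)) * (2 * Real.exp (t : ℝ) * V) := by
    refine le_trans hup ?_
    refine mul_le_mul (Real.exp_le_exp.2 hE₀) ?_ ?_ (Real.exp_pos _).le
    · have : (2 : ℝ) ^ t * V ≤ Real.exp (t : ℝ) * V := mul_le_mul_of_nonneg_right h2t hV0.le
      linarith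
    · positivity
  have hup' : Real.exp (490000 * (t : ℝ) / 300) ≤
      Real.exp (1477 * (t : ℝ)) * (2 * Real.exp (t : ℝ)) := by
    have h1 : V * Real.exp (490000 * (t : ℝ) / 300) ≤
        V * (Real.exp (1477 * (t : ℝ)) * (2 * Real.exp (t : ℝ))) := by
      calc _ ≤ _ := hup1
        _ = _ := by ring
    exact le_of_mul_le_mul_left h1 hV0
  have hsplit2 : 490000 * (t : ℝ) / 300 =
      1477 * (t : ℝ) + (t : ℝ) + (490000 * (t : ℝ) / 300 - 1478 * (t : ℝ)) := by ring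
  rw [hsplit2, Real.exp_add, Real.exp_add] at hup'
  have hbig : 2 < Real.exp (490000 * (t : ℝ) / 300 - 1478 * (t : ℝ)) := by
    have h1 : (1 : ℝ) ≤ 490000 * (t : ℝ) / 300 - 1478 * (t : ℝ) := by nlinarith
    have h2 : Real.exp 1 ≤ Real.exp (490000 * (t : ℝ) / 300 - 1478 * (t : ℝ)) :=
      Real.exp_le_exp.2 h1
    have h3 := Real.exp_one_gt_d9
    linarith
  have hP : 0 < Real.exp (1477 * (t : ℝ)) * Real.exp (t : ℝ) := by positivity
  nlinarith

/-- The heart of the module: the cube of half side `1/1400` lies in the closure of the level set. -/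
lemma corner_closure (ht : 1 ≤ t) {A : (Fin t → ℝ) → ℝ} (h0 : ∀ z, 0 ≤ A z) (hm : Measurable A)
    (hl : LogConc A) {c : ℝ} (hb : ∀ z, |A z| ≤ c) (hs : Bornology.IsBounded {z | A z ≠ 0})
    {V : ℝ} (hV0 : 0 < V) (hV : ∫ z, A z = V)
    (hLap : ∀ w : Fin t → ℝ, ∑ i, w i ^ 2 = 490000 * (t : ℝ) →
      V * Real.exp (490000 * (t : ℝ) / 300) ≤ ∫ z, Real.exp (∑ i, w i * z i) * A z)
    {z₀ : Fin t → ℝ} (hz₀ : ∑ i, z₀ i ^ 2 ≤ (40 / 9) * (t : ℝ)) (hf0 : 0 < A z₀)
    (v : Fin t → ℝ) (hv : ∀ i, |v i| ≤ 1 / 1400) :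
    v ∈ closure {y : Fin t → ℝ | Real.exp (-(2 * (t : ℝ))) * A z₀ ≤ A (z₀ + y)} := by
  by_contra hvn
  have htR : (1 : ℝ) ≤ t := by exact_mod_cast ht
  have htpos : (0 : ℝ) < t := by linarith
  have hV₀pos : 0 < Real.exp (-(2 * (t : ℝ))) * A z₀ := by positivity
  have hLc := convex_level hl z₀ hV₀pos
  have h0L : (0 : Fin t → ℝ) ∈ {y : Fin t → ℝ | Real.exp (-(2 * (t : ℝ))) * A z₀ ≤ A (z₀ + y)} := by
    show Real.exp (-(2 * (t : ℝ))) * A z₀ ≤ A (z₀ + 0)
    rw [add_zero]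
    have h1 : Real.exp (-(2 * (t : ℝ))) ≤ 1 := Real.exp_le_one_iff.2 (by linarith)
    nlinarith
  obtain ⟨b, hbb, hsep⟩ := separate hLc h0L v hv hvn
  obtain ⟨st, hst⟩ : ∃ st, st = Real.sqrt (t : ℝ) := ⟨_, rfl⟩
  have hstpos : 0 < st := by rw [hst]; exact Real.sqrt_pos.2 htpos
  have hstsq : st ^ 2 = t := by rw [hst]; exact Real.sq_sqrt htpos.le
  rw [← hst] at hsep
  obtain ⟨μ, hμ⟩ : ∃ μ, μ = 700 * st := ⟨_, rfl⟩
  have hμpos : 0 < μ := by rw [hμ]; positivity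
  obtain ⟨τ₁, hτ₁⟩ : ∃ τ₁, τ₁ = st / 700 := ⟨_, rfl⟩
  have hμτ₁ : μ * τ₁ = t := by
    rw [hμ, hτ₁, ← hstsq]
    ring
  have hpt := pointwise h0 hl hf0 hstpos hμpos hτ₁ hμτ₁ (fun y hy => hsep y hy)
  have hw : ∑ i, (μ * b i) ^ 2 = 490000 * (t : ℝ) := by
    simp only [mul_pow]
    rw [← Finset.mul_sum, hbb, hμ, mul_pow, hstsq]
    ring
  have hIA := integrable_base hm hb hs
  have hIS := integrable_sqrt hm hb hs
  have hI1 : Integrable (fun z : Fin t → ℝ => Real.exp (∑ i, (μ * b i) * z i) * A z) :=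
    integrable_cont_mul (φ := fun z => Real.exp (∑ i, (μ * b i) * z i)) hm (by fun_prop) hb hs
  have hI3 : Integrable (fun z : Fin t → ℝ =>
      Real.exp (t : ℝ) * A z + Real.sqrt (A z₀) * Real.sqrt (A z)) :=
    (hIA.const_mul _).add (hIS.const_mul _)
  have hint := integral_mono hI1 (hI3.const_mul (Real.exp (∑ i, (μ * b i) * z₀ i))) hpt
  have hval : ∫ z, Real.exp (∑ i, (μ * b i) * z₀ i) *
      (Real.exp (t : ℝ) * A z + Real.sqrt (A z₀) * Real.sqrt (A z)) =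
      Real.exp (∑ i, (μ * b i) * z₀ i) *
        (Real.exp (t : ℝ) * V + Real.sqrt (A z₀) * ∫ z, Real.sqrt (A z)) := by
    rw [integral_const_mul, integral_add (hIA.const_mul _) (hIS.const_mul _), integral_const_mul,
      integral_const_mul, hV]
  have hint' := le_trans (hLap _ hw) (le_of_le_of_eq hint hval)
  have hsq := sqrt_integral hl hIA z₀
  rw [hV] at hsq
  have hc0 : ∑ i, (μ * b i) * z₀ i ≤ 1477 * (t : ℝ) := by
    have h1 : (∑ i, (μ * b i) * z₀ i) ^ 2 ≤ (∑ i, (μ * b i) ^ 2) * ∑ i, z₀ i ^ 2 :=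
      Finset.sum_mul_sq_le_sq_mul_sq _ _ _
    rw [hw] at h1
    have h2 : (490000 * (t : ℝ)) * ∑ i, z₀ i ^ 2 ≤ (490000 * (t : ℝ)) * ((40 / 9) * (t : ℝ)) :=
      mul_le_mul_of_nonneg_left hz₀ (by positivity)
    have h3 : (∑ i, (μ * b i) * z₀ i) ^ 2 ≤ (1477 * (t : ℝ)) ^ 2 := by nlinarith
    exact le_of_sq_le_sq h3 (by positivity)
  have hSn : 0 ≤ Real.sqrt (A z₀) * ∫ z, Real.sqrt (A z) :=
    mul_nonneg (Real.sqrt_nonneg _) (integral_nonneg fun z => Real.sqrt_nonneg _)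
  exact numeric_end ht hV0 hSn hc0 hsq hint'

lemma exp_num : Real.exp (38 / 9) ≤ 79 := by
  by_contra hcon
  have h1 : (79 : ℝ) < Real.exp (38 / 9) := not_le.1 hcon
  have h2 : (79 : ℝ) ^ 9 < Real.exp (38 / 9) ^ 9 := pow_lt_pow_left₀ h1 (by norm_num) (by norm_num)
  have h3 : Real.exp (38 / 9) ^ 9 = Real.exp 1 ^ 38 := by
    rw [← Real.exp_nat_mul, ← Real.exp_nat_mul]
    norm_num
  have h4 : Real.exp 1 ^ 38 ≤ (2.7182818286 : ℝ) ^ 38 :=
    pow_le_pow_left₀ (Real.exp_pos _).le Real.exp_one_lt_d9.le 38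
  rw [h3] at h2
  have h5 : (2.7182818286 : ℝ) ^ 38 ≤ 79 ^ 9 := by norm_num
  linarith

end WinLap

open WinLap in
/-- MODULE W3: a Gaussian Laplace transform forces a large value on a cube. -/
theorem window_from_laplace {t : ℕ} (ht : 1 ≤ t) (A : (Fin t → ℝ) → ℝ) (h0 : ∀ z, 0 ≤ A z)
    (hm : Measurable A)
    (hl : LogConc A) (hb : ∃ c, ∀ z, A z ≤ c) (hs : Bornology.IsBounded {z | A z ≠ 0})
    (V : ℝ) (hV0 : 0 < V) (hV : ∫ z, A z = V)
    (hsq : ∫ z, (∑ i, z i ^ 2) * A z ≤ (20 / 9) * (t : ℝ) * V)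
    (hLap : ∀ w : Fin t → ℝ, ∑ i, w i ^ 2 = 490000 * (t : ℝ) →
      V * Real.exp (490000 * (t : ℝ) / 300) ≤ ∫ z, Real.exp (∑ i, w i * z i) * A z) :
    ∃ (z₀ : Fin t → ℝ) (V₀ : ℝ), 0 < V₀ ∧
      (∀ x : Fin t → ℝ, (∀ i, |x i| ≤ 1 / 2800) → V₀ ≤ A (z₀ + x)) ∧ V ≤ 4 * 200 ^ t * V₀ := by
  obtain ⟨c, hc⟩ := hb
  have hb' : ∀ z, |A z| ≤ c := fun z => by rw [abs_of_nonneg (h0 z)]; exact hc z
  obtain ⟨z₀, hz₀, ha₀⟩ := anchor ht h0 hm hb' hs hV0 hV hsq
  have hg : 0 < g0 ^ t := pow_pos g0_pos t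
  have hE : 0 < Real.exp ((20 / 9) * (t : ℝ)) := Real.exp_pos _
  have hden : 0 < 4 * g0 ^ t * Real.exp ((20 / 9) * (t : ℝ)) := by positivity
  have hf0 : 0 < A z₀ := lt_of_lt_of_le (div_pos hV0 hden) ha₀
  have hE2 : 0 < Real.exp (-(2 * (t : ℝ))) := Real.exp_pos _
  refine ⟨z₀, Real.exp (-(2 * (t : ℝ))) * A z₀, by positivity, ?_, ?_⟩
  · intro x hx
    have hLc := convex_level hl z₀ (V₀ := Real.exp (-(2 * (t : ℝ))) * A z₀) (by positivity)
    have := cube_of_closure hLc (s := 1 / 1400) (by norm_num)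
      (fun v hv => corner_closure ht h0 hm hl hb' hs hV0 hV hLap hz₀ hf0 v hv) x
      (fun i => by have := hx i; norm_num at this ⊢; linarith)
    exact this
  · rw [div_le_iff₀ hden] at ha₀
    have h1 : Real.exp (2 * (t : ℝ)) * Real.exp (-(2 * (t : ℝ))) = 1 := by
      rw [← Real.exp_add]; simp
    have h2 : Real.exp (2 * (t : ℝ)) * g0 ^ t * Real.exp ((20 / 9) * (t : ℝ)) ≤ 200 ^ t := by
      have h3 : Real.exp (2 * (t : ℝ)) * Real.exp ((20 / 9) * (t : ℝ)) = Real.exp (38 / 9) ^ t := by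
        rw [← Real.exp_add, ← Real.exp_nat_mul]
        congr 1
        ring
      calc Real.exp (2 * (t : ℝ)) * g0 ^ t * Real.exp ((20 / 9) * (t : ℝ))
          = (Real.exp (2 * (t : ℝ)) * Real.exp ((20 / 9) * (t : ℝ))) * g0 ^ t := by ring
        _ = (Real.exp (38 / 9) * g0) ^ t := by rw [h3, mul_pow]
        _ ≤ 200 ^ t := by
          refine pow_le_pow_left₀ (by have := g0_pos; positivity) ?_ t
          have h4 := exp_num
          have h5 := g0_le
          have h6 := g0_pos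
          have h7 := Real.exp_pos (38 / 9 : ℝ)
          nlinarith
    calc V ≤ A z₀ * (4 * g0 ^ t * Real.exp ((20 / 9) * (t : ℝ))) := ha₀
      _ = 4 * (Real.exp (2 * (t : ℝ)) * g0 ^ t * Real.exp ((20 / 9) * (t : ℝ))) *
            (Real.exp (-(2 * (t : ℝ))) * A z₀) := by
          have : A z₀ = (Real.exp (2 * (t : ℝ)) * Real.exp (-(2 * (t : ℝ)))) * A z₀ := by
            rw [h1, one_mul]
          conv_lhs => rw [this]
          ring
      _ ≤ 4 * 200 ^ t * (Real.exp (-(2 * (t : ℝ))) * A z₀) := by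
          apply mul_le_mul_of_nonneg_right _ (by positivity)
          linarith

end Vale.Agent.Lib.P230
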