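import Vale.Agent.Lib.P230.BorellMean

/-!
# P230: truncation at `|x|² ≤ 1156 n` keeps most of the second moment (MODULE G4).

`borell_mean2`: a convex compact `K ⊆ ℝⁿ` with `∫_K |x|² = n vol K`. Its part `G` in the ball
`|x|² ≤ 1156 n` has at least `1155/1156` of the volume of `K`, and `∫_G |x|² ≥ (9/10) n vol G`.
Markov, then Borell's lemma from the Prekopa-Leindler inequality, as in `borell_mean`.
-/

set_option autoImplicit false

open MeasureTheory Finset
open scoped ENNReal

namespace Vale.Agent.Lib.P230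

namespace BorellAux2

lemma coeff_decay (i : ℕ) :
    (2 * ((i + 8 : ℕ) : ℝ) + 3) ^ 2 * (1 / 3 : ℝ) ^ (i + 8) ≤ (361 / 6561) * (41 / 100 : ℝ) ^ i := by
  induction i with
  | zero => norm_num
  | succ i ih =>
    have hi : (0 : ℝ) ≤ (i : ℝ) := Nat.cast_nonneg i
    have h1 : (2 * ((i + 1 + 8 : ℕ) : ℝ) + 3) ^ 2 ≤
        (123 / 100) * (2 * ((i + 8 : ℕ) : ℝ) + 3) ^ 2 := by
      push_cast
      nlinarith
    have hp : (0 : ℝ) < (1 / 3 : ℝ) ^ (i + 8) := by positivity
    calc (2 * ((i + 1 + 8 : ℕ) : ℝ) + 3) ^ 2 * (1 / 3 : ℝ) ^ (i + 1 + 8)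
        = (2 * ((i + 1 + 8 : ℕ) : ℝ) + 3) ^ 2 * ((1 / 3 : ℝ) ^ (i + 8) * (1 / 3)) := by
          have e : (1 / 3 : ℝ) ^ (i + 1 + 8) = (1 / 3 : ℝ) ^ (i + 8) * (1 / 3) := by
            rw [show i + 1 + 8 = (i + 8) + 1 by ring, pow_succ]
          rw [e]
      _ ≤ ((123 / 100) * (2 * ((i + 8 : ℕ) : ℝ) + 3) ^ 2) * ((1 / 3 : ℝ) ^ (i + 8) * (1 / 3)) :=
          mul_le_mul_of_nonneg_right h1 (by positivity)
      _ = (41 / 100) * ((2 * ((i + 8 : ℕ) : ℝ) + 3) ^ 2 * (1 / 3 : ℝ) ^ (i + 8)) := by ring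
      _ ≤ (41 / 100) * ((361 / 6561) * (41 / 100 : ℝ) ^ i) :=
          mul_le_mul_of_nonneg_left ih (by norm_num)
      _ = (361 / 6561) * (41 / 100 : ℝ) ^ (i + 1) := by
          rw [pow_succ]
          ring

lemma geom_le (m : ℕ) : ∑ k ∈ range m, (41 / 100 : ℝ) ^ k ≤ 100 / 59 := by
  have h : ∀ m : ℕ,
      ∑ k ∈ range m, (41 / 100 : ℝ) ^ k + (100 / 59) * (41 / 100 : ℝ) ^ m ≤ 100 / 59 := by
    intro m
    induction m with
    | zero => simp
    | succ m ih =>
      rw [sum_range_succ]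
      have : (100 / 59 : ℝ) * (41 / 100 : ℝ) ^ (m + 1) =
          (100 / 59) * (41 / 100 : ℝ) ^ m - (41 / 100 : ℝ) ^ m := by
        rw [pow_succ]
        ring
      rw [this]
      linarith
  have h2 := h m
  have h3 : (0 : ℝ) ≤ (100 / 59) * (41 / 100 : ℝ) ^ m := by positivity
  linarith

end BorellAux2

open BorellAux BorellAux2

variable {n : ℕ}

/-- MODULE G4: truncation keeps most of the second moment, by Borell's lemma. -/
theorem borell_mean2 (hn : 0 < n) (K : Set (Fin n → ℝ)) (hc : Convex ℝ K) (hK : IsCompact K)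
    (hvol : 0 < volume K)
    (hsum : ∫ x in K, ∑ j, x j ^ 2 = (n : ℝ) * (volume K).toReal) :
    0 < volume (K ∩ {x | ∑ j, x j ^ 2 ≤ 1156 * (n : ℝ)}) ∧
    (volume K).toReal ≤ (1156 / 1155) * (volume (K ∩ {x | ∑ j, x j ^ 2 ≤ 1156 * (n : ℝ)})).toReal ∧
    ((9 / 10) * (n : ℝ)) * (volume (K ∩ {x | ∑ j, x j ^ 2 ≤ 1156 * (n : ℝ)})).toReal ≤
      ∫ x in K ∩ {x | ∑ j, x j ^ 2 ≤ 1156 * (n : ℝ)}, ∑ j, x j ^ 2 := by
  classical
  set s : (Fin n → ℝ) → ℝ := fun x => ∑ j, x j ^ 2 with hs
  have hs_cont : Continuous s := continuous_finsetSum _ (fun j _ => (continuous_apply j).pow 2)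
  have hs_nn : ∀ x, 0 ≤ s x := fun x => Finset.sum_nonneg (fun j _ => sq_nonneg _)
  have mK : MeasurableSet K := hK.measurableSet
  have Vfin : volume K ≠ ∞ := hK.measure_lt_top.ne
  have hn0 : (0 : ℝ) < (n : ℝ) := by exact_mod_cast hn
  set V := (volume K).toReal with hV
  have Vpos : 0 < V := ENNReal.toReal_pos hvol.ne' Vfin
  -- finiteness and integrability on subsets of `K`
  have fin_sub : ∀ {L : Set (Fin n → ℝ)}, L ⊆ K → volume L ≠ ∞ := fun hL =>
    ((measure_mono hL).trans_lt hK.measure_lt_top).ne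
  have int_on : ∀ {L : Set (Fin n → ℝ)}, L ⊆ K → IntegrableOn s L :=
    fun hL => (hs_cont.continuousOn.integrableOn_compact hK).mono_set hL
  -- Markov
  have markov : ∀ {L : Set (Fin n → ℝ)}, L ⊆ K → MeasurableSet L → ∀ ε : ℝ,
      ε * (volume (L ∩ {x | ε ≤ s x})).toReal ≤ ∫ x in L, s x := by
    intro L hL mL ε
    have h := mul_meas_ge_le_integral_of_nonneg (μ := volume.restrict L) (f := s)
      (Filter.Eventually.of_forall hs_nn) (int_on hL) ε
    have mε : MeasurableSet {x | ε ≤ s x} := measurableSet_le measurable_const hs_cont.measurable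
    have e : (volume.restrict L).real {x | ε ≤ s x} = (volume (L ∩ {x | ε ≤ s x})).toReal := by
      rw [Measure.real, Measure.restrict_apply mε, Set.inter_comm]
    rw [e] at h
    exact h
  -- subadditivity in reals
  have sub_add : ∀ {A B C : Set (Fin n → ℝ)}, A ⊆ K → B ⊆ K → C ⊆ A ∪ B →
      (volume C).toReal ≤ (volume A).toReal + (volume B).toReal := by
    intro A B C hA hB hC
    rw [← ENNReal.toReal_add (fin_sub hA) (fin_sub hB)]
    refine ENNReal.toReal_mono (ENNReal.add_ne_top.2 ⟨fin_sub hA, fin_sub hB⟩) ?_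
    exact (measure_mono hC).trans (measure_union_le _ _)
  -- the set `G`
  set G : Set (Fin n → ℝ) := K ∩ {x | s x ≤ 1156 * (n : ℝ)} with hG
  have GK : G ⊆ K := Set.inter_subset_left
  have mG : MeasurableSet G := mK.inter (measurableSet_le hs_cont.measurable measurable_const)
  set Gv := (volume G).toReal with hGv
  have hGleV : Gv ≤ V := ENNReal.toReal_mono Vfin (measure_mono GK)
  -- first Markov
  have h1 : (volume (K ∩ {x | 1156 * (n : ℝ) ≤ s x})).toReal ≤ V / 1156 := by
    have h := markov (L := K) subset_rfl mK (1156 * (n : ℝ))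
    rw [hsum] at h
    have h10 : 0 < 1156 * (n : ℝ) := by positivity
    have : 1156 * (n : ℝ) * (volume (K ∩ {x | 1156 * (n : ℝ) ≤ s x})).toReal ≤
        1156 * (n : ℝ) * (V / 1156) := by
      calc _ ≤ (n : ℝ) * V := h
        _ = _ := by ring
    exact le_of_mul_le_mul_left this h10
  have hGbig : (1155 / 1156) * V ≤ Gv := by
    have h := sub_add (A := G) (B := K ∩ {x | 1156 * (n : ℝ) ≤ s x}) (C := K) GK
      Set.inter_subset_left (by
        intro x hx
        by_cases hx2 : s x ≤ 1156 * (n : ℝ)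
        · exact Or.inl ⟨hx, hx2⟩
        · exact Or.inr ⟨hx, (not_le.1 hx2).le⟩)
    linarith
  have Gpos : 0 < Gv := by
    have : 0 < (1155 / 1156) * V := by positivity
    linarith
  refine ⟨(ENNReal.toReal_pos_iff.1 Gpos).1, by linarith, ?_⟩
  -- the radius
  set R : ℝ := 4 * (n : ℝ) with hR
  have Rpos : 0 < R := by positivity
  set A : Set (Fin n → ℝ) := K ∩ {x | s x ≤ R} with hA
  have AK : A ⊆ K := Set.inter_subset_left
  have mA : MeasurableSet A := mK.inter (measurableSet_le hs_cont.measurable measurable_const)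
  set Av := (volume A).toReal with hAv
  have h2 : (volume (K ∩ {x | R ≤ s x})).toReal ≤ V / 4 := by
    have h := markov (L := K) subset_rfl mK R
    rw [hsum] at h
    have : R * (volume (K ∩ {x | R ≤ s x})).toReal ≤ R * (V / 4) := by
      calc _ ≤ (n : ℝ) * V := h
        _ = _ := by rw [hR]; ring
    exact le_of_mul_le_mul_left this Rpos
  have hAbig : (3 / 4) * V ≤ Av := by
    have h := sub_add (A := A) (B := K ∩ {x | R ≤ s x}) (C := K) AK
      Set.inter_subset_left (by
        intro x hx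
        by_cases hx2 : s x ≤ R
        · exact Or.inl ⟨hx, hx2⟩
        · exact Or.inr ⟨hx, (not_le.1 hx2).le⟩)
    linarith
  -- the far sets
  let D : ℕ → Set (Fin n → ℝ) := fun k => K ∩ {x | (2 * (k : ℝ) + 1) ^ 2 * R < s x}
  have DK : ∀ k, D k ⊆ K := fun k => Set.inter_subset_left
  have mT : ∀ k : ℕ, MeasurableSet {x | (2 * (k : ℝ) + 1) ^ 2 * R < s x} := fun k =>
    measurableSet_lt measurable_const hs_cont.measurable
  have mD : ∀ k, MeasurableSet (D k) := fun k => mK.inter (mT k)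
  have hD0 : (volume (D 0)).toReal ≤ (1 / 4) * V := by
    have hdisj : Disjoint A (D 0) := by
      rw [Set.disjoint_left]
      intro x hx hx2
      have h3 : (2 * ((0 : ℕ) : ℝ) + 1) ^ 2 * R < s x := hx2.2
      have h4 : s x ≤ R := hx.2
      norm_num at h3
      linarith
    have hu : volume (A ∪ D 0) = volume A + volume (D 0) := measure_union hdisj (mD 0)
    have hle : (volume (A ∪ D 0)).toReal ≤ V :=
      ENNReal.toReal_mono Vfin (measure_mono (Set.union_subset AK (DK 0)))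
    rw [hu, ENNReal.toReal_add (fin_sub AK) (fin_sub (DK 0))] at hle
    linarith
  have hρ : (Real.sqrt R) ^ 2 = R := Real.sq_sqrt Rpos.le
  have hρ0 : 0 ≤ Real.sqrt R := Real.sqrt_nonneg R
  -- Borell
  have hBorell : ∀ k : ℕ, (volume (D k)).toReal * Av ^ k ≤ (volume (D 0)).toReal ^ (k + 1) := by
    intro k
    rcases Nat.eq_zero_or_pos k with rfl | hk
    · simp
    · refine step_real hk (mD k) mA (mD 0) (fin_sub (DK k)) (fin_sub AK) (fin_sub (DK 0)) ?_
      intro x hx y hy
      have hk1 : (0 : ℝ) < (k : ℝ) + 1 := by positivity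
      have hk0 : (0 : ℝ) ≤ (k : ℝ) := Nat.cast_nonneg k
      refine ⟨hc hx.1 hy.1 (by positivity) (by positivity) (by field_simp; ring), ?_⟩
      have hx2 : (2 * (k : ℝ) + 1) * Real.sqrt R < Real.sqrt (∑ j, x j ^ 2) := by
        refine (Real.lt_sqrt (by positivity)).2 ?_
        rw [mul_pow, hρ]
        exact hx.2
      have hy2 : Real.sqrt (∑ j, y j ^ 2) ≤ Real.sqrt R := Real.sqrt_le_sqrt hy.2
      have hz := out_of_ball k hx2 hy2
      have hz2 := (Real.lt_sqrt hρ0).1 hz
      rw [hρ] at hz2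
      have e0 : (2 * ((0 : ℕ) : ℝ) + 1) ^ 2 * R = R := by norm_num
      show (2 * ((0 : ℕ) : ℝ) + 1) ^ 2 * R < s _
      rw [e0]
      exact hz2
  -- decay
  have hDecay : ∀ k : ℕ, (volume (D k)).toReal ≤ (1 / 4) * V * (1 / 3 : ℝ) ^ k := by
    intro k
    have hpos : 0 < ((3 / 4) * V) ^ k := by positivity
    have h3 : (volume (D k)).toReal * ((3 / 4) * V) ^ k ≤
        (volume (D k)).toReal * Av ^ k :=
      mul_le_mul_of_nonneg_left (pow_le_pow_left₀ (by positivity) hAbig k) ENNReal.toReal_nonneg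
    have h4 : (volume (D 0)).toReal ^ (k + 1) ≤ ((1 / 4) * V) ^ (k + 1) :=
      pow_le_pow_left₀ ENNReal.toReal_nonneg hD0 _
    have h5 : ((1 / 4) * V) ^ (k + 1) = (1 / 4) * V * (1 / 3 : ℝ) ^ k * ((3 / 4) * V) ^ k := by
      rw [pow_succ, mul_assoc ((1 / 4) * V), ← mul_pow]
      have : (1 / 3 : ℝ) * ((3 / 4) * V) = (1 / 4) * V := by ring
      rw [this]
      ring
    have h6 := (h3.trans (hBorell k)).trans h4
    rw [h5] at h6
    exact le_of_mul_le_mul_right h6 hpos
  -- bound on `K`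
  obtain ⟨M, hM⟩ := hK.bddAbove_image hs_cont.continuousOn
  have hM' : ∀ x ∈ K, s x ≤ M := fun x hx => hM ⟨x, hx, rfl⟩
  obtain ⟨N, hN⟩ := exists_nat_ge (M / R)
  have hN' : M ≤ (N : ℝ) * R := by
    rwa [div_le_iff₀ Rpos] at hN
  -- the majorant
  let T : ℕ → Set (Fin n → ℝ) := fun k => {x | (2 * (k : ℝ) + 1) ^ 2 * R < s x}
  let g : (Fin n → ℝ) → ℝ := fun x =>
    R * ∑ i ∈ range (N + 1), (2 * ((i + 8 : ℕ) : ℝ) + 3) ^ 2 *
      (T (i + 8)).indicator (fun _ => (1 : ℝ)) x
  have hgnn : ∀ x, ∀ i ∈ range (N + 1),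
      0 ≤ (2 * ((i + 8 : ℕ) : ℝ) + 3) ^ 2 * (T (i + 8)).indicator (fun _ => (1 : ℝ)) x := by
    intro x i _
    exact mul_nonneg (sq_nonneg _) (Set.indicator_nonneg (fun _ _ => zero_le_one) _)
  have hg0 : ∀ x, 0 ≤ g x := fun x =>
    mul_nonneg Rpos.le (Finset.sum_nonneg (hgnn x))
  have hpt : ∀ x ∈ K, s x ≤ G.indicator s x + g x := by
    intro x hx
    by_cases hx1 : s x ≤ 1156 * (n : ℝ)
    · have hxG : x ∈ G := ⟨hx, hx1⟩
      rw [Set.indicator_of_mem hxG]
      linarith [hg0 x]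
    · have hxG : x ∉ G := fun h => hx1 h.2
      rw [Set.indicator_of_notMem hxG, zero_add]
      have hex : ∃ k : ℕ, s x ≤ (2 * ((k + 8 : ℕ) : ℝ) + 3) ^ 2 * R := by
        refine ⟨N, (hM' x hx).trans (hN'.trans ?_)⟩
        have hN0 : (0 : ℝ) ≤ (N : ℝ) := Nat.cast_nonneg N
        refine mul_le_mul_of_nonneg_right ?_ Rpos.le
        push_cast
        nlinarith
      let k := Nat.find hex
      have hk : s x ≤ (2 * ((k + 8 : ℕ) : ℝ) + 3) ^ 2 * R := Nat.find_spec hex
      have hkN : k ≤ N := by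
        refine Nat.find_min' hex ((hM' x hx).trans (hN'.trans ?_))
        have hN0 : (0 : ℝ) ≤ (N : ℝ) := Nat.cast_nonneg N
        refine mul_le_mul_of_nonneg_right ?_ Rpos.le
        push_cast
        nlinarith
      have hmem : x ∈ T (k + 8) := by
        show (2 * ((k + 8 : ℕ) : ℝ) + 1) ^ 2 * R < s x
        rcases Nat.eq_zero_or_pos k with h0 | h0
        · rw [h0]
          have e : (2 * ((0 + 8 : ℕ) : ℝ) + 1) ^ 2 * R = 1156 * (n : ℝ) := by
            rw [hR]
            norm_num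
            ring
          rw [e]
          exact not_le.1 hx1
        · have hlt : k - 1 < k := Nat.sub_lt h0 Nat.one_pos
          have hmin := Nat.find_min hex hlt
          have : (2 * ((k - 1 + 8 : ℕ) : ℝ) + 3) = 2 * ((k + 8 : ℕ) : ℝ) + 1 := by
            have e : k - 1 + 8 = (k + 8) - 1 := by omega
            rw [e, Nat.cast_sub (by omega)]
            push_cast
            ring
          rw [this] at hmin
          exact not_le.1 hmin
      have hsingle := Finset.single_le_sum (hgnn x) (Finset.mem_range.2 (Nat.lt_succ_of_le hkN))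
      rw [Set.indicator_of_mem hmem, mul_one] at hsingle
      show s x ≤ R * _
      calc s x ≤ (2 * ((k + 8 : ℕ) : ℝ) + 3) ^ 2 * R := hk
        _ = R * (2 * ((k + 8 : ℕ) : ℝ) + 3) ^ 2 := by ring
        _ ≤ _ := mul_le_mul_of_nonneg_left hsingle Rpos.le
  -- integrate
  have hT : ∀ k, MeasurableSet (T k) := mT
  have finK : IsFiniteMeasure (volume.restrict K) := ⟨by simpa using hK.measure_lt_top⟩
  have hintT : ∀ k, Integrable ((T k).indicator (fun _ => (1 : ℝ))) (volume.restrict K) := by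
    intro k
    exact (integrable_const (1 : ℝ)).indicator (hT k)
  have hintT' : ∀ k : ℕ, ∫ x in K, (T k).indicator (fun _ => (1 : ℝ)) x = (volume (D k)).toReal := by
    intro k
    rw [integral_indicator (hT k)]
    simp only [integral_const, smul_eq_mul, mul_one, MeasurableSet.univ, Measure.real,
      Measure.restrict_apply, Set.univ_inter]
    rw [Measure.restrict_apply (hT k), Set.inter_comm]
  have hintg : IntegrableOn g K := by
    refine Integrable.const_mul ?_ R
    exact integrable_finsetSum _ (fun i _ => (hintT (i + 8)).const_mul _)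
  have hintI : IntegrableOn (G.indicator s) K := (int_on subset_rfl).indicator mG
  have hI : ∫ x in K, G.indicator s x = ∫ x in G, s x := by
    rw [setIntegral_indicator mG, Set.inter_eq_right.2 GK]
  have hmain : (n : ℝ) * V ≤ (∫ x in G, s x) +
      R * ∑ i ∈ range (N + 1), (2 * ((i + 8 : ℕ) : ℝ) + 3) ^ 2 * (volume (D (i + 8))).toReal := by
    rw [← hsum]
    have h := setIntegral_mono_on (int_on subset_rfl) (hintI.add hintg) mK hpt
    refine h.trans (le_of_eq ?_)
    simp only [Pi.add_apply]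
    rw [integral_add hintI hintg, hI]
    congr 1
    show ∫ x in K, R * _ = _
    rw [integral_const_mul, integral_finsetSum _ (fun i _ => (hintT (i + 8)).const_mul _)]
    congr 1
    refine Finset.sum_congr rfl (fun i _ => ?_)
    rw [integral_const_mul, hintT' (i + 8)]
  -- the series
  have hseries : ∑ i ∈ range (N + 1), (2 * ((i + 8 : ℕ) : ℝ) + 3) ^ 2 * (volume (D (i + 8))).toReal ≤
      (1 / 4) * V * (361 / 6561) * (100 / 59) := by
    calc ∑ i ∈ range (N + 1), (2 * ((i + 8 : ℕ) : ℝ) + 3) ^ 2 * (volume (D (i + 8))).toReal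
        ≤ ∑ i ∈ range (N + 1), (1 / 4) * V * (361 / 6561) * (41 / 100 : ℝ) ^ i := by
          refine Finset.sum_le_sum (fun i _ => ?_)
          have h3 := coeff_decay i
          have h4 := hDecay (i + 8)
          calc (2 * ((i + 8 : ℕ) : ℝ) + 3) ^ 2 * (volume (D (i + 8))).toReal
              ≤ (2 * ((i + 8 : ℕ) : ℝ) + 3) ^ 2 * ((1 / 4) * V * (1 / 3 : ℝ) ^ (i + 8)) :=
                mul_le_mul_of_nonneg_left h4 (sq_nonneg _)
            _ = (1 / 4) * V * ((2 * ((i + 8 : ℕ) : ℝ) + 3) ^ 2 * (1 / 3 : ℝ) ^ (i + 8)) := by ring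
            _ ≤ (1 / 4) * V * ((361 / 6561) * (41 / 100 : ℝ) ^ i) :=
                mul_le_mul_of_nonneg_left h3 (by positivity)
            _ = (1 / 4) * V * (361 / 6561) * (41 / 100 : ℝ) ^ i := by ring
      _ = (1 / 4) * V * (361 / 6561) * ∑ i ∈ range (N + 1), (41 / 100 : ℝ) ^ i := by
          rw [Finset.mul_sum]
      _ ≤ (1 / 4) * V * (361 / 6561) * (100 / 59) :=
          mul_le_mul_of_nonneg_left (geom_le _) (by positivity)
  have hfinal : R * ∑ i ∈ range (N + 1), (2 * ((i + 8 : ℕ) : ℝ) + 3) ^ 2 * (volume (D (i + 8))).toReal ≤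
      (1 / 10) * ((n : ℝ) * V) := by
    have h := mul_le_mul_of_nonneg_left hseries Rpos.le
    refine h.trans ?_
    rw [hR]
    have e : 4 * (n : ℝ) * (1 / 4 * V * (361 / 6561) * (100 / 59)) =
        (36100 / 387099) * ((n : ℝ) * V) := by ring
    rw [e]
    have hnV : 0 < (n : ℝ) * V := by positivity
    nlinarith
  have hGn : (9 / 10) * (n : ℝ) * Gv ≤ (9 / 10) * ((n : ℝ) * V) := by
    have : (n : ℝ) * Gv ≤ (n : ℝ) * V := mul_le_mul_of_nonneg_left hGleV hn0.le
    linarith
  show (9 / 10) * (n : ℝ) * Gv ≤ ∫ x in G, s x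
  linarith

end Vale.Agent.Lib.P230
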