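import Vale.Agent.Lib.P230.HashDefs

/-! MODULES kernel and top Chebyshev (statements of `Stubs2.lean`). -/

set_option autoImplicit false

open MeasureTheory Finset
open scoped ENNReal Matrix Classical

namespace Vale.Agent.Lib.P230

/-- MODULE kernel: number of annihilators of independent vectors. -/
theorem card_annihilator {p : ℕ} [Fact p.Prime] {D l : ℕ} (u : Fin l → Fin D → ZMod p)
    (hu : LinearIndependent (ZMod p) u) :
    (univ.filter fun x : Fin D → ZMod p => ∀ i, x ⬝ᵥ u i = 0).card = p ^ (D - l) := by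
  let M : Matrix (Fin l) (Fin D) (ZMod p) := Matrix.of u
  have hrank : M.rank = l := by
    have h := LinearIndependent.rank_matrix (M := M) hu
    simpa using h
  have h1 := LinearMap.finrank_range_add_finrank_ker M.mulVecLin
  have h2 : Module.finrank (ZMod p) (LinearMap.range M.mulVecLin) = l := hrank
  have h3 : Module.finrank (ZMod p) (Fin D → ZMod p) = D := by simp
  have hker : Module.finrank (ZMod p) (LinearMap.ker M.mulVecLin) = D - l := by
    omega
  have hcard : Fintype.card (LinearMap.ker M.mulVecLin) = p ^ (D - l) := by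
    rw [Module.card_eq_pow_finrank (K := ZMod p), hker, ZMod.card]
  rw [← hcard, Fintype.card_subtype]
  congr 1
  ext x
  simp only [mem_filter, mem_univ, true_and, LinearMap.mem_ker, Matrix.mulVecLin_apply]
  constructor
  · intro h
    funext i
    have := h i
    simp only [Matrix.mulVec, M, Pi.zero_apply]
    rw [dotProduct_comm]
    exact this
  · intro h i
    have := congrFun h i
    simp only [Matrix.mulVec, M, Pi.zero_apply] at this
    rw [dotProduct_comm]
    exact this

namespace TopChebAux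

variable {d P : ℕ} [Fact P.Prime]

lemma lift_ne_zero (y : Fin d → ℤ) : lift P d y ≠ 0 := by
  intro h
  have := congrFun h 0
  simp [lift] at this

lemma pair_indep {y y' : Fin d → ℤ} (hy : ∃ i, ¬ (P : ℤ) ∣ y i - y' i) :
    LinearIndependent (ZMod P) ![lift P d y, lift P d y'] := by
  rw [LinearIndependent.pair_iff]
  intro s t hst
  have h0 : s + t = 0 := by
    have := congrFun hst 0
    simpa [lift] using this
  obtain ⟨i, hi⟩ := hy
  have h1 : s * (y i : ZMod P) + t * (y' i : ZMod P) = 0 := by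
    have := congrFun hst i.succ
    simpa [lift] using this
  have ht : t = -s := by
    linear_combination h0
  have h2 : s * (((y i - y' i : ℤ)) : ZMod P) = 0 := by
    rw [ht] at h1
    push_cast
    linear_combination h1
  have h3 : (((y i - y' i : ℤ)) : ZMod P) ≠ 0 := by
    intro h
    exact hi ((ZMod.intCast_zmod_eq_zero_iff_dvd _ _).mp h)
  have hs : s = 0 := (mul_eq_zero.mp h2).resolve_right h3
  exact ⟨hs, by rw [ht, hs]; simp⟩

/-- hyperplane count -/
lemma count_one (y : Fin d → ℤ) :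
    (((univ.filter fun x : Fin (d + 1) → ZMod P => x ⬝ᵥ lift P d y = 0).card : ℕ) : ℝ) =
      (P : ℝ) ^ (d + 1) / P := by
  have hPpos : (P : ℝ) ≠ 0 := by
    exact_mod_cast (Fact.out : P.Prime).ne_zero
  have h := card_annihilator (p := P) (D := d + 1) (l := 1)
    (fun _ : Fin 1 => lift P d y) (by
      apply LinearIndependent.of_subsingleton (0 : Fin 1)
      exact lift_ne_zero y)
  have h' : (univ.filter fun x : Fin (d + 1) → ZMod P => x ⬝ᵥ lift P d y = 0).card = P ^ d := by
    have e : d + 1 - 1 = d := by omega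
    rw [e] at h
    rw [← h]
    congr 1
    ext x
    simp
  rw [h']
  push_cast
  field_simp
  ring

/-- codimension two count -/
lemma count_two {y y' : Fin d → ℤ} (hy : ∃ i, ¬ (P : ℤ) ∣ y i - y' i) :
    (((univ.filter fun x : Fin (d + 1) → ZMod P =>
        x ⬝ᵥ lift P d y = 0 ∧ x ⬝ᵥ lift P d y' = 0).card : ℕ) : ℝ) =
      (P : ℝ) ^ (d + 1) / (P : ℝ) ^ 2 := by
  have hPpos : (P : ℝ) ≠ 0 := by
    exact_mod_cast (Fact.out : P.Prime).ne_zero
  have hd : 1 ≤ d := by
    obtain ⟨i, _⟩ := hy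
    exact Nat.one_le_iff_ne_zero.mpr (fun h => by subst h; exact i.elim0)
  have h := card_annihilator (p := P) (D := d + 1) (l := 2) _ (pair_indep hy)
  have h' : (univ.filter fun x : Fin (d + 1) → ZMod P =>
      x ⬝ᵥ lift P d y = 0 ∧ x ⬝ᵥ lift P d y' = 0).card = P ^ (d + 1 - 2) := by
    rw [← h]
    congr 1
    ext x
    simp [Fin.forall_fin_two]
  rw [h', Nat.cast_pow]
  have hp : (P : ℝ) ^ (d + 1) = (P : ℝ) ^ (d + 1 - 2) * (P : ℝ) ^ 2 := by
    rw [← pow_add]
    congr 1
    omega
  rw [hp, mul_div_assoc, div_self (pow_ne_zero 2 hPpos), mul_one]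

end TopChebAux

open TopChebAux in
/-- MODULE top Chebyshev: pairwise independence of the prime hash. -/
theorem top_cheb {d P : ℕ} [Fact P.Prime] (A : Finset (Fin d → ℤ))
    (hinj : ∀ y ∈ A, ∀ y' ∈ A, y ≠ y' → ∃ i, ¬ (P : ℤ) ∣ y i - y' i) (hA : A.Nonempty) :
    ((univ.filter fun x : Fin (d + 1) → ZMod P =>
        (((Hx (lift P d) x A).card : ℝ) < (A.card : ℝ) / P / 2)).card : ℝ) ≤
      (P : ℝ) ^ (d + 1) * (4 / ((A.card : ℝ) / P)) := by
  set N : ℝ := (P : ℝ) ^ (d + 1) with hN
  set n : ℝ := (A.card : ℝ) with hn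
  have hnpos : 0 < n := by
    rw [hn]; exact_mod_cast hA.card_pos
  have hP2 : (2 : ℝ) ≤ P := by
    exact_mod_cast (Fact.out : P.Prime).two_le
  have hPpos : (0 : ℝ) < P := by linarith
  have hNpos : 0 < N := by positivity
  set μ : ℝ := n / P with hμ
  have hμpos : 0 < μ := by positivity
  -- indicator
  let ind : (Fin (d + 1) → ZMod P) → (Fin d → ℤ) → ℝ :=
    fun x y => if x ⬝ᵥ lift P d y = 0 then 1 else 0
  set Z : (Fin (d + 1) → ZMod P) → ℝ := fun x => ((Hx (lift P d) x A).card : ℝ) with hZ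
  have hZind : ∀ x, Z x = ∑ y ∈ A, ind x y := by
    intro x
    simp only [hZ, Hx, ind, Finset.card_filter, Nat.cast_sum, Nat.cast_ite, Nat.cast_one,
      Nat.cast_zero]
  have h1 : ∀ y, ∑ x, ind x y = N / P := by
    intro y
    rw [hN, ← count_one y]
    simp only [ind, Finset.card_filter, Nat.cast_sum, Nat.cast_ite, Nat.cast_one, Nat.cast_zero]
  have h2 : ∀ y ∈ A, ∀ y' ∈ A, y ≠ y' → ∑ x, ind x y * ind x y' = N / (P : ℝ) ^ 2 := by
    intro y hy y' hy' hne
    rw [hN, ← count_two (hinj y hy y' hy' hne)]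
    simp only [Finset.card_filter, Nat.cast_sum, Nat.cast_ite, Nat.cast_one, Nat.cast_zero]
    refine Finset.sum_congr rfl fun x _ => ?_
    by_cases h1 : x ⬝ᵥ lift P d y = 0 <;> by_cases h2 : x ⬝ᵥ lift P d y' = 0 <;>
      simp [ind, h1, h2]
  have h3 : ∀ y, ∑ x, ind x y * ind x y = N / P := by
    intro y
    rw [← h1 y]
    refine Finset.sum_congr rfl fun x _ => ?_
    by_cases h : x ⬝ᵥ lift P d y = 0 <;> simp [ind, h]
  -- first moment
  have hfirst : ∑ x, Z x = n * (N / P) := by
    simp only [hZind]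
    rw [Finset.sum_comm]
    simp only [h1, Finset.sum_const, nsmul_eq_mul, hn]
  -- second moment
  have hsecond : ∑ x, Z x ^ 2 = n * (N / P) + n * (n - 1) * (N / (P : ℝ) ^ 2) := by
    have hexp : ∀ x, Z x ^ 2 = ∑ y ∈ A, ∑ y' ∈ A, ind x y * ind x y' := by
      intro x
      rw [hZind x, sq, Finset.sum_mul_sum]
    simp only [hexp]
    rw [Finset.sum_comm]
    have hin : ∀ y ∈ A, ∑ x, ∑ y' ∈ A, ind x y * ind x y' =
        N / P + (n - 1) * (N / (P : ℝ) ^ 2) := by
      intro y hy
      rw [Finset.sum_comm]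
      rw [← Finset.add_sum_erase A _ hy]
      rw [h3 y]
      congr 1
      rw [Finset.sum_congr rfl (fun y' hy' => h2 y hy y' (Finset.mem_of_mem_erase hy')
        (Finset.ne_of_mem_erase hy').symm)]
      rw [Finset.sum_const, nsmul_eq_mul, Finset.card_erase_of_mem hy,
        Nat.cast_sub (Nat.one_le_iff_ne_zero.mpr (Finset.card_ne_zero_of_mem hy))]
      simp [hn]
    rw [Finset.sum_congr rfl hin, Finset.sum_const, nsmul_eq_mul]
    rw [← hn]
    ring
  -- variance
  have hvar : ∑ x, (Z x - μ) ^ 2 ≤ N * μ := by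
    have hexp : ∀ x, (Z x - μ) ^ 2 = Z x ^ 2 - 2 * μ * Z x + μ ^ 2 := by
      intro x; ring
    simp only [hexp]
    rw [Finset.sum_add_distrib, Finset.sum_sub_distrib, ← Finset.mul_sum, hsecond, hfirst]
    simp only [Finset.sum_const, card_univ, nsmul_eq_mul]
    have hcardV : ((Fintype.card (Fin (d + 1) → ZMod P) : ℕ) : ℝ) = N := by
      rw [Fintype.card_fun, ZMod.card, Fintype.card_fin, hN]
      push_cast
      rfl
    rw [hcardV]
    have hnμ : n = μ * P := by
      rw [hμ]; field_simp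
    rw [hnμ]
    have hPne : (P : ℝ) ≠ 0 := hPpos.ne'
    have : μ * P * (N / P) + μ * P * (μ * P - 1) * (N / (P : ℝ) ^ 2) -
        2 * μ * (μ * P * (N / P)) + N * μ ^ 2 = N * μ - N * μ / P := by
      field_simp
      ring
    rw [this]
    have : 0 ≤ N * μ / P := div_nonneg (mul_nonneg hNpos.le hμpos.le) hPpos.le
    linarith
  -- Chebyshev
  set Bad := univ.filter fun x : Fin (d + 1) → ZMod P =>
        (((Hx (lift P d) x A).card : ℝ) < (A.card : ℝ) / P / 2) with hBad
  have hlow : (Bad.card : ℝ) * (μ ^ 2 / 4) ≤ N * μ := by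
    calc (Bad.card : ℝ) * (μ ^ 2 / 4) = ∑ _x ∈ Bad, μ ^ 2 / 4 := by
          rw [Finset.sum_const, nsmul_eq_mul]
      _ ≤ ∑ x ∈ Bad, (Z x - μ) ^ 2 := by
          refine Finset.sum_le_sum fun x hx => ?_
          rw [hBad, mem_filter] at hx
          have h4 : Z x < μ / 2 := by
            simpa [hZ, hμ, hn] using hx.2
          nlinarith
      _ ≤ ∑ x, (Z x - μ) ^ 2 := Finset.sum_le_univ_sum_of_nonneg (fun x => by positivity)
      _ ≤ N * μ := hvar
  have hgoal : (Bad.card : ℝ) ≤ N * (4 / μ) := by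
    have hpos : 0 < μ ^ 2 / 4 := by positivity
    have : (Bad.card : ℝ) * (μ ^ 2 / 4) ≤ (N * (4 / μ)) * (μ ^ 2 / 4) := by
      have h5 : (N * (4 / μ)) * (μ ^ 2 / 4) = N * μ := by
        field_simp
      rw [h5]
      exact hlow
    exact le_of_mul_le_mul_right this hpos
  exact hgoal

end Vale.Agent.Lib.P230
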