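import Vale.Agent.Lib.P230.Moment
import Vale.Agent.Lib.P230.TopCheb
import Vale.Agent.Lib.P230.CircTop

/-!
# P230: the potential argument for the `F_2` hash chain.
-/

set_option autoImplicit false
set_option linter.unusedSectionVars false
set_option linter.unusedSimpArgs false
set_option linter.unusedVariables false

open Finset
open scoped Matrix Classical

namespace Vale.Agent.Lib.P230

variable {X : Type*} [DecidableEq X] {D : ℕ} (w : X → Fin D → ZMod 2)

/-- probability that `A` dies after `r` random hashes -/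
noncomputable def voidP : ℕ → Finset X → ℝ
  | 0, A => if A = ∅ then 1 else 0
  | r + 1, A => (∑ x : Fin D → ZMod 2, voidP r (Hx w x A)) / 2 ^ D

/-- potential of a set at level `r` -/
noncomputable def pot (k : ℕ → ℕ) (r : ℕ) (A : Finset X) : ℝ :=
  ∑ r' ∈ Finset.Icc 1 r, ∑ j ∈ Finset.Icc 2 (k r'), (circ w j A : ℝ) * (1 / 2) ^ ((r - r') * (j - 1))

lemma voidP_nonneg (r : ℕ) (A : Finset X) : 0 ≤ voidP w r A := by
  induction r generalizing A with
  | zero =>
    simp only [voidP]
    split_ifs <;> norm_num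
  | succ r ih =>
    simp only [voidP]
    exact div_nonneg (Finset.sum_nonneg fun x _ => ih _) (by positivity)

lemma voidP_le_one (r : ℕ) (A : Finset X) : voidP w r A ≤ 1 := by
  induction r generalizing A with
  | zero =>
    simp only [voidP]
    split_ifs <;> norm_num
  | succ r ih =>
    simp only [voidP]
    rw [div_le_one (by positivity)]
    calc _ ≤ ∑ _x : Fin D → ZMod 2, (1 : ℝ) := Finset.sum_le_sum fun x _ => ih _
      _ = 2 ^ D := by
        simp [Finset.card_univ, ZMod.card]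

lemma pot_nonneg (k : ℕ → ℕ) (r : ℕ) (A : Finset X) : 0 ≤ pot w k r A := by
  unfold pot
  exact Finset.sum_nonneg fun _ _ => Finset.sum_nonneg fun j _ =>
    mul_nonneg (Nat.cast_nonneg _) (pow_nonneg (by norm_num) _)

/-- a circuit minus a point is linearly independent -/
lemma circ_erase_indep (T : Finset X) (hT : IsCirc w T) (y₀ : X) (hy₀ : y₀ ∈ T) :
    LinearIndependent (ZMod 2) (fun y : ↥(T.erase y₀) => w y.1) := by
  rw [Fintype.linearIndependent_iff]
  intro g hg i
  by_contra hi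
  set T' : Finset X := ((T.erase y₀).attach.filter fun y => g y ≠ 0).map (Function.Embedding.subtype _)
    with hT'
  have hsub : T' ⊂ T := by
    rw [Finset.ssubset_iff_of_subset]
    · refine ⟨y₀, hy₀, ?_⟩
      simp only [hT', Finset.mem_map, Finset.mem_filter, Function.Embedding.coe_subtype, not_exists,
        not_and]
      intro x hx hxe
      have := x.2
      rw [hxe] at this
      simp at this
    · intro y hy
      simp only [hT', Finset.mem_map, Finset.mem_filter, Function.Embedding.coe_subtype] at hy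
      obtain ⟨x, _, rfl⟩ := hy
      exact Finset.mem_of_mem_erase x.2
  have hne : T'.Nonempty := by
    refine ⟨i.1, ?_⟩
    simp only [hT', Finset.mem_map, Finset.mem_filter, Function.Embedding.coe_subtype]
    exact ⟨i, ⟨Finset.mem_attach _ _, hi⟩, rfl⟩
  apply hT.2.2 T' hsub hne
  rw [hT', Finset.sum_map]
  simp only [Function.Embedding.coe_subtype]
  have hg' : ∑ y : ↥(T.erase y₀), g y • w y.1 = 0 := hg
  rw [← hg']
  rw [Finset.sum_filter]
  rw [← Finset.univ_eq_attach]
  apply Finset.sum_congr rfl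
  intro x _
  by_cases hx : g x = 0
  · simp [hx]
  · have h1 : g x = 1 := by
      have : ∀ a : ZMod 2, a ≠ 0 → a = 1 := by decide
      exact this _ hx
    simp [h1]

/-- annihilator count of a circuit -/
lemma circ_annih (T : Finset X) (hT : IsCirc w T) :
    ((univ.filter fun x : Fin D → ZMod 2 => ∀ y ∈ T, x ⬝ᵥ w y = 0).card : ℝ) ≤
      2 ^ D * (1 / 2) ^ (T.card - 1) := by
  classical
  obtain ⟨y₀, hy₀⟩ := hT.1
  have hind := circ_erase_indep w T hT y₀ hy₀
  set e := (T.erase y₀).equivFin with he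
  set l := (T.erase y₀).card with hl
  have hl' : l = T.card - 1 := by
    rw [hl, Finset.card_erase_of_mem hy₀]
  set u : Fin l → Fin D → ZMod 2 := fun i => w (e.symm i).1 with hu
  have hind2 : LinearIndependent (ZMod 2) u := by
    have := hind.comp e.symm e.symm.injective
    exact this
  haveI : Fact (Nat.Prime 2) := ⟨Nat.prime_two⟩
  have hc := card_annihilator u hind2
  have hlD : l ≤ D := by
    have := hind2.fintype_card_le_finrank
    simpa using this
  have hsub : (univ.filter fun x : Fin D → ZMod 2 => ∀ y ∈ T, x ⬝ᵥ w y = 0) ⊆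
      (univ.filter fun x : Fin D → ZMod 2 => ∀ i, x ⬝ᵥ u i = 0) := by
    intro x hx
    simp only [mem_filter, mem_univ, true_and] at hx ⊢
    intro i
    exact hx _ (Finset.mem_of_mem_erase (e.symm i).2)
  have h1 := Finset.card_le_card hsub
  rw [hc] at h1
  have h2 : ((2 ^ (D - l) : ℕ) : ℝ) = 2 ^ D * (1 / 2) ^ l := by
    push_cast
    have : (2 : ℝ) ^ D = 2 ^ (D - l) * 2 ^ l := by
      rw [← pow_add, Nat.sub_add_cancel hlD]
    rw [this, one_div, inv_pow]
    have h3 : (2 : ℝ) ^ l ≠ 0 := by positivity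
    field_simp
  rw [← hl', ← h2]
  exact_mod_cast h1

/-- Circuits in a sub-kernel, as an indicator sum. -/
lemma circ_Hx_eq {p : ℕ} {D' : ℕ} (w' : X → Fin D' → ZMod p) (j : ℕ) (A : Finset X)
    (x : Fin D' → ZMod p) :
    circ w j (Hx w' x A) =
      (((A.powersetCard j).filter (IsCirc w)).filter fun T => ∀ y ∈ T, x ⬝ᵥ w' y = 0).card := by
  unfold circ
  congr 1
  ext T
  simp only [Finset.mem_filter, Finset.mem_powersetCard, Hx]
  constructor
  · rintro ⟨⟨h1, h2⟩, h3⟩
    refine ⟨⟨⟨?_, h2⟩, h3⟩, ?_⟩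
    · exact fun y hy => (Finset.mem_filter.mp (h1 hy)).1
    · exact fun y hy => (Finset.mem_filter.mp (h1 hy)).2
  · rintro ⟨⟨⟨h1, h2⟩, h3⟩, h4⟩
    refine ⟨⟨?_, h2⟩, h3⟩
    exact fun y hy => Finset.mem_filter.mpr ⟨h1 hy, h4 y hy⟩

/-- The sum over functionals of the number of circuits. -/
lemma sum_circ_Hx {p : ℕ} [NeZero p] {D' : ℕ} (w' : X → Fin D' → ZMod p) (j : ℕ) (A : Finset X) :
    ∑ x : Fin D' → ZMod p, (circ w j (Hx w' x A) : ℝ) =
      ∑ T ∈ (A.powersetCard j).filter (IsCirc w),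
        ((univ.filter fun x : Fin D' → ZMod p => ∀ y ∈ T, x ⬝ᵥ w' y = 0).card : ℝ) := by
  have h1 : ∀ x : Fin D' → ZMod p, (circ w j (Hx w' x A) : ℝ) =
      ∑ T ∈ (A.powersetCard j).filter (IsCirc w),
        if (∀ y ∈ T, x ⬝ᵥ w' y = 0) then (1 : ℝ) else 0 := by
    intro x
    rw [circ_Hx_eq w w' j A x, Finset.card_filter]
    push_cast
    rfl
  simp_rw [h1]
  rw [Finset.sum_comm]
  apply Finset.sum_congr rfl
  intro T _
  rw [Finset.card_filter]
  push_cast
  rfl

/-- Expected number of circuits after one hash. -/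
lemma sum_circ_step (j : ℕ) (A : Finset X) :
    ∑ x : Fin D → ZMod 2, (circ w j (Hx w x A) : ℝ) ≤
      2 ^ D * (1 / 2) ^ (j - 1) * circ w j A := by
  rw [sum_circ_Hx w w j A]
  unfold circ
  calc _ ≤ ∑ T ∈ (A.powersetCard j).filter (IsCirc w), (2 ^ D * (1 / 2 : ℝ) ^ (j - 1)) := by
        apply Finset.sum_le_sum
        intro T hT
        have h1 := (Finset.mem_filter.mp hT)
        have h2 := (Finset.mem_powersetCard.mp h1.1).2
        have := circ_annih w T h1.2
        rwa [h2] at this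
    _ = _ := by
        simp [mul_comm]

/-- From no circuits to no short zero-sum sets. -/
lemma noShort_of_circ (hw : ∀ y, w y ≠ 0) (k : ℕ) (A : Finset X)
    (h : ∀ j ∈ Finset.Icc 2 k, circ w j A = 0) : NoShort w A k := by
  intro T hTA hne hcard hsum
  -- minimal nonempty zero-sum subset
  have hex : ∃ T₀ : Finset X, T₀ ⊆ T ∧ T₀.Nonempty ∧ ∑ y ∈ T₀, w y = 0 ∧
      ∀ T' ⊂ T₀, T'.Nonempty → ∑ y ∈ T', w y ≠ 0 := by
    induction T using Finset.strongInduction with
    | H T ih =>
      by_cases hmin : ∀ T' ⊂ T, T'.Nonempty → ∑ y ∈ T', w y ≠ 0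
      · exact ⟨T, subset_rfl, hne, hsum, hmin⟩
      · push Not at hmin
        obtain ⟨T', hT', hne', hs'⟩ := hmin
        obtain ⟨T₀, h1, h2, h3, h4⟩ := ih T' hT' (hT'.subset.trans hTA) hne'
          ((Finset.card_le_card hT'.subset).trans hcard) hs'
        exact ⟨T₀, h1.trans hT'.subset, h2, h3, h4⟩
  obtain ⟨T₀, h1, h2, h3, h4⟩ := hex
  have hc : IsCirc w T₀ := ⟨h2, h3, h4⟩
  have hcard1 : T₀.card ≠ 1 := by
    intro h1'
    obtain ⟨a, rfl⟩ := Finset.card_eq_one.mp h1'
    simp at h3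
    exact hw a h3
  have hcard0 : T₀.card ≠ 0 := by
    simpa using h2.ne_empty
  have hmem : T₀.card ∈ Finset.Icc 2 k := by
    rw [Finset.mem_Icc]
    exact ⟨by omega, (Finset.card_le_card h1).trans hcard⟩
  have := h _ hmem
  unfold circ at this
  rw [Finset.card_eq_zero] at this
  have hin : T₀ ∈ (A.powersetCard T₀.card).filter (IsCirc w) := by
    rw [Finset.mem_filter, Finset.mem_powersetCard]
    exact ⟨⟨h1.trans hTA, rfl⟩, hc⟩
  rw [this] at hin
  simp at hin

lemma circ_le_pot (k : ℕ → ℕ) (r : ℕ) (A : Finset X) (j : ℕ) (hr : 1 ≤ r)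
    (hj : j ∈ Finset.Icc 2 (k r)) : (circ w j A : ℝ) ≤ pot w k r A := by
  unfold pot
  have h1 : ∀ r' ∈ Finset.Icc 1 r, 0 ≤ ∑ j ∈ Finset.Icc 2 (k r'),
      (circ w j A : ℝ) * (1 / 2 : ℝ) ^ ((r - r') * (j - 1)) := fun r' _ =>
    Finset.sum_nonneg fun j _ => mul_nonneg (Nat.cast_nonneg _) (pow_nonneg (by norm_num) _)
  have h2 : (r : ℕ) ∈ Finset.Icc 1 r := Finset.mem_Icc.mpr ⟨hr, le_rfl⟩
  refine le_trans ?_ (Finset.single_le_sum h1 h2)
  have h3 : ∀ j' ∈ Finset.Icc 2 (k r), 0 ≤
      (circ w j' A : ℝ) * (1 / 2 : ℝ) ^ ((r - r) * (j' - 1)) := fun j' _ =>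
    mul_nonneg (Nat.cast_nonneg _) (pow_nonneg (by norm_num) _)
  refine le_trans ?_ (Finset.single_le_sum h3 hj)
  simp

/-- The main potential inequality. -/
theorem chain (hw : ∀ y, w y ≠ 0) (k : ℕ → ℕ) (ν : ℕ → ℝ) (ξ : ℝ) (hν0 : 0 < ν 0) (hξ : 0 ≤ ξ)
    (Smax : ℕ)
    (hstep : ∀ (r : ℕ), r < Smax → ∀ (A : Finset X), ν (r + 1) ≤ A.card → NoShort w A (k (r + 1)) →
      ((univ.filter fun x : Fin D → ZMod 2 => (((Hx w x A).card : ℝ) < ν r)).card : ℝ) ≤
        ξ * 2 ^ D) :
    ∀ (r : ℕ), r ≤ Smax → ∀ (A : Finset X),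
      voidP w r A ≤ (if (A.card : ℝ) < ν r then 1 else 0) + pot w k r A + r * ξ := by
  intro r
  induction r with
  | zero =>
    intro _ A
    simp only [voidP, pot, Nat.cast_zero, zero_mul, add_zero]
    by_cases hA : A = ∅
    · subst hA
      simp [hν0]
    · simp only [hA, if_false]
      have : (Finset.Icc 1 0 : Finset ℕ) = ∅ := by simp
      rw [this]
      simp only [Finset.sum_empty, add_zero]
      split_ifs <;> norm_num
  | succ r ih =>
    intro hrS A
    have ih := ih (by omega)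
    have hpn := pot_nonneg w k (r + 1) A
    have hrξ : 0 ≤ ((r + 1 : ℕ) : ℝ) * ξ := by positivity
    by_cases hcard : (A.card : ℝ) < ν (r + 1)
    · have := voidP_le_one w (r + 1) A
      rw [if_pos hcard]
      linarith
    rw [if_neg hcard]
    by_cases hc : ∃ j ∈ Finset.Icc 2 (k (r + 1)), circ w j A ≠ 0
    · obtain ⟨j, hj, hjc⟩ := hc
      have h1 : (1 : ℝ) ≤ pot w k (r + 1) A := by
        refine le_trans ?_ (circ_le_pot w k (r + 1) A j (by omega) hj)
        exact_mod_cast Nat.one_le_iff_ne_zero.mpr hjc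
      have := voidP_le_one w (r + 1) A
      linarith
    push Not at hc
    have hNS : NoShort w A (k (r + 1)) := noShort_of_circ w hw _ A hc
    have hS := hstep r (by omega) A (not_lt.mp hcard) hNS
    have hpos : (0 : ℝ) < 2 ^ D := by positivity
    simp only [voidP]
    rw [div_le_iff₀ hpos]
    -- sum the induction hypothesis
    have hsum : ∑ x : Fin D → ZMod 2, voidP w r (Hx w x A) ≤
        ∑ x : Fin D → ZMod 2, ((if ((Hx w x A).card : ℝ) < ν r then (1 : ℝ) else 0) +
          pot w k r (Hx w x A) + r * ξ) :=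
      Finset.sum_le_sum fun x _ => ih _
    have h1 : ∑ x : Fin D → ZMod 2, (if ((Hx w x A).card : ℝ) < ν r then (1 : ℝ) else 0) =
        ((univ.filter fun x : Fin D → ZMod 2 => (((Hx w x A).card : ℝ) < ν r)).card : ℝ) := by
      rw [Finset.card_filter]
      push_cast
      rfl
    have h2 : ∑ x : Fin D → ZMod 2, pot w k r (Hx w x A) ≤ 2 ^ D * pot w k (r + 1) A := by
      unfold pot
      rw [Finset.sum_comm]
      rw [Finset.mul_sum]
      have hsub : Finset.Icc 1 r ⊆ Finset.Icc 1 (r + 1) := by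
        intro a ha
        simp only [Finset.mem_Icc] at ha ⊢
        omega
      refine le_trans ?_ (Finset.sum_le_sum_of_subset_of_nonneg hsub
        (fun _ _ _ => mul_nonneg (by positivity) (Finset.sum_nonneg fun j _ =>
          mul_nonneg (Nat.cast_nonneg _) (pow_nonneg (by norm_num) _))))
      apply Finset.sum_le_sum
      intro r' hr'
      have hr'le : r' ≤ r := (Finset.mem_Icc.mp hr').2
      rw [Finset.sum_comm, Finset.mul_sum]
      apply Finset.sum_le_sum
      intro j hj
      have hj2 : 2 ≤ j := (Finset.mem_Icc.mp hj).1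
      have h3 := sum_circ_step w j A
      rw [← Finset.sum_mul]
      have h4 : (1 / 2 : ℝ) ^ ((r + 1 - r') * (j - 1)) =
          (1 / 2 : ℝ) ^ ((r - r') * (j - 1)) * (1 / 2) ^ (j - 1) := by
        rw [← pow_add]
        congr 1
        have : r + 1 - r' = (r - r') + 1 := by omega
        rw [this]
        ring
      rw [h4]
      calc _ ≤ (2 ^ D * (1 / 2 : ℝ) ^ (j - 1) * circ w j A) *
            (1 / 2 : ℝ) ^ ((r - r') * (j - 1)) :=
            mul_le_mul_of_nonneg_right h3 (by positivity)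
        _ = _ := by ring
    have h3 : ∑ x : Fin D → ZMod 2, ((if ((Hx w x A).card : ℝ) < ν r then (1 : ℝ) else 0) +
          pot w k r (Hx w x A) + r * ξ) =
        ((univ.filter fun x : Fin D → ZMod 2 => (((Hx w x A).card : ℝ) < ν r)).card : ℝ) +
        ∑ x : Fin D → ZMod 2, pot w k r (Hx w x A) + 2 ^ D * (r * ξ) := by
      rw [Finset.sum_add_distrib, Finset.sum_add_distrib, h1]
      congr 1
      simp [Finset.card_univ, ZMod.card]
    rw [h3] at hsum
    push_cast
    nlinarith

/-- Unrolled form of `voidP`. -/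
lemma voidP_unroll (S : ℕ) (A : Finset X) :
    voidP w S A = (∑ ω : Fin S → Fin D → ZMod 2,
      if (∀ y ∈ A, ∃ l, ω l ⬝ᵥ w y ≠ 0) then (1 : ℝ) else 0) / ((2 : ℝ) ^ D) ^ S := by
  induction S generalizing A with
  | zero =>
    simp only [voidP, pow_zero, div_one]
    rw [Fintype.sum_unique]
    by_cases hA : A = ∅
    · subst hA
      simp
    · obtain ⟨y, hy⟩ := Finset.nonempty_iff_ne_empty.mpr hA
      have : ∀ ω : Fin 0 → Fin D → ZMod 2, ¬ ∀ y ∈ A, ∃ l : Fin 0, ω l ⬝ᵥ w y ≠ 0 := by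
        intro ω h
        obtain ⟨l, _⟩ := h y hy
        exact l.elim0
      rw [if_neg hA, if_neg (this _)]
  | succ S ih =>
    simp only [voidP]
    simp_rw [ih]
    rw [← Finset.sum_div, div_div, pow_succ ((2 : ℝ) ^ D) S]
    congr 1
    rw [← (Fin.consEquiv (fun _ : Fin (S + 1) => Fin D → ZMod 2)).sum_comp, Fintype.sum_prod_type]
    apply Finset.sum_congr rfl
    intro x _
    apply Finset.sum_congr rfl
    intro ω' _
    have : (∀ y ∈ Hx w x A, ∃ l, ω' l ⬝ᵥ w y ≠ 0) ↔
        (∀ y ∈ A, ∃ l, (Fin.cons x ω' : Fin (S + 1) → Fin D → ZMod 2) l ⬝ᵥ w y ≠ 0) := by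
      simp only [Hx, Finset.mem_filter, and_imp]
      constructor
      · intro h y hy
        by_cases hx : x ⬝ᵥ w y = 0
        · obtain ⟨l, hl⟩ := h y hy hx
          exact ⟨l.succ, by simpa using hl⟩
        · exact ⟨0, by simpa using hx⟩
      · intro h y hy hx
        obtain ⟨l, hl⟩ := h y hy
        refine Fin.cases ?_ (fun l' hl' => ?_) l hl
        · intro h0
          simp only [Fin.cons_zero] at h0
          exact absurd hx h0
        · simp only [Fin.cons_succ] at hl'
          exact ⟨l', hl'⟩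
    simp only [this, Fin.consEquiv, Equiv.coe_fn_mk]
    congr

end Vale.Agent.Lib.P230
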