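import Vale.Agent.Lib.P230.HashDefs

/-! Algebra for `circ_top_bound`: integer relations, reduction mod `P` and mod `2`. -/

set_option autoImplicit false

open Finset
open scoped Matrix

namespace Vale.Agent.Lib.P230

/-- Integer matrix with rows `(1, Y i)`. -/
def liftMat {l d : ℕ} (Y : Fin l → Fin d → ℤ) : Matrix (Fin l) (Fin (d + 1)) ℤ :=
  Matrix.of fun i => Fin.cons 1 (Y i)

lemma liftMat_transpose_mulVec_zero {l d : ℕ} (Y : Fin l → Fin d → ℤ) (v : Fin l → ℤ)
    (h : (liftMat Y).transpose *ᵥ v = 0) : IsRel Y v := by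
  constructor
  · have := congrFun h 0
    simpa [Matrix.mulVec, dotProduct, liftMat, Matrix.transpose_apply] using this
  · intro m
    have := congrFun h m.succ
    simpa [Matrix.mulVec, dotProduct, liftMat, Matrix.transpose_apply, mul_comm] using this

lemma gram_det_ne_zero {l d : ℕ} (Y : Fin l → Fin d → ℤ) (hind : ∀ v, IsRel Y v → v = 0) :
    (liftMat Y * (liftMat Y).transpose).det ≠ 0 := by
  intro h
  obtain ⟨v, hv, hGv⟩ := Matrix.exists_mulVec_eq_zero_iff.mpr h
  apply hv
  apply hind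
  apply liftMat_transpose_mulVec_zero
  set u := (liftMat Y).transpose *ᵥ v with hu
  have h1 : u ⬝ᵥ u = 0 := by
    have h2 : v ⬝ᵥ ((liftMat Y * (liftMat Y).transpose) *ᵥ v) = 0 := by
      rw [hGv]; simp
    rw [← Matrix.mulVec_mulVec, Matrix.dotProduct_mulVec, ← Matrix.mulVec_transpose] at h2
    exact h2
  exact dotProduct_self_eq_zero.mp h1

lemma gram_entry_bound {l d : ℕ} (Y : Fin l → Fin d → ℤ) (B : ℕ)
    (hB : ∀ i m, |Y i m| ≤ B) (i i' : Fin l) :
    |(liftMat Y * (liftMat Y).transpose) i i'| ≤ 1 + d * (B : ℤ) ^ 2 := by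
  have e : (liftMat Y * (liftMat Y).transpose) i i' = 1 + ∑ m, Y i m * Y i' m := by
    simp [Matrix.mul_apply, liftMat, Matrix.transpose_apply, Fin.sum_univ_succ]
  rw [e]
  have h1 : |∑ m, Y i m * Y i' m| ≤ d * (B : ℤ) ^ 2 := by
    calc |∑ m, Y i m * Y i' m| ≤ ∑ m, |Y i m * Y i' m| := Finset.abs_sum_le_sum_abs _ _
      _ ≤ ∑ _m : Fin d, (B : ℤ) ^ 2 := by
          refine Finset.sum_le_sum fun m _ => ?_
          rw [abs_mul, sq]
          exact mul_le_mul (hB i m) (hB i' m) (abs_nonneg _) (by positivity)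
      _ = d * (B : ℤ) ^ 2 := by simp
  calc |1 + ∑ m, Y i m * Y i' m| ≤ |1| + |∑ m, Y i m * Y i' m| := abs_add_le _ _
    _ ≤ 1 + d * (B : ℤ) ^ 2 := by simpa using h1

/-- Rows without integer relations stay independent modulo a large prime. -/
theorem indep_mod {l d P : ℕ} [Fact P.Prime] (Y : Fin l → Fin d → ℤ) (B : ℕ)
    (hB : ∀ i m, |Y i m| ≤ B) (hP : l.factorial * (1 + d * B ^ 2) ^ l < P)
    (hind : ∀ v, IsRel Y v → v = 0) :
    LinearIndependent (ZMod P) (fun i => lift P d (Y i)) := by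
  have hdet := gram_det_ne_zero Y hind
  set G := liftMat Y * (liftMat Y).transpose with hG
  have hbound : |G.det| ≤ (l.factorial : ℤ) * (1 + d * (B : ℤ) ^ 2) ^ l := by
    have := Matrix.det_le (A := G) (abv := AbsoluteValue.abs) (x := 1 + d * (B : ℤ) ^ 2)
      (fun i j => gram_entry_bound Y B hB i j)
    simpa [Fintype.card_fin, nsmul_eq_mul] using this
  have hlt : |G.det| < (P : ℤ) := by
    refine lt_of_le_of_lt hbound ?_
    exact_mod_cast hP
  have hmod : (G.det : ZMod P) ≠ 0 := by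
    intro h0
    have hd : (P : ℤ) ∣ G.det := (ZMod.intCast_zmod_eq_zero_iff_dvd _ _).mp h0
    exact hdet (Int.eq_zero_of_abs_lt_dvd hd hlt)
  set Mb := (liftMat Y).map (Int.castRingHom (ZMod P)) with hMb
  have hGb : (Mb * Mb.transpose).det = (G.det : ZMod P) := by
    have e : Mb * Mb.transpose = G.map (Int.castRingHom (ZMod P)) := by
      rw [hG, Matrix.map_mul, hMb, Matrix.transpose_map]
    rw [e]
    have := (RingHom.map_det (Int.castRingHom (ZMod P)) G)
    simpa using this.symm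
  rw [Fintype.linearIndependent_iff]
  intro g hg
  have h1 : Mb.transpose *ᵥ g = 0 := by
    funext c
    have := congrFun hg c
    simp only [Finset.sum_apply, Pi.smul_apply, smul_eq_mul, Pi.zero_apply] at this
    simp only [Matrix.mulVec, dotProduct, Matrix.transpose_apply, Pi.zero_apply]
    rw [← this]
    refine Finset.sum_congr rfl fun i _ => ?_
    rw [mul_comm]
    congr 1
    refine Fin.cases ?_ (fun m => ?_) c
    · simp [hMb, liftMat, lift]
    · simp [hMb, liftMat, lift]
  have h2 : (Mb * Mb.transpose) *ᵥ g = 0 := by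
    rw [← Matrix.mulVec_mulVec, h1]; simp
  have h3 : g = 0 := Matrix.eq_zero_of_mulVec_eq_zero (by rw [hGb]; exact hmod) h2
  intro i
  rw [h3]; rfl

end Vale.Agent.Lib.P230
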