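import Vale.Agent.Lib.P230.CircRel

/-! Counting tuples for `circ_top_bound`: the parity class and the sign relations. -/

set_option autoImplicit false

open Finset
open scoped Matrix Classical

namespace Vale.Agent.Lib.P230

/-- Counting through fibres, with a real bound for the fibres. -/
lemma card_le_fiber {X Z : Type*} (S : Finset X) (t : Finset Z) (π : X → Z)
    (hπ : ∀ x ∈ S, π x ∈ t) (c : ℝ)
    (hfib : ∀ z ∈ t, ((S.filter fun x => π x = z).card : ℝ) ≤ c) :
    (S.card : ℝ) ≤ t.card * c := by
  rw [Finset.card_eq_sum_card_fiberwise hπ]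
  push_cast
  calc _ ≤ ∑ _z ∈ t, c := Finset.sum_le_sum hfib
    _ = _ := by simp

/-- Tuples of `A` with zero sum of lifts modulo two. -/
theorem card_parity {d : ℕ} (A : Finset (Fin d → ℤ)) (C c : ℝ) (hC0 : 0 ≤ C) (hc0 : 0 ≤ c)
    (hA : (A.card : ℝ) ≤ C)
    (hcls : ∀ x : Fin d → ℤ, ((A.filter fun y => ∀ i, (2 : ℤ) ∣ y i - x i).card : ℝ) ≤ c)
    (j' : ℕ) :
    (((Fintype.piFinset fun _ : Fin (j' + 1) => A).filter
      fun Y => ∑ i, lift 2 d (Y i) = 0).card : ℝ) ≤ C ^ j' * c := by
  have h1 := card_le_fiber ((Fintype.piFinset fun _ : Fin (j' + 1) => A).filter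
      fun Y => ∑ i, lift 2 d (Y i) = 0) (Fintype.piFinset fun _ : Fin j' => A)
      (fun Y i => Y i.castSucc) (by
        intro Y hY
        simp only [mem_filter, Fintype.mem_piFinset] at hY ⊢
        exact fun i => hY.1 _) c (by
        intro Y' _
        set x : Fin d → ℤ := fun m => - ∑ i, Y' i m with hx
        refine le_trans ?_ (hcls x)
        norm_cast
        refine Finset.card_le_card_of_injOn (fun Y => Y (Fin.last j')) ?_ ?_
        · intro Y hY
          simp only [coe_filter, mem_filter, Fintype.mem_piFinset, Set.mem_ofPred_eq] at hY ⊢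
          obtain ⟨⟨hY1, hY2⟩, hY3⟩ := hY
          refine ⟨hY1 _, fun m => ?_⟩
          have h2 := congrFun hY2 m.succ
          simp only [Finset.sum_apply, Pi.zero_apply, lift, Fin.cons_succ] at h2
          rw [← Int.cast_sum, ZMod.intCast_zmod_eq_zero_iff_dvd] at h2
          rw [Fin.sum_univ_castSucc] at h2
          have h3 : ∑ i : Fin j', Y i.castSucc m = ∑ i, Y' i m := by
            rw [← hY3]
          rw [h3] at h2
          simp only [hx]
          push_cast at h2
          have : Y (Fin.last j') m - -∑ i, Y' i m = ∑ i, Y' i m + Y (Fin.last j') m := by ring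
          rw [this]
          exact h2
        · intro Y hY Z hZ hYZ
          simp only [coe_filter, mem_filter, Fintype.mem_piFinset, Set.mem_ofPred_eq] at hY hZ
          funext i
          refine Fin.lastCases hYZ (fun i => ?_) i
          rw [show Y i.castSucc = (fun i : Fin j' => Y i.castSucc) i from rfl, hY.2,
            show Z i.castSucc = (fun i : Fin j' => Z i.castSucc) i from rfl, hZ.2])
  rw [Fintype.card_piFinset_const] at h1
  refine le_trans h1 ?_
  push_cast
  exact mul_le_mul_of_nonneg_right (pow_le_pow_left₀ (by positivity) hA _) hc0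

/-- Tuples satisfying a relation with coefficients `1, 1, -1, -1` at four positions. -/
theorem card_quad {d j : ℕ} (A : Finset (Fin d → ℤ)) (c : ℝ)
    (henergy : ∀ w : Fin d → ℤ,
      (((A ×ˢ A ×ˢ A ×ˢ A).filter fun p => p.1 + p.2.1 - p.2.2.1 - p.2.2.2 = w).card : ℝ) ≤ c)
    (a : Fin j → ℤ) (i1 i2 i3 i4 : Fin j) (h12 : i1 ≠ i2) (h13 : i1 ≠ i3) (h14 : i1 ≠ i4)
    (h23 : i2 ≠ i3) (h24 : i2 ≠ i4) (h34 : i3 ≠ i4)
    (ha1 : a i1 = 1) (ha2 : a i2 = 1) (ha3 : a i3 = -1) (ha4 : a i4 = -1) :
    (((Fintype.piFinset fun _ : Fin j => A).filter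
      fun Y => ∀ m, ∑ i, a i * Y i m = 0).card : ℝ) ≤ (A.card : ℝ) ^ (j - 4) * c := by
  set S4 : Finset (Fin j) := {i1, i2, i3, i4} with hS4
  have hS4card : S4.card = 4 := by
    rw [hS4, Finset.card_insert_of_notMem, Finset.card_insert_of_notMem,
      Finset.card_insert_of_notMem, Finset.card_singleton] <;> simp [*]
  set t : Finset (Fin j → Fin d → ℤ) :=
    Fintype.piFinset (fun i => if i ∈ S4 then ({0} : Finset (Fin d → ℤ)) else A) with ht
  have htcard : t.card = A.card ^ (j - 4) := by
    rw [ht, Fintype.card_piFinset]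
    have : ∀ i : Fin j, (if i ∈ S4 then ({0} : Finset (Fin d → ℤ)) else A).card
        = if i ∈ S4 then 1 else A.card := by
      intro i; split_ifs <;> simp
    simp_rw [this]
    rw [Finset.prod_ite]
    simp only [Finset.prod_const_one, one_mul, Finset.prod_const]
    congr 1
    have : (univ.filter fun i => ¬ i ∈ S4) = S4ᶜ := by ext i; simp
    rw [this, Finset.card_compl, Fintype.card_fin, hS4card]
  have key := card_le_fiber ((Fintype.piFinset fun _ : Fin j => A).filter
      fun Y => ∀ m, ∑ i, a i * Y i m = 0) t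
      (fun Y i => if i ∈ S4 then 0 else Y i) (by
        intro Y hY
        simp only [mem_filter, Fintype.mem_piFinset] at hY
        simp only [ht, Fintype.mem_piFinset]
        intro i
        by_cases hi : i ∈ S4
        · simp [hi]
        · simp [hi, hY.1 i]) c (by
        intro r _
        refine le_trans ?_ (henergy (fun m => - ∑ i, a i * r i m))
        norm_cast
        refine Finset.card_le_card_of_injOn
          (fun Y => (Y i1, Y i2, Y i3, Y i4)) ?_ ?_
        · intro Y hY
          simp only [coe_filter, mem_filter, Fintype.mem_piFinset, Set.mem_ofPred_eq,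
            mem_product] at hY ⊢
          obtain ⟨⟨hY1, hY2⟩, hY3⟩ := hY
          refine ⟨⟨hY1 _, hY1 _, hY1 _, hY1 _⟩, ?_⟩
          funext m
          have h2 := hY2 m
          have hsplit : ∑ i, a i * Y i m
              = ∑ i ∈ S4, a i * Y i m + ∑ i, a i * r i m := by
            have e : ∀ i, a i * Y i m
                = (if i ∈ S4 then a i * Y i m else 0) + a i * r i m := by
              intro i
              rw [← hY3]
              by_cases hi : i ∈ S4 <;> simp [hi]
            calc ∑ i, a i * Y i m
                = ∑ i, ((if i ∈ S4 then a i * Y i m else 0) + a i * r i m) :=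
                  Finset.sum_congr rfl fun i _ => e i
              _ = _ := by
                  rw [Finset.sum_add_distrib, Finset.sum_ite_mem]
                  simp
          have h4 : ∑ i ∈ S4, a i * Y i m = Y i1 m + Y i2 m - Y i3 m - Y i4 m := by
            rw [hS4, Finset.sum_insert (by simp [*]), Finset.sum_insert (by simp [*]),
              Finset.sum_insert (by simp [*]), Finset.sum_singleton, ha1, ha2, ha3, ha4]
            ring
          rw [hsplit, h4] at h2
          simp only [Pi.sub_apply, Pi.add_apply]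
          linarith
        · intro Y hY Z hZ hYZ
          simp only [coe_filter, mem_filter, Fintype.mem_piFinset, Set.mem_ofPred_eq] at hY hZ
          simp only [Prod.mk.injEq] at hYZ
          obtain ⟨e1, e2, e3, e4⟩ := hYZ
          funext i
          by_cases hi : i ∈ S4
          · simp only [hS4, mem_insert, mem_singleton] at hi
            rcases hi with rfl | rfl | rfl | rfl <;> assumption
          · have h5 := congrFun hY.2 i
            have h6 := congrFun hZ.2 i
            simp only [hi, if_false] at h5 h6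
            rw [h5, h6])
  rw [htcard] at key
  push_cast at key
  exact key

/-- Signs of a zero-sum `±1` vector: four positions with two plus and two minus signs. -/
lemma exists_quad {j : ℕ} (a : Fin j → ℤ) (h1 : ∀ i, |a i| = 1) (h0 : ∑ i, a i = 0) (hj : 3 ≤ j) :
    ∃ i1 i2 i3 i4 : Fin j, i1 ≠ i2 ∧ i1 ≠ i3 ∧ i1 ≠ i4 ∧ i2 ≠ i3 ∧ i2 ≠ i4 ∧ i3 ≠ i4 ∧
      a i1 = 1 ∧ a i2 = 1 ∧ a i3 = -1 ∧ a i4 = -1 := by
  set Pp := univ.filter fun i => a i = 1 with hPp
  set Nn := univ.filter fun i => a i = -1 with hNn
  have hval : ∀ i, a i = 1 ∨ a i = -1 := by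
    intro i
    rcases abs_eq (zero_le_one) |>.mp (h1 i) with h | h
    · exact Or.inl h
    · exact Or.inr h
  have hcard : Pp.card + Nn.card = j := by
    have hdisj : Disjoint Pp Nn := by
      rw [Finset.disjoint_left]
      intro i hi hi'
      simp only [hPp, hNn, mem_filter, mem_univ, true_and] at hi hi'
      rw [hi] at hi'
      norm_num at hi'
    rw [← Finset.card_union_of_disjoint hdisj]
    have : Pp ∪ Nn = univ := by
      ext i
      simp only [hPp, hNn, mem_union, mem_filter, mem_univ, true_and, iff_true]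
      exact hval i
    rw [this]; simp
  have hsum : (Pp.card : ℤ) - Nn.card = 0 := by
    have e : ∑ i, a i = ∑ i ∈ Pp, (1 : ℤ) + ∑ i ∈ Nn, (-1 : ℤ) := by
      rw [Finset.sum_const, Finset.sum_const]
      have h2 : ∑ i, a i = ∑ i, ((if a i = 1 then 1 else 0) + (if a i = -1 then -1 else 0)) := by
        refine Finset.sum_congr rfl fun i _ => ?_
        rcases hval i with h | h <;> simp [h]
      rw [h2, Finset.sum_add_distrib, Finset.sum_ite, Finset.sum_ite]
      simp [hPp, hNn]
    rw [e] at h0
    simp only [Finset.sum_const, nsmul_eq_mul, mul_one, mul_neg] at h0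
    linarith
  have h2 : 1 < Pp.card := by omega
  have h3 : 1 < Nn.card := by omega
  obtain ⟨i1, hi1, i2, hi2, h12⟩ := Finset.one_lt_card.mp h2
  obtain ⟨i3, hi3, i4, hi4, h34⟩ := Finset.one_lt_card.mp h3
  simp only [hPp, hNn, mem_filter, mem_univ, true_and] at hi1 hi2 hi3 hi4
  have hne : ∀ i i', a i = 1 → a i' = -1 → i ≠ i' := by
    rintro i i' h h' rfl
    rw [h] at h'
    norm_num at h'
  exact ⟨i1, i2, i3, i4, h12, hne _ _ hi1 hi3, hne _ _ hi1 hi4, hne _ _ hi2 hi3, hne _ _ hi2 hi4,
    h34, hi1, hi2, hi3, hi4⟩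

end Vale.Agent.Lib.P230
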