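import Mathlib

/-! Numerical inequalities for `circ_top_bound`. -/

set_option autoImplicit false

open Finset

namespace Vale.Agent.Lib.P230

lemma sum_inv_sq_le (Q : ℕ) : ∑ b ∈ Finset.Icc 3 Q, 1 / (b : ℝ) ^ 2 ≤ 1 / 2 := by
  rcases Nat.lt_or_ge Q 2 with h | h
  · rw [Finset.Icc_eq_empty (by omega)]
    norm_num
  · have key : ∀ Q : ℕ, 2 ≤ Q → ∑ b ∈ Finset.Icc 3 Q, 1 / (b : ℝ) ^ 2 ≤ 1 / 2 - 1 / (Q : ℝ) := by
      intro Q hQ
      induction Q, hQ using Nat.le_induction with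
      | base => simp
      | succ n hn ih =>
        rw [Finset.sum_Icc_succ_top (by omega)]
        have hn' : (2 : ℝ) ≤ n := by exact_mod_cast hn
        have h1 : 1 / (((n + 1 : ℕ) : ℝ)) ^ 2 ≤ 1 / (n : ℝ) - 1 / ((n + 1 : ℕ) : ℝ) := by
          push_cast
          rw [div_sub_div _ _ (by positivity) (by positivity), div_le_div_iff₀ (by positivity)
            (by positivity)]
          nlinarith
        linarith
    have := key Q h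
    have h2 : (0 : ℝ) ≤ 1 / (Q : ℝ) := by positivity
    linarith

/-- The sum over heights between `3` and `Q`. -/
theorem height_sum_le (d j' Q : ℕ) (M : ℝ) (hM : 0 ≤ M) (hd : j' + 1 + 2 ≤ d) :
    ∑ b ∈ Finset.Icc 3 Q, ((2 * b + 1 : ℕ) : ℝ) ^ (j' + 1) * ((2 * M) ^ j' / (b : ℝ) ^ d)
      ≤ (2 * M) ^ j' * (3 ^ (2 * (j' + 1) + 3) / 3 ^ d) := by
  set j := j' + 1 with hj
  have hterm : ∀ b ∈ Finset.Icc 3 Q, ((2 * b + 1 : ℕ) : ℝ) ^ j * ((2 * M) ^ j' / (b : ℝ) ^ d)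
      ≤ (2 * M) ^ j' * ((3 ^ (2 * j) * 9 / 3 ^ d) * (1 / (b : ℝ) ^ 2)) := by
    intro b hb
    simp only [mem_Icc] at hb
    have hb3 : (3 : ℝ) ≤ b := by exact_mod_cast hb.1
    have hb0 : (0 : ℝ) < b := by linarith
    have h1 : ((2 * b + 1 : ℕ) : ℝ) ^ j ≤ (3 * (b : ℝ)) ^ j := by
      apply pow_le_pow_left₀ (by positivity)
      push_cast
      linarith
    have h2 : (3 * (b : ℝ)) ^ j * (3 ^ d * (b : ℝ) ^ 2) ≤ 3 ^ (2 * j) * 9 * (b : ℝ) ^ d := by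
      obtain ⟨e, he⟩ : ∃ e, d = j + 2 + e := ⟨d - (j + 2), by omega⟩
      have h3 : (3 : ℝ) ^ e ≤ (b : ℝ) ^ e := pow_le_pow_left₀ (by norm_num) hb3 _
      have h4 : (0 : ℝ) ≤ 3 ^ (2 * j) * 9 * (b : ℝ) ^ (j + 2) := by positivity
      calc (3 * (b : ℝ)) ^ j * (3 ^ d * (b : ℝ) ^ 2)
          = 3 ^ (2 * j) * 9 * (b : ℝ) ^ (j + 2) * 3 ^ e := by
            rw [he, mul_pow]
            ring
        _ ≤ 3 ^ (2 * j) * 9 * (b : ℝ) ^ (j + 2) * (b : ℝ) ^ e :=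
            mul_le_mul_of_nonneg_left h3 h4
        _ = 3 ^ (2 * j) * 9 * (b : ℝ) ^ d := by
            rw [he]; ring
    have h5 : ((2 * b + 1 : ℕ) : ℝ) ^ j / (b : ℝ) ^ d
        ≤ (3 ^ (2 * j) * 9 / 3 ^ d) * (1 / (b : ℝ) ^ 2) := by
      rw [div_mul_div_comm, div_le_div_iff₀ (by positivity) (by positivity), mul_one]
      calc ((2 * b + 1 : ℕ) : ℝ) ^ j * (3 ^ d * (b : ℝ) ^ 2)
          ≤ (3 * (b : ℝ)) ^ j * (3 ^ d * (b : ℝ) ^ 2) :=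
            mul_le_mul_of_nonneg_right h1 (by positivity)
        _ ≤ _ := h2
    calc ((2 * b + 1 : ℕ) : ℝ) ^ j * ((2 * M) ^ j' / (b : ℝ) ^ d)
        = (2 * M) ^ j' * (((2 * b + 1 : ℕ) : ℝ) ^ j / (b : ℝ) ^ d) := by ring
      _ ≤ _ := mul_le_mul_of_nonneg_left h5 (by positivity)
  calc _ ≤ ∑ b ∈ Finset.Icc 3 Q, (2 * M) ^ j' * ((3 ^ (2 * j) * 9 / 3 ^ d) * (1 / (b : ℝ) ^ 2)) :=
        Finset.sum_le_sum hterm
    _ = (2 * M) ^ j' * ((3 ^ (2 * j) * 9 / 3 ^ d) * ∑ b ∈ Finset.Icc 3 Q, 1 / (b : ℝ) ^ 2) := by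
        rw [Finset.mul_sum, Finset.mul_sum]
    _ ≤ (2 * M) ^ j' * ((3 ^ (2 * j) * 9 / 3 ^ d) * (1 / 2)) := by
        apply mul_le_mul_of_nonneg_left _ (by positivity)
        exact mul_le_mul_of_nonneg_left (sum_inv_sq_le Q) (by positivity)
    _ ≤ (2 * M) ^ j' * (3 ^ (2 * j + 3) / 3 ^ d) := by
        apply mul_le_mul_of_nonneg_left _ (by positivity)
        rw [pow_add, div_mul_eq_mul_div, div_le_div_iff₀ (by positivity) (by positivity)]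
        have : (0 : ℝ) ≤ 3 ^ (2 * j) * 3 ^ d := by positivity
        nlinarith

/-- The constant that bounds the tail factor. -/
theorem tail_num (d k j : ℕ) (hk : 6 * k ≤ d) (hj2 : 2 ≤ j) (hjk : j ≤ k) (θ Cθ : ℝ) (hθ : 0 < θ)
    (hCθ : 1 ≤ Cθ) (hCθ' : 1 / θ ≤ Cθ) (w q W M : ℝ) (hw1 : 1 ≤ w) (hwW : w ≤ W) (hq1 : 1 ≤ q)
    (hq4 : W ≤ q ^ 4) (hM : θ * W ^ d ≤ M)
    (hW : 2 ^ (2 * d + k * (d + 2)) * Cθ ^ k ≤ W) :
    2 ^ d * (w ^ j) ^ (j - 2) * ((2 * w) ^ (j - 1) / q) ^ (d + 2 - j) ≤ (2 * M) ^ (j - 1) / 2 ^ d := by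
  have hW1 : 1 ≤ W := le_trans hw1 hwW
  have hW0 : 0 < W := by linarith
  have hw0 : 0 < w := by linarith
  have hq0 : 0 < q := by linarith
  set E := d + 2 - j with hE
  set L := E / 4 with hL
  obtain ⟨j', rfl⟩ : ∃ j', j = j' + 2 := ⟨j - 2, by omega⟩
  have hj1 : j' + 2 - 1 = j' + 1 := by omega
  have hj2' : j' + 2 - 2 = j' := by omega
  rw [hj1, hj2']
  have hE1 : E + j' + 2 = d + 2 := by omega
  have hEbig : 4 * (j' + 1) ≤ E := by omega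
  have hL1 : j' + 1 ≤ L := by
    rw [hL]; omega
  have hL2 : 4 * L ≤ E := by
    rw [hL]; omega
  -- denominator
  have hqE : W ^ L ≤ q ^ E := by
    calc W ^ L ≤ (q ^ 4) ^ L := pow_le_pow_left₀ hW0.le hq4 _
      _ = q ^ (4 * L) := by rw [pow_mul]
      _ ≤ q ^ E := pow_le_pow_right₀ hq1 hL2
  -- the exponent count
  have hexp : (j' + 2) * j' + (j' + 1) * E = (j' + 1) * d + j' := by
    have : d = E + j' := by omega
    rw [this]; ring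
  have hLHS : 2 ^ d * (w ^ (j' + 2)) ^ j' * ((2 * w) ^ (j' + 1) / q) ^ E
      ≤ 2 ^ d * 2 ^ ((j' + 1) * E) * (W ^ ((j' + 1) * d + j') / W ^ L) := by
    have e1 : (w ^ (j' + 2)) ^ j' * ((2 * w) ^ (j' + 1) / q) ^ E
        = 2 ^ ((j' + 1) * E) * (w ^ ((j' + 2) * j' + (j' + 1) * E) / q ^ E) := by
      rw [div_pow, ← pow_mul, ← pow_mul, mul_pow, pow_add w]
      ring
    have h3 : w ^ ((j' + 2) * j' + (j' + 1) * E) ≤ W ^ ((j' + 1) * d + j') := by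
      rw [hexp]
      exact pow_le_pow_left₀ hw0.le hwW _
    have h4 : w ^ ((j' + 2) * j' + (j' + 1) * E) / q ^ E ≤ W ^ ((j' + 1) * d + j') / W ^ L :=
      div_le_div₀ (by positivity) h3 (by positivity) hqE
    calc 2 ^ d * (w ^ (j' + 2)) ^ j' * ((2 * w) ^ (j' + 1) / q) ^ E
        = 2 ^ d * ((w ^ (j' + 2)) ^ j' * ((2 * w) ^ (j' + 1) / q) ^ E) := by ring
      _ = 2 ^ d * 2 ^ ((j' + 1) * E) * (w ^ ((j' + 2) * j' + (j' + 1) * E) / q ^ E) := by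
          rw [e1]; ring
      _ ≤ _ := mul_le_mul_of_nonneg_left h4 (by positivity)
  refine le_trans hLHS ?_
  -- simplify the power of W
  have hpow : W ^ ((j' + 1) * d + j') / W ^ L ≤ W ^ ((j' + 1) * d) / W := by
    rw [div_le_div_iff₀ (by positivity) (by positivity), pow_add]
    have h5 : W ^ j' * W ≤ W ^ L := by
      rw [← pow_succ]
      exact pow_le_pow_right₀ hW1 hL1
    calc W ^ ((j' + 1) * d) * W ^ j' * W = W ^ ((j' + 1) * d) * (W ^ j' * W) := by ring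
      _ ≤ W ^ ((j' + 1) * d) * W ^ L := mul_le_mul_of_nonneg_left h5 (by positivity)
  have hRHS : θ ^ (j' + 1) * W ^ ((j' + 1) * d) / 2 ^ d ≤ (2 * M) ^ (j' + 1) / 2 ^ d := by
    apply div_le_div_of_nonneg_right _ (by positivity)
    have hMpos : 0 ≤ θ * W ^ d := by positivity
    calc θ ^ (j' + 1) * W ^ ((j' + 1) * d) = (θ * W ^ d) ^ (j' + 1) := by
          rw [mul_pow, ← pow_mul, mul_comm d]
      _ ≤ M ^ (j' + 1) := pow_le_pow_left₀ hMpos hM _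
      _ ≤ (2 * M) ^ (j' + 1) := by
          apply pow_le_pow_left₀ (le_trans hMpos hM)
          linarith [le_trans hMpos hM]
  refine le_trans ?_ hRHS
  -- the constants
  have hconst : 2 ^ d * 2 ^ ((j' + 1) * E) * 2 ^ d ≤ θ ^ (j' + 1) * W := by
    have h6 : (2 : ℝ) ^ (2 * d + (j' + 1) * E) ≤ 2 ^ (2 * d + k * (d + 2)) := by
      apply pow_le_pow_right₀ (by norm_num)
      have : (j' + 1) * E ≤ k * (d + 2) := Nat.mul_le_mul (by omega) (by omega)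
      omega
    have h7 : (1 / θ) ^ (j' + 1) ≤ Cθ ^ k := by
      calc (1 / θ) ^ (j' + 1) ≤ Cθ ^ (j' + 1) := pow_le_pow_left₀ (by positivity) hCθ' _
        _ ≤ Cθ ^ k := pow_le_pow_right₀ hCθ (by omega)
    have h8 : (2 : ℝ) ^ (2 * d + (j' + 1) * E) * (1 / θ) ^ (j' + 1) ≤ W := by
      refine le_trans ?_ hW
      exact mul_le_mul h6 h7 (by positivity) (by positivity)
    have h9 : (0 : ℝ) < θ ^ (j' + 1) := by positivity
    calc 2 ^ d * 2 ^ ((j' + 1) * E) * 2 ^ d = (2 : ℝ) ^ (2 * d + (j' + 1) * E) := by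
          rw [pow_add, two_mul, pow_add]; ring
      _ = θ ^ (j' + 1) * ((2 : ℝ) ^ (2 * d + (j' + 1) * E) * (1 / θ) ^ (j' + 1)) := by
          rw [one_div, inv_pow]
          field_simp
      _ ≤ θ ^ (j' + 1) * W := mul_le_mul_of_nonneg_left h8 h9.le
  have h10 : (0 : ℝ) < W ^ ((j' + 1) * d) := by positivity
  calc 2 ^ d * 2 ^ ((j' + 1) * E) * (W ^ ((j' + 1) * d + j') / W ^ L)
      ≤ 2 ^ d * 2 ^ ((j' + 1) * E) * (W ^ ((j' + 1) * d) / W) :=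
        mul_le_mul_of_nonneg_left hpow (by positivity)
    _ ≤ θ ^ (j' + 1) * W ^ ((j' + 1) * d) / 2 ^ d := by
        rw [mul_div_assoc', div_le_div_iff₀ (by positivity) (by positivity)]
        calc 2 ^ d * 2 ^ ((j' + 1) * E) * W ^ ((j' + 1) * d) * 2 ^ d
            = (2 ^ d * 2 ^ ((j' + 1) * E) * 2 ^ d) * W ^ ((j' + 1) * d) := by ring
          _ ≤ (θ ^ (j' + 1) * W) * W ^ ((j' + 1) * d) :=
              mul_le_mul_of_nonneg_right hconst h10.le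
          _ = _ := by ring

/-- The prime is larger than all the Gram determinants. -/
theorem prime_large (d k l W P : ℕ) (hk : 6 * k ≤ d) (hl : l ≤ k) (hk1 : 1 ≤ k) (θ Cθ M : ℝ)
    (hθ : 0 < θ) (hCθ' : 1 / θ ≤ Cθ)
    (hW : 2 ^ d * (k.factorial : ℝ) * (1 + (d : ℝ)) ^ k * Cθ + 1 ≤ W) (hW1 : 1 ≤ W)
    (hM : θ * (W : ℝ) ^ d ≤ M) (hMP : M ≤ 2 ^ d * (P : ℝ)) :
    l.factorial * (1 + d * W ^ 2) ^ l < P := by
  have hW1' : (1 : ℝ) ≤ W := by exact_mod_cast hW1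
  have hW0 : (0 : ℝ) < W := by linarith
  have h1 : ((1 : ℝ) + d * (W : ℝ) ^ 2) ≤ (1 + d) * (W : ℝ) ^ 2 := by
    have : (1 : ℝ) ≤ (W : ℝ) ^ 2 := one_le_pow₀ hW1'
    nlinarith
  have hbase : (1 : ℝ) ≤ 1 + (d : ℝ) * (W : ℝ) ^ 2 := by
    have : (0 : ℝ) ≤ (d : ℝ) * (W : ℝ) ^ 2 := by positivity
    linarith
  have h2 : (l.factorial : ℝ) * (1 + (d : ℝ) * (W : ℝ) ^ 2) ^ l
      ≤ (k.factorial : ℝ) * ((1 + (d : ℝ)) ^ k * (W : ℝ) ^ (2 * k)) := by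
    have h3 : (l.factorial : ℝ) ≤ k.factorial := by exact_mod_cast Nat.factorial_le hl
    have h4 : (1 + (d : ℝ) * (W : ℝ) ^ 2) ^ l ≤ (1 + (d : ℝ) * (W : ℝ) ^ 2) ^ k :=
      pow_le_pow_right₀ hbase hl
    have h5 : (1 + (d : ℝ) * (W : ℝ) ^ 2) ^ k ≤ ((1 + (d : ℝ)) * (W : ℝ) ^ 2) ^ k :=
      pow_le_pow_left₀ (by linarith) h1 _
    have h6 : ((1 + (d : ℝ)) * (W : ℝ) ^ 2) ^ k = (1 + (d : ℝ)) ^ k * (W : ℝ) ^ (2 * k) := by
      rw [mul_pow, ← pow_mul]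
    rw [← h6]
    exact mul_le_mul h3 (le_trans h4 h5) (by positivity) (by positivity)
  have h7 : (k.factorial : ℝ) * ((1 + (d : ℝ)) ^ k * (W : ℝ) ^ (2 * k)) < P := by
    have hP : θ * (W : ℝ) ^ d ≤ 2 ^ d * (P : ℝ) := le_trans hM hMP
    obtain ⟨e, he⟩ : ∃ e, d = 2 * k + (e + 1) := ⟨d - 2 * k - 1, by omega⟩
    have h8 : (W : ℝ) ≤ (W : ℝ) ^ (e + 1) := by
      calc (W : ℝ) = (W : ℝ) ^ 1 := (pow_one _).symm
        _ ≤ _ := pow_le_pow_right₀ hW1' (by omega)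
    have h9 : 2 ^ d * (k.factorial : ℝ) * (1 + (d : ℝ)) ^ k * (1 / θ) < (W : ℝ) ^ (e + 1) := by
      have h10 : (0 : ℝ) ≤ 2 ^ d * (k.factorial : ℝ) * (1 + (d : ℝ)) ^ k := by positivity
      have h11 : 2 ^ d * (k.factorial : ℝ) * (1 + (d : ℝ)) ^ k * (1 / θ)
          ≤ 2 ^ d * (k.factorial : ℝ) * (1 + (d : ℝ)) ^ k * Cθ :=
        mul_le_mul_of_nonneg_left hCθ' h10
      linarith
    have h12 : 2 ^ d * ((k.factorial : ℝ) * ((1 + (d : ℝ)) ^ k * (W : ℝ) ^ (2 * k)))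
        < θ * (W : ℝ) ^ d := by
      have h13 : (W : ℝ) ^ d = (W : ℝ) ^ (2 * k) * (W : ℝ) ^ (e + 1) := by
        rw [he, pow_add]
      rw [h13]
      have h14 : (0 : ℝ) < (W : ℝ) ^ (2 * k) := by positivity
      have h15 : 2 ^ d * (k.factorial : ℝ) * (1 + (d : ℝ)) ^ k < θ * (W : ℝ) ^ (e + 1) := by
        have := mul_lt_mul_of_pos_right h9 hθ
        have e2 : 2 ^ d * (k.factorial : ℝ) * (1 + (d : ℝ)) ^ k * (1 / θ) * θ
            = 2 ^ d * (k.factorial : ℝ) * (1 + (d : ℝ)) ^ k := by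
          field_simp
        rw [e2] at this
        linarith
      have := mul_lt_mul_of_pos_right h15 h14
      nlinarith
    have h16 : (0 : ℝ) < 2 ^ d := by positivity
    have h17 : 2 ^ d * ((k.factorial : ℝ) * ((1 + (d : ℝ)) ^ k * (W : ℝ) ^ (2 * k)))
        < 2 ^ d * (P : ℝ) := lt_of_lt_of_le h12 hP
    exact lt_of_mul_lt_mul_left h17 h16.le
  have h18 : ((l.factorial * (1 + d * W ^ 2) ^ l : ℕ) : ℝ) < P := by
    push_cast
    exact lt_of_le_of_lt h2 h7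
  exact_mod_cast h18

end Vale.Agent.Lib.P230
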