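import Vale.Agent.Lib.P230.CircAlg

/-! Relations of circuits: reduction to primitive relations, oddness, and the rank of a circuit. -/

set_option autoImplicit false

open Finset
open scoped Matrix

namespace Vale.Agent.Lib.P230

/-- Primitive integer vector. -/
def Prim {j : ℕ} (a : Fin j → ℤ) : Prop := ∀ f : ℕ, (∀ i, (f : ℤ) ∣ a i) → f = 1

/-- Enumeration of a finite set by a tuple. -/
def Enum {E : Type*} {j : ℕ} (Y : Fin j → E) (T : Finset E) : Prop :=
  Function.Injective Y ∧ ∀ y, y ∈ T ↔ ∃ i, Y i = y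

lemma exists_enum {E : Type*} [DecidableEq E] (T : Finset E) {j : ℕ} (h : T.card = j) :
    ∃ Y : Fin j → E, Enum Y T := by
  refine ⟨fun i => ((T.equivFinOfCardEq h).symm i).1, ?_, ?_⟩
  · intro i i' hi
    exact (T.equivFinOfCardEq h).symm.injective (Subtype.ext hi)
  · intro y
    constructor
    · intro hy
      exact ⟨T.equivFinOfCardEq h ⟨y, hy⟩, by simp⟩
    · rintro ⟨i, rfl⟩
      exact ((T.equivFinOfCardEq h).symm i).2

lemma exists_prim_rel {j d : ℕ} (Y : Fin j → Fin d → ℤ) (v : Fin j → ℤ) (hv : v ≠ 0)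
    (h : IsRel Y v) : ∃ a, IsRel Y a ∧ Prim a ∧ ∀ i, v i = 0 → a i = 0 := by
  have hne : (univ : Finset (Fin j)).Nonempty := by
    by_contra hne
    rw [Finset.not_nonempty_iff_eq_empty, Finset.univ_eq_empty_iff] at hne
    exact hv (funext fun i => (hne.false i).elim)
  obtain ⟨a, ha, hg⟩ := Finset.extract_gcd v hne
  set g := (univ : Finset (Fin j)).gcd v with hgdef
  have hg0 : g ≠ 0 := by
    intro h0
    apply hv
    funext i
    rw [ha i (mem_univ i), h0]; simp
  refine ⟨a, ⟨?_, fun m => ?_⟩, ?_, ?_⟩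
  · have h1 := h.1
    have : g * ∑ i, a i = 0 := by
      rw [Finset.mul_sum, ← h1]
      exact Finset.sum_congr rfl fun i _ => (ha i (mem_univ i)).symm
    exact (mul_eq_zero.mp this).resolve_left hg0
  · have h1 := h.2 m
    have : g * ∑ i, a i * Y i m = 0 := by
      rw [Finset.mul_sum, ← h1]
      refine Finset.sum_congr rfl fun i _ => ?_
      rw [ha i (mem_univ i)]; ring
    exact (mul_eq_zero.mp this).resolve_left hg0
  · intro f hf
    have : (f : ℤ) ∣ (univ : Finset (Fin j)).gcd a := Finset.dvd_gcd fun i _ => hf i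
    rw [hg] at this
    have h1 : (f : ℤ).natAbs = 1 := Int.isUnit_iff_natAbs_eq.mp (isUnit_of_dvd_one this)
    simpa using h1
  · intro i hi
    have := ha i (mem_univ i)
    rw [hi] at this
    exact (mul_eq_zero.mp this.symm).resolve_left hg0

lemma intCast_zmod_two (n : ℤ) : ((n : ZMod 2)) = if Odd n then 1 else 0 := by
  split_ifs with h
  · obtain ⟨k, rfl⟩ := h
    push_cast
    have : (2 : ZMod 2) = 0 := rfl
    rw [this]; simp
  · obtain ⟨k, rfl⟩ := Int.not_odd_iff_even.mp h
    push_cast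
    exact CharTwo.add_self_eq_zero _

/-- All coefficients of a primitive relation of a circuit are odd. -/
theorem rel_odd {j d : ℕ} {T : Finset (Fin d → ℤ)} (hT : IsCirc (lift 2 d) T)
    {Y : Fin j → Fin d → ℤ} (hY : Enum Y T) {a : Fin j → ℤ} (ha : IsRel Y a) (hp : Prim a) :
    ∀ i, Odd (a i) := by
  classical
  set S := univ.filter fun i => Odd (a i) with hS
  have hSne : S.Nonempty := by
    by_contra hne
    have hall : ∀ i, (2 : ℤ) ∣ a i := by
      intro i
      have : i ∉ S := fun hi => hne ⟨i, hi⟩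
      simp only [hS, mem_filter, mem_univ, true_and] at this
      exact even_iff_two_dvd.mp (Int.not_odd_iff_even.mp this)
    have := hp 2 (by simpa using hall)
    omega
  have hsum : ∑ y ∈ S.image Y, lift 2 d y = 0 := by
    rw [Finset.sum_image (fun x _ y _ h => hY.1 h)]
    funext c
    refine Fin.cases ?_ (fun m => ?_) c
    · simp only [Finset.sum_apply, Pi.zero_apply]
      have h1 : ∑ i ∈ S, lift 2 d (Y i) 0 = ∑ i, ((a i : ℤ) : ZMod 2) := by
        rw [hS, Finset.sum_filter]
        refine Finset.sum_congr rfl fun i _ => ?_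
        rw [intCast_zmod_two]
        simp [lift]
      rw [h1, ← Int.cast_sum, ha.1]; simp
    · simp only [Finset.sum_apply, Pi.zero_apply]
      have h1 : ∑ i ∈ S, lift 2 d (Y i) m.succ = ∑ i, (((a i * Y i m : ℤ)) : ZMod 2) := by
        rw [hS, Finset.sum_filter]
        refine Finset.sum_congr rfl fun i _ => ?_
        push_cast
        rw [intCast_zmod_two]
        split_ifs <;> simp [lift]
      rw [h1, ← Int.cast_sum, ha.2 m]; simp
  have hsub : S.image Y ⊆ T := by
    intro y hy
    obtain ⟨i, _, rfl⟩ := mem_image.mp hy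
    exact (hY.2 _).mpr ⟨i, rfl⟩
  have heq : S.image Y = T := by
    by_contra hne
    exact hT.2.2 _ (Finset.ssubset_iff_subset_ne.mpr ⟨hsub, hne⟩) (hSne.image _) hsum
  intro i
  have : Y i ∈ S.image Y := by rw [heq]; exact (hY.2 _).mpr ⟨i, rfl⟩
  obtain ⟨i', hi', he⟩ := mem_image.mp this
  have := hY.1 he
  subst this
  simpa [hS] using hi'

/-- A relation of a circuit vanishing at one index vanishes. -/
theorem rel_eq_zero_of_vanish {j d : ℕ} {T : Finset (Fin d → ℤ)} (hT : IsCirc (lift 2 d) T)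
    {Y : Fin j → Fin d → ℤ} (hY : Enum Y T) {b : Fin j → ℤ} (hb : IsRel Y b) {i₀ : Fin j}
    (h0 : b i₀ = 0) : b = 0 := by
  by_contra hne
  obtain ⟨a, ha, hp, hv⟩ := exists_prim_rel Y b hne hb
  have := rel_odd hT hY ha hp i₀
  rw [hv i₀ h0] at this
  exact absurd this (by decide)

/-- The first `j'` rows of a circuit of size `j' + 1` have no relation. -/
theorem rel_init_eq_zero {j' d : ℕ} {T : Finset (Fin d → ℤ)} (hT : IsCirc (lift 2 d) T)
    {Y : Fin (j' + 1) → Fin d → ℤ} (hY : Enum Y T) (v : Fin j' → ℤ)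
    (hv : IsRel (fun i => Y i.castSucc) v) : v = 0 := by
  have hb : IsRel Y (Fin.snoc v 0) := by
    constructor
    · rw [Fin.sum_univ_castSucc]
      simp only [Fin.snoc_castSucc, Fin.snoc_last, add_zero]
      exact hv.1
    · intro m
      rw [Fin.sum_univ_castSucc]
      simp only [Fin.snoc_castSucc, Fin.snoc_last, zero_mul, add_zero]
      exact hv.2 m
  have := rel_eq_zero_of_vanish hT hY hb (i₀ := Fin.last j') (by simp)
  funext i
  have h2 := congrFun this i.castSucc
  simpa using h2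

/-- Bound for the fraction of annihilators of `T`, given independent rows inside `T`. -/
theorem top_ratio_le {d l P : ℕ} [Fact P.Prime] (T : Finset (Fin d → ℤ)) (Y : Fin l → Fin d → ℤ)
    (hmem : ∀ i, Y i ∈ T) (hl : l ≤ d + 1)
    (hli : LinearIndependent (ZMod P) (fun i => lift P d (Y i)))
    (hann : ∀ (u : Fin l → Fin (d + 1) → ZMod P), LinearIndependent (ZMod P) u →
      ((univ.filter fun x : Fin (d + 1) → ZMod P => ∀ i, x ⬝ᵥ u i = 0).card : ℝ)
        = (P : ℝ) ^ (d + 1 - l)) :
    (((univ.filter fun x : Fin (d + 1) → ZMod P => ∀ y ∈ T, x ⬝ᵥ lift P d y = 0).card : ℝ) /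
        (P : ℝ) ^ (d + 1)) ≤ 1 / (P : ℝ) ^ l := by
  classical
  have hP : (0 : ℝ) < P := by
    have := (Fact.out : P.Prime).pos
    exact_mod_cast this
  have h1 : ((univ.filter fun x : Fin (d + 1) → ZMod P => ∀ y ∈ T, x ⬝ᵥ lift P d y = 0).card : ℝ)
      ≤ (P : ℝ) ^ (d + 1 - l) := by
    rw [← hann _ hli]
    have : (univ.filter fun x : Fin (d + 1) → ZMod P => ∀ y ∈ T, x ⬝ᵥ lift P d y = 0)
        ⊆ (univ.filter fun x : Fin (d + 1) → ZMod P => ∀ i, x ⬝ᵥ lift P d (Y i) = 0) := by
      intro x hx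
      simp only [mem_filter, mem_univ, true_and] at hx ⊢
      exact fun i => hx _ (hmem i)
    exact_mod_cast Finset.card_le_card this
  have hpow : (P : ℝ) ^ (d + 1) = (P : ℝ) ^ (d + 1 - l) * (P : ℝ) ^ l := by
    rw [← pow_add, Nat.sub_add_cancel hl]
  rw [div_le_div_iff₀ (by positivity) (by positivity), one_mul, hpow]
  exact mul_le_mul_of_nonneg_right h1 (by positivity)

end Vale.Agent.Lib.P230
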