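import Vale.Agent.Lib.P230.HashDefs

/-! MODULE gcd chain (statement of `Stubs2.lean`). -/

set_option autoImplicit false

open MeasureTheory Finset
open scoped ENNReal Matrix Classical

namespace Vale.Agent.Lib.P230

/-- MODULE gcd chain (generic form). -/
theorem gcd_chain {E : Type*} [AddCommGroup E] [DecidableEq E] [IsAddTorsionFree E] (Y : Finset E)
    (c : ℕ → ℝ) (Ξ : ℕ → ℕ → ℝ) (Qm : ℕ)
    (hc0 : ∀ q, 0 ≤ c q) (hΞ0 : ∀ l g, 0 ≤ Ξ l g)
    (hc : ∀ q : ℕ, 1 ≤ q → q ≤ Qm → ∀ x : E,
      ((Y.filter fun y => ∃ z : E, y - x = (q : ℤ) • z).card : ℝ) ≤ c q)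
    (hΞ1 : 1 ≤ Ξ 0 1)
    (hΞ : ∀ (l q g : ℕ), 1 ≤ q → 1 ≤ g → q * g ≤ Qm → c q * Ξ l g ≤ Ξ (l + 1) (q * g)) :
    ∀ (l : ℕ) (a : Fin l → ℤ) (g : ℕ) (v : E), 1 ≤ g → g ≤ Qm →
      (∀ f : ℕ, f ∣ g → (∀ i, (f : ℤ) ∣ a i) → f = 1) →
      (((Fintype.piFinset fun _ : Fin l => Y).filter
        fun y : Fin l → E => ∃ z : E, (∑ i, a i • y i) - v = (g : ℤ) • z).card : ℝ) ≤ Ξ l g := by
  intro l
  induction l with
  | zero =>
    intro a g v hg1 _ hgcd
    have hg : g = 1 := hgcd g dvd_rfl (fun i => i.elim0)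
    subst hg
    refine le_trans ?_ hΞ1
    have h1 : ((Fintype.piFinset fun _ : Fin 0 => Y).filter
        fun y : Fin 0 → E => ∃ z : E, (∑ i, a i • y i) - v = ((1 : ℕ) : ℤ) • z).card ≤ 1 := by
      refine le_trans (card_filter_le _ _) ?_
      simp
    exact_mod_cast h1
  | succ l ih =>
    intro a g v hg1 hgQ hgcd
    set A : ℤ := a 0 with hA
    set g1 : ℕ := Int.gcd A (g : ℤ) with hg1def
    have hg1g : g1 ∣ g := Int.natCast_dvd_natCast.mp (Int.gcd_dvd_right ..)
    obtain ⟨q, hq⟩ := hg1g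
    have hg1pos : 1 ≤ g1 := by
      rcases Nat.eq_zero_or_pos g1 with h | h
      · rw [h] at hq; omega
      · exact h
    have hqpos : 1 ≤ q := by
      rcases Nat.eq_zero_or_pos q with h | h
      · rw [h] at hq; omega
      · exact h
    have hqQ : q ≤ Qm := by
      refine le_trans ?_ hgQ
      rw [hq]; exact Nat.le_mul_of_pos_left q hg1pos
    have hg1Q : g1 ≤ Qm := by
      refine le_trans ?_ hgQ
      rw [hq]; exact Nat.le_mul_of_pos_right g1 hqpos
    obtain ⟨b, hb⟩ : (g1 : ℤ) ∣ A := Int.gcd_dvd_left ..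
    have hbez : (g1 : ℤ) = A * Int.gcdA A g + g * Int.gcdB A g := Int.gcd_eq_gcd_ab A g
    have hgZ : (g : ℤ) = (g1 : ℤ) * (q : ℤ) := by rw [hq]; push_cast; ring
    have hg1ne : (g1 : ℤ) ≠ 0 := by
      have : g1 ≠ 0 := by omega
      exact_mod_cast this
    have hsplit : ∀ y : Fin (l + 1) → E,
        ∑ i, a i • y i = A • y 0 + ∑ i : Fin l, a i.succ • y i.succ := by
      intro y
      rw [Fin.sum_univ_succ]
    set S := (Fintype.piFinset fun _ : Fin (l + 1) => Y).filter
      fun y : Fin (l + 1) → E => ∃ z : E, (∑ i, a i • y i) - v = (g : ℤ) • z with hS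
    set a' : Fin l → ℤ := fun i => a i.succ with ha'
    set T := (Fintype.piFinset fun _ : Fin l => Y).filter
      fun y : Fin l → E => ∃ z : E, (∑ i, a' i • y i) - v = (g1 : ℤ) • z with hT
    have hTbound : (T.card : ℝ) ≤ Ξ l g1 := by
      refine ih a' g1 v hg1pos hg1Q ?_
      intro f hf hfa
      refine hgcd f (hf.trans ⟨q, hq⟩) ?_
      intro i
      refine Fin.cases ?_ (fun i' => hfa i') i
      have h1 : (f : ℤ) ∣ (g1 : ℤ) := Int.natCast_dvd_natCast.mpr hf
      exact h1.trans ⟨b, hb⟩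
    have hmaps : ∀ y ∈ S, Fin.tail y ∈ T := by
      intro y hy
      rw [hS, mem_filter, Fintype.mem_piFinset] at hy
      obtain ⟨hyY, z, hz⟩ := hy
      rw [hT, mem_filter, Fintype.mem_piFinset]
      refine ⟨fun i => hyY _, (q : ℤ) • z - b • y 0, ?_⟩
      rw [hsplit y] at hz
      have h1 : ∑ i, a' i • Fin.tail y i = ∑ i : Fin l, a i.succ • y i.succ := rfl
      rw [h1]
      have h2 : (g : ℤ) • z = (g1 : ℤ) • ((q : ℤ) • z) := by
        rw [hgZ, mul_smul]
      have h3 : A • y 0 = (g1 : ℤ) • (b • y 0) := by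
        rw [hb, mul_smul]
      rw [smul_sub, ← h2, ← h3, ← hz]
      abel
    have hfib : ∀ t ∈ T, (((S.filter fun y => Fin.tail y = t).card : ℕ) : ℝ) ≤ c q := by
      intro t _
      by_cases hne : (S.filter fun y => Fin.tail y = t).Nonempty
      · obtain ⟨ystar, hystar⟩ := hne
        rw [mem_filter, hS, mem_filter, Fintype.mem_piFinset] at hystar
        obtain ⟨⟨hsY, zs, hzs⟩, hst⟩ := hystar
        refine le_trans ?_ (hc q hqpos hqQ (ystar 0))
        have hle : (S.filter fun y => Fin.tail y = t).card ≤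
            (Y.filter fun y => ∃ z : E, y - ystar 0 = (q : ℤ) • z).card := by
          apply Finset.card_le_card_of_injOn (fun y => y 0)
          · intro y hy
            have hy' := (mem_coe.mp hy)
            rw [mem_filter, hS, mem_filter, Fintype.mem_piFinset] at hy'
            obtain ⟨⟨hyY, z, hz⟩, hyt⟩ := hy'
            rw [mem_coe, mem_filter]
            refine ⟨hyY 0, ?_⟩
            have htail : Fin.tail y = Fin.tail ystar := by rw [hyt, hst]
            have hsum : ∑ i : Fin l, a i.succ • y i.succ = ∑ i : Fin l, a i.succ • ystar i.succ := by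
              refine Finset.sum_congr rfl fun i _ => ?_
              have := congrFun htail i
              simp only [Fin.tail] at this
              rw [this]
            rw [hsplit y, hsum] at hz
            rw [hsplit ystar] at hzs
            set δ : E := y 0 - ystar 0 with hδ
            set ζ : E := z - zs with hζ
            have hd : A • δ = (g : ℤ) • ζ := by
              have : A • δ = (A • y 0 + ∑ i : Fin l, a i.succ • ystar i.succ - v) -
                  (A • ystar 0 + ∑ i : Fin l, a i.succ • ystar i.succ - v) := by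
                rw [hδ, smul_sub]; abel
              rw [this, hz, hzs, hζ, smul_sub]
            refine ⟨Int.gcdA A g • ζ + Int.gcdB A g • δ, ?_⟩
            have hcancel : (g1 : ℤ) • δ = (g1 : ℤ) • ((q : ℤ) • (Int.gcdA A g • ζ + Int.gcdB A g • δ)) := by
              calc (g1 : ℤ) • δ = (A * Int.gcdA A g + g * Int.gcdB A g) • δ := by rw [← hbez]
                _ = Int.gcdA A g • (A • δ) + (Int.gcdB A g * (g : ℤ)) • δ := by
                    rw [add_smul, mul_comm A, mul_smul, mul_comm (g : ℤ)]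
                _ = Int.gcdA A g • ((g : ℤ) • ζ) + (Int.gcdB A g * (g : ℤ)) • δ := by rw [hd]
                _ = (g : ℤ) • (Int.gcdA A g • ζ + Int.gcdB A g • δ) := by
                    rw [smul_add, smul_comm (g : ℤ) (Int.gcdA A g) ζ, mul_comm, mul_smul]
                _ = _ := by rw [hgZ, mul_smul]
            exact zsmul_right_injective hg1ne hcancel
          · intro y hy y' hy' h
            have hy1 := (mem_filter.mp (mem_coe.mp hy)).2
            have hy2 := (mem_filter.mp (mem_coe.mp hy')).2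
            have htail : Fin.tail y = Fin.tail y' := by rw [hy1, hy2]
            have h0 : y 0 = y' 0 := h
            rw [← Fin.cons_self_tail y, ← Fin.cons_self_tail y', htail, h0]
        exact_mod_cast hle
      · rw [not_nonempty_iff_eq_empty] at hne
        rw [hne]
        simpa using hc0 q
    have hcard : (S.card : ℝ) = ∑ t ∈ T, (((S.filter fun y => Fin.tail y = t).card : ℕ) : ℝ) := by
      rw [Finset.card_eq_sum_card_fiberwise hmaps]
      push_cast
      rfl
    calc (S.card : ℝ) = ∑ t ∈ T, (((S.filter fun y => Fin.tail y = t).card : ℕ) : ℝ) := hcard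
      _ ≤ ∑ _t ∈ T, c q := Finset.sum_le_sum hfib
      _ = T.card * c q := by rw [sum_const, nsmul_eq_mul]
      _ ≤ Ξ l g1 * c q := mul_le_mul_of_nonneg_right hTbound (hc0 q)
      _ = c q * Ξ l g1 := mul_comm _ _
      _ ≤ Ξ (l + 1) (q * g1) :=
          hΞ l q g1 hqpos hg1pos (by rw [mul_comm, ← hq]; exact hgQ)
      _ = Ξ (l + 1) g := by rw [hq, mul_comm]

end Vale.Agent.Lib.P230
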