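import Vale.Agent.Lib.P230.HashDefs

/-! MODULE tail: tuples with a relation of large height (column exposure). -/

set_option autoImplicit false

open MeasureTheory Finset
open scoped ENNReal Matrix Classical

namespace Vale.Agent.Lib.P230
namespace TailCountAux

/-- The integer box `[-R, R]`. -/
noncomputable def Bx (R : ℕ) : Finset ℤ := Finset.Icc (-(R : ℤ)) (R : ℤ)

lemma card_Bx (R : ℕ) : (Bx R).card = 2 * R + 1 := by
  unfold Bx
  rw [Int.card_Icc]
  omega

/-- Integers of the box in one residue class modulo `q`: at most `W / q + 1`. -/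
lemma card_class (R q : ℕ) (hq : 1 ≤ q) (t₀ : ℤ) :
    ((Bx R).filter fun t => (q : ℤ) ∣ t - t₀).card * q ≤ (2 * R + 1) + q := by
  have hr : (0 : ℤ) < (q : ℤ) := by exact_mod_cast hq
  have hsub : (Bx R).filter (fun t => (q : ℤ) ∣ t - t₀) ⊆
      (Finset.Ioc (-(R : ℤ) - 1) (R : ℤ)).filter (fun t => t ≡ t₀ [ZMOD (q : ℤ)]) := by
    intro t ht
    simp only [Bx, Finset.mem_filter, Finset.mem_Icc, Finset.mem_Ioc] at ht ⊢
    refine ⟨⟨by omega, ht.1.2⟩, ?_⟩
    exact (Int.modEq_iff_dvd.mpr (by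
      obtain ⟨c, hc⟩ := ht.2
      exact ⟨-c, by rw [mul_neg, ← hc]; ring⟩)).symm.symm
  have hcard := Finset.card_le_card hsub
  have hE := Int.Ioc_filter_modEq_card (-(R : ℤ) - 1) (R : ℤ) hr t₀
  set K := ((Bx R).filter fun t => (q : ℤ) ∣ t - t₀).card with hK
  set L := ((Finset.Ioc (-(R : ℤ) - 1) (R : ℤ)).filter fun t => t ≡ t₀ [ZMOD (q : ℤ)]).card with hL
  have hq' : (0 : ℚ) < (q : ℚ) := by exact_mod_cast hq
  -- floor estimate
  have h1 : ((⌊(((R : ℤ) : ℚ) - (t₀ : ℚ)) / ((q : ℤ) : ℚ)⌋ : ℤ) : ℚ) ≤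
      (((R : ℤ) : ℚ) - (t₀ : ℚ)) / ((q : ℤ) : ℚ) := Int.floor_le _
  have h2 : (((-(R : ℤ) - 1 : ℤ) : ℚ) - (t₀ : ℚ)) / ((q : ℤ) : ℚ) <
      ((⌊(((-(R : ℤ) - 1 : ℤ) : ℚ) - (t₀ : ℚ)) / ((q : ℤ) : ℚ)⌋ : ℤ) : ℚ) + 1 := Int.lt_floor_add_one _
  have hLq : ((L : ℤ) : ℚ) ≤ (2 * (R : ℚ) + 1) / (q : ℚ) + 1 := by
    have hEE : (L : ℤ) = max (⌊(((R : ℤ) : ℚ) - (t₀ : ℚ)) / ((q : ℤ) : ℚ)⌋ -
        ⌊(((-(R : ℤ) - 1 : ℤ) : ℚ) - (t₀ : ℚ)) / ((q : ℤ) : ℚ)⌋) 0 := by
      rw [hL]; exact hE
    rw [hEE]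
    push_cast
    apply max_le
    · push_cast at h1 h2
      have : (2 * (R : ℚ) + 1) / (q : ℚ) = ((R : ℚ) - (t₀ : ℚ)) / (q : ℚ) -
          ((-(R : ℚ) - 1 - (t₀ : ℚ)) / (q : ℚ)) := by
        field_simp
        ring
      rw [this]
      linarith
    · positivity
  have hLq2 : ((L : ℚ)) * (q : ℚ) ≤ (2 * (R : ℚ) + 1) + (q : ℚ) := by
    have : ((L : ℤ) : ℚ) = (L : ℚ) := by simp
    rw [this] at hLq
    have h3 := mul_le_mul_of_nonneg_right hLq hq'.le
    have h4 : ((2 * (R : ℚ) + 1) / (q : ℚ) + 1) * (q : ℚ) = (2 * (R : ℚ) + 1) + (q : ℚ) := by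
      field_simp
    linarith
  have hLq3 : L * q ≤ (2 * R + 1) + q := by
    have : ((L * q : ℕ) : ℚ) ≤ (((2 * R + 1) + q : ℕ) : ℚ) := by
      push_cast
      exact hLq2
    exact_mod_cast this
  exact le_trans (Nat.mul_le_mul_right q hcard) hLq3

/-- One step of the gcd chain. -/
lemma card_single (R g h q : ℕ) (hq : 1 ≤ q) (hh : 1 ≤ h) (hgq : g = q * h) (b w : ℤ)
    (hgcd : Int.gcd (g : ℤ) b = h) :
    ((Bx R).filter fun t => (g : ℤ) ∣ b * t - w).card * min q (2 * R + 1) ≤ 2 * (2 * R + 1) := by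
  set S := (Bx R).filter fun t => (g : ℤ) ∣ b * t - w with hS
  by_cases hne : S.Nonempty
  · obtain ⟨t₀, ht₀⟩ := hne
    have ht₀' : (g : ℤ) ∣ b * t₀ - w := (Finset.mem_filter.mp ht₀).2
    have hpos : 0 < Int.gcd (g : ℤ) b := by omega
    obtain ⟨m', n', hc, hm, hn⟩ := Int.exists_gcd_one hpos
    rw [hgcd] at hm hn
    have hh0 : (h : ℤ) ≠ 0 := by exact_mod_cast (by omega : h ≠ 0)
    have hmq : m' = (q : ℤ) := by
      have : (q : ℤ) * h = m' * h := by
        rw [← hm, hgq]; push_cast; ring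
      exact (mul_right_cancel₀ hh0 this).symm
    subst hmq
    have hsub : S ⊆ (Bx R).filter (fun t => (q : ℤ) ∣ t - t₀) := by
      intro t ht
      have hmem := Finset.mem_filter.mp ht
      refine Finset.mem_filter.mpr ⟨hmem.1, ?_⟩
      have hd : (g : ℤ) ∣ b * (t - t₀) := by
        have := dvd_sub hmem.2 ht₀'
        have e : b * t - w - (b * t₀ - w) = b * (t - t₀) := by ring
        rwa [e] at this
      have hd2 : (q : ℤ) * h ∣ (n' * (t - t₀)) * h := by
        have e1 : (g : ℤ) = (q : ℤ) * h := by rw [hgq]; push_cast; ring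
        have e2 : b * (t - t₀) = (n' * (t - t₀)) * h := by rw [hn]; ring
        rwa [e1, e2] at hd
      have hd3 : (q : ℤ) ∣ n' * (t - t₀) := (mul_dvd_mul_iff_right hh0).mp hd2
      exact Int.dvd_of_dvd_mul_right_of_gcd_one hd3 hc
    have h1 := Finset.card_le_card hsub
    have h2 := card_class R q hq t₀
    have h3 : S.card * q ≤ (2 * R + 1) + q := le_trans (Nat.mul_le_mul_right q h1) h2
    rcases le_total q (2 * R + 1) with hle | hle
    · rw [min_eq_left hle]
      omega
    · rw [min_eq_right hle]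
      -- `S.card ≤ 1` or the bound is immediate
      have : S.card ≤ 2 := by
        by_contra hcon
        push Not at hcon
        have : 3 * q ≤ S.card * q := Nat.mul_le_mul_right q hcon
        omega
      exact Nat.mul_le_mul_right _ this
  · rw [Finset.not_nonempty_iff_eq_empty] at hne
    rw [hne]
    simp

/-- The chain count: number of box points with `∑ b_i x_i ≡ v (mod g)`, when the gcd of `g` and all
`b_i` is one. -/
lemma chain_count (R : ℕ) : ∀ (l : ℕ) (b : Fin l → ℤ) (g : ℕ) (v : ℤ), 1 ≤ g →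
    (∀ f : ℕ, (f : ℤ) ∣ (g : ℤ) → (∀ i, (f : ℤ) ∣ b i) → f = 1) →
    ((Fintype.piFinset fun _ : Fin l => Bx R).filter
      fun x => (g : ℤ) ∣ ∑ i, b i * x i - v).card * min g (2 * R + 1) ≤ (2 * (2 * R + 1)) ^ l := by
  intro l
  induction l with
  | zero =>
    intro b g v hg hprim
    have hg1 : g = 1 := hprim g dvd_rfl (fun i => i.elim0)
    subst hg1
    have : ((Fintype.piFinset fun _ : Fin 0 => Bx R).filter
        fun x => ((1 : ℕ) : ℤ) ∣ ∑ i, b i * x i - v).card ≤ 1 := by
      refine le_trans (Finset.card_filter_le _ _) ?_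
      simp
    calc _ ≤ 1 * min 1 (2 * R + 1) := Nat.mul_le_mul_right _ this
      _ ≤ _ := by simp
  | succ l ih =>
    intro b g v hg hprim
    set h := Int.gcd (g : ℤ) (b 0) with hh
    have hgpos : (g : ℤ) ≠ 0 := by exact_mod_cast (by omega : g ≠ 0)
    have hhpos : 1 ≤ h := by
      have : 0 < Int.gcd (g : ℤ) (b 0) := Int.gcd_pos_of_ne_zero_left _ hgpos
      omega
    have hhg : (h : ℤ) ∣ (g : ℤ) := Int.gcd_dvd_left _ _
    have hhg' : h ∣ g := by exact_mod_cast hhg
    obtain ⟨q, hq⟩ := hhg'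
    have hq1 : 1 ≤ q := by
      rcases Nat.eq_zero_or_pos q with h0 | h0
      · subst h0; simp at hq; omega
      · exact h0
    have hgq : g = q * h := by rw [hq]; ring
    -- sets
    set S := (Fintype.piFinset fun _ : Fin (l + 1) => Bx R).filter
      fun x => (g : ℤ) ∣ ∑ i, b i * x i - v with hS
    set T := (Fintype.piFinset fun _ : Fin l => Bx R).filter
      fun x => (h : ℤ) ∣ ∑ i, (Fin.tail b) i * x i - v with hT
    -- fibre bound
    have hfib : ∀ y ∈ S.image (fun x => (Fin.tail x : Fin l → ℤ)),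
        (S.filter fun x => (Fin.tail x : Fin l → ℤ) = y).card * min q (2 * R + 1) ≤
          2 * (2 * R + 1) := by
      intro y _
      have hinj : ((S.filter fun x => (Fin.tail x : Fin l → ℤ) = y).card) ≤
          ((Bx R).filter fun t => (g : ℤ) ∣ b 0 * t - (v - ∑ i, (Fin.tail b) i * y i)).card := by
        refine Finset.card_le_card_of_injOn (fun x => x 0) ?_ ?_
        · intro x hx
          have hx' := Finset.mem_filter.mp (Finset.mem_coe.mp hx)
          have hxS := Finset.mem_filter.mp hx'.1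
          refine Finset.mem_coe.mpr (Finset.mem_filter.mpr ⟨?_, ?_⟩)
          · exact Fintype.mem_piFinset.mp hxS.1 0
          · have e : ∑ i, b i * x i - v = b 0 * x 0 - (v - ∑ i, (Fin.tail b) i * y i) := by
              rw [Fin.sum_univ_succ, ← hx'.2]
              simp only [Fin.tail]
              ring
            rw [← e]
            exact hxS.2
        · intro x hx x' hx' hxx
          have h1 := (Finset.mem_filter.mp (Finset.mem_coe.mp hx)).2
          have h2 := (Finset.mem_filter.mp (Finset.mem_coe.mp hx')).2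
          have hxx' : x 0 = x' 0 := hxx
          rw [← Fin.cons_self_tail x, ← Fin.cons_self_tail x', h1, h2, hxx']
      exact le_trans (Nat.mul_le_mul_right _ hinj) (card_single R g h q hq1 hhpos hgq (b 0) _ rfl)
    -- image in T
    have himg : S.image (fun x => (Fin.tail x : Fin l → ℤ)) ⊆ T := by
      intro y hy
      obtain ⟨x, hx, rfl⟩ := Finset.mem_image.mp hy
      have hxS := Finset.mem_filter.mp hx
      refine Finset.mem_filter.mpr ⟨?_, ?_⟩
      · refine Fintype.mem_piFinset.mpr (fun i => ?_)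
        exact Fintype.mem_piFinset.mp hxS.1 i.succ
      · have h1 : (h : ℤ) ∣ ∑ i, b i * x i - v := dvd_trans hhg hxS.2
        have h2 : (h : ℤ) ∣ b 0 * x 0 := dvd_trans (Int.gcd_dvd_right _ _) (dvd_mul_right _ _)
        have e : ∑ i, (Fin.tail b) i * (Fin.tail x) i - v = (∑ i, b i * x i - v) - b 0 * x 0 := by
          rw [Fin.sum_univ_succ]
          simp only [Fin.tail]
          ring
        rw [e]
        exact dvd_sub h1 h2
    -- induction hypothesis
    have hT' := ih (Fin.tail b) h v hhpos (by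
      intro f hf hfb
      refine hprim f (dvd_trans hf hhg) ?_
      intro i
      refine Fin.cases ?_ (fun k => ?_) i
      · exact dvd_trans hf (Int.gcd_dvd_right _ _)
      · exact hfb k)
    -- combine
    have hsum : S.card * min q (2 * R + 1) ≤ T.card * (2 * (2 * R + 1)) := by
      rw [Finset.card_eq_sum_card_image (fun x => (Fin.tail x : Fin l → ℤ)) S, Finset.sum_mul]
      calc _ ≤ ∑ _y ∈ S.image (fun x => (Fin.tail x : Fin l → ℤ)), 2 * (2 * R + 1) :=
            Finset.sum_le_sum hfib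
        _ = (S.image (fun x => (Fin.tail x : Fin l → ℤ))).card * (2 * (2 * R + 1)) := by
            simp
        _ ≤ _ := Nat.mul_le_mul_right _ (Finset.card_le_card himg)
    have hmin : min g (2 * R + 1) ≤ min q (2 * R + 1) * min h (2 * R + 1) := by
      rcases le_total q (2 * R + 1) with h1 | h1 <;> rcases le_total h (2 * R + 1) with h2 | h2
      · rw [min_eq_left h1, min_eq_left h2, hgq]
        exact min_le_left _ _
      · rw [min_eq_left h1, min_eq_right h2]
        calc min g (2 * R + 1) ≤ 2 * R + 1 := min_le_right _ _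
          _ ≤ q * (2 * R + 1) := Nat.le_mul_of_pos_left _ hq1
      · rw [min_eq_right h1, min_eq_left h2]
        calc min g (2 * R + 1) ≤ 2 * R + 1 := min_le_right _ _
          _ ≤ (2 * R + 1) * h := Nat.le_mul_of_pos_right _ hhpos
      · rw [min_eq_right h1, min_eq_right h2]
        calc min g (2 * R + 1) ≤ 2 * R + 1 := min_le_right _ _
          _ ≤ (2 * R + 1) * (2 * R + 1) := Nat.le_mul_of_pos_right _ (by omega)
    calc S.card * min g (2 * R + 1)
        ≤ S.card * (min q (2 * R + 1) * min h (2 * R + 1)) := Nat.mul_le_mul_left _ hmin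
      _ = (S.card * min q (2 * R + 1)) * min h (2 * R + 1) := by ring
      _ ≤ (T.card * (2 * (2 * R + 1))) * min h (2 * R + 1) := Nat.mul_le_mul_right _ hsum
      _ = (T.card * min h (2 * R + 1)) * (2 * (2 * R + 1)) := by ring
      _ ≤ (2 * (2 * R + 1)) ^ l * (2 * (2 * R + 1)) := Nat.mul_le_mul_right _ hT'
      _ = _ := by rw [pow_succ]

/-- Box points on the hyperplane orthogonal to a primitive vector of large height. -/
lemma hyper_count (R Qt : ℕ) (hQ2 : Qt ≤ 2 * R + 1) {j' : ℕ} (a : Fin (j' + 1) → ℤ)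
    (hprim : ∀ f : ℕ, (∀ i, (f : ℤ) ∣ a i) → f = 1) (i₁ : Fin (j' + 1)) (hi : (Qt : ℤ) < |a i₁|) :
    ((Fintype.piFinset fun _ : Fin (j' + 1) => Bx R).filter
      fun x => ∑ i, a i * x i = 0).card * Qt ≤ (2 * (2 * R + 1)) ^ j' := by
  set g := (a i₁).natAbs with hg
  have hgq : Qt < g := by
    have : ((Qt : ℕ) : ℤ) < ((g : ℕ) : ℤ) := by
      rw [hg, Int.natCast_natAbs]; exact hi
    exact_mod_cast this
  have hg1 : 1 ≤ g := by omega
  have hane : a i₁ ≠ 0 := by
    intro h0
    rw [hg, h0] at hgq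
    simp at hgq
  set b : Fin j' → ℤ := fun k => a (i₁.succAbove k) with hb
  have hchain := chain_count R j' b g 0 hg1 (by
    intro f hf hfb
    refine hprim f (fun i => ?_)
    rcases Fin.eq_self_or_eq_succAbove i₁ i with h | ⟨k, h⟩
    · rw [h]
      have : ((g : ℕ) : ℤ) = |a i₁| := by rw [hg, Int.natCast_natAbs]
      rw [this] at hf
      exact (dvd_abs _ _).mp hf
    · rw [h]
      exact hfb k)
  set T := (Fintype.piFinset fun _ : Fin (j' + 1) => Bx R).filter fun x => ∑ i, a i * x i = 0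
    with hT
  set C := (Fintype.piFinset fun _ : Fin j' => Bx R).filter
    fun x => (g : ℤ) ∣ ∑ i, b i * x i - 0 with hC
  have hle : T.card ≤ C.card := by
    refine Finset.card_le_card_of_injOn (fun x k => x (i₁.succAbove k)) ?_ ?_
    · intro x hx
      have hx' := Finset.mem_filter.mp (Finset.mem_coe.mp hx)
      refine Finset.mem_coe.mpr (Finset.mem_filter.mpr ⟨?_, ?_⟩)
      · exact Fintype.mem_piFinset.mpr (fun k => Fintype.mem_piFinset.mp hx'.1 _)
      · have hs := hx'.2
        rw [Fin.sum_univ_succAbove _ i₁] at hs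
        have e : ∑ k, b k * x (i₁.succAbove k) - 0 = - (a i₁ * x i₁) := by
          simp only [hb]
          linarith
        rw [e]
        have : ((g : ℕ) : ℤ) = |a i₁| := by rw [hg, Int.natCast_natAbs]
        rw [this]
        exact (dvd_neg).mpr (dvd_trans ((abs_dvd _ _).mpr dvd_rfl) (dvd_mul_right _ _))
    · intro x hx y hy hxy
      have hx' := (Finset.mem_filter.mp (Finset.mem_coe.mp hx)).2
      have hy' := (Finset.mem_filter.mp (Finset.mem_coe.mp hy)).2
      have hoff : ∀ k, x (i₁.succAbove k) = y (i₁.succAbove k) := fun k => congrFun hxy k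
      rw [Fin.sum_univ_succAbove _ i₁] at hx' hy'
      have hrest : ∑ k, a (i₁.succAbove k) * x (i₁.succAbove k) =
          ∑ k, a (i₁.succAbove k) * y (i₁.succAbove k) :=
        Finset.sum_congr rfl (fun k _ => by rw [hoff k])
      have hcen : a i₁ * x i₁ = a i₁ * y i₁ := by linarith
      have hcen' : x i₁ = y i₁ := mul_left_cancel₀ hane hcen
      funext i
      rcases Fin.eq_self_or_eq_succAbove i₁ i with h | ⟨k, h⟩
      · rw [h]; exact hcen'
      · rw [h]; exact hoff k
  have hmin : Qt ≤ min g (2 * R + 1) := le_min hgq.le hQ2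
  calc T.card * Qt ≤ C.card * min g (2 * R + 1) := Nat.mul_le_mul hle hmin
    _ ≤ _ := hchain

/-- Rational image of an integer vector. -/
def toQ {j : ℕ} (x : Fin j → ℤ) : Fin j → ℚ := fun i => (x i : ℚ)

/-- The linear functional attached to an integer vector. -/
def phi {j : ℕ} (a : Fin j → ℤ) : (Fin j → ℚ) →ₗ[ℚ] ℚ where
  toFun x := ∑ i, (a i : ℚ) * x i
  map_add' x y := by
    simp [mul_add, Finset.sum_add_distrib]
  map_smul' r x := by
    simp [Finset.mul_sum, mul_left_comm]

lemma phi_one {j : ℕ} (a : Fin j → ℤ) (h : ∑ i, a i = 0) : phi a (fun _ => 1) = 0 := by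
  simp only [phi, LinearMap.coe_mk, AddHom.coe_mk, mul_one]
  exact_mod_cast h

lemma phi_toQ {j : ℕ} (a x : Fin j → ℤ) : phi a (toQ x) = ((∑ i, a i * x i : ℤ) : ℚ) := by
  simp [phi, toQ]

/-- The span of the all-one vector and the columns in `S`. -/
def spanS {j d : ℕ} (c : Fin d → Fin j → ℤ) (S : Finset (Fin d)) : Submodule ℚ (Fin j → ℚ) :=
  Submodule.span ℚ (insert (fun _ => (1 : ℚ)) ((fun l => toQ (c l)) '' (S : Set (Fin d))))

/-- Selection of `j - 2` columns spanning all columns modulo the all-one vector. -/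
lemma select {j d : ℕ} (hj : 2 ≤ j) (hjd : j ≤ d) (c : Fin d → Fin j → ℤ) (a : Fin j → ℤ)
    (hne : a ≠ 0) (h1 : ∑ i, a i = 0) (hrel : ∀ l, ∑ i, a i * c l i = 0) :
    ∃ S : Finset (Fin d), S.card = j - 2 ∧ ∀ l, toQ (c l) ∈ spanS c S := by
  classical
  set one : Fin j → ℚ := fun _ => 1 with hone
  have hone0 : one ≠ 0 := by
    intro h
    have := congrFun h ⟨0, by omega⟩
    simp [hone] at this
  set t : Set (Fin j → ℚ) := insert one (Set.range fun l => toQ (c l)) with ht
  have hs : LinearIndepOn ℚ id ({one} : Set (Fin j → ℚ)) := by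
    exact LinearIndepOn.singleton (R := ℚ) (v := (id : (Fin j → ℚ) → (Fin j → ℚ))) (i := one)
      (by simpa using hone0)
  have hst : ({one} : Set (Fin j → ℚ)) ⊆ t := by
    intro x hx
    rw [Set.mem_singleton_iff] at hx
    rw [hx]
    exact Set.mem_insert _ _
  obtain ⟨b, hbt, hsb, htb, hli⟩ := exists_linearIndepOn_id_extension hs hst
  have hbfin : b.Finite := by
    have : LinearIndependent ℚ (fun x : b => (x : Fin j → ℚ)) := hli
    exact this.setFinite
  -- `b` is contained in the kernel of `phi a`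
  have hker : ∀ v ∈ t, v ∈ LinearMap.ker (phi a) := by
    intro v hv
    rcases hv with rfl | ⟨l, rfl⟩
    · exact phi_one a h1
    · rw [LinearMap.mem_ker, phi_toQ, hrel l]
      simp
  have hphi_ne : phi a ≠ 0 := by
    intro h0
    apply hne
    funext i
    have := LinearMap.congr_fun h0 (Pi.single i 1)
    simp only [phi, LinearMap.coe_mk, AddHom.coe_mk, LinearMap.zero_apply] at this
    rw [Finset.sum_eq_single i] at this
    · simpa using this
    · intro k _ hk
      simp [Pi.single_eq_of_ne hk]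
    · intro h; exact absurd (Finset.mem_univ i) h
  have hkerrank : Module.finrank ℚ (LinearMap.ker (phi a)) + 1 = j := by
    have h2 := LinearMap.finrank_range_add_finrank_ker (phi a)
    have h3 : Module.finrank ℚ (LinearMap.range (phi a)) = 1 := by
      have : LinearMap.range (phi a) = ⊤ := LinearMap.range_eq_top.mpr
        (LinearMap.surjective (f := phi a) hphi_ne)
      rw [this, finrank_top]
      simp
    rw [h3] at h2
    simp at h2
    omega
  have hbcard : hbfin.toFinset.card + 1 ≤ j := by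
    have hspan : Submodule.span ℚ b ≤ LinearMap.ker (phi a) :=
      Submodule.span_le.mpr (fun v hv => hker v (hbt hv))
    have h4 := Submodule.finrank_mono hspan
    let _ : Fintype b := hbfin.fintype
    have h5 : Module.finrank ℚ (Submodule.span ℚ b) = hbfin.toFinset.card := by
      have := finrank_span_set_eq_card (R := ℚ) (s := b) hli
      rw [this]
      simp [Set.toFinset_card]
    omega
  -- choose column indices
  have hpick : ∀ v ∈ hbfin.toFinset.erase one, ∃ l, toQ (c l) = v := by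
    intro v hv
    have hv' := Finset.mem_erase.mp hv
    have hvb : v ∈ b := hbfin.mem_toFinset.mp hv'.2
    rcases hbt hvb with h | ⟨l, hl⟩
    · exact absurd h hv'.1
    · exact ⟨l, hl⟩
  have hNe : Nonempty (Fin d) := ⟨⟨0, by omega⟩⟩
  choose! pick hpick' using hpick
  set S0 : Finset (Fin d) := (hbfin.toFinset.erase one).image pick with hS0
  have hone_mem : one ∈ hbfin.toFinset := hbfin.mem_toFinset.mpr (hsb (Set.mem_singleton _))
  have hS0card : S0.card ≤ j - 2 := by
    have h1 : S0.card ≤ (hbfin.toFinset.erase one).card := Finset.card_image_le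
    rw [Finset.card_erase_of_mem hone_mem] at h1
    omega
  have hdcard : j - 2 ≤ Fintype.card (Fin d) := by
    simp only [Fintype.card_fin]
    omega
  obtain ⟨S, hS0S, hScard⟩ := Finset.exists_superset_card_eq hS0card hdcard
  refine ⟨S, hScard, fun l => ?_⟩
  have hmem : toQ (c l) ∈ Submodule.span ℚ b := htb (Set.mem_insert_of_mem _ ⟨l, rfl⟩)
  refine (Submodule.span_le.mpr ?_) hmem
  intro v hv
  by_cases hvone : v = one
  · rw [hvone]
    exact Submodule.subset_span (Set.mem_insert _ _)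
  · have hv1 : v ∈ hbfin.toFinset.erase one :=
      Finset.mem_erase.mpr ⟨hvone, hbfin.mem_toFinset.mpr hv⟩
    have hv2 := hpick' v hv1
    refine Submodule.subset_span (Set.mem_insert_of_mem _ ⟨pick v, ?_, hv2⟩)
    exact Finset.mem_coe.mpr (hS0S (Finset.mem_image_of_mem _ hv1))

/-- If all columns of `c` are in the span of the `S`-columns, and `c⁰` agrees with `c` on `S` and has
the relation `a`, then all columns of `c` satisfy the relation `a`. -/
lemma rel_transfer {j d : ℕ} (c c0 : Fin d → Fin j → ℤ) (S : Finset (Fin d)) (a : Fin j → ℤ)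
    (hagree : ∀ l ∈ S, c l = c0 l) (h1 : ∑ i, a i = 0) (hrel : ∀ l, ∑ i, a i * c0 l i = 0)
    (hall : ∀ l, toQ (c l) ∈ spanS c S) (l : Fin d) : ∑ i, a i * c l i = 0 := by
  have hle : spanS c S ≤ LinearMap.ker (phi a) := by
    refine Submodule.span_le.mpr ?_
    rintro v (rfl | ⟨s, hs, rfl⟩)
    · exact phi_one a h1
    · have hs' : s ∈ S := Finset.mem_coe.mp hs
      show phi a (toQ (c s)) = 0
      rw [phi_toQ, hagree s hs', hrel s]
      simp
  have h2 : phi a (toQ (c l)) = 0 := hle (hall l)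
  rw [phi_toQ] at h2
  exact_mod_cast h2

lemma prod_ite_card {d : ℕ} (S : Finset (Fin d)) (x y : ℕ) :
    ∏ l : Fin d, (if l ∈ S then x else y) = x ^ S.card * y ^ (d - S.card) := by
  rw [Finset.prod_ite]
  simp only [Finset.prod_const]
  congr 2
  · congr 1
    ext l
    simp
  · have : (Finset.univ.filter fun l : Fin d => l ∉ S) = Sᶜ := by
      ext l
      simp
    rw [this, Finset.card_compl]
    simp

/-- Count for a fixed set of columns. -/
lemma count_fixed {j d : ℕ} (R : ℕ) (Bd : ℝ) (hBd : 0 ≤ Bd)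
    (P : (Fin j → ℤ) → Prop)
    (hB : ∀ a, P a → (∑ i, a i = 0) →
      (((Fintype.piFinset fun _ : Fin j => Bx R).filter
        fun x => ∑ i, a i * x i = 0).card : ℝ) ≤ Bd)
    (S : Finset (Fin d)) :
    (((Fintype.piFinset fun _ : Fin d => Fintype.piFinset fun _ : Fin j => Bx R).filter
        fun c => (∃ a, P a ∧ ∑ i, a i = 0 ∧ ∀ l, ∑ i, a i * c l i = 0) ∧
          ∀ l, toQ (c l) ∈ spanS c S).card : ℝ) ≤
      (((2 * R + 1 : ℕ) : ℝ) ^ j) ^ S.card * Bd ^ (d - S.card) := by
  set Cb := (Fintype.piFinset fun _ : Fin d => Fintype.piFinset fun _ : Fin j => Bx R).filter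
        fun c => (∃ a, P a ∧ ∑ i, a i = 0 ∧ ∀ l, ∑ i, a i * c l i = 0) ∧
          ∀ l, toQ (c l) ∈ spanS c S with hCb
  set ρ : (Fin d → Fin j → ℤ) → (Fin d → Fin j → ℤ) := fun c l => if l ∈ S then c l else 0 with hρ
  have hboxcard : (Fintype.piFinset fun _ : Fin j => Bx R).card = (2 * R + 1) ^ j := by
    rw [Fintype.card_piFinset]
    simp [card_Bx]
  -- the image of `ρ`
  have himg : (Cb.image ρ).card ≤ ((2 * R + 1) ^ j) ^ S.card := by
    have hsub : Cb.image ρ ⊆ Fintype.piFinset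
        (fun l : Fin d => if l ∈ S then (Fintype.piFinset fun _ : Fin j => Bx R) else {0}) := by
      intro γ hγ
      obtain ⟨c, hc, rfl⟩ := Finset.mem_image.mp hγ
      have hc' := (Finset.mem_filter.mp hc).1
      refine Fintype.mem_piFinset.mpr (fun l => ?_)
      by_cases hl : l ∈ S
      · simp only [hρ, hl, if_true]
        exact Fintype.mem_piFinset.mp hc' l
      · simp [hρ, hl]
    refine le_trans (Finset.card_le_card hsub) ?_
    rw [Fintype.card_piFinset]
    have : ∀ l : Fin d, (if l ∈ S then (Fintype.piFinset fun _ : Fin j => Bx R) else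
        ({0} : Finset (Fin j → ℤ))).card = if l ∈ S then (2 * R + 1) ^ j else 1 := by
      intro l
      split_ifs
      · exact hboxcard
      · simp
    simp_rw [this]
    rw [prod_ite_card]
    simp
  -- fibres of `ρ`
  have hfib : ∀ γ ∈ Cb.image ρ, ((Cb.filter fun c => ρ c = γ).card : ℝ) ≤ Bd ^ (d - S.card) := by
    intro γ hγ
    obtain ⟨c0, hc0, rfl⟩ := Finset.mem_image.mp hγ
    have hc0' := Finset.mem_filter.mp hc0
    obtain ⟨a, hPa, ha1, harel⟩ := hc0'.2.1
    set Ta := (Fintype.piFinset fun _ : Fin j => Bx R).filter fun x => ∑ i, a i * x i = 0 with hTa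
    have hsub : (Cb.filter fun c => ρ c = ρ c0) ⊆ Fintype.piFinset
        (fun l : Fin d => if l ∈ S then ({c0 l} : Finset (Fin j → ℤ)) else Ta) := by
      intro c hc
      have hc1 := Finset.mem_filter.mp hc
      have hc2 := Finset.mem_filter.mp hc1.1
      have hag : ∀ l ∈ S, c l = c0 l := by
        intro l hl
        have := congrFun hc1.2 l
        simpa [hρ, hl] using this
      refine Fintype.mem_piFinset.mpr (fun l => ?_)
      by_cases hl : l ∈ S
      · simp only [hl, if_true, Finset.mem_singleton]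
        exact hag l hl
      · simp only [hl, if_false]
        refine Finset.mem_filter.mpr ⟨Fintype.mem_piFinset.mp hc2.1 l, ?_⟩
        exact rel_transfer c c0 S a hag ha1 harel hc2.2.2 l
    have hcardle := Finset.card_le_card hsub
    rw [Fintype.card_piFinset] at hcardle
    have h1 : ∀ l : Fin d, (if l ∈ S then ({c0 l} : Finset (Fin j → ℤ)) else Ta).card =
        if l ∈ S then 1 else Ta.card := by
      intro l
      split_ifs
      · simp
      · rfl
    simp_rw [h1] at hcardle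
    rw [prod_ite_card] at hcardle
    simp only [one_pow, one_mul] at hcardle
    calc ((Cb.filter fun c => ρ c = ρ c0).card : ℝ) ≤ ((Ta.card ^ (d - S.card) : ℕ) : ℝ) := by
          exact_mod_cast hcardle
      _ = (Ta.card : ℝ) ^ (d - S.card) := by push_cast; rfl
      _ ≤ Bd ^ (d - S.card) := pow_le_pow_left₀ (by positivity) (hB a hPa ha1) _
  have hsum : (Cb.card : ℝ) = ∑ γ ∈ Cb.image ρ, ((Cb.filter fun c => ρ c = γ).card : ℝ) := by
    rw [Finset.card_eq_sum_card_image ρ Cb]
    push_cast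
    rfl
  rw [hsum]
  calc ∑ γ ∈ Cb.image ρ, ((Cb.filter fun c => ρ c = γ).card : ℝ)
      ≤ ∑ _γ ∈ Cb.image ρ, Bd ^ (d - S.card) := Finset.sum_le_sum hfib
    _ = ((Cb.image ρ).card : ℝ) * Bd ^ (d - S.card) := by simp
    _ ≤ (((2 * R + 1 : ℕ) : ℝ) ^ j) ^ S.card * Bd ^ (d - S.card) := by
        apply mul_le_mul_of_nonneg_right _ (by positivity)
        have : (((Cb.image ρ).card : ℕ) : ℝ) ≤ ((((2 * R + 1) ^ j) ^ S.card : ℕ) : ℝ) := by
          exact_mod_cast himg
        simpa using this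

end TailCountAux

open TailCountAux in
/-- MODULE tail: tuples with a relation of large height (column exposure). -/
theorem tail_count (j d R Qt : ℕ) (hj : 2 ≤ j) (hjd : j ≤ d) (hQ1 : 1 ≤ Qt)
    (hQ2 : Qt ≤ 2 * R + 1) :
    (((Fintype.piFinset fun _ : Fin j => Fintype.piFinset fun _ : Fin d =>
        Finset.Icc (-(R : ℤ)) (R : ℤ)).filter fun Y =>
        ∃ a : Fin j → ℤ, IsRel Y a ∧ (∀ f : ℕ, (∀ i, (f : ℤ) ∣ a i) → f = 1) ∧
          (∃ i, (Qt : ℤ) < |a i|) ∧ ∃ i₀, ∀ b, IsRel Y b → b i₀ = 0 → b = 0).card : ℝ) ≤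
      2 ^ d * (((2 * R + 1 : ℕ) : ℝ) ^ j) ^ (j - 2) *
        ((2 * ((2 * R + 1 : ℕ) : ℝ)) ^ (j - 1) / Qt) ^ (d + 2 - j) := by
  set Bd : ℝ := (2 * ((2 * R + 1 : ℕ) : ℝ)) ^ (j - 1) / Qt with hBd
  have hQpos : (0 : ℝ) < Qt := by exact_mod_cast hQ1
  have hBd0 : 0 ≤ Bd := by positivity
  -- the predicate on relation vectors
  set P : (Fin j → ℤ) → Prop := fun a =>
    (∀ f : ℕ, (∀ i, (f : ℤ) ∣ a i) → f = 1) ∧ (∃ i, (Qt : ℤ) < |a i|) with hP
  have hB : ∀ a, P a → (∑ i, a i = 0) →
      (((Fintype.piFinset fun _ : Fin j => Bx R).filter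
        fun x => ∑ i, a i * x i = 0).card : ℝ) ≤ Bd := by
    intro a hPa _
    obtain ⟨j', rfl⟩ : ∃ j', j = j' + 1 := ⟨j - 1, by omega⟩
    obtain ⟨i₁, hi₁⟩ := hPa.2
    have h := hyper_count R Qt hQ2 a hPa.1 i₁ hi₁
    rw [hBd, le_div_iff₀ hQpos]
    have h2 : (((((Fintype.piFinset fun _ : Fin (j' + 1) => Bx R).filter
        fun x => ∑ i, a i * x i = 0).card * Qt : ℕ)) : ℝ) ≤ (((2 * (2 * R + 1)) ^ j' : ℕ) : ℝ) := by
      exact_mod_cast h
    push_cast at h2 ⊢
    simpa using h2
  -- column form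
  set Bad := (Fintype.piFinset fun _ : Fin d => Fintype.piFinset fun _ : Fin j => Bx R).filter
        fun c => (∃ a, P a ∧ ∑ i, a i = 0 ∧ ∀ l, ∑ i, a i * c l i = 0) with hBad
  have hcols : ((Fintype.piFinset fun _ : Fin j => Fintype.piFinset fun _ : Fin d =>
        Finset.Icc (-(R : ℤ)) (R : ℤ)).filter fun Y =>
        ∃ a : Fin j → ℤ, IsRel Y a ∧ (∀ f : ℕ, (∀ i, (f : ℤ) ∣ a i) → f = 1) ∧
          (∃ i, (Qt : ℤ) < |a i|) ∧ ∃ i₀, ∀ b, IsRel Y b → b i₀ = 0 → b = 0).card ≤ Bad.card := by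
    refine Finset.card_le_card_of_injOn (fun Y l i => Y i l) ?_ ?_
    · intro Y hY
      have hY' := Finset.mem_filter.mp (Finset.mem_coe.mp hY)
      obtain ⟨a, ha, hprim, hht, _⟩ := hY'.2
      refine Finset.mem_coe.mpr (Finset.mem_filter.mpr ⟨?_, a, ⟨hprim, hht⟩, ha.1, ha.2⟩)
      refine Fintype.mem_piFinset.mpr (fun l => Fintype.mem_piFinset.mpr (fun i => ?_))
      exact Fintype.mem_piFinset.mp (Fintype.mem_piFinset.mp hY'.1 i) l
    · intro Y _ Y' _ h
      funext i l
      exact congrFun (congrFun h l) i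
  -- cover by sets of columns
  have hcover : Bad ⊆ (Finset.powersetCard (j - 2) (Finset.univ : Finset (Fin d))).biUnion
      fun S => (Fintype.piFinset fun _ : Fin d => Fintype.piFinset fun _ : Fin j => Bx R).filter
        fun c => (∃ a, P a ∧ ∑ i, a i = 0 ∧ ∀ l, ∑ i, a i * c l i = 0) ∧
          ∀ l, toQ (c l) ∈ spanS c S := by
    intro c hc
    have hc' := Finset.mem_filter.mp hc
    obtain ⟨a, hPa, ha1, harel⟩ := hc'.2
    have hne : a ≠ 0 := by
      rintro rfl
      obtain ⟨i, hi⟩ := hPa.2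
      simp at hi
      omega
    obtain ⟨S, hS, hspan⟩ := select hj hjd c a hne ha1 harel
    refine Finset.mem_biUnion.mpr ⟨S, Finset.mem_powersetCard.mpr ⟨Finset.subset_univ _, hS⟩, ?_⟩
    exact Finset.mem_filter.mpr ⟨hc'.1, ⟨a, hPa, ha1, harel⟩, hspan⟩
  have hfixed := fun S : Finset (Fin d) => count_fixed (j := j) (d := d) R Bd hBd0 P hB S
  have hBadle : (Bad.card : ℝ) ≤ 2 ^ d * ((((2 * R + 1 : ℕ) : ℝ) ^ j) ^ (j - 2) * Bd ^ (d + 2 - j)) := by
    have h1 := Finset.card_le_card hcover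
    have h2 := Finset.card_biUnion_le (s := Finset.powersetCard (j - 2) (Finset.univ : Finset (Fin d)))
      (t := fun S => (Fintype.piFinset fun _ : Fin d => Fintype.piFinset fun _ : Fin j => Bx R).filter
        fun c => (∃ a, P a ∧ ∑ i, a i = 0 ∧ ∀ l, ∑ i, a i * c l i = 0) ∧
          ∀ l, toQ (c l) ∈ spanS c S)
    have h3 : (Bad.card : ℝ) ≤ ∑ S ∈ Finset.powersetCard (j - 2) (Finset.univ : Finset (Fin d)),
        (((Fintype.piFinset fun _ : Fin d => Fintype.piFinset fun _ : Fin j => Bx R).filter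
          fun c => (∃ a, P a ∧ ∑ i, a i = 0 ∧ ∀ l, ∑ i, a i * c l i = 0) ∧
            ∀ l, toQ (c l) ∈ spanS c S).card : ℝ) := by
      exact_mod_cast le_trans h1 h2
    refine le_trans h3 ?_
    have h4 : ∀ S ∈ Finset.powersetCard (j - 2) (Finset.univ : Finset (Fin d)),
        (((Fintype.piFinset fun _ : Fin d => Fintype.piFinset fun _ : Fin j => Bx R).filter
          fun c => (∃ a, P a ∧ ∑ i, a i = 0 ∧ ∀ l, ∑ i, a i * c l i = 0) ∧
            ∀ l, toQ (c l) ∈ spanS c S).card : ℝ) ≤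
          ((((2 * R + 1 : ℕ) : ℝ) ^ j) ^ (j - 2) * Bd ^ (d + 2 - j)) := by
      intro S hS
      have hScard := (Finset.mem_powersetCard.mp hS).2
      have := hfixed S
      rw [hScard] at this
      have e : d - (j - 2) = d + 2 - j := by omega
      rw [e] at this
      exact this
    refine le_trans (Finset.sum_le_sum h4) ?_
    rw [Finset.sum_const, nsmul_eq_mul]
    apply mul_le_mul_of_nonneg_right _ (by positivity)
    have h5 : (Finset.powersetCard (j - 2) (Finset.univ : Finset (Fin d))).card ≤ 2 ^ d := by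
      rw [Finset.card_powersetCard]
      simpa using Nat.choose_le_two_pow d (j - 2)
    exact_mod_cast h5
  have hfinal : (((Fintype.piFinset fun _ : Fin j => Fintype.piFinset fun _ : Fin d =>
        Finset.Icc (-(R : ℤ)) (R : ℤ)).filter fun Y =>
        ∃ a : Fin j → ℤ, IsRel Y a ∧ (∀ f : ℕ, (∀ i, (f : ℤ) ∣ a i) → f = 1) ∧
          (∃ i, (Qt : ℤ) < |a i|) ∧ ∃ i₀, ∀ b, IsRel Y b → b i₀ = 0 → b = 0).card : ℝ) ≤
      (Bad.card : ℝ) := by
    exact_mod_cast hcols
  refine le_trans hfinal (le_trans hBadle ?_)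
  rw [mul_assoc]

end Vale.Agent.Lib.P230
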