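import Vale.Agent.Lib.P230.CircCount
import Vale.Agent.Lib.P230.GcdChain
import Vale.Agent.Lib.P230.TailCount
import Vale.Agent.Lib.P230.TopCheb

/-! Counting the tuples with an integer relation, for `circ_top_bound`. -/

set_option autoImplicit false

open Finset
open scoped Matrix Classical

namespace Vale.Agent.Lib.P230

/-- Tuples with a relation with all coefficients `±1`. -/
theorem card_relOne {d j : ℕ} (A : Finset (Fin d → ℤ)) (M κ : ℝ) (hM : 0 < M) (hκ : 0 ≤ κ)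
    (hA : (A.card : ℝ) ≤ 2 * M)
    (henergy : ∀ w : Fin d → ℤ,
      (((A ×ˢ A ×ˢ A ×ˢ A).filter fun p => p.1 + p.2.1 - p.2.2.1 - p.2.2.2 = w).card : ℝ)
        ≤ κ ^ d * M ^ 3)
    (hj : 2 ≤ j) :
    (((Fintype.piFinset fun _ : Fin j => A).filter fun Y =>
        Function.Injective Y ∧ ∃ a, IsRel Y a ∧ ∀ i, |a i| = 1).card : ℝ)
      ≤ 2 ^ j * (κ ^ d * (2 * M) ^ (j - 1)) := by
  have hRHS : 0 ≤ (2 : ℝ) ^ j * (κ ^ d * (2 * M) ^ (j - 1)) := by positivity
  rcases Nat.lt_or_ge j 3 with hj3 | hj3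
  · have hj2 : j = 2 := by omega
    subst hj2
    have : ((Fintype.piFinset fun _ : Fin 2 => A).filter fun Y =>
        Function.Injective Y ∧ ∃ a, IsRel Y a ∧ ∀ i, |a i| = 1) = ∅ := by
      rw [Finset.filter_eq_empty_iff]
      rintro Y _ ⟨hinj, a, ⟨h0, hm⟩, h1⟩
      have h01 : (0 : Fin 2) ≠ 1 := by decide
      apply h01
      apply hinj
      funext m
      have h2 := hm m
      rw [Fin.sum_univ_two] at h0 h2
      have ha : a 1 = - a 0 := by linarith
      rw [ha] at h2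
      have hne : a 0 ≠ 0 := by
        intro h
        have := h1 0
        rw [h] at this
        simp at this
      have : a 0 * (Y 0 m - Y 1 m) = 0 := by linarith
      have := (mul_eq_zero.mp this).resolve_left hne
      linarith
    rw [this]
    simpa using hRHS
  set 𝒜 := (Fintype.piFinset fun _ : Fin j => ({1, -1} : Finset ℤ)).filter
    (fun a => ∑ i, a i = 0) with h𝒜
  set Sub : (Fin j → ℤ) → Finset (Fin j → Fin d → ℤ) := fun a =>
    (Fintype.piFinset fun _ : Fin j => A).filter fun Y => ∀ m, ∑ i, a i * Y i m = 0 with hSub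
  have hsub : ((Fintype.piFinset fun _ : Fin j => A).filter fun Y =>
      Function.Injective Y ∧ ∃ a, IsRel Y a ∧ ∀ i, |a i| = 1) ⊆ 𝒜.biUnion Sub := by
    intro Y hY
    simp only [mem_filter] at hY
    obtain ⟨hY1, _, a, ⟨h0, hm⟩, h1⟩ := hY
    simp only [mem_biUnion]
    refine ⟨a, ?_, ?_⟩
    · simp only [h𝒜, mem_filter, Fintype.mem_piFinset, mem_insert, mem_singleton]
      refine ⟨fun i => ?_, h0⟩
      rcases abs_eq (zero_le_one) |>.mp (h1 i) with h | h
      · exact Or.inl h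
      · exact Or.inr h
    · simp only [hSub, mem_filter]
      exact ⟨hY1, hm⟩
  have hbound : ∀ a ∈ 𝒜, ((Sub a).card : ℝ) ≤ κ ^ d * (2 * M) ^ (j - 1) := by
    intro a ha
    simp only [h𝒜, mem_filter, Fintype.mem_piFinset, mem_insert, mem_singleton] at ha
    have h1 : ∀ i, |a i| = 1 := by
      intro i
      rcases ha.1 i with h | h <;> simp [h]
    obtain ⟨i1, i2, i3, i4, h12, h13, h14, h23, h24, h34, a1, a2, a3, a4⟩ :=
      exists_quad a h1 ha.2 hj3
    have hj4 : 4 ≤ j := by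
      have h5 : ({i1, i2, i3, i4} : Finset (Fin j)).card = 4 := by
        rw [Finset.card_insert_of_notMem, Finset.card_insert_of_notMem,
          Finset.card_insert_of_notMem, Finset.card_singleton] <;> simp [*]
      have := Finset.card_le_univ ({i1, i2, i3, i4} : Finset (Fin j))
      rw [h5, Fintype.card_fin] at this
      exact this
    have h2 := card_quad A (κ ^ d * M ^ 3) henergy a i1 i2 i3 i4 h12 h13 h14 h23 h24 h34 a1 a2 a3 a4
    refine le_trans h2 ?_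
    have e : (2 * M) ^ (j - 1) = (2 * M) ^ (j - 4) * (2 * M) ^ 3 := by
      rw [← pow_add]; congr 1; omega
    rw [e]
    have h3 : (A.card : ℝ) ^ (j - 4) ≤ (2 * M) ^ (j - 4) :=
      pow_le_pow_left₀ (by positivity) hA _
    have h4 : M ^ 3 ≤ (2 * M) ^ 3 := pow_le_pow_left₀ hM.le (by linarith) _
    calc (A.card : ℝ) ^ (j - 4) * (κ ^ d * M ^ 3)
        ≤ (2 * M) ^ (j - 4) * (κ ^ d * (2 * M) ^ 3) := by
          apply mul_le_mul h3 _ (by positivity) (by positivity)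
          exact mul_le_mul_of_nonneg_left h4 (by positivity)
      _ = _ := by ring
  have hcard : (𝒜.card : ℝ) ≤ 2 ^ j := by
    have h5 : 𝒜.card ≤ (Fintype.piFinset fun _ : Fin j => ({1, -1} : Finset ℤ)).card :=
      Finset.card_filter_le _ _
    rw [Fintype.card_piFinset_const] at h5
    have h6 : ({1, -1} : Finset ℤ).card = 2 := by decide
    rw [h6] at h5
    exact_mod_cast h5
  calc (((Fintype.piFinset fun _ : Fin j => A).filter fun Y =>
        Function.Injective Y ∧ ∃ a, IsRel Y a ∧ ∀ i, |a i| = 1).card : ℝ)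
      ≤ ((𝒜.biUnion Sub).card : ℝ) := by exact_mod_cast Finset.card_le_card hsub
    _ ≤ ∑ a ∈ 𝒜, ((Sub a).card : ℝ) := by exact_mod_cast Finset.card_biUnion_le
    _ ≤ ∑ _a ∈ 𝒜, (κ ^ d * (2 * M) ^ (j - 1)) := Finset.sum_le_sum hbound
    _ = (𝒜.card : ℝ) * (κ ^ d * (2 * M) ^ (j - 1)) := by simp
    _ ≤ _ := mul_le_mul_of_nonneg_right hcard (by positivity)

/-- One primitive relation with a coefficient of size `b`: the gcd chain. -/
theorem card_sub_gcd {d j' : ℕ} (A : Finset (Fin d → ℤ)) (M : ℝ) (Q : ℕ) (hM : 0 < M)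
    (hA : (A.card : ℝ) ≤ 2 * M)
    (hcls : ∀ q : ℕ, 2 ≤ q → q ≤ Q → ∀ x : Fin d → ℤ,
      (((A.filter fun y => ∀ i, (q : ℤ) ∣ y i - x i).card : ℝ) ≤ 2 * M / (q : ℝ) ^ d))
    (a : Fin (j' + 1) → ℤ) (hp : Prim a) (i₀ : Fin (j' + 1)) (b : ℕ) (hb1 : 1 ≤ b) (hbQ : b ≤ Q)
    (hi₀ : |a i₀| = b) :
    (((Fintype.piFinset fun _ : Fin (j' + 1) => A).filter
      fun Y => ∀ m, ∑ i, a i * Y i m = 0).card : ℝ) ≤ (2 * M) ^ j' / (b : ℝ) ^ d := by
  have hchain := gcd_chain (E := Fin d → ℤ) A (fun q => 2 * M / (q : ℝ) ^ d)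
    (fun l g => (2 * M) ^ l / (g : ℝ) ^ d) Q
    (fun q => by positivity) (fun l g => by positivity)
    (by
      intro q hq1 hqQ x
      rcases Nat.lt_or_ge q 2 with hq | hq
      · have hq' : q = 1 := by omega
        subst hq'
        have : ((A.filter fun y => ∃ z : Fin d → ℤ, y - x = ((1 : ℕ) : ℤ) • z).card : ℝ)
            ≤ A.card := by exact_mod_cast Finset.card_filter_le _ _
        simpa using le_trans this hA
      · refine le_trans ?_ (hcls q hq hqQ x)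
        norm_cast
        apply Finset.card_le_card
        intro y hy
        simp only [mem_filter] at hy ⊢
        obtain ⟨hy1, z, hz⟩ := hy
        refine ⟨hy1, fun i => ⟨z i, ?_⟩⟩
        have := congrFun hz i
        simpa using this)
    (by simp)
    (by
      intro l q g hq hg _
      have hq' : (q : ℝ) ≠ 0 := by positivity
      have hg' : (g : ℝ) ≠ 0 := by positivity
      apply le_of_eq
      push_cast
      field_simp
      ring)
    j' (fun i => a (i₀.succAbove i)) b 0 hb1 hbQ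
    (by
      intro f hf hfa
      apply hp f
      intro i
      rcases eq_or_ne i i₀ with rfl | hi
      · have h1 : (f : ℤ) ∣ (b : ℤ) := by exact_mod_cast hf
        rw [← hi₀] at h1
        exact (dvd_abs _ _).mp h1
      · obtain ⟨k, rfl⟩ := Fin.exists_succAbove_eq hi
        exact hfa k)
  refine le_trans ?_ hchain
  norm_cast
  have ha0 : a i₀ ≠ 0 := by
    intro h
    rw [h] at hi₀
    simp at hi₀
    omega
  refine Finset.card_le_card_of_injOn (fun Y i => Y (i₀.succAbove i)) ?_ ?_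
  · intro Y hY
    simp only [coe_filter, Fintype.mem_piFinset, Set.mem_ofPred_eq] at hY ⊢
    obtain ⟨hY1, hY2⟩ := hY
    refine ⟨fun i => hY1 _, ?_⟩
    have hvec : (∑ i, a (i₀.succAbove i) • Y (i₀.succAbove i)) = - (a i₀ • Y i₀) := by
      funext m
      have h2 := hY2 m
      rw [Fin.sum_univ_succAbove _ i₀] at h2
      simp only [Finset.sum_apply, Pi.smul_apply, smul_eq_mul, Pi.neg_apply]
      linarith
    rcases abs_eq (by positivity) |>.mp hi₀ with h | h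
    · refine ⟨- Y i₀, ?_⟩
      rw [sub_zero, hvec, h]
      simp
    · refine ⟨Y i₀, ?_⟩
      rw [sub_zero, hvec, h]
      simp
  · intro Y hY Z hZ hYZ
    simp only [coe_filter, Fintype.mem_piFinset, Set.mem_ofPred_eq] at hY hZ
    have hYZ' : ∀ i, Y (i₀.succAbove i) = Z (i₀.succAbove i) := fun i => congrFun hYZ i
    have h0 : Y i₀ = Z i₀ := by
      funext m
      have h2 := hY.2 m
      have h3 := hZ.2 m
      rw [Fin.sum_univ_succAbove _ i₀] at h2 h3
      have h4 : ∑ i, a (i₀.succAbove i) * Y (i₀.succAbove i) m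
          = ∑ i, a (i₀.succAbove i) * Z (i₀.succAbove i) m :=
        Finset.sum_congr rfl fun i _ => by rw [hYZ' i]
      rw [h4] at h2
      have h5 : a i₀ * (Y i₀ m - Z i₀ m) = 0 := by linarith
      have := (mul_eq_zero.mp h5).resolve_left ha0
      linarith
    funext i
    rcases eq_or_ne i i₀ with rfl | hi
    · exact h0
    · obtain ⟨k, rfl⟩ := Fin.exists_succAbove_eq hi
      exact hYZ' k

/-- Tuples with a primitive relation of height between `3` and `Q`. -/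
theorem card_relTwo {d j' : ℕ} (A : Finset (Fin d → ℤ)) (M : ℝ) (Q : ℕ) (hM : 0 < M)
    (hA : (A.card : ℝ) ≤ 2 * M)
    (hcls : ∀ q : ℕ, 2 ≤ q → q ≤ Q → ∀ x : Fin d → ℤ,
      (((A.filter fun y => ∀ i, (q : ℤ) ∣ y i - x i).card : ℝ) ≤ 2 * M / (q : ℝ) ^ d)) :
    (((Fintype.piFinset fun _ : Fin (j' + 1) => A).filter fun Y =>
        ∃ a, IsRel Y a ∧ Prim a ∧ ∃ i₀, 3 ≤ |a i₀| ∧ |a i₀| ≤ Q ∧ ∀ i, |a i| ≤ |a i₀|).card : ℝ)
      ≤ ∑ b ∈ Finset.Icc 3 Q, ((2 * b + 1 : ℕ) : ℝ) ^ (j' + 1) * ((2 * M) ^ j' / (b : ℝ) ^ d) := by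
  set 𝒜 : ℕ → Finset (Fin (j' + 1) → ℤ) := fun b =>
    (Fintype.piFinset fun _ : Fin (j' + 1) => Finset.Icc (-(b : ℤ)) (b : ℤ)).filter
      (fun a => Prim a ∧ ∃ i₀, |a i₀| = b) with h𝒜
  set Sub : (Fin (j' + 1) → ℤ) → Finset (Fin (j' + 1) → Fin d → ℤ) := fun a =>
    (Fintype.piFinset fun _ : Fin (j' + 1) => A).filter fun Y => ∀ m, ∑ i, a i * Y i m = 0 with hSub
  have hsub : ((Fintype.piFinset fun _ : Fin (j' + 1) => A).filter fun Y =>
      ∃ a, IsRel Y a ∧ Prim a ∧ ∃ i₀, 3 ≤ |a i₀| ∧ |a i₀| ≤ Q ∧ ∀ i, |a i| ≤ |a i₀|)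
      ⊆ (Finset.Icc 3 Q).biUnion fun b => (𝒜 b).biUnion Sub := by
    intro Y hY
    simp only [mem_filter] at hY
    obtain ⟨hY1, a, hrel, hp, i₀, h3, hQ, hmax⟩ := hY
    simp only [mem_biUnion]
    refine ⟨(a i₀).natAbs, ?_, a, ?_, ?_⟩
    · simp only [mem_Icc]
      have hab : |a i₀| = ((a i₀).natAbs : ℤ) := Int.abs_eq_natAbs _
      rw [hab] at h3 hQ
      omega
    · simp only [h𝒜, mem_filter, Fintype.mem_piFinset, mem_Icc]
      have hab : ((a i₀).natAbs : ℤ) = |a i₀| := (Int.abs_eq_natAbs _).symm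
      refine ⟨fun i => ?_, hp, i₀, hab.symm⟩
      rw [hab]
      exact abs_le.mp (hmax i)
    · simp only [hSub, mem_filter]
      exact ⟨hY1, hrel.2⟩
  have hbound : ∀ b ∈ Finset.Icc 3 Q, (((𝒜 b).biUnion Sub).card : ℝ)
      ≤ ((2 * b + 1 : ℕ) : ℝ) ^ (j' + 1) * ((2 * M) ^ j' / (b : ℝ) ^ d) := by
    intro b hb
    simp only [mem_Icc] at hb
    have h1 : ∀ a ∈ 𝒜 b, ((Sub a).card : ℝ) ≤ (2 * M) ^ j' / (b : ℝ) ^ d := by
      intro a ha
      simp only [h𝒜, mem_filter] at ha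
      obtain ⟨_, hp, i₀, hi₀⟩ := ha
      exact card_sub_gcd A M Q hM hA hcls a hp i₀ b (by omega) hb.2 hi₀
    have h2 : ((𝒜 b).card : ℝ) ≤ ((2 * b + 1 : ℕ) : ℝ) ^ (j' + 1) := by
      have h3 : (𝒜 b).card ≤
          (Fintype.piFinset fun _ : Fin (j' + 1) => Finset.Icc (-(b : ℤ)) (b : ℤ)).card :=
        Finset.card_filter_le _ _
      rw [Fintype.card_piFinset_const, Int.card_Icc] at h3
      have h4 : ((b : ℤ) + 1 - -(b : ℤ)).toNat = 2 * b + 1 := by omega
      rw [h4] at h3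
      exact_mod_cast h3
    calc (((𝒜 b).biUnion Sub).card : ℝ) ≤ ∑ a ∈ 𝒜 b, ((Sub a).card : ℝ) := by
          exact_mod_cast Finset.card_biUnion_le
      _ ≤ ∑ _a ∈ 𝒜 b, ((2 * M) ^ j' / (b : ℝ) ^ d) := Finset.sum_le_sum h1
      _ = ((𝒜 b).card : ℝ) * ((2 * M) ^ j' / (b : ℝ) ^ d) := by simp
      _ ≤ _ := mul_le_mul_of_nonneg_right h2 (by positivity)
  calc _ ≤ (((Finset.Icc 3 Q).biUnion fun b => (𝒜 b).biUnion Sub).card : ℝ) := by
        exact_mod_cast Finset.card_le_card hsub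
    _ ≤ ∑ b ∈ Finset.Icc 3 Q, (((𝒜 b).biUnion Sub).card : ℝ) := by
        exact_mod_cast Finset.card_biUnion_le
    _ ≤ _ := Finset.sum_le_sum hbound

/-- Tuples with a primitive relation of height above `Q`: the tail count. -/
theorem card_relThree {d j : ℕ} (A : Finset (Fin d → ℤ)) (W Q : ℕ)
    (hbox : ∀ y ∈ A, ∀ i, 2 * |y i| + 1 ≤ (W : ℤ)) (hQ1 : 1 ≤ Q) (hW : 1 ≤ W) (hj : 2 ≤ j)
    (hjd : j ≤ d) :
    (((Fintype.piFinset fun _ : Fin j => A).filter fun Y =>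
        ∃ a, IsRel Y a ∧ Prim a ∧ (∃ i, (Q : ℤ) < |a i|) ∧
          ∃ i₀, ∀ b, IsRel Y b → b i₀ = 0 → b = 0).card : ℝ)
      ≤ 2 ^ d * (((2 * ((W - 1) / 2) + 1 : ℕ) : ℝ) ^ j) ^ (j - 2) *
        ((2 * ((2 * ((W - 1) / 2) + 1 : ℕ) : ℝ)) ^ (j - 1) /
          (min Q (2 * ((W - 1) / 2) + 1) : ℕ)) ^ (d + 2 - j) := by
  set R := (W - 1) / 2 with hR
  refine le_trans ?_ (tail_count j d R (min Q (2 * R + 1)) hj hjd
    (le_min hQ1 (by omega)) (min_le_right _ _))
  norm_cast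
  apply Finset.card_le_card
  intro Y hY
  simp only [mem_filter, Fintype.mem_piFinset] at hY ⊢
  obtain ⟨hY1, a, hrel, hp, ⟨i, hi⟩, i₀, h0⟩ := hY
  refine ⟨fun i m => ?_, a, hrel, hp, ⟨i, ?_⟩, i₀, h0⟩
  · have := hbox _ (hY1 i) m
    rw [mem_Icc]
    have h2 := abs_le.mp (show |Y i m| ≤ (R : ℤ) by omega)
    exact h2
  · refine lt_of_le_of_lt ?_ hi
    exact_mod_cast min_le_left _ _

end Vale.Agent.Lib.P230
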