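import Mathlib

/-!
# P230: definitions shared by all modules of the proof of `Theta_L(n) <= n^(1+o(1))`.
See `notes/P230_blueprint.md`.
-/

set_option autoImplicit false

open MeasureTheory Finset
open scoped ENNReal

namespace Vale.Agent.Lib.P230

/-- Discrete properties of the lattice points `A` of a large convex body, at scale `M`. -/
structure Good {d : ℕ} (A : Finset (Fin d → ℤ)) (M : ℝ) (W Q : ℕ) (κ θ : ℝ) : Prop where
  M_pos : 0 < M
  card_lo : M / 2 ≤ A.card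
  card_hi : (A.card : ℝ) ≤ 2 * M
  box : ∀ y ∈ A, ∀ i, 2 * |y i| + 1 ≤ (W : ℤ)
  cls : ∀ q : ℕ, 2 ≤ q → q ≤ Q → ∀ x : Fin d → ℤ,
    (((A.filter fun y => ∀ i, (q : ℤ) ∣ y i - x i).card : ℝ) ≤ 2 * M / (q : ℝ) ^ d)
  energy : ∀ w : Fin d → ℤ,
    (((A ×ˢ A ×ˢ A ×ˢ A).filter fun p => p.1 + p.2.1 - p.2.2.1 - p.2.2.2 = w).card : ℝ)
      ≤ κ ^ d * M ^ 3
  dense : θ * (W : ℝ) ^ d ≤ M

/-- The hash `y ↦ (⟨r, y⟩ mod P, (⟨ρ l, y⟩ mod 2)_l)`. -/
def hash {P S d : ℕ} (r : Fin d → ZMod P) (ρ : Fin S → Fin d → ZMod 2) :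
    (Fin d → ℤ) →+ ZMod P × (Fin S → ZMod 2) where
  toFun y := (∑ i, r i * (y i : ZMod P), fun l => ∑ i, ρ l i * (y i : ZMod 2))
  map_zero' := by
    ext <;> simp
  map_add' x y := by
    ext l
    · simp [mul_add, Finset.sum_add_distrib]
    · simp [mul_add, Finset.sum_add_distrib]

/-- Integer points of the dilate `R • B`. -/
noncomputable def lat {d : ℕ} (B : Set (Fin d → ℝ)) (R : ℕ) : Finset (Fin d → ℤ) :=
  open Classical in
  if h : {m : Fin d → ℤ | (fun i => (m i : ℝ) / R) ∈ B}.Finite then h.toFinset else ∅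

/-- log-concavity of a real function -/
def LogConc {t : ℕ} (A : (Fin t → ℝ) → ℝ) : Prop :=
  ∀ (z z' : Fin t → ℝ) (lam : ℝ), 0 < lam → lam < 1 →
    A z ^ (1 - lam) * A z' ^ lam ≤ A ((1 - lam) • z + lam • z')

/-- section volume -/
noncomputable def secVol {d t : ℕ} (K : Set ((Fin d → ℝ) × (Fin t → ℝ))) (z : Fin t → ℝ) : ℝ :=
  (volume {y : Fin d → ℝ | (y, z) ∈ K}).toReal

/-- schedule -/
def Eexp (d : ℕ) : ℕ := 12 * Nat.clog 2 d
def mstar (d : ℕ) : ℕ := d / (1000 * Eexp d)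
def efin (d : ℕ) : ℕ := Nat.clog 2 (2 ^ 19 * mstar d)
def e0 (d : ℕ) : ℕ := efin d + mstar d

end Vale.Agent.Lib.P230
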