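import Vale.Agent.Lib.P230.FineDefs
import Vale.Agent.Lib.P230.FrameCoord

/-!
# P230: small facts on the frame coordinates.
-/

set_option autoImplicit false
set_option linter.unusedSectionVars false
set_option linter.unusedSimpArgs false
set_option linter.unusedVariables false

open MeasureTheory Finset
open scoped ENNReal Matrix

namespace Vale.Agent.Lib.P230

variable {d t : ℕ}

lemma splitMap_isLinear2 : IsLinearMap ℝ (splitMap d t) := by
  constructor
  · intro x y
    rfl
  · intro c x
    rfl

lemma splitMap_continuous2 : Continuous (splitMap d t) := by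
  unfold splitMap
  fun_prop

lemma mulVec_isLinear2 {n : ℕ} (E : Matrix (Fin n) (Fin n) ℝ) : IsLinearMap ℝ E.mulVec := by
  constructor
  · intro x y
    exact Matrix.mulVec_add E x y
  · intro c x
    exact Matrix.mulVec_smul E c x

lemma mulVec_continuous2 {n : ℕ} (E : Matrix (Fin n) (Fin n) ℝ) : Continuous E.mulVec :=
  Continuous.matrix_mulVec continuous_const continuous_id

/-- The integral against the section function as an integral over the body. -/
lemma bridge2 (E : Matrix (Fin (d + t)) (Fin (d + t)) ℝ) (hE : E.det ≠ 0)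
    (K₀ : Set (Fin (d + t) → ℝ)) (hK₀ : IsCompact K₀)
    (hA : Measurable (secVol (splitMap d t '' (E.mulVec '' K₀))))
    (hA0 : ∀ z, 0 ≤ secVol (splitMap d t '' (E.mulVec '' K₀)) z)
    (f : (Fin t → ℝ) → ℝ) (hf : Measurable f) (hf0 : ∀ z, 0 ≤ f z) :
    ∫ z, f z * secVol (splitMap d t '' (E.mulVec '' K₀)) z =
      |E.det| * ∫ x in K₀, f (fun i => E (Fin.natAdd d i) ⬝ᵥ x) := by
  have h1 := frame_marginal E hE K₀ hK₀ (fun z => ENNReal.ofReal (f z)) hf.ennreal_ofReal
  rw [integral_eq_lintegral_of_nonneg_ae (Filter.Eventually.of_forall fun z =>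
    mul_nonneg (hf0 z) (hA0 z)) (hf.mul hA).aestronglyMeasurable]
  have hcont : Measurable fun x : Fin (d + t) → ℝ => f (fun i => E (Fin.natAdd d i) ⬝ᵥ x) := by
    apply hf.comp
    apply measurable_pi_lambda
    intro i
    exact (Continuous.dotProduct continuous_const continuous_id).measurable
  rw [integral_eq_lintegral_of_nonneg_ae (Filter.Eventually.of_forall fun z => hf0 _)
    hcont.aestronglyMeasurable]
  have h2 : ∀ z, ENNReal.ofReal (f z * secVol (splitMap d t '' (E.mulVec '' K₀)) z) =
      ENNReal.ofReal (f z) * ENNReal.ofReal (secVol (splitMap d t '' (E.mulVec '' K₀)) z) :=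
    fun z => ENNReal.ofReal_mul (hf0 z)
  simp_rw [h2]
  rw [← h1, ENNReal.toReal_mul, ENNReal.toReal_ofReal (abs_nonneg _)]

end Vale.Agent.Lib.P230
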