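import Vale.Agent.Lib.P230.Defs

/-!
# P230: definitions for the window with exponential loss only.

Blueprint: a random Gaussian frame `θ` of `t` vectors in `ℝ^n` makes the Laplace transform of the
projection `x ↦ (θ i ⬝ᵥ x)_i` of an isotropic bounded body Gaussian like in all directions, and this
forces the marginal density to be large on a cube of side comparable to `1`.
-/

set_option autoImplicit false

open MeasureTheory Finset
open scoped ENNReal Matrix

namespace Vale.Agent.Lib.P230

variable {n t : ℕ}

/-- Laplace transform of the frame projection at `w` under `P`. -/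
noncomputable def frameLap (P : Measure (Fin n → ℝ)) (θ : Fin t → Fin n → ℝ) (w : Fin t → ℝ) : ℝ :=
  ∫ x, Real.exp (∑ i, w i * (θ i ⬝ᵥ x)) ∂P

/-- Mean of `frameLap` over Gaussian frames with entries of variance `1/n`. -/
noncomputable def frameMean (P : Measure (Fin n → ℝ)) (w : Fin t → ℝ) : ℝ :=
  ∫ x, Real.exp ((∑ i, w i ^ 2) * (∑ j, x j ^ 2) / (2 * (n : ℝ))) ∂P

/-- The finite set of test points: multiples of `7` in the ball of radius `700 √t`. -/
noncomputable def testGrid (t : ℕ) : Finset (Fin t → ℝ) :=
  open Classical in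
  ((Fintype.piFinset fun _ : Fin t => Finset.Icc (-(51 * (t : ℤ))) (51 * (t : ℤ))).image
    (fun k i => 7 * (k i : ℝ))).filter (fun w => ∑ i, w i ^ 2 ≤ 490000 * (t : ℝ))

/-- The last `t` and the first `d` coordinates. -/
def splitMap (d t : ℕ) (x : Fin (d + t) → ℝ) : (Fin d → ℝ) × (Fin t → ℝ) :=
  (fun i => x (Fin.castAdd t i), fun i => x (Fin.natAdd d i))

end Vale.Agent.Lib.P230
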