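import Vale.Agent.Lib.P230.FineDefs

/-! The test set of the tuned fine window. -/

set_option autoImplicit false

open Finset

namespace Vale.Agent.Lib.P230

/-- The finite set of test points: multiples of `1/800` in the ball of radius `3.5 √t`. -/
noncomputable def testGrid2 (t : ℕ) : Finset (Fin t → ℝ) :=
  open Classical in
  ((Fintype.piFinset fun _ : Fin t => Finset.Icc (-(2801 * (t : ℤ))) (2801 * (t : ℤ))).image
    (fun k i => (k i : ℝ) / 800)).filter (fun w => ∑ i, w i ^ 2 ≤ (49 / 4) * (t : ℝ))

end Vale.Agent.Lib.P230
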