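import Vale.Agent.Lib.P230.FineWindow2
import Vale.Agent.Lib.P230.FineCore
import Vale.Agent.Lib.P230.WrapAt
import Vale.Agent.Lib.P230.Isotropic

/-!
# P230: the final assembly of the bound `n (log n)^15`.
-/

set_option autoImplicit false
set_option linter.unusedSectionVars false
set_option linter.unusedSimpArgs false
set_option linter.unusedVariables false

open MeasureTheory Finset
open scoped ENNReal Matrix

namespace Vale.Agent.Lib.P230

lemma vol_image_mulVec2 {n : ℕ} (E : Matrix (Fin n) (Fin n) ℝ) (s : Set (Fin n → ℝ)) :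
    volume (E.mulVec '' s) = ENNReal.ofReal |E.det| * volume s := by
  have h := Measure.addHaar_image_linearMap (volume : Measure (Fin n → ℝ)) (Matrix.toLin' E) s
  rw [LinearMap.det_toLin'] at h
  exact h

lemma convex_sq_ball2 {n : ℕ} (c : ℝ) : Convex ℝ {x : Fin n → ℝ | ∑ j, x j ^ 2 ≤ c} := by
  intro x hx y hy a b ha hb hab
  simp only [Set.mem_setOf_eq] at hx hy ⊢
  have h1 : ∀ j, ((a • x + b • y) j) ^ 2 ≤ a * x j ^ 2 + b * y j ^ 2 := by
    intro j
    simp only [Pi.add_apply, Pi.smul_apply, smul_eq_mul]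
    have hb' : b = 1 - a := by linarith
    subst hb'
    nlinarith [sq_nonneg (x j - y j), mul_nonneg ha hb]
  calc ∑ j, ((a • x + b • y) j) ^ 2 ≤ ∑ j, (a * x j ^ 2 + b * y j ^ 2) :=
        Finset.sum_le_sum fun j _ => h1 j
    _ = a * ∑ j, x j ^ 2 + b * ∑ j, y j ^ 2 := by
        rw [Finset.sum_add_distrib, Finset.mul_sum, Finset.mul_sum]
    _ ≤ a * c + b * c := by
        have := mul_le_mul_of_nonneg_left hx ha
        have := mul_le_mul_of_nonneg_left hy hb
        linarith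
    _ = c := by rw [← add_mul, hab, one_mul]

lemma closed_sq_ball2 {n : ℕ} (c : ℝ) : IsClosed {x : Fin n → ℝ | ∑ j, x j ^ 2 ≤ c} := by
  apply isClosed_le
  · fun_prop
  · exact continuous_const

/-- The truncated isotropic position of a convex body. -/
theorem truncated_position2 {n : ℕ} (hn : 0 < n) (K : Set (Fin n → ℝ)) (hc : Convex ℝ K)
    (hK : IsCompact K) (hi : (interior K).Nonempty) :
    ∃ (L : Matrix (Fin n) (Fin n) ℝ) (K₀ : Set (Fin n → ℝ)), L.det ≠ 0 ∧ Convex ℝ K₀ ∧ IsCompact K₀ ∧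
      K₀ ⊆ L.mulVec '' K ∧ 0 < volume K₀ ∧
      |L.det| * (volume K).toReal ≤ (1156 / 1155) * (volume K₀).toReal ∧
      (∀ x ∈ K₀, ∑ j, x j ^ 2 ≤ 1156 * (n : ℝ)) ∧
      (∀ a : Fin n → ℝ, ∫ x in K₀, (a ⬝ᵥ x) ^ 2 ≤ (1156 / 1155) * (∑ j, a j ^ 2) * (volume K₀).toReal) ∧
      ((9 / 10) * (n : ℝ)) * (volume K₀).toReal ≤ ∫ x in K₀, ∑ j, x j ^ 2 := by
  obtain ⟨L, hL, hiso⟩ := isotropic_position K hK hi
  set K₁ : Set (Fin n → ℝ) := L.mulVec '' K with hK₁
  have hK₁c : Convex ℝ K₁ := hc.is_linear_image (mulVec_isLinear2 L)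
  have hK₁K : IsCompact K₁ := hK.image (mulVec_continuous2 L)
  have hvolK : 0 < volume K :=
    lt_of_lt_of_le (isOpen_interior.measure_pos volume hi) (measure_mono interior_subset)
  have hvolK₁ : volume K₁ = ENNReal.ofReal |L.det| * volume K := vol_image_mulVec2 L K
  have hdet : 0 < |L.det| := abs_pos.mpr hL
  have hK₁pos : 0 < volume K₁ := by
    rw [hvolK₁]
    exact ENNReal.mul_pos (by simpa using hL) hvolK.ne'
  have hsum : ∫ x in K₁, ∑ j, x j ^ 2 = (n : ℝ) * (volume K₁).toReal := by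
    have h1 : ∀ j, ∫ x in K₁, x j ^ 2 = (volume K₁).toReal := by
      intro j
      have h2 := hiso (Pi.single j 1)
      have h3 : ∀ x : Fin n → ℝ, (Pi.single j (1 : ℝ) : Fin n → ℝ) ⬝ᵥ x = x j := by
        intro x
        simp
      simp only [h3] at h2
      rw [h2]
      have h4 : ∑ i, (Pi.single j (1 : ℝ) : Fin n → ℝ) i ^ 2 = 1 := by
        rw [Finset.sum_eq_single j]
        · simp
        · intro b _ hb
          simp [hb]
        · simp
      rw [h4, one_mul]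
    have hcont : ∀ j, Continuous fun x : Fin n → ℝ => x j ^ 2 := fun j => by fun_prop
    rw [integral_finsetSum _ fun j _ => (hcont j).continuousOn.integrableOn_compact hK₁K]
    simp_rw [h1]
    simp
  obtain ⟨hG0, hGle, hGmean⟩ := borell_mean2 hn K₁ hK₁c hK₁K hK₁pos hsum
  set K₀ : Set (Fin n → ℝ) := K₁ ∩ {x | ∑ j, x j ^ 2 ≤ 1156 * (n : ℝ)} with hK₀
  have hK₀K : IsCompact K₀ := hK₁K.inter_right (closed_sq_ball2 _)
  have hK₁fin : volume K₁ ≠ ⊤ := hK₁K.measure_lt_top.ne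
  have hvK₁ : (volume K₁).toReal = |L.det| * (volume K).toReal := by
    rw [hvolK₁, ENNReal.toReal_mul, ENNReal.toReal_ofReal (abs_nonneg _)]
  refine ⟨L, K₀, hL, hK₁c.inter (convex_sq_ball2 _), hK₀K, Set.inter_subset_left, hG0, ?_, ?_, ?_, hGmean⟩
  · rw [← hvK₁]
    exact hGle
  · intro x hx
    exact hx.2
  · intro a
    have hcontA : Continuous fun x : Fin n → ℝ => (a ⬝ᵥ x) ^ 2 :=
      (Continuous.dotProduct continuous_const continuous_id).pow 2
    have h1 : ∫ x in K₀, (a ⬝ᵥ x) ^ 2 ≤ ∫ x in K₁, (a ⬝ᵥ x) ^ 2 := by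
      apply setIntegral_mono_set (hcontA.continuousOn.integrableOn_compact hK₁K)
      · exact Filter.Eventually.of_forall fun x => sq_nonneg _
      · exact (Set.inter_subset_left : K₀ ⊆ K₁).eventuallyLE
    rw [hiso a] at h1
    have hs : 0 ≤ ∑ j, a j ^ 2 := Finset.sum_nonneg fun j _ => sq_nonneg _
    have h2 := mul_le_mul_of_nonneg_left hGle hs
    nlinarith

/-- The main theorem: for all large `n`, every convex body has lattice covering density at most
`n (log n)^15`. -/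
theorem polylog_main2 : ∃ n₀ : ℕ, ∀ n ≥ n₀, ∀ K : Set (Fin n → ℝ),
    Convex ℝ K → IsCompact K → (interior K).Nonempty →
    ∃ A : Matrix (Fin n) (Fin n) ℝ, A.det ≠ 0 ∧
      (∀ x : Fin n → ℝ, ∃ u ∈ K, ∃ m : Fin n → ℤ, x = u + A.mulVec (fun i => (m i : ℝ))) ∧
      (volume K).toReal ≤ (n : ℝ) * (Real.log n) ^ 15 * |A.det| := by
  obtain ⟨d₀, hcw⟩ := core_window
  obtain ⟨n₀, hp⟩ := params_log2 d₀
  refine ⟨n₀, fun n hn K hc hK hi => ?_⟩
  obtain ⟨d, t, rfl, ht, hd, h8, h1, h2, hgrid, hfinal⟩ := hp n hn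
  obtain ⟨L, K₀, hL, hK₀c, hK₀K, hsub, hK₀pos, hvle, hrad, hiso, hmean⟩ :=
    truncated_position2 (by omega) K hc hK hi
  obtain ⟨E, z₀, V₀, hE, hV₀, hwin, hVle⟩ :=
    window_fine2 ht K₀ hK₀c hK₀K hK₀pos hrad hiso hmean hgrid
  set Kst : Set (Fin (d + t) → ℝ) := E.mulVec '' K₀ with hKst
  set K₂ : Set ((Fin d → ℝ) × (Fin t → ℝ)) := splitMap d t '' Kst with hK₂
  have hKstc : Convex ℝ Kst := hK₀c.is_linear_image (mulVec_isLinear2 E)
  have hKstK : IsCompact Kst := hK₀K.image (mulVec_continuous2 E)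
  have hK₂c : Convex ℝ K₂ := hKstc.is_linear_image splitMap_isLinear2
  have hK₂K : IsCompact K₂ := hKstK.image splitMap_continuous2
  -- the window matrix
  set S : Matrix (Fin t) (Fin t) ℝ := (7 / 100 : ℝ) • (1 : Matrix (Fin t) (Fin t) ℝ) with hS
  have hSdet : S.det = (7 / 100 : ℝ) ^ t := by
    rw [hS, Matrix.det_smul, Matrix.det_one, mul_one, Fintype.card_fin]
  have hSne : S.det ≠ 0 := by
    rw [hSdet]
    positivity
  have hSmul : ∀ x : Fin t → ℝ, S.mulVec x = (7 / 100 : ℝ) • x := by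
    intro x
    rw [hS, Matrix.smul_mulVec, Matrix.one_mulVec]
  have hwin' : ∀ x : Fin t → ℝ, (∀ i, |x i| ≤ 2) → V₀ ≤ secVol K₂ (z₀ + S.mulVec x) := by
    intro x hx
    apply hwin
    intro i
    rw [hSmul]
    simp only [Pi.smul_apply, smul_eq_mul, abs_mul]
    have := hx i
    rw [abs_of_pos (by norm_num : (0 : ℝ) < 7 / 100)]
    linarith
  obtain ⟨A₂, hA₂, hcov, hbound⟩ := hcw d hd t (d + t) rfl h8 h1 h2 K₂ hK₂c hK₂K S z₀ V₀ hSne hV₀ hwin'
  set κ : ℝ := ((1 - 2 / ((d + t : ℕ) : ℝ))⁻¹) ^ d * 2 ^ (efin d + 2) with hκ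
  have hle : (volume K₂).toReal ≤ (4 * 215 ^ t * κ) * |A₂.det| := by
    refine hVle.trans ?_
    rw [abs_of_pos (by rw [hSdet]; positivity : 0 < S.det), hSdet] at hbound
    have h5 : (15 : ℝ) ^ t * (100 / 7 : ℝ) ^ t ≤ 215 ^ t := by
      rw [← mul_pow]
      apply pow_le_pow_left₀ (by norm_num)
      norm_num
    have h6 : (100 / 7 : ℝ) ^ t * (7 / 100 : ℝ) ^ t = 1 := by
      rw [← mul_pow]
      norm_num
    have h7 : V₀ = (100 / 7 : ℝ) ^ t * (V₀ * (7 / 100 : ℝ) ^ t) := by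
      calc V₀ = V₀ * ((100 / 7 : ℝ) ^ t * (7 / 100 : ℝ) ^ t) := by rw [h6, mul_one]
        _ = _ := by ring
    have hκA : 0 ≤ κ * |A₂.det| := le_trans (by positivity) hbound
    calc 4 * (15 : ℝ) ^ t * V₀ = 4 * 15 ^ t * ((100 / 7 : ℝ) ^ t * (V₀ * (7 / 100 : ℝ) ^ t)) := by
          rw [← h7]
      _ ≤ 4 * 15 ^ t * ((100 / 7 : ℝ) ^ t * (κ * |A₂.det|)) := by
          gcongr
      _ = 4 * ((15 : ℝ) ^ t * (100 / 7 : ℝ) ^ t) * (κ * |A₂.det|) := by ring
      _ ≤ 4 * 215 ^ t * (κ * |A₂.det|) := by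
          apply mul_le_mul_of_nonneg_right _ hκA
          linarith
      _ = _ := by ring
  obtain ⟨A', hA', hcov', hvolst⟩ := wrap_at (4 * 215 ^ t * κ) Kst K₂ rfl A₂ hA₂ hcov hle
  -- back to `K`
  set M : Matrix (Fin (d + t)) (Fin (d + t)) ℝ := E * L with hM
  have hMdet : M.det ≠ 0 := by
    rw [hM, Matrix.det_mul]
    exact mul_ne_zero hE hL
  have hMunit : IsUnit M.det := isUnit_iff_ne_zero.mpr hMdet
  refine ⟨M⁻¹ * A', ?_, ?_, ?_⟩
  · rw [Matrix.det_mul, Matrix.det_nonsing_inv, Ring.inverse_eq_inv']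
    exact mul_ne_zero (inv_ne_zero hMdet) hA'
  · intro x
    obtain ⟨u, hu, m, hx⟩ := hcov' (M.mulVec x)
    obtain ⟨w, hw, rfl⟩ := hu
    obtain ⟨v, hv, rfl⟩ := hsub hw
    refine ⟨v, hv, m, ?_⟩
    have e1 : E.mulVec (L.mulVec v) = M.mulVec v := by
      rw [hM, Matrix.mulVec_mulVec]
    rw [e1] at hx
    have e2 : x = M⁻¹.mulVec (M.mulVec x) := by
      rw [Matrix.mulVec_mulVec, Matrix.nonsing_inv_mul _ hMunit, Matrix.one_mulVec]
    rw [e2, hx, Matrix.mulVec_add, Matrix.mulVec_mulVec, Matrix.nonsing_inv_mul _ hMunit,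
      Matrix.one_mulVec, Matrix.mulVec_mulVec]
  · have hdetE : 0 < |E.det| := abs_pos.mpr hE
    have hdetL : 0 < |L.det| := abs_pos.mpr hL
    have hdetM : |M.det| = |E.det| * |L.det| := by
      rw [hM, Matrix.det_mul, abs_mul]
    have hA : |(M⁻¹ * A').det| = |A'.det| / (|E.det| * |L.det|) := by
      rw [Matrix.det_mul, Matrix.det_nonsing_inv, Ring.inverse_eq_inv', abs_mul, abs_inv, hdetM]
      field_simp
    have hvolst' : (volume Kst).toReal = |E.det| * (volume K₀).toReal := by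
      rw [hKst, vol_image_mulVec2, ENNReal.toReal_mul, ENNReal.toReal_ofReal (abs_nonneg _)]
    have hfinal' : (1156 / 1155) * (4 * 215 ^ t * κ) ≤
        ((d + t : ℕ) : ℝ) * (Real.log ((d + t : ℕ) : ℝ)) ^ 15 := by
      calc (1156 / 1155) * (4 * 215 ^ t * κ) =
          (1156 / 1155) * (4 * 215 ^ t) * ((1 - 2 / ((d + t : ℕ) : ℝ))⁻¹) ^ d * 2 ^ (efin d + 2) := by
            rw [hκ]
            ring
        _ ≤ _ := hfinal
    rw [hA]
    have hAprime : 0 ≤ |A'.det| := abs_nonneg _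
    have hkey : (volume K).toReal * (|E.det| * |L.det|) ≤ (1156 / 1155) * (4 * 215 ^ t * κ) * |A'.det| := by
      calc (volume K).toReal * (|E.det| * |L.det|) = |E.det| * (|L.det| * (volume K).toReal) := by ring
        _ ≤ |E.det| * ((1156 / 1155) * (volume K₀).toReal) := mul_le_mul_of_nonneg_left hvle hdetE.le
        _ = (1156 / 1155) * (|E.det| * (volume K₀).toReal) := by ring
        _ = (1156 / 1155) * (volume Kst).toReal := by rw [hvolst']
        _ ≤ (1156 / 1155) * ((4 * 215 ^ t * κ) * |A'.det|) :=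
            mul_le_mul_of_nonneg_left hvolst (by norm_num)
        _ = _ := by ring
    have hpos : 0 < |E.det| * |L.det| := mul_pos hdetE hdetL
    calc (volume K).toReal ≤ ((1156 / 1155) * (4 * 215 ^ t * κ) * |A'.det|) / (|E.det| * |L.det|) := by
          rwa [le_div_iff₀ hpos]
      _ = (1156 / 1155) * (4 * 215 ^ t * κ) * (|A'.det| / (|E.det| * |L.det|)) := by ring
      _ ≤ _ := by
          apply mul_le_mul_of_nonneg_right hfinal' (by positivity)

end Vale.Agent.Lib.P230
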