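import Vale.Agent.Lib.P230.Stubs7
import Vale.Agent.Lib.P230.FineBridge
import Vale.Agent.Lib.P230.Sections

/-!
# P230: assembly of the tuned fine window.
-/

set_option autoImplicit false
set_option linter.unusedSectionVars false
set_option linter.unusedSimpArgs false
set_option linter.unusedVariables false

open MeasureTheory Finset
open scoped ENNReal Matrix

namespace Vale.Agent.Lib.P230

variable {d t : ℕ}

/-- The fine window for a truncated isotropic body. -/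
theorem window_fine2 (ht : 3 ≤ t) (K₀ : Set (Fin (d + t) → ℝ)) (hc : Convex ℝ K₀)
    (hK : IsCompact K₀) (hvol : 0 < volume K₀)
    (hrad : ∀ x ∈ K₀, ∑ j, x j ^ 2 ≤ 1156 * ((d + t : ℕ) : ℝ))
    (hiso : ∀ a : Fin (d + t) → ℝ,
      ∫ x in K₀, (a ⬝ᵥ x) ^ 2 ≤ (1156 / 1155) * (∑ j, a j ^ 2) * (volume K₀).toReal)
    (hmean : ((9 / 10) * ((d + t : ℕ) : ℝ)) * (volume K₀).toReal ≤ ∫ x in K₀, ∑ j, x j ^ 2)
    (hnum : 1600 * ((5602 * (t : ℝ) + 1) ^ t) * ((49 / 4) * (t : ℝ)) * Real.exp (28322 * (t : ℝ)) ≤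
      Real.sqrt ((d + t : ℕ) : ℝ)) :
    ∃ (E : Matrix (Fin (d + t)) (Fin (d + t)) ℝ) (z₀ : Fin t → ℝ) (V₀ : ℝ), E.det ≠ 0 ∧ 0 < V₀ ∧
      (∀ x : Fin t → ℝ, (∀ i, |x i| ≤ 7 / 50) →
        V₀ ≤ secVol (splitMap d t '' (E.mulVec '' K₀)) (z₀ + x)) ∧
      (volume (splitMap d t '' (E.mulVec '' K₀))).toReal ≤ 4 * 15 ^ t * V₀ := by
  classical
  have ht1 : 1 ≤ t := by omega
  have hn : 0 < d + t := by omega
  have hfin : volume K₀ ≠ ⊤ := hK.measure_lt_top.ne
  have hne : volume K₀ ≠ 0 := hvol.ne'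
  set v : ℝ := (volume K₀).toReal with hv
  have hv0 : 0 < v := ENNReal.toReal_pos hne hfin
  set P : Measure (Fin (d + t) → ℝ) := (volume K₀)⁻¹ • volume.restrict K₀ with hP
  have hPprob : IsProbabilityMeasure P := by
    constructor
    simp only [hP, Measure.smul_apply, Measure.restrict_apply MeasurableSet.univ, Set.univ_inter,
      smul_eq_mul]
    exact ENNReal.inv_mul_cancel hne hfin
  have hint : ∀ f : (Fin (d + t) → ℝ) → ℝ, ∫ x, f x ∂P = v⁻¹ * ∫ x in K₀, f x := by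
    intro f
    rw [hP, integral_smul_measure, ENNReal.toReal_inv, smul_eq_mul]
  have hsupp : ∀ᵐ x ∂P, ∑ j, x j ^ 2 ≤ 1156 * ((d + t : ℕ) : ℝ) := by
    have h1 : ∀ᵐ x ∂(volume.restrict K₀), ∑ j, x j ^ 2 ≤ 1156 * ((d + t : ℕ) : ℝ) :=
      ae_restrict_of_forall_mem hK.measurableSet hrad
    exact Measure.ae_smul_measure h1 _
  have hiso' : ∀ a : Fin (d + t) → ℝ, ∫ x, (a ⬝ᵥ x) ^ 2 ∂P ≤ (1156 / 1155) * ∑ j, a j ^ 2 := by
    intro a
    rw [hint, inv_mul_le_iff₀ hv0]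
    have := hiso a
    linarith
  have hmean' : (9 / 10) * ((d + t : ℕ) : ℝ) ≤ ∫ x, ∑ j, x j ^ 2 ∂P := by
    rw [hint, le_inv_mul_iff₀ hv0]
    linarith
  -- the frame
  have hcard : ((testGrid2 t).card : ℝ) ≤ (5602 * (t : ℝ) + 1) ^ t := by
    have h1 : (testGrid2 t).card ≤ (5602 * t + 1) ^ t := by
      unfold testGrid2
      refine (Finset.card_filter_le _ _).trans (Finset.card_image_le.trans ?_)
      rw [Fintype.card_piFinset]
      simp only [Int.card_Icc, Finset.prod_const, Finset.card_univ, Fintype.card_fin]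
      apply le_of_eq
      congr 1
      omega
    have h2 : ((testGrid2 t).card : ℝ) ≤ (((5602 * t + 1) ^ t : ℕ) : ℝ) := by
      exact_mod_cast h1
    push_cast at h2
    exact h2
  have hgridW : ∀ w ∈ testGrid2 t, ∑ i, w i ^ 2 ≤ (49 / 4) * (t : ℝ) := by
    intro w hw
    unfold testGrid2 at hw
    exact (Finset.mem_filter.mp hw).2
  have hnum' : 1600 * ((testGrid2 t).card : ℝ) * ((49 / 4) * (t : ℝ)) *
      Real.exp (2312 * ((49 / 4) * (t : ℝ))) ≤ Real.sqrt ((d + t : ℕ) : ℝ) := by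
    refine le_trans ?_ hnum
    have e : (2312 : ℝ) * ((49 / 4) * (t : ℝ)) = 28322 * (t : ℝ) := by ring
    rw [e]
    have h3 : 0 ≤ ((49 / 4) * (t : ℝ)) * Real.exp (28322 * (t : ℝ)) := by positivity
    have h4 := mul_le_mul_of_nonneg_right hcard h3
    nlinarith
  obtain ⟨θ, hSig, hb⟩ := gaussian_frame2 hn ht1 P hsupp hiso' (testGrid2 t) ((49 / 4) * (t : ℝ)) hgridW hnum'
  have hLap := laplace_all2 hn ht1 P hsupp hmean' θ hb
  have ht0 : (0 : ℝ) < t := by exact_mod_cast (by omega : 0 < t)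
  -- independence of the frame
  have hθ : LinearIndependent ℝ θ := by
    rw [Fintype.linearIndependent_iff]
    intro g hg i
    by_contra hgi
    have hs : 0 < ∑ i, g i ^ 2 :=
      Finset.sum_pos' (fun j _ => sq_nonneg _) ⟨i, Finset.mem_univ _, by positivity⟩
    set c : ℝ := Real.sqrt ((49 / 4) * (t : ℝ) / ∑ i, g i ^ 2) with hc'
    have hc2 : c ^ 2 = (49 / 4) * (t : ℝ) / ∑ i, g i ^ 2 := Real.sq_sqrt (by positivity)
    have hξ : ∑ j, (c * g j) ^ 2 = (49 / 4) * (t : ℝ) := by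
      simp_rw [mul_pow]
      rw [← Finset.mul_sum, hc2]
      field_simp
    have h1 := hLap (fun j => c * g j) hξ
    have h2 : frameLap P θ (fun j => c * g j) = 1 := by
      unfold frameLap
      have h3 : ∀ x : Fin (d + t) → ℝ, ∑ j, c * g j * (θ j ⬝ᵥ x) = 0 := by
        intro x
        have h4 : (∑ j, g j • θ j) ⬝ᵥ x = ∑ j, g j * (θ j ⬝ᵥ x) := by
          simp only [dotProduct, Finset.sum_apply, Pi.smul_apply, smul_eq_mul, Finset.sum_mul,
            Finset.mul_sum]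
          rw [Finset.sum_comm]
          simp only [mul_assoc]
        rw [hg] at h4
        simp only [zero_dotProduct] at h4
        simp_rw [mul_assoc]
        rw [← Finset.mul_sum, ← h4, mul_zero]
      simp_rw [h3]
      simp
    rw [h2] at h1
    have h5 := Real.add_one_le_exp ((539 / 100) * (t : ℝ))
    have h6 : (1 : ℝ) ≤ t := by exact_mod_cast ht1
    nlinarith
  obtain ⟨E, hE, hErow⟩ := extend_frame θ hθ
  refine ⟨E, ?_⟩
  have hπ : ∀ x : Fin (d + t) → ℝ, (fun i => E (Fin.natAdd d i) ⬝ᵥ x) = fun i => θ i ⬝ᵥ x := by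
    intro x
    funext i
    rw [hErow]
  set Kst : Set (Fin (d + t) → ℝ) := E.mulVec '' K₀ with hKst
  set K₂ : Set ((Fin d → ℝ) × (Fin t → ℝ)) := splitMap d t '' Kst with hK₂
  have hKstc : Convex ℝ Kst := hc.is_linear_image (mulVec_isLinear2 E)
  have hKstK : IsCompact Kst := hK.image (mulVec_continuous2 E)
  have hK₂c : Convex ℝ K₂ := hKstc.is_linear_image splitMap_isLinear2
  have hK₂K : IsCompact K₂ := hKstK.image splitMap_continuous2
  obtain ⟨h0, hm, hbd, hs, hl, hv₂⟩ := section_props K₂ hK₂c hK₂K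
  have hbr := bridge2 E hE K₀ hK hm h0
  have hdet : 0 < |E.det| := abs_pos.mpr hE
  have hvK : (volume K₂).toReal = |E.det| * v := by
    have h1 := hbr (fun _ => 1) measurable_const (fun _ => zero_le_one)
    rw [hv₂, ← integral_eq_lintegral_of_nonneg_ae (Filter.Eventually.of_forall h0)
      hm.aestronglyMeasurable]
    simp only [one_mul] at h1
    rw [h1]
    simp [hv, Measure.real]
  set V : ℝ := (volume K₂).toReal with hV
  have hV0 : 0 < V := by
    rw [hvK]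
    positivity
  have hVint : ∫ z, secVol K₂ z = V := by
    rw [hV, hv₂, ← integral_eq_lintegral_of_nonneg_ae (Filter.Eventually.of_forall h0)
      hm.aestronglyMeasurable]
  have hsq : ∫ z, (∑ i, z i ^ 2) * secVol K₂ z ≤ (111 / 100) * (t : ℝ) * V := by
    have hmeas : Measurable fun z : Fin t → ℝ => ∑ i, z i ^ 2 := by fun_prop
    rw [hbr (fun z => ∑ i, z i ^ 2) hmeas (fun z => Finset.sum_nonneg fun i _ => sq_nonneg _), hvK]
    simp only [hErow]
    have hcontθ : ∀ i, Continuous fun x : Fin (d + t) → ℝ => (θ i ⬝ᵥ x) ^ 2 := fun i =>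
      (Continuous.dotProduct continuous_const continuous_id).pow 2
    have h1 : ∫ x in K₀, ∑ i, (θ i ⬝ᵥ x) ^ 2 = ∑ i, ∫ x in K₀, (θ i ⬝ᵥ x) ^ 2 := by
      apply integral_finsetSum
      intro i _
      exact (hcontθ i).continuousOn.integrableOn_compact hK
    rw [h1]
    have h2 : ∑ i, ∫ x in K₀, (θ i ⬝ᵥ x) ^ 2 ≤ (111 / 100) * (t : ℝ) * v := by
      calc ∑ i, ∫ x in K₀, (θ i ⬝ᵥ x) ^ 2 ≤ ∑ i, (1156 / 1155) * (∑ j, θ i j ^ 2) * v :=
            Finset.sum_le_sum fun i _ => hiso (θ i)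
        _ = (1156 / 1155) * (∑ i, ∑ j, θ i j ^ 2) * v := by
            rw [Finset.mul_sum, Finset.sum_mul]
        _ ≤ (1156 / 1155) * ((11 / 10) * (t : ℝ)) * v := by
            apply mul_le_mul_of_nonneg_right _ hv0.le
            linarith
        _ ≤ _ := by
            apply mul_le_mul_of_nonneg_right _ hv0.le
            nlinarith
    calc |E.det| * ∑ i, ∫ x in K₀, (θ i ⬝ᵥ x) ^ 2 ≤ |E.det| * ((111 / 100) * (t : ℝ) * v) :=
          mul_le_mul_of_nonneg_left h2 hdet.le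
      _ = _ := by ring
  have hLap' : ∀ w : Fin t → ℝ, ∑ i, w i ^ 2 = (49 / 4) * (t : ℝ) →
      V * ((48 / 100) * Real.exp ((539 / 100) * (t : ℝ))) ≤ ∫ z, Real.exp (∑ i, w i * z i) * secVol K₂ z := by
    intro w hw
    have hmeas : Measurable fun z : Fin t → ℝ => Real.exp (∑ i, w i * z i) := by fun_prop
    rw [hbr (fun z => Real.exp (∑ i, w i * z i)) hmeas (fun z => (Real.exp_pos _).le), hvK]
    simp only [hErow]
    have h1 := hLap w hw
    have h2 : frameLap P θ w = v⁻¹ * ∫ x in K₀, Real.exp (∑ i, w i * (θ i ⬝ᵥ x)) := hint _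
    rw [h2, le_inv_mul_iff₀ hv0] at h1
    calc |E.det| * v * ((48 / 100) * Real.exp ((539 / 100) * (t : ℝ)))
        = |E.det| * (v * ((48 / 100) * Real.exp ((539 / 100) * (t : ℝ)))) := by ring
      _ ≤ _ := mul_le_mul_of_nonneg_left h1 hdet.le
  obtain ⟨z₀, V₀, hV₀, hwin, hVle⟩ := window_from_laplace2 ht (secVol K₂) h0 hm hl hbd hs V hV0 hVint hsq hLap'
  exact ⟨z₀, V₀, hE, hV₀, hwin, hVle⟩

end Vale.Agent.Lib.P230
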