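import Vale.Agent.Lib.P230.FineDefs

/-! Module W1 of the fine window of P230: second moment method over Gaussian frames. -/

set_option autoImplicit false

open MeasureTheory Finset ProbabilityTheory
open scoped ENNReal Matrix NNReal

namespace Vale.Agent.Lib.P230

namespace Gframe

section Gauss

variable {ι : Type*} [Fintype ι]

/-- Product Gaussian measure. -/
noncomputable def gam (ι : Type*) [Fintype ι] (v : ℝ≥0) : Measure (ι → ℝ) :=
  Measure.pi fun _ : ι => gaussianReal 0 v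

instance (v : ℝ≥0) : IsProbabilityMeasure (gam ι v) := by
  unfold gam; infer_instance

lemma exp_sum_eq (s θ : ι → ℝ) :
    Real.exp (∑ p, s p * θ p) = ∏ p, Real.exp (s p * θ p) := by
  rw [Real.exp_sum]

lemma gauss_int (v : ℝ≥0) (s : ι → ℝ) :
    Integrable (fun θ : ι → ℝ => Real.exp (∑ p, s p * θ p)) (gam ι v) := by
  have h : (fun θ : ι → ℝ => Real.exp (∑ p, s p * θ p)) =
      fun θ => ∏ p, (fun p x => Real.exp (s p * x)) p (θ p) := by
    ext θ; rw [exp_sum_eq]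
  rw [h]
  exact Integrable.fintype_prod (fun p => integrable_exp_mul_gaussianReal (s p))

lemma gauss_one (v : ℝ≥0) (t : ℝ) :
    ∫ x, Real.exp (t * x) ∂(gaussianReal 0 v) = Real.exp ((v : ℝ) * t ^ 2 / 2) := by
  have h := congrFun (mgf_fun_id_gaussianReal (μ := 0) (v := v)) t
  simp only [mgf] at h
  rw [h]; congr 1; ring

lemma gauss_mgf (v : ℝ≥0) (s : ι → ℝ) :
    ∫ θ, Real.exp (∑ p, s p * θ p) ∂(gam ι v) = Real.exp ((v : ℝ) * (∑ p, s p ^ 2) / 2) := by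
  have h : (fun θ : ι → ℝ => Real.exp (∑ p, s p * θ p)) =
      fun θ => ∏ p, (fun p x => Real.exp (s p * x)) p (θ p) := by
    ext θ; rw [exp_sum_eq]
  rw [h]
  unfold gam
  rw [integral_fintype_prod_eq_prod (𝕜 := ℝ) (E := fun _ => ℝ)
    (fun p x => Real.exp (s p * x)) (μ := fun _ => gaussianReal 0 v)]
  simp_rw [gauss_one]
  rw [← Real.exp_sum]
  congr 1
  rw [Finset.mul_sum, Finset.sum_div]

lemma coord_int (v : ℝ≥0) (p : ι) : Integrable (fun θ : ι → ℝ => θ p ^ 2) (gam ι v) := by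
  have hm : MeasurePreserving (Function.eval p) (gam ι v) (gaussianReal 0 v) :=
    measurePreserving_eval (fun _ : ι => gaussianReal 0 v) p
  have h2 : Integrable (fun x : ℝ => x ^ 2) (gaussianReal 0 v) :=
    (memLp_id_gaussianReal (μ := 0) (v := v) 2).integrable_sq
  exact hm.integrable_comp_of_integrable h2

lemma coord_sq (v : ℝ≥0) (p : ι) : ∫ θ : ι → ℝ, θ p ^ 2 ∂(gam ι v) = v := by
  have hm : MeasurePreserving (Function.eval p) (gam ι v) (gaussianReal 0 v) :=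
    measurePreserving_eval (fun _ : ι => gaussianReal 0 v) p
  have h1 : ∫ θ : ι → ℝ, θ p ^ 2 ∂(gam ι v) = ∫ x : ℝ, x ^ 2 ∂(gaussianReal 0 v) := by
    rw [← hm.map_eq, integral_map (measurable_pi_apply p).aemeasurable
      (by rw [hm.map_eq]; exact (by fun_prop : Measurable fun x : ℝ => x ^ 2).aestronglyMeasurable)]
  rw [h1]
  have hv := variance_id_gaussianReal (μ := 0) (v := v)
  have hs := variance_eq_sub (μ := gaussianReal 0 v) (X := id)
    (memLp_id_gaussianReal (μ := 0) (v := v) 2)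
  rw [hv] at hs
  have hi : (∫ x, id x ∂(gaussianReal 0 v)) = 0 := integral_id_gaussianReal
  rw [hi] at hs
  simpa using hs.symm

variable {X : Type*} [MeasurableSpace X]

/-- Fubini for the Gaussian exponential. -/
lemma fub_int (v : ℝ≥0) (ρ : Measure X) [IsProbabilityMeasure ρ] (s : X → ι → ℝ)
    (hs : ∀ p, Measurable fun x => s x p) (C : ℝ)
    (hC : ∀ᵐ x ∂ρ, ∑ p, s x p ^ 2 ≤ C) :
    Integrable (fun z : (ι → ℝ) × X => Real.exp (∑ p, s z.2 p * z.1 p)) ((gam ι v).prod ρ) := by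
  have hmeas : Measurable (fun z : (ι → ℝ) × X => Real.exp (∑ p, s z.2 p * z.1 p)) := by
    apply Real.measurable_exp.comp
    apply Finset.measurable_sum
    intro p _
    exact ((hs p).comp measurable_snd).mul ((measurable_pi_apply p).comp measurable_fst)
  rw [integrable_prod_iff' hmeas.aestronglyMeasurable]
  constructor
  · exact Filter.Eventually.of_forall fun x => gauss_int v (s x)
  · have he : (fun x : X => ∫ θ, ‖Real.exp (∑ p, s (θ, x).2 p * (θ, x).1 p)‖ ∂(gam ι v)) =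
        fun x => Real.exp ((v : ℝ) * (∑ p, s x p ^ 2) / 2) := by
      ext x
      simp only [Real.norm_eq_abs, Real.abs_exp]
      exact gauss_mgf v (s x)
    rw [he]
    have hm2 : Measurable (fun x : X => Real.exp ((v : ℝ) * (∑ p, s x p ^ 2) / 2)) := by
      apply Real.measurable_exp.comp
      apply Measurable.div_const
      apply Measurable.const_mul
      exact Finset.measurable_sum _ (fun p _ => (hs p).pow_const 2)
    refine Integrable.of_bound hm2.aestronglyMeasurable (Real.exp ((v : ℝ) * C / 2)) ?_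
    filter_upwards [hC] with x hx
    rw [Real.norm_eq_abs, Real.abs_exp]
    apply Real.exp_le_exp.2
    have hv : (0 : ℝ) ≤ v := v.2
    have := mul_le_mul_of_nonneg_left hx hv
    linarith

lemma fub_eq (v : ℝ≥0) (ρ : Measure X) [IsProbabilityMeasure ρ] (s : X → ι → ℝ)
    (hs : ∀ p, Measurable fun x => s x p) (C : ℝ)
    (hC : ∀ᵐ x ∂ρ, ∑ p, s x p ^ 2 ≤ C) :
    ∫ θ, (∫ x, Real.exp (∑ p, s x p * θ p) ∂ρ) ∂(gam ι v) =
      ∫ x, Real.exp ((v : ℝ) * (∑ p, s x p ^ 2) / 2) ∂ρ := by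
  rw [integral_integral_swap (f := fun (θ : ι → ℝ) (x : X) => Real.exp (∑ p, s x p * θ p))
    (fub_int v ρ s hs C hC)]
  exact integral_congr_ae (Filter.Eventually.of_forall fun x => gauss_mgf v (s x))

lemma fub_inner_int (v : ℝ≥0) (ρ : Measure X) [IsProbabilityMeasure ρ] (s : X → ι → ℝ)
    (hs : ∀ p, Measurable fun x => s x p) (C : ℝ)
    (hC : ∀ᵐ x ∂ρ, ∑ p, s x p ^ 2 ≤ C) :
    Integrable (fun θ => ∫ x, Real.exp (∑ p, s x p * θ p) ∂ρ) (gam ι v) :=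
  (fub_int v ρ s hs C hC).integral_prod_left

end Gauss

section Main

variable {n t : ℕ}

/-- The coefficient vector of the exponent. -/
noncomputable def sx (w : Fin t → ℝ) (x : Fin n → ℝ) : Fin t × Fin n → ℝ :=
  fun p => w p.1 * x p.2

lemma sx_sq (w : Fin t → ℝ) (x : Fin n → ℝ) :
    ∑ p, sx w x p ^ 2 = (∑ i, w i ^ 2) * ∑ j, x j ^ 2 := by
  rw [Fintype.sum_prod_type, Finset.sum_mul_sum]
  refine Finset.sum_congr rfl fun i _ => Finset.sum_congr rfl fun j _ => ?_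
  simp only [sx]; ring

/-- The Laplace transform as a function of the frame, flat coordinates. -/
noncomputable def Lf (P : Measure (Fin n → ℝ)) (w : Fin t → ℝ) (θ : Fin t × Fin n → ℝ) : ℝ :=
  ∫ x, Real.exp (∑ p, sx w x p * θ p) ∂P

lemma frameLap_eq (P : Measure (Fin n → ℝ)) (w : Fin t → ℝ) (θ : Fin t × Fin n → ℝ) :
    frameLap P (fun i j => θ (i, j)) w = Lf P w θ := by
  unfold frameLap Lf
  refine integral_congr_ae (Filter.Eventually.of_forall fun x => ?_)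
  simp only
  congr 1
  rw [Fintype.sum_prod_type]
  refine Finset.sum_congr rfl fun i _ => ?_
  simp only [dotProduct, sx, Finset.mul_sum]
  refine Finset.sum_congr rfl fun j _ => ?_
  ring

lemma sx_meas (w : Fin t → ℝ) (p : Fin t × Fin n) : Measurable fun x : Fin n → ℝ => sx w x p :=
  (measurable_pi_apply p.2).const_mul _

/-- The variance of the Gaussian coordinates. -/
noncomputable def vn (n : ℕ) : ℝ≥0 := (n : ℝ≥0)⁻¹

lemma vn_coe (n : ℕ) : ((vn n : ℝ≥0) : ℝ) = (n : ℝ)⁻¹ := by simp [vn]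

variable (P : Measure (Fin n → ℝ)) [IsProbabilityMeasure P]

lemma sx_bound (hsupp : ∀ᵐ x ∂P, ∑ j, x j ^ 2 ≤ 10 * (n : ℝ)) (w : Fin t → ℝ) :
    ∀ᵐ x ∂P, ∑ p, sx w x p ^ 2 ≤ (∑ i, w i ^ 2) * (10 * (n : ℝ)) := by
  filter_upwards [hsupp] with x hx
  rw [sx_sq]
  exact mul_le_mul_of_nonneg_left hx (Finset.sum_nonneg fun i _ => sq_nonneg _)

lemma Lf_int (hsupp : ∀ᵐ x ∂P, ∑ j, x j ^ 2 ≤ 10 * (n : ℝ)) (w : Fin t → ℝ) :
    Integrable (Lf P w) (gam (Fin t × Fin n) (vn n)) :=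
  fub_inner_int (vn n) P (sx w) (sx_meas w) _ (sx_bound P hsupp w)

lemma mean_exp (hn : 0 < n) (w : Fin t → ℝ) (x : Fin n → ℝ) :
    Real.exp (((vn n : ℝ≥0) : ℝ) * (∑ p, sx w x p ^ 2) / 2) =
      Real.exp ((∑ i, w i ^ 2) * (∑ j, x j ^ 2) / (2 * (n : ℝ))) := by
  rw [sx_sq, vn_coe]
  congr 1
  have : (n : ℝ) ≠ 0 := by positivity
  field_simp

lemma Lf_mean (hn : 0 < n) (hsupp : ∀ᵐ x ∂P, ∑ j, x j ^ 2 ≤ 10 * (n : ℝ)) (w : Fin t → ℝ) :
    ∫ θ, Lf P w θ ∂(gam (Fin t × Fin n) (vn n)) = frameMean P w := by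
  unfold Lf frameMean
  rw [fub_eq (vn n) P (sx w) (sx_meas w) _ (sx_bound P hsupp w)]
  exact integral_congr_ae (Filter.Eventually.of_forall fun x => mean_exp hn w x)

/-- The doubled coefficient vector. -/
noncomputable def s2 (w : Fin t → ℝ) (z : (Fin n → ℝ) × (Fin n → ℝ)) : Fin t × Fin n → ℝ :=
  fun p => sx w z.1 p + sx w z.2 p

lemma s2_eq (w : Fin t → ℝ) (z : (Fin n → ℝ) × (Fin n → ℝ)) :
    s2 w z = sx w (z.1 + z.2) := by
  ext p; simp [s2, sx]; ring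

lemma s2_meas (w : Fin t → ℝ) (p : Fin t × Fin n) :
    Measurable fun z : (Fin n → ℝ) × (Fin n → ℝ) => s2 w z p :=
  ((sx_meas w p).comp measurable_fst).add ((sx_meas w p).comp measurable_snd)

lemma ae_fst (hsupp : ∀ᵐ x ∂P, ∑ j, x j ^ 2 ≤ 10 * (n : ℝ)) :
    ∀ᵐ z ∂(P.prod P), ∑ j, z.1 j ^ 2 ≤ 10 * (n : ℝ) :=
  (Measure.quasiMeasurePreserving_fst (μ := P) (ν := P)).ae hsupp

lemma ae_snd (hsupp : ∀ᵐ x ∂P, ∑ j, x j ^ 2 ≤ 10 * (n : ℝ)) :
    ∀ᵐ z ∂(P.prod P), ∑ j, z.2 j ^ 2 ≤ 10 * (n : ℝ) :=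
  (Measure.quasiMeasurePreserving_snd (μ := P) (ν := P)).ae hsupp

lemma sum_add_sq (x y : Fin n → ℝ) :
    ∑ j, (x + y) j ^ 2 = ∑ j, x j ^ 2 + ∑ j, y j ^ 2 + 2 * (x ⬝ᵥ y) := by
  simp only [dotProduct, Pi.add_apply, Finset.mul_sum, ← Finset.sum_add_distrib]
  refine Finset.sum_congr rfl fun j _ => ?_
  ring

lemma dot_sq_le (x y : Fin n → ℝ) : (x ⬝ᵥ y) ^ 2 ≤ (∑ j, x j ^ 2) * ∑ j, y j ^ 2 :=
  Finset.sum_mul_sq_le_sq_mul_sq _ _ _

lemma s2_bound (hsupp : ∀ᵐ x ∂P, ∑ j, x j ^ 2 ≤ 10 * (n : ℝ)) (w : Fin t → ℝ) :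
    ∀ᵐ z ∂(P.prod P), ∑ p, s2 w z p ^ 2 ≤ (∑ i, w i ^ 2) * (40 * (n : ℝ)) := by
  filter_upwards [ae_fst P hsupp, ae_snd P hsupp] with z h1 h2
  rw [s2_eq, sx_sq]
  apply mul_le_mul_of_nonneg_left _ (Finset.sum_nonneg fun i _ => sq_nonneg _)
  rw [sum_add_sq]
  have h3 := dot_sq_le z.1 z.2
  have h4 : (z.1 ⬝ᵥ z.2) ≤ 10 * (n : ℝ) := by
    have hn0 : (0 : ℝ) ≤ (n : ℝ) := Nat.cast_nonneg n
    have hx1 : 0 ≤ ∑ j, z.1 j ^ 2 := Finset.sum_nonneg fun i _ => sq_nonneg _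
    have hx2 : 0 ≤ ∑ j, z.2 j ^ 2 := Finset.sum_nonneg fun i _ => sq_nonneg _
    have : (z.1 ⬝ᵥ z.2) ^ 2 ≤ (10 * (n : ℝ)) ^ 2 := by
      calc _ ≤ _ := h3
        _ ≤ (10 * (n : ℝ)) * (10 * (n : ℝ)) := mul_le_mul h1 h2 hx2 (by positivity)
        _ = _ := by ring
    exact abs_le_of_sq_le_sq' this (by positivity) |>.2
  linarith

lemma Lf_sq (w : Fin t → ℝ) (θ : Fin t × Fin n → ℝ) :
    Lf P w θ ^ 2 = ∫ z, Real.exp (∑ p, s2 w z p * θ p) ∂(P.prod P) := by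
  unfold Lf
  rw [sq, ← integral_prod_mul (fun x : Fin n → ℝ => Real.exp (∑ p, sx w x p * θ p))
    (fun x : Fin n → ℝ => Real.exp (∑ p, sx w x p * θ p))]
  refine integral_congr_ae (Filter.Eventually.of_forall fun z => ?_)
  simp only
  rw [← Real.exp_add, ← Finset.sum_add_distrib]
  congr 1
  refine Finset.sum_congr rfl fun p _ => ?_
  simp only [s2]; ring

lemma Lf_sq_int (hsupp : ∀ᵐ x ∂P, ∑ j, x j ^ 2 ≤ 10 * (n : ℝ)) (w : Fin t → ℝ) :
    Integrable (fun θ => Lf P w θ ^ 2) (gam (Fin t × Fin n) (vn n)) := by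
  simp_rw [Lf_sq]
  exact fub_inner_int (vn n) (P.prod P) (s2 w) (s2_meas w) _ (s2_bound P hsupp w)

lemma Lf_sq_mean (hn : 0 < n) (hsupp : ∀ᵐ x ∂P, ∑ j, x j ^ 2 ≤ 10 * (n : ℝ)) (w : Fin t → ℝ) :
    ∫ θ, Lf P w θ ^ 2 ∂(gam (Fin t × Fin n) (vn n)) =
      ∫ z, Real.exp ((∑ i, w i ^ 2) * (∑ j, (z.1 + z.2) j ^ 2) / (2 * (n : ℝ))) ∂(P.prod P) := by
  simp_rw [Lf_sq]
  rw [fub_eq (vn n) (P.prod P) (s2 w) (s2_meas w) _ (s2_bound P hsupp w)]
  refine integral_congr_ae (Filter.Eventually.of_forall fun z => ?_)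
  simp only
  rw [s2_eq]
  exact mean_exp hn w _

lemma exp_sub_one_le (u : ℝ) : Real.exp u - 1 ≤ |u| * Real.exp |u| := by
  have h1 : Real.exp u ≤ Real.exp |u| := Real.exp_le_exp.2 (le_abs_self u)
  have h2 : 1 - |u| ≤ Real.exp (-|u|) := by linarith [Real.add_one_le_exp (-|u|)]
  have h3 : Real.exp (-|u|) * Real.exp |u| = 1 := by rw [← Real.exp_add]; simp
  have h4 : (1 - |u|) * Real.exp |u| ≤ 1 := by
    calc _ ≤ Real.exp (-|u|) * Real.exp |u| := by gcongr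
      _ = 1 := h3
  nlinarith

/-- Pointwise bound for the variance integrand. -/
lemma diff_pointwise {Wv W N X1 X2 I : ℝ} (hN : 0 < N) (hWv : 0 ≤ Wv) (hW : Wv ≤ W)
    (h1 : X1 ≤ 10 * N) (h2 : X2 ≤ 10 * N) (hI : |I| ≤ 10 * N) :
    Real.exp (Wv * (X1 + X2 + 2 * I) / (2 * N)) -
        Real.exp (Wv * X1 / (2 * N)) * Real.exp (Wv * X2 / (2 * N)) ≤
      Real.exp (20 * W) * (W / N * |I|) := by
  set A := Wv * (X1 + X2) / (2 * N) with hA
  set u := Wv * I / N with hu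
  have e1 : Wv * (X1 + X2 + 2 * I) / (2 * N) = A + u := by
    rw [hA, hu]; field_simp
  have e2 : Real.exp (Wv * X1 / (2 * N)) * Real.exp (Wv * X2 / (2 * N)) = Real.exp A := by
    have e3 : Wv * X1 / (2 * N) + Wv * X2 / (2 * N) = A := by rw [hA]; ring
    rw [← Real.exp_add, e3]
  rw [e1, e2, Real.exp_add]
  have hAle : A ≤ 10 * W := by
    rw [hA, div_le_iff₀ (by positivity)]
    have : Wv * (X1 + X2) ≤ Wv * (20 * N) := mul_le_mul_of_nonneg_left (by linarith) hWv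
    nlinarith
  have hur : |u| = Wv / N * |I| := by
    rw [hu, mul_div_right_comm, abs_mul, abs_of_nonneg (by positivity : 0 ≤ Wv / N)]
  have hule : |u| ≤ 10 * W := by
    rw [hur]
    calc Wv / N * |I| ≤ Wv / N * (10 * N) := by gcongr
      _ = 10 * Wv := by field_simp
      _ ≤ 10 * W := by linarith
  have hu2 : |u| ≤ W / N * |I| := by
    rw [hur]; gcongr
  have hW0 : 0 ≤ W := hWv.trans hW
  have key := exp_sub_one_le u
  have hexp : Real.exp |u| ≤ Real.exp (10 * W) := Real.exp_le_exp.2 hule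
  have hexpA : Real.exp A ≤ Real.exp (10 * W) := Real.exp_le_exp.2 hAle
  have h20 : Real.exp (20 * W) = Real.exp (10 * W) * Real.exp (10 * W) := by
    rw [← Real.exp_add]; congr 1; ring
  have hstep : Real.exp u - 1 ≤ Real.exp (10 * W) * (W / N * |I|) := by
    calc Real.exp u - 1 ≤ |u| * Real.exp |u| := key
      _ ≤ (W / N * |I|) * Real.exp (10 * W) := by
          apply mul_le_mul hu2 hexp (Real.exp_pos _).le (by positivity)
      _ = _ := by ring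
  have hnn : 0 ≤ W / N * |I| := by positivity
  calc Real.exp A * Real.exp u - Real.exp A = Real.exp A * (Real.exp u - 1) := by ring
    _ ≤ Real.exp A * (Real.exp (10 * W) * (W / N * |I|)) :=
        mul_le_mul_of_nonneg_left hstep (Real.exp_pos _).le
    _ ≤ Real.exp (10 * W) * (Real.exp (10 * W) * (W / N * |I|)) :=
        mul_le_mul_of_nonneg_right hexpA (by positivity)
    _ = _ := by rw [h20]; ring

lemma exp_int_of_bound {Y : Type*} [MeasurableSpace Y] (ρ : Measure Y) [IsProbabilityMeasure ρ]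
    (f : Y → ℝ) (hf : Measurable f) (C : ℝ) (h : ∀ᵐ y ∂ρ, f y ≤ C) :
    Integrable (fun y => Real.exp (f y)) ρ := by
  refine Integrable.of_bound (Real.measurable_exp.comp hf).aestronglyMeasurable (Real.exp C) ?_
  filter_upwards [h] with y hy
  rw [Real.norm_eq_abs, Real.abs_exp]
  exact Real.exp_le_exp.2 hy

lemma sumsq_meas : Measurable fun x : Fin n → ℝ => ∑ j, x j ^ 2 :=
  Finset.measurable_sum _ fun j _ => (measurable_pi_apply j).pow_const 2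

lemma dot_meas : Measurable fun z : (Fin n → ℝ) × (Fin n → ℝ) => z.1 ⬝ᵥ z.2 := by
  unfold dotProduct
  exact Finset.measurable_sum _ fun j _ =>
    ((measurable_pi_apply j).comp measurable_fst).mul ((measurable_pi_apply j).comp measurable_snd)

lemma dot_abs_le (hsupp : ∀ᵐ x ∂P, ∑ j, x j ^ 2 ≤ 10 * (n : ℝ)) :
    ∀ᵐ z ∂(P.prod P), |z.1 ⬝ᵥ z.2| ≤ 10 * (n : ℝ) := by
  filter_upwards [ae_fst P hsupp, ae_snd P hsupp] with z h1 h2
  have h3 := dot_sq_le z.1 z.2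
  have hn0 : (0 : ℝ) ≤ (n : ℝ) := Nat.cast_nonneg n
  have hx2 : 0 ≤ ∑ j, z.2 j ^ 2 := Finset.sum_nonneg fun i _ => sq_nonneg _
  have : (z.1 ⬝ᵥ z.2) ^ 2 ≤ (10 * (n : ℝ)) ^ 2 := by
    calc _ ≤ _ := h3
      _ ≤ (10 * (n : ℝ)) * (10 * (n : ℝ)) := mul_le_mul h1 h2 hx2 (by positivity)
      _ = _ := by ring
  exact abs_le_of_sq_le_sq this (by positivity)

lemma abs_dot_mean (hsupp : ∀ᵐ x ∂P, ∑ j, x j ^ 2 ≤ 10 * (n : ℝ))
    (hiso : ∀ a : Fin n → ℝ, ∫ x, (a ⬝ᵥ x) ^ 2 ∂P ≤ (10 / 9) * ∑ j, a j ^ 2) :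
    ∫ z, |z.1 ⬝ᵥ z.2| ∂(P.prod P) ≤ (10 / 3) * Real.sqrt n := by
  set ρ := P.prod P with hρ
  have hn0 : (0 : ℝ) ≤ (n : ℝ) := Nat.cast_nonneg n
  have hbd := dot_abs_le P hsupp
  have hm1 : Measurable fun z : (Fin n → ℝ) × (Fin n → ℝ) => |z.1 ⬝ᵥ z.2| := dot_meas.abs
  have hm2 : Measurable fun z : (Fin n → ℝ) × (Fin n → ℝ) => (z.1 ⬝ᵥ z.2) ^ 2 := dot_meas.pow_const 2
  have hi1 : Integrable (fun z : (Fin n → ℝ) × (Fin n → ℝ) => |z.1 ⬝ᵥ z.2|) ρ := by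
    refine Integrable.of_bound hm1.aestronglyMeasurable (10 * (n : ℝ)) ?_
    filter_upwards [hbd] with z hz
    rw [Real.norm_eq_abs, abs_abs]; exact hz
  have hi2 : Integrable (fun z : (Fin n → ℝ) × (Fin n → ℝ) => (z.1 ⬝ᵥ z.2) ^ 2) ρ := by
    refine Integrable.of_bound hm2.aestronglyMeasurable ((10 * (n : ℝ)) ^ 2) ?_
    filter_upwards [hbd] with z hz
    rw [Real.norm_eq_abs, abs_of_nonneg (sq_nonneg _)]
    have := sq_le_sq' (by linarith [abs_le.1 hz]) (abs_le.1 hz).2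
    exact this
  have hJ : ∫ z, (z.1 ⬝ᵥ z.2) ^ 2 ∂ρ ≤ (100 / 9) * (n : ℝ) := by
    rw [hρ, integral_prod _ (by simpa [hρ] using hi2)]
    have hae : (fun x : Fin n → ℝ => ∫ y, (x ⬝ᵥ y) ^ 2 ∂P) ≤ᵐ[P] fun _ => (100 / 9) * (n : ℝ) := by
      filter_upwards [hsupp] with x hx
      calc _ ≤ (10 / 9) * ∑ j, x j ^ 2 := hiso x
        _ ≤ _ := by linarith
    have h0 : 0 ≤ᵐ[P] fun x : Fin n → ℝ => ∫ y, (x ⬝ᵥ y) ^ 2 ∂P :=
      Filter.Eventually.of_forall fun x => integral_nonneg fun y => sq_nonneg _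
    calc _ ≤ ∫ _ : Fin n → ℝ, (100 / 9) * (n : ℝ) ∂P :=
          integral_mono_of_nonneg h0 (integrable_const _) hae
      _ = _ := by simp
  set c := ∫ z, |z.1 ⬝ᵥ z.2| ∂ρ with hc
  have hexp : ∫ z : (Fin n → ℝ) × (Fin n → ℝ), (|z.1 ⬝ᵥ z.2| - c) ^ 2 ∂ρ =
      ∫ z, (z.1 ⬝ᵥ z.2) ^ 2 ∂ρ - c ^ 2 := by
    have e : (fun z : (Fin n → ℝ) × (Fin n → ℝ) => (|z.1 ⬝ᵥ z.2| - c) ^ 2) =
        fun z => (z.1 ⬝ᵥ z.2) ^ 2 - (2 * c) * |z.1 ⬝ᵥ z.2| + c ^ 2 := by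
      ext z; rw [sub_sq, sq_abs]; ring
    have h1 : ∫ z : (Fin n → ℝ) × (Fin n → ℝ),
        ((z.1 ⬝ᵥ z.2) ^ 2 - (2 * c) * |z.1 ⬝ᵥ z.2| + c ^ 2) ∂ρ =
        ∫ z : (Fin n → ℝ) × (Fin n → ℝ), ((z.1 ⬝ᵥ z.2) ^ 2 - (2 * c) * |z.1 ⬝ᵥ z.2|) ∂ρ +
          ∫ _z : (Fin n → ℝ) × (Fin n → ℝ), c ^ 2 ∂ρ :=
      integral_add (hi2.sub (hi1.const_mul _)) (integrable_const _)
    have h2 : ∫ z : (Fin n → ℝ) × (Fin n → ℝ), ((z.1 ⬝ᵥ z.2) ^ 2 - (2 * c) * |z.1 ⬝ᵥ z.2|) ∂ρ =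
        ∫ z : (Fin n → ℝ) × (Fin n → ℝ), (z.1 ⬝ᵥ z.2) ^ 2 ∂ρ -
          ∫ z : (Fin n → ℝ) × (Fin n → ℝ), (2 * c) * |z.1 ⬝ᵥ z.2| ∂ρ :=
      integral_sub hi2 (hi1.const_mul _)
    rw [e, h1, h2, integral_const_mul, ← hc]
    simp
    ring
  have hnn : 0 ≤ ∫ z : (Fin n → ℝ) × (Fin n → ℝ), (|z.1 ⬝ᵥ z.2| - c) ^ 2 ∂ρ :=
    integral_nonneg fun z => sq_nonneg _
  have hc2 : c ^ 2 ≤ (100 / 9) * (n : ℝ) := by linarith
  have hs : Real.sqrt n ^ 2 = n := Real.sq_sqrt hn0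
  have : c ^ 2 ≤ ((10 / 3) * Real.sqrt n) ^ 2 := by
    rw [mul_pow, hs]; norm_num; linarith
  exact (le_abs_self c).trans (abs_le_of_sq_le_sq this (by positivity))

lemma frameMean_ge_one (hn : 0 < n) (hsupp : ∀ᵐ x ∂P, ∑ j, x j ^ 2 ≤ 10 * (n : ℝ))
    (w : Fin t → ℝ) : 1 ≤ frameMean P w := by
  unfold frameMean
  have hm : Measurable fun x : Fin n → ℝ => (∑ i, w i ^ 2) * (∑ j, x j ^ 2) / (2 * (n : ℝ)) :=
    (sumsq_meas.const_mul _).div_const _
  have hi : Integrable (fun x : Fin n → ℝ =>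
      Real.exp ((∑ i, w i ^ 2) * (∑ j, x j ^ 2) / (2 * (n : ℝ)))) P := by
    refine exp_int_of_bound P _ hm ((∑ i, w i ^ 2) * (10 * (n : ℝ)) / (2 * (n : ℝ))) ?_
    filter_upwards [hsupp] with x hx
    have hW : 0 ≤ ∑ i, w i ^ 2 := Finset.sum_nonneg fun i _ => sq_nonneg _
    gcongr
  calc (1 : ℝ) = ∫ _ : Fin n → ℝ, (1 : ℝ) ∂P := by simp
    _ ≤ _ := integral_mono (integrable_const _) hi fun x => by
        have hW : 0 ≤ ∑ i, w i ^ 2 := Finset.sum_nonneg fun i _ => sq_nonneg _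
        have hX : 0 ≤ ∑ j, x j ^ 2 := Finset.sum_nonneg fun i _ => sq_nonneg _
        have : 0 ≤ (∑ i, w i ^ 2) * (∑ j, x j ^ 2) / (2 * (n : ℝ)) := by positivity
        linarith [Real.add_one_le_exp ((∑ i, w i ^ 2) * (∑ j, x j ^ 2) / (2 * (n : ℝ)))]

lemma var_bound (hn : 0 < n) (hsupp : ∀ᵐ x ∂P, ∑ j, x j ^ 2 ≤ 10 * (n : ℝ))
    (hiso : ∀ a : Fin n → ℝ, ∫ x, (a ⬝ᵥ x) ^ 2 ∂P ≤ (10 / 9) * ∑ j, a j ^ 2)
    (w : Fin t → ℝ) (W : ℝ) (hW : ∑ i, w i ^ 2 ≤ W) :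
    ∫ θ, Lf P w θ ^ 2 ∂(gam (Fin t × Fin n) (vn n)) - frameMean P w ^ 2 ≤
      Real.exp (20 * W) * (W / n * ((10 / 3) * Real.sqrt n)) := by
  set Wv := ∑ i, w i ^ 2 with hWv
  have hWv0 : 0 ≤ Wv := Finset.sum_nonneg fun i _ => sq_nonneg _
  have hW0 : 0 ≤ W := hWv0.trans hW
  have hN : (0 : ℝ) < (n : ℝ) := by positivity
  set ρ := P.prod P with hρ
  have hf1 := ae_fst P hsupp
  have hf2 := ae_snd P hsupp
  have hd := dot_abs_le P hsupp
  rw [Lf_sq_mean P hn hsupp w]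
  have hM : frameMean P w ^ 2 = ∫ z : (Fin n → ℝ) × (Fin n → ℝ),
      Real.exp (Wv * (∑ j, z.1 j ^ 2) / (2 * (n : ℝ))) *
        Real.exp (Wv * (∑ j, z.2 j ^ 2) / (2 * (n : ℝ))) ∂ρ := by
    unfold frameMean
    rw [sq, hρ, integral_prod_mul (fun x : Fin n → ℝ => Real.exp (Wv * (∑ j, x j ^ 2) / (2 * (n : ℝ))))
      (fun x : Fin n → ℝ => Real.exp (Wv * (∑ j, x j ^ 2) / (2 * (n : ℝ))))]
  rw [hM]
  -- integrability
  have hmfst : Measurable fun z : (Fin n → ℝ) × (Fin n → ℝ) => ∑ j, z.1 j ^ 2 :=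
    sumsq_meas.comp measurable_fst
  have hmsnd : Measurable fun z : (Fin n → ℝ) × (Fin n → ℝ) => ∑ j, z.2 j ^ 2 :=
    sumsq_meas.comp measurable_snd
  have hmsum : Measurable fun z : (Fin n → ℝ) × (Fin n → ℝ) => ∑ j, (z.1 + z.2) j ^ 2 :=
    sumsq_meas.comp (measurable_fst.add measurable_snd)
  have hi1 : Integrable (fun z : (Fin n → ℝ) × (Fin n → ℝ) =>
      Real.exp (Wv * (∑ j, (z.1 + z.2) j ^ 2) / (2 * (n : ℝ)))) ρ := by
    refine exp_int_of_bound ρ _ ((hmsum.const_mul _).div_const _)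
      (Wv * (40 * (n : ℝ)) / (2 * (n : ℝ))) ?_
    filter_upwards [hf1, hf2, hd] with z h1 h2 h3
    apply div_le_div_of_nonneg_right _ (by positivity)
    apply mul_le_mul_of_nonneg_left _ hWv0
    rw [sum_add_sq]
    linarith [(abs_le.1 h3).2]
  have hi2 : Integrable (fun z : (Fin n → ℝ) × (Fin n → ℝ) =>
      Real.exp (Wv * (∑ j, z.1 j ^ 2) / (2 * (n : ℝ))) *
        Real.exp (Wv * (∑ j, z.2 j ^ 2) / (2 * (n : ℝ)))) ρ := by
    have e : (fun z : (Fin n → ℝ) × (Fin n → ℝ) =>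
        Real.exp (Wv * (∑ j, z.1 j ^ 2) / (2 * (n : ℝ))) *
          Real.exp (Wv * (∑ j, z.2 j ^ 2) / (2 * (n : ℝ)))) =
        fun z => Real.exp (Wv * (∑ j, z.1 j ^ 2) / (2 * (n : ℝ)) +
          Wv * (∑ j, z.2 j ^ 2) / (2 * (n : ℝ))) := by
      ext z; rw [Real.exp_add]
    rw [e]
    refine exp_int_of_bound ρ _ (((hmfst.const_mul _).div_const _).add
      ((hmsnd.const_mul _).div_const _))
      (Wv * (10 * (n : ℝ)) / (2 * (n : ℝ)) + Wv * (10 * (n : ℝ)) / (2 * (n : ℝ))) ?_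
    filter_upwards [hf1, hf2] with z h1 h2
    gcongr
  rw [← integral_sub hi1 hi2]
  have hi3 : Integrable (fun z : (Fin n → ℝ) × (Fin n → ℝ) => |z.1 ⬝ᵥ z.2|) ρ := by
    refine Integrable.of_bound dot_meas.abs.aestronglyMeasurable (10 * (n : ℝ)) ?_
    filter_upwards [hd] with z hz
    rw [Real.norm_eq_abs, abs_abs]; exact hz
  calc _ ≤ ∫ z : (Fin n → ℝ) × (Fin n → ℝ),
        Real.exp (20 * W) * (W / n * |z.1 ⬝ᵥ z.2|) ∂ρ := by
        refine integral_mono_ae (hi1.sub hi2) ((hi3.const_mul _).const_mul _) ?_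
        filter_upwards [hf1, hf2, hd] with z h1 h2 h3
        have := diff_pointwise hN hWv0 hW h1 h2 h3
        rw [← sum_add_sq] at this
        exact this
    _ = Real.exp (20 * W) * (W / n * ∫ z : (Fin n → ℝ) × (Fin n → ℝ), |z.1 ⬝ᵥ z.2| ∂ρ) := by
        rw [integral_const_mul, integral_const_mul]
    _ ≤ _ := by
        have := abs_dot_mean P hsupp hiso
        gcongr

end Main

end Gframe

open Gframe in
/-- MODULE W1: second moment method over Gaussian frames. -/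
theorem gaussian_frame {n t : ℕ} (hn : 0 < n) (ht : 1 ≤ t) (P : Measure (Fin n → ℝ))
    [IsProbabilityMeasure P]
    (hsupp : ∀ᵐ x ∂P, ∑ j, x j ^ 2 ≤ 10 * (n : ℝ))
    (hiso : ∀ a : Fin n → ℝ, ∫ x, (a ⬝ᵥ x) ^ 2 ∂P ≤ (10 / 9) * ∑ j, a j ^ 2)
    (T : Finset (Fin t → ℝ)) (W : ℝ) (hW : ∀ w ∈ T, ∑ i, w i ^ 2 ≤ W)
    (hnum : 64 * (T.card : ℝ) * W * Real.exp (20 * W) ≤ Real.sqrt n) :
    ∃ θ : Fin t → Fin n → ℝ, (∑ i, ∑ j, θ i j ^ 2) ≤ 2 * (t : ℝ) ∧
      ∀ w ∈ T, (1 / 2) * frameMean P w ≤ frameLap P θ w ∧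
        frameLap P θ w ≤ (3 / 2) * frameMean P w := by
  classical
  set γ := gam (Fin t × Fin n) (vn n) with hγ
  have hN : (0 : ℝ) < (n : ℝ) := by positivity
  have hT : (0 : ℝ) < (t : ℝ) := by
    have : 0 < t := ht
    positivity
  set S := Real.sqrt n with hS
  have hSpos : 0 < S := Real.sqrt_pos.2 hN
  have hSsq : S * S = n := Real.mul_self_sqrt hN.le
  -- the bad function
  let f : (Fin t → ℝ) → (Fin t × Fin n → ℝ) → ℝ :=
    fun w θ => (Lf P w θ / frameMean P w - 1) ^ 2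
  have hfe : ∀ w θ, f w θ = Lf P w θ ^ 2 * (1 / frameMean P w ^ 2) -
      Lf P w θ * (2 / frameMean P w) + 1 := by
    intro w θ
    have hM : frameMean P w ≠ 0 := by linarith [frameMean_ge_one P hn hsupp w]
    simp only [f]
    field_simp
    ring
  have hfint : ∀ w, Integrable (f w) γ := by
    intro w
    have : f w = fun θ => Lf P w θ ^ 2 * (1 / frameMean P w ^ 2) -
        Lf P w θ * (2 / frameMean P w) + 1 := funext (hfe w)
    rw [this]
    exact (((Lf_sq_int P hsupp w).mul_const _).sub ((Lf_int P hsupp w).mul_const _)).add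
      (integrable_const _)
  set B := Real.exp (20 * W) * (W / n * ((10 / 3) * S)) with hB
  have hfmean : ∀ w ∈ T, ∫ θ, f w θ ∂γ ≤ B := by
    intro w hwT
    have hW0 : 0 ≤ W := (Finset.sum_nonneg fun i _ => sq_nonneg _).trans (hW w hwT)
    have hM1 := frameMean_ge_one P hn hsupp w
    have hM : frameMean P w ≠ 0 := by linarith
    have e : ∫ θ, f w θ ∂γ = (∫ θ, Lf P w θ ^ 2 ∂γ - frameMean P w ^ 2) / frameMean P w ^ 2 := by
      simp_rw [hfe w]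
      have h1 : ∫ θ, (Lf P w θ ^ 2 * (1 / frameMean P w ^ 2) - Lf P w θ * (2 / frameMean P w) + 1) ∂γ
          = ∫ θ, (Lf P w θ ^ 2 * (1 / frameMean P w ^ 2) - Lf P w θ * (2 / frameMean P w)) ∂γ +
            ∫ _θ, (1 : ℝ) ∂γ :=
        integral_add (((Lf_sq_int P hsupp w).mul_const _).sub ((Lf_int P hsupp w).mul_const _))
          (integrable_const _)
      have h2 : ∫ θ, (Lf P w θ ^ 2 * (1 / frameMean P w ^ 2) - Lf P w θ * (2 / frameMean P w)) ∂γ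
          = ∫ θ, Lf P w θ ^ 2 * (1 / frameMean P w ^ 2) ∂γ -
            ∫ θ, Lf P w θ * (2 / frameMean P w) ∂γ :=
        integral_sub ((Lf_sq_int P hsupp w).mul_const _) ((Lf_int P hsupp w).mul_const _)
      rw [h1, h2, integral_mul_const, integral_mul_const, Lf_mean P hn hsupp w]
      simp
      field_simp
      ring
    rw [e]
    have hv := var_bound P hn hsupp hiso w W (hW w hwT)
    have hB0 : 0 ≤ B := by positivity
    have hsq : 1 ≤ frameMean P w ^ 2 := by nlinarith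
    calc _ ≤ B / frameMean P w ^ 2 := by gcongr
      _ ≤ B / 1 := by gcongr
      _ = B := by simp
  let Bad : (Fin t × Fin n → ℝ) → ℝ :=
    fun θ => ∑ w ∈ T, 4 * f w θ + (∑ p, θ p ^ 2) / (2 * (t : ℝ))
  have hcoord : Integrable (fun θ : Fin t × Fin n → ℝ => ∑ p, θ p ^ 2) γ :=
    integrable_finsetSum _ fun p _ => coord_int (vn n) p
  have hBadint : Integrable Bad γ :=
    (integrable_finsetSum _ fun w _ => (hfint w).const_mul 4).add (hcoord.div_const _)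
  have hcoordmean : ∫ θ : Fin t × Fin n → ℝ, ∑ p, θ p ^ 2 ∂γ = t := by
    rw [integral_finsetSum _ fun p _ => coord_int (vn n) p]
    have hc : ∀ p : Fin t × Fin n, ∫ θ : Fin t × Fin n → ℝ, θ p ^ 2 ∂γ = (n : ℝ)⁻¹ := by
      intro p
      rw [hγ, coord_sq, vn_coe]
    rw [Finset.sum_congr rfl fun p _ => hc p]
    simp
    field_simp
  have hBadmean : ∫ θ, Bad θ ∂γ ≤ 5 / 24 + 1 / 2 := by
    simp only [Bad]
    rw [integral_add (integrable_finsetSum _ fun w _ => (hfint w).const_mul 4)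
      (hcoord.div_const _), integral_finsetSum _ (fun w _ => (hfint w).const_mul 4),
      integral_div, hcoordmean]
    have h1 : ∑ w ∈ T, ∫ θ, 4 * f w θ ∂γ ≤ T.card * (4 * B) := by
      have : ∀ w ∈ T, ∫ θ, 4 * f w θ ∂γ ≤ 4 * B := by
        intro w hw
        rw [integral_const_mul]
        linarith [hfmean w hw]
      calc _ ≤ ∑ _w ∈ T, 4 * B := Finset.sum_le_sum this
        _ = _ := by simp
    have h2 : (T.card : ℝ) * (4 * B) ≤ 5 / 24 := by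
      have e : (T.card : ℝ) * (4 * B) =
          (40 / 3) * ((T.card : ℝ) * W * Real.exp (20 * W)) / S := by
        rw [hB, ← hSsq]
        field_simp
        ring
      rw [e, div_le_iff₀ hSpos]
      nlinarith
    have h3 : (t : ℝ) / (2 * (t : ℝ)) = 1 / 2 := by field_simp
    rw [h3]
    linarith
  obtain ⟨θ, hθ⟩ := exists_le_integral hBadint
  have hlt : Bad θ < 1 := by linarith
  have hf0 : ∀ w, 0 ≤ f w θ := fun w => sq_nonneg _
  have hsum0 : 0 ≤ ∑ w ∈ T, 4 * f w θ :=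
    Finset.sum_nonneg fun w _ => mul_nonneg (by norm_num) (hf0 w)
  have hq0 : 0 ≤ (∑ p, θ p ^ 2) / (2 * (t : ℝ)) := by positivity
  refine ⟨fun i j => θ (i, j), ?_, ?_⟩
  · have h1 : (∑ p, θ p ^ 2) / (2 * (t : ℝ)) < 1 := by
      simp only [Bad] at hlt
      linarith
    rw [div_lt_one (by positivity)] at h1
    rw [← Fintype.sum_prod_type' (f := fun i j => θ (i, j) ^ 2)]
    exact h1.le
  · intro w hw
    rw [frameLap_eq]
    have h1 : 4 * f w θ ≤ ∑ w ∈ T, 4 * f w θ :=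
      Finset.single_le_sum (f := fun w => 4 * f w θ)
        (fun w _ => mul_nonneg (by norm_num) (hf0 w)) hw
    have h2 : 4 * f w θ < 1 := by
      simp only [Bad] at hlt
      linarith
    have hM1 := frameMean_ge_one P hn hsupp w
    have hMpos : 0 < frameMean P w := by linarith
    have h3 : (Lf P w θ / frameMean P w - 1) ^ 2 < (1 / 2) ^ 2 := by
      simp only [f] at h2
      norm_num
      linarith
    have h4 := abs_lt_of_sq_lt_sq h3 (by norm_num)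
    rw [abs_lt] at h4
    have h5 : 1 / 2 < Lf P w θ / frameMean P w := by linarith [h4.1]
    have h6 : Lf P w θ / frameMean P w < 3 / 2 := by linarith [h4.2]
    rw [lt_div_iff₀ hMpos] at h5
    rw [div_lt_iff₀ hMpos] at h6
    constructor <;> linarith

end Vale.Agent.Lib.P230
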