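import Vale.Agent.Lib.P230.Gframe

/-! Module G1 of the tuned fine window of P230: second moment method over Gaussian frames, with the
support bound `1156 n` and isotropy constant `1156/1155`. Same proof as `Gframe`. -/

set_option autoImplicit false

open MeasureTheory Finset ProbabilityTheory
open scoped ENNReal Matrix NNReal

namespace Vale.Agent.Lib.P230

namespace Gframe2

open Gframe

section Main

variable {n t : ℕ}

variable (P : Measure (Fin n → ℝ)) [IsProbabilityMeasure P]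


lemma sx_bound (hsupp : ∀ᵐ x ∂P, ∑ j, x j ^ 2 ≤ 1156 * (n : ℝ)) (w : Fin t → ℝ) :
    ∀ᵐ x ∂P, ∑ p, sx w x p ^ 2 ≤ (∑ i, w i ^ 2) * (1156 * (n : ℝ)) := by
  filter_upwards [hsupp] with x hx
  rw [sx_sq]
  exact mul_le_mul_of_nonneg_left hx (Finset.sum_nonneg fun i _ => sq_nonneg _)

lemma Lf_int (hsupp : ∀ᵐ x ∂P, ∑ j, x j ^ 2 ≤ 1156 * (n : ℝ)) (w : Fin t → ℝ) :
    Integrable (Lf P w) (gam (Fin t × Fin n) (vn n)) :=
  fub_inner_int (vn n) P (sx w) (sx_meas w) _ (sx_bound P hsupp w)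

lemma Lf_mean (hn : 0 < n) (hsupp : ∀ᵐ x ∂P, ∑ j, x j ^ 2 ≤ 1156 * (n : ℝ)) (w : Fin t → ℝ) :
    ∫ θ, Lf P w θ ∂(gam (Fin t × Fin n) (vn n)) = frameMean P w := by
  unfold Lf frameMean
  rw [fub_eq (vn n) P (sx w) (sx_meas w) _ (sx_bound P hsupp w)]
  exact integral_congr_ae (Filter.Eventually.of_forall fun x => mean_exp hn w x)

lemma ae_fst (hsupp : ∀ᵐ x ∂P, ∑ j, x j ^ 2 ≤ 1156 * (n : ℝ)) :
    ∀ᵐ z ∂(P.prod P), ∑ j, z.1 j ^ 2 ≤ 1156 * (n : ℝ) :=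
  (Measure.quasiMeasurePreserving_fst (μ := P) (ν := P)).ae hsupp

lemma ae_snd (hsupp : ∀ᵐ x ∂P, ∑ j, x j ^ 2 ≤ 1156 * (n : ℝ)) :
    ∀ᵐ z ∂(P.prod P), ∑ j, z.2 j ^ 2 ≤ 1156 * (n : ℝ) :=
  (Measure.quasiMeasurePreserving_snd (μ := P) (ν := P)).ae hsupp

lemma s2_bound (hsupp : ∀ᵐ x ∂P, ∑ j, x j ^ 2 ≤ 1156 * (n : ℝ)) (w : Fin t → ℝ) :
    ∀ᵐ z ∂(P.prod P), ∑ p, s2 w z p ^ 2 ≤ (∑ i, w i ^ 2) * (4624 * (n : ℝ)) := by
  filter_upwards [ae_fst P hsupp, ae_snd P hsupp] with z h1 h2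
  rw [s2_eq, sx_sq]
  apply mul_le_mul_of_nonneg_left _ (Finset.sum_nonneg fun i _ => sq_nonneg _)
  rw [sum_add_sq]
  have h3 := dot_sq_le z.1 z.2
  have h4 : (z.1 ⬝ᵥ z.2) ≤ 1156 * (n : ℝ) := by
    have hn0 : (0 : ℝ) ≤ (n : ℝ) := Nat.cast_nonneg n
    have hx1 : 0 ≤ ∑ j, z.1 j ^ 2 := Finset.sum_nonneg fun i _ => sq_nonneg _
    have hx2 : 0 ≤ ∑ j, z.2 j ^ 2 := Finset.sum_nonneg fun i _ => sq_nonneg _
    have : (z.1 ⬝ᵥ z.2) ^ 2 ≤ (1156 * (n : ℝ)) ^ 2 := by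
      calc _ ≤ _ := h3
        _ ≤ (1156 * (n : ℝ)) * (1156 * (n : ℝ)) := mul_le_mul h1 h2 hx2 (by positivity)
        _ = _ := by ring
    exact abs_le_of_sq_le_sq' this (by positivity) |>.2
  linarith

lemma Lf_sq_int (hsupp : ∀ᵐ x ∂P, ∑ j, x j ^ 2 ≤ 1156 * (n : ℝ)) (w : Fin t → ℝ) :
    Integrable (fun θ => Lf P w θ ^ 2) (gam (Fin t × Fin n) (vn n)) := by
  simp_rw [Lf_sq]
  exact fub_inner_int (vn n) (P.prod P) (s2 w) (s2_meas w) _ (s2_bound P hsupp w)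

lemma Lf_sq_mean (hn : 0 < n) (hsupp : ∀ᵐ x ∂P, ∑ j, x j ^ 2 ≤ 1156 * (n : ℝ)) (w : Fin t → ℝ) :
    ∫ θ, Lf P w θ ^ 2 ∂(gam (Fin t × Fin n) (vn n)) =
      ∫ z, Real.exp ((∑ i, w i ^ 2) * (∑ j, (z.1 + z.2) j ^ 2) / (2 * (n : ℝ))) ∂(P.prod P) := by
  simp_rw [Lf_sq]
  rw [fub_eq (vn n) (P.prod P) (s2 w) (s2_meas w) _ (s2_bound P hsupp w)]
  refine integral_congr_ae (Filter.Eventually.of_forall fun z => ?_)
  simp only
  rw [s2_eq]
  exact mean_exp hn w _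

/-- Pointwise bound for the variance integrand. -/
lemma diff_pointwise {Wv W N X1 X2 I : ℝ} (hN : 0 < N) (hWv : 0 ≤ Wv) (hW : Wv ≤ W)
    (h1 : X1 ≤ 1156 * N) (h2 : X2 ≤ 1156 * N) (hI : |I| ≤ 1156 * N) :
    Real.exp (Wv * (X1 + X2 + 2 * I) / (2 * N)) -
        Real.exp (Wv * X1 / (2 * N)) * Real.exp (Wv * X2 / (2 * N)) ≤
      Real.exp (2312 * W) * (W / N * |I|) := by
  set A := Wv * (X1 + X2) / (2 * N) with hA
  set u := Wv * I / N with hu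
  have e1 : Wv * (X1 + X2 + 2 * I) / (2 * N) = A + u := by
    rw [hA, hu]; field_simp
  have e2 : Real.exp (Wv * X1 / (2 * N)) * Real.exp (Wv * X2 / (2 * N)) = Real.exp A := by
    have e3 : Wv * X1 / (2 * N) + Wv * X2 / (2 * N) = A := by rw [hA]; ring
    rw [← Real.exp_add, e3]
  rw [e1, e2, Real.exp_add]
  have hAle : A ≤ 1156 * W := by
    rw [hA, div_le_iff₀ (by positivity)]
    have : Wv * (X1 + X2) ≤ Wv * (2312 * N) := mul_le_mul_of_nonneg_left (by linarith) hWv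
    nlinarith
  have hur : |u| = Wv / N * |I| := by
    rw [hu, mul_div_right_comm, abs_mul, abs_of_nonneg (by positivity : 0 ≤ Wv / N)]
  have hule : |u| ≤ 1156 * W := by
    rw [hur]
    calc Wv / N * |I| ≤ Wv / N * (1156 * N) := by gcongr
      _ = 1156 * Wv := by field_simp
      _ ≤ 1156 * W := by linarith
  have hu2 : |u| ≤ W / N * |I| := by
    rw [hur]; gcongr
  have hW0 : 0 ≤ W := hWv.trans hW
  have key := exp_sub_one_le u
  have hexp : Real.exp |u| ≤ Real.exp (1156 * W) := Real.exp_le_exp.2 hule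
  have hexpA : Real.exp A ≤ Real.exp (1156 * W) := Real.exp_le_exp.2 hAle
  have h2312 : Real.exp (2312 * W) = Real.exp (1156 * W) * Real.exp (1156 * W) := by
    rw [← Real.exp_add]; congr 1; ring
  have hstep : Real.exp u - 1 ≤ Real.exp (1156 * W) * (W / N * |I|) := by
    calc Real.exp u - 1 ≤ |u| * Real.exp |u| := key
      _ ≤ (W / N * |I|) * Real.exp (1156 * W) := by
          apply mul_le_mul hu2 hexp (Real.exp_pos _).le (by positivity)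
      _ = _ := by ring
  have hnn : 0 ≤ W / N * |I| := by positivity
  calc Real.exp A * Real.exp u - Real.exp A = Real.exp A * (Real.exp u - 1) := by ring
    _ ≤ Real.exp A * (Real.exp (1156 * W) * (W / N * |I|)) :=
        mul_le_mul_of_nonneg_left hstep (Real.exp_pos _).le
    _ ≤ Real.exp (1156 * W) * (Real.exp (1156 * W) * (W / N * |I|)) :=
        mul_le_mul_of_nonneg_right hexpA (by positivity)
    _ = _ := by rw [h2312]; ring

lemma dot_abs_le (hsupp : ∀ᵐ x ∂P, ∑ j, x j ^ 2 ≤ 1156 * (n : ℝ)) :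
    ∀ᵐ z ∂(P.prod P), |z.1 ⬝ᵥ z.2| ≤ 1156 * (n : ℝ) := by
  filter_upwards [ae_fst P hsupp, ae_snd P hsupp] with z h1 h2
  have h3 := dot_sq_le z.1 z.2
  have hn0 : (0 : ℝ) ≤ (n : ℝ) := Nat.cast_nonneg n
  have hx2 : 0 ≤ ∑ j, z.2 j ^ 2 := Finset.sum_nonneg fun i _ => sq_nonneg _
  have : (z.1 ⬝ᵥ z.2) ^ 2 ≤ (1156 * (n : ℝ)) ^ 2 := by
    calc _ ≤ _ := h3
      _ ≤ (1156 * (n : ℝ)) * (1156 * (n : ℝ)) := mul_le_mul h1 h2 hx2 (by positivity)
      _ = _ := by ring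
  exact abs_le_of_sq_le_sq this (by positivity)

lemma abs_dot_mean (hsupp : ∀ᵐ x ∂P, ∑ j, x j ^ 2 ≤ 1156 * (n : ℝ))
    (hiso : ∀ a : Fin n → ℝ, ∫ x, (a ⬝ᵥ x) ^ 2 ∂P ≤ (1156 / 1155) * ∑ j, a j ^ 2) :
    ∫ z, |z.1 ⬝ᵥ z.2| ∂(P.prod P) ≤ 35 * Real.sqrt n := by
  set ρ := P.prod P with hρ
  have hn0 : (0 : ℝ) ≤ (n : ℝ) := Nat.cast_nonneg n
  have hbd := dot_abs_le P hsupp
  have hm1 : Measurable fun z : (Fin n → ℝ) × (Fin n → ℝ) => |z.1 ⬝ᵥ z.2| := dot_meas.abs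
  have hm2 : Measurable fun z : (Fin n → ℝ) × (Fin n → ℝ) => (z.1 ⬝ᵥ z.2) ^ 2 := dot_meas.pow_const 2
  have hi1 : Integrable (fun z : (Fin n → ℝ) × (Fin n → ℝ) => |z.1 ⬝ᵥ z.2|) ρ := by
    refine Integrable.of_bound hm1.aestronglyMeasurable (1156 * (n : ℝ)) ?_
    filter_upwards [hbd] with z hz
    rw [Real.norm_eq_abs, abs_abs]; exact hz
  have hi2 : Integrable (fun z : (Fin n → ℝ) × (Fin n → ℝ) => (z.1 ⬝ᵥ z.2) ^ 2) ρ := by
    refine Integrable.of_bound hm2.aestronglyMeasurable ((1156 * (n : ℝ)) ^ 2) ?_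
    filter_upwards [hbd] with z hz
    rw [Real.norm_eq_abs, abs_of_nonneg (sq_nonneg _)]
    have := sq_le_sq' (by linarith [abs_le.1 hz]) (abs_le.1 hz).2
    exact this
  have hJ : ∫ z, (z.1 ⬝ᵥ z.2) ^ 2 ∂ρ ≤ (1336336 / 1155) * (n : ℝ) := by
    rw [hρ, integral_prod _ (by simpa [hρ] using hi2)]
    have hae : (fun x : Fin n → ℝ => ∫ y, (x ⬝ᵥ y) ^ 2 ∂P) ≤ᵐ[P] fun _ => (1336336 / 1155) * (n : ℝ) := by
      filter_upwards [hsupp] with x hx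
      calc _ ≤ (1156 / 1155) * ∑ j, x j ^ 2 := hiso x
        _ ≤ _ := by linarith
    have h0 : 0 ≤ᵐ[P] fun x : Fin n → ℝ => ∫ y, (x ⬝ᵥ y) ^ 2 ∂P :=
      Filter.Eventually.of_forall fun x => integral_nonneg fun y => sq_nonneg _
    calc _ ≤ ∫ _ : Fin n → ℝ, (1336336 / 1155) * (n : ℝ) ∂P :=
          integral_mono_of_nonneg h0 (integrable_const _) hae
      _ = _ := by simp
  set c := ∫ z, |z.1 ⬝ᵥ z.2| ∂ρ with hc
  have hexp : ∫ z : (Fin n → ℝ) × (Fin n → ℝ), (|z.1 ⬝ᵥ z.2| - c) ^ 2 ∂ρ =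
      ∫ z, (z.1 ⬝ᵥ z.2) ^ 2 ∂ρ - c ^ 2 := by
    have e : (fun z : (Fin n → ℝ) × (Fin n → ℝ) => (|z.1 ⬝ᵥ z.2| - c) ^ 2) =
        fun z => (z.1 ⬝ᵥ z.2) ^ 2 - (2 * c) * |z.1 ⬝ᵥ z.2| + c ^ 2 := by
      ext z; rw [sub_sq, sq_abs]; ring
    have h1 : ∫ z : (Fin n → ℝ) × (Fin n → ℝ),
        ((z.1 ⬝ᵥ z.2) ^ 2 - (2 * c) * |z.1 ⬝ᵥ z.2| + c ^ 2) ∂ρ =
        ∫ z : (Fin n → ℝ) × (Fin n → ℝ), ((z.1 ⬝ᵥ z.2) ^ 2 - (2 * c) * |z.1 ⬝ᵥ z.2|) ∂ρ +
          ∫ _z : (Fin n → ℝ) × (Fin n → ℝ), c ^ 2 ∂ρ :=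
      integral_add (hi2.sub (hi1.const_mul _)) (integrable_const _)
    have h2 : ∫ z : (Fin n → ℝ) × (Fin n → ℝ), ((z.1 ⬝ᵥ z.2) ^ 2 - (2 * c) * |z.1 ⬝ᵥ z.2|) ∂ρ =
        ∫ z : (Fin n → ℝ) × (Fin n → ℝ), (z.1 ⬝ᵥ z.2) ^ 2 ∂ρ -
          ∫ z : (Fin n → ℝ) × (Fin n → ℝ), (2 * c) * |z.1 ⬝ᵥ z.2| ∂ρ :=
      integral_sub hi2 (hi1.const_mul _)
    rw [e, h1, h2, integral_const_mul, ← hc]
    simp
    ring
  have hnn : 0 ≤ ∫ z : (Fin n → ℝ) × (Fin n → ℝ), (|z.1 ⬝ᵥ z.2| - c) ^ 2 ∂ρ :=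
    integral_nonneg fun z => sq_nonneg _
  have hc2 : c ^ 2 ≤ (1336336 / 1155) * (n : ℝ) := by linarith
  have hs : Real.sqrt n ^ 2 = n := Real.sq_sqrt hn0
  have : c ^ 2 ≤ (35 * Real.sqrt n) ^ 2 := by
    rw [mul_pow, hs]; norm_num; linarith
  exact (le_abs_self c).trans (abs_le_of_sq_le_sq this (by positivity))

lemma frameMean_ge_one (hn : 0 < n) (hsupp : ∀ᵐ x ∂P, ∑ j, x j ^ 2 ≤ 1156 * (n : ℝ))
    (w : Fin t → ℝ) : 1 ≤ frameMean P w := by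
  unfold frameMean
  have hm : Measurable fun x : Fin n → ℝ => (∑ i, w i ^ 2) * (∑ j, x j ^ 2) / (2 * (n : ℝ)) :=
    (sumsq_meas.const_mul _).div_const _
  have hi : Integrable (fun x : Fin n → ℝ =>
      Real.exp ((∑ i, w i ^ 2) * (∑ j, x j ^ 2) / (2 * (n : ℝ)))) P := by
    refine exp_int_of_bound P _ hm ((∑ i, w i ^ 2) * (1156 * (n : ℝ)) / (2 * (n : ℝ))) ?_
    filter_upwards [hsupp] with x hx
    have hW : 0 ≤ ∑ i, w i ^ 2 := Finset.sum_nonneg fun i _ => sq_nonneg _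
    gcongr
  calc (1 : ℝ) = ∫ _ : Fin n → ℝ, (1 : ℝ) ∂P := by simp
    _ ≤ _ := integral_mono (integrable_const _) hi fun x => by
        have hW : 0 ≤ ∑ i, w i ^ 2 := Finset.sum_nonneg fun i _ => sq_nonneg _
        have hX : 0 ≤ ∑ j, x j ^ 2 := Finset.sum_nonneg fun i _ => sq_nonneg _
        have : 0 ≤ (∑ i, w i ^ 2) * (∑ j, x j ^ 2) / (2 * (n : ℝ)) := by positivity
        linarith [Real.add_one_le_exp ((∑ i, w i ^ 2) * (∑ j, x j ^ 2) / (2 * (n : ℝ)))]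

lemma var_bound (hn : 0 < n) (hsupp : ∀ᵐ x ∂P, ∑ j, x j ^ 2 ≤ 1156 * (n : ℝ))
    (hiso : ∀ a : Fin n → ℝ, ∫ x, (a ⬝ᵥ x) ^ 2 ∂P ≤ (1156 / 1155) * ∑ j, a j ^ 2)
    (w : Fin t → ℝ) (W : ℝ) (hW : ∑ i, w i ^ 2 ≤ W) :
    ∫ θ, Lf P w θ ^ 2 ∂(gam (Fin t × Fin n) (vn n)) - frameMean P w ^ 2 ≤
      Real.exp (2312 * W) * (W / n * (35 * Real.sqrt n)) := by
  set Wv := ∑ i, w i ^ 2 with hWv
  have hWv0 : 0 ≤ Wv := Finset.sum_nonneg fun i _ => sq_nonneg _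
  have hW0 : 0 ≤ W := hWv0.trans hW
  have hN : (0 : ℝ) < (n : ℝ) := by positivity
  set ρ := P.prod P with hρ
  have hf1 := ae_fst P hsupp
  have hf2 := ae_snd P hsupp
  have hd := dot_abs_le P hsupp
  rw [Lf_sq_mean P hn hsupp w]
  have hM : frameMean P w ^ 2 = ∫ z : (Fin n → ℝ) × (Fin n → ℝ),
      Real.exp (Wv * (∑ j, z.1 j ^ 2) / (2 * (n : ℝ))) *
        Real.exp (Wv * (∑ j, z.2 j ^ 2) / (2 * (n : ℝ))) ∂ρ := by
    unfold frameMean
    rw [sq, hρ, integral_prod_mul (fun x : Fin n → ℝ => Real.exp (Wv * (∑ j, x j ^ 2) / (2 * (n : ℝ))))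
      (fun x : Fin n → ℝ => Real.exp (Wv * (∑ j, x j ^ 2) / (2 * (n : ℝ))))]
  rw [hM]
  -- integrability
  have hmfst : Measurable fun z : (Fin n → ℝ) × (Fin n → ℝ) => ∑ j, z.1 j ^ 2 :=
    sumsq_meas.comp measurable_fst
  have hmsnd : Measurable fun z : (Fin n → ℝ) × (Fin n → ℝ) => ∑ j, z.2 j ^ 2 :=
    sumsq_meas.comp measurable_snd
  have hmsum : Measurable fun z : (Fin n → ℝ) × (Fin n → ℝ) => ∑ j, (z.1 + z.2) j ^ 2 :=
    sumsq_meas.comp (measurable_fst.add measurable_snd)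
  have hi1 : Integrable (fun z : (Fin n → ℝ) × (Fin n → ℝ) =>
      Real.exp (Wv * (∑ j, (z.1 + z.2) j ^ 2) / (2 * (n : ℝ)))) ρ := by
    refine exp_int_of_bound ρ _ ((hmsum.const_mul _).div_const _)
      (Wv * (4624 * (n : ℝ)) / (2 * (n : ℝ))) ?_
    filter_upwards [hf1, hf2, hd] with z h1 h2 h3
    apply div_le_div_of_nonneg_right _ (by positivity)
    apply mul_le_mul_of_nonneg_left _ hWv0
    rw [sum_add_sq]
    linarith [(abs_le.1 h3).2]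
  have hi2 : Integrable (fun z : (Fin n → ℝ) × (Fin n → ℝ) =>
      Real.exp (Wv * (∑ j, z.1 j ^ 2) / (2 * (n : ℝ))) *
        Real.exp (Wv * (∑ j, z.2 j ^ 2) / (2 * (n : ℝ)))) ρ := by
    have e : (fun z : (Fin n → ℝ) × (Fin n → ℝ) =>
        Real.exp (Wv * (∑ j, z.1 j ^ 2) / (2 * (n : ℝ))) *
          Real.exp (Wv * (∑ j, z.2 j ^ 2) / (2 * (n : ℝ)))) =
        fun z => Real.exp (Wv * (∑ j, z.1 j ^ 2) / (2 * (n : ℝ)) +
          Wv * (∑ j, z.2 j ^ 2) / (2 * (n : ℝ))) := by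
      ext z; rw [Real.exp_add]
    rw [e]
    refine exp_int_of_bound ρ _ (((hmfst.const_mul _).div_const _).add
      ((hmsnd.const_mul _).div_const _))
      (Wv * (1156 * (n : ℝ)) / (2 * (n : ℝ)) + Wv * (1156 * (n : ℝ)) / (2 * (n : ℝ))) ?_
    filter_upwards [hf1, hf2] with z h1 h2
    gcongr
  rw [← integral_sub hi1 hi2]
  have hi3 : Integrable (fun z : (Fin n → ℝ) × (Fin n → ℝ) => |z.1 ⬝ᵥ z.2|) ρ := by
    refine Integrable.of_bound dot_meas.abs.aestronglyMeasurable (1156 * (n : ℝ)) ?_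
    filter_upwards [hd] with z hz
    rw [Real.norm_eq_abs, abs_abs]; exact hz
  calc _ ≤ ∫ z : (Fin n → ℝ) × (Fin n → ℝ),
        Real.exp (2312 * W) * (W / n * |z.1 ⬝ᵥ z.2|) ∂ρ := by
        refine integral_mono_ae (hi1.sub hi2) ((hi3.const_mul _).const_mul _) ?_
        filter_upwards [hf1, hf2, hd] with z h1 h2 h3
        have := diff_pointwise hN hWv0 hW h1 h2 h3
        rw [← sum_add_sq] at this
        exact this
    _ = Real.exp (2312 * W) * (W / n * ∫ z : (Fin n → ℝ) × (Fin n → ℝ), |z.1 ⬝ᵥ z.2| ∂ρ) := by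
        rw [integral_const_mul, integral_const_mul]
    _ ≤ _ := by
        have := abs_dot_mean P hsupp hiso
        gcongr

end Main

end Gframe2

open Gframe Gframe2 in
/-- MODULE G1: second moment method over Gaussian frames. -/
theorem gaussian_frame2 {n t : ℕ} (hn : 0 < n) (ht : 1 ≤ t) (P : Measure (Fin n → ℝ))
    [IsProbabilityMeasure P]
    (hsupp : ∀ᵐ x ∂P, ∑ j, x j ^ 2 ≤ 1156 * (n : ℝ))
    (hiso : ∀ a : Fin n → ℝ, ∫ x, (a ⬝ᵥ x) ^ 2 ∂P ≤ (1156 / 1155) * ∑ j, a j ^ 2)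
    (T : Finset (Fin t → ℝ)) (W : ℝ) (hW : ∀ w ∈ T, ∑ i, w i ^ 2 ≤ W)
    (hnum : 1600 * (T.card : ℝ) * W * Real.exp (2312 * W) ≤ Real.sqrt n) :
    ∃ θ : Fin t → Fin n → ℝ, (∑ i, ∑ j, θ i j ^ 2) ≤ (11 / 10) * (t : ℝ) ∧
      ∀ w ∈ T, (1 / 2) * frameMean P w ≤ frameLap P θ w ∧
        frameLap P θ w ≤ (3 / 2) * frameMean P w := by
  classical
  set γ := gam (Fin t × Fin n) (vn n) with hγ
  have hN : (0 : ℝ) < (n : ℝ) := by positivity
  have hT : (0 : ℝ) < (t : ℝ) := by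
    have : 0 < t := ht
    positivity
  set S := Real.sqrt n with hS
  have hSpos : 0 < S := Real.sqrt_pos.2 hN
  have hSsq : S * S = n := Real.mul_self_sqrt hN.le
  -- the bad function
  let f : (Fin t → ℝ) → (Fin t × Fin n → ℝ) → ℝ :=
    fun w θ => (Lf P w θ / frameMean P w - 1) ^ 2
  have hfe : ∀ w θ, f w θ = Lf P w θ ^ 2 * (1 / frameMean P w ^ 2) -
      Lf P w θ * (2 / frameMean P w) + 1 := by
    intro w θ
    have hM : frameMean P w ≠ 0 := by linarith [frameMean_ge_one P hn hsupp w]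
    simp only [f]
    field_simp
    ring
  have hfint : ∀ w, Integrable (f w) γ := by
    intro w
    have : f w = fun θ => Lf P w θ ^ 2 * (1 / frameMean P w ^ 2) -
        Lf P w θ * (2 / frameMean P w) + 1 := funext (hfe w)
    rw [this]
    exact (((Lf_sq_int P hsupp w).mul_const _).sub ((Lf_int P hsupp w).mul_const _)).add
      (integrable_const _)
  set B := Real.exp (2312 * W) * (W / n * (35 * S)) with hB
  have hfmean : ∀ w ∈ T, ∫ θ, f w θ ∂γ ≤ B := by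
    intro w hwT
    have hW0 : 0 ≤ W := (Finset.sum_nonneg fun i _ => sq_nonneg _).trans (hW w hwT)
    have hM1 := frameMean_ge_one P hn hsupp w
    have hM : frameMean P w ≠ 0 := by linarith
    have e : ∫ θ, f w θ ∂γ = (∫ θ, Lf P w θ ^ 2 ∂γ - frameMean P w ^ 2) / frameMean P w ^ 2 := by
      simp_rw [hfe w]
      have h1 : ∫ θ, (Lf P w θ ^ 2 * (1 / frameMean P w ^ 2) - Lf P w θ * (2 / frameMean P w) + 1) ∂γ
          = ∫ θ, (Lf P w θ ^ 2 * (1 / frameMean P w ^ 2) - Lf P w θ * (2 / frameMean P w)) ∂γ +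
            ∫ _θ, (1 : ℝ) ∂γ :=
        integral_add (((Lf_sq_int P hsupp w).mul_const _).sub ((Lf_int P hsupp w).mul_const _))
          (integrable_const _)
      have h2 : ∫ θ, (Lf P w θ ^ 2 * (1 / frameMean P w ^ 2) - Lf P w θ * (2 / frameMean P w)) ∂γ
          = ∫ θ, Lf P w θ ^ 2 * (1 / frameMean P w ^ 2) ∂γ -
            ∫ θ, Lf P w θ * (2 / frameMean P w) ∂γ :=
        integral_sub ((Lf_sq_int P hsupp w).mul_const _) ((Lf_int P hsupp w).mul_const _)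
      rw [h1, h2, integral_mul_const, integral_mul_const, Lf_mean P hn hsupp w]
      simp
      field_simp
      ring
    rw [e]
    have hv := var_bound P hn hsupp hiso w W (hW w hwT)
    have hB0 : 0 ≤ B := by positivity
    have hsq : 1 ≤ frameMean P w ^ 2 := by nlinarith
    calc _ ≤ B / frameMean P w ^ 2 := by gcongr
      _ ≤ B / 1 := by gcongr
      _ = B := by simp
  let Bad : (Fin t × Fin n → ℝ) → ℝ :=
    fun θ => ∑ w ∈ T, 4 * f w θ + (∑ p, θ p ^ 2) / ((11 / 10) * (t : ℝ))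
  have hcoord : Integrable (fun θ : Fin t × Fin n → ℝ => ∑ p, θ p ^ 2) γ :=
    integrable_finsetSum _ fun p _ => coord_int (vn n) p
  have hBadint : Integrable Bad γ :=
    (integrable_finsetSum _ fun w _ => (hfint w).const_mul 4).add (hcoord.div_const _)
  have hcoordmean : ∫ θ : Fin t × Fin n → ℝ, ∑ p, θ p ^ 2 ∂γ = t := by
    rw [integral_finsetSum _ fun p _ => coord_int (vn n) p]
    have hc : ∀ p : Fin t × Fin n, ∫ θ : Fin t × Fin n → ℝ, θ p ^ 2 ∂γ = (n : ℝ)⁻¹ := by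
      intro p
      rw [hγ, coord_sq, vn_coe]
    rw [Finset.sum_congr rfl fun p _ => hc p]
    simp
    field_simp
  have hBadmean : ∫ θ, Bad θ ∂γ ≤ 7 / 80 + 10 / 11 := by
    simp only [Bad]
    rw [integral_add (integrable_finsetSum _ fun w _ => (hfint w).const_mul 4)
      (hcoord.div_const _), integral_finsetSum _ (fun w _ => (hfint w).const_mul 4),
      integral_div, hcoordmean]
    have h1 : ∑ w ∈ T, ∫ θ, 4 * f w θ ∂γ ≤ T.card * (4 * B) := by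
      have : ∀ w ∈ T, ∫ θ, 4 * f w θ ∂γ ≤ 4 * B := by
        intro w hw
        rw [integral_const_mul]
        linarith [hfmean w hw]
      calc _ ≤ ∑ _w ∈ T, 4 * B := Finset.sum_le_sum this
        _ = _ := by simp
    have h2 : (T.card : ℝ) * (4 * B) ≤ 7 / 80 := by
      have e : (T.card : ℝ) * (4 * B) =
          140 * ((T.card : ℝ) * W * Real.exp (2312 * W)) / S := by
        rw [hB, ← hSsq]
        field_simp
        ring
      rw [e, div_le_iff₀ hSpos]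
      nlinarith
    have h3 : (t : ℝ) / ((11 / 10) * (t : ℝ)) = 10 / 11 := by field_simp
    rw [h3]
    linarith
  obtain ⟨θ, hθ⟩ := exists_le_integral hBadint
  have hlt : Bad θ < 1 := by linarith
  have hf0 : ∀ w, 0 ≤ f w θ := fun w => sq_nonneg _
  have hsum0 : 0 ≤ ∑ w ∈ T, 4 * f w θ :=
    Finset.sum_nonneg fun w _ => mul_nonneg (by norm_num) (hf0 w)
  have hq0 : 0 ≤ (∑ p, θ p ^ 2) / ((11 / 10) * (t : ℝ)) := by positivity
  refine ⟨fun i j => θ (i, j), ?_, ?_⟩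
  · have h1 : (∑ p, θ p ^ 2) / ((11 / 10) * (t : ℝ)) < 1 := by
      simp only [Bad] at hlt
      linarith
    rw [div_lt_one (by positivity)] at h1
    rw [← Fintype.sum_prod_type' (f := fun i j => θ (i, j) ^ 2)]
    exact h1.le
  · intro w hw
    rw [frameLap_eq]
    have h1 : 4 * f w θ ≤ ∑ w ∈ T, 4 * f w θ :=
      Finset.single_le_sum (f := fun w => 4 * f w θ)
        (fun w _ => mul_nonneg (by norm_num) (hf0 w)) hw
    have h2 : 4 * f w θ < 1 := by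
      simp only [Bad] at hlt
      linarith
    have hM1 := frameMean_ge_one P hn hsupp w
    have hMpos : 0 < frameMean P w := by linarith
    have h3 : (Lf P w θ / frameMean P w - 1) ^ 2 < (1 / 2) ^ 2 := by
      simp only [f] at h2
      norm_num
      linarith
    have h4 := abs_lt_of_sq_lt_sq h3 (by norm_num)
    rw [abs_lt] at h4
    have h5 : 1 / 2 < Lf P w θ / frameMean P w := by linarith [h4.1]
    have h6 : Lf P w θ / frameMean P w < 3 / 2 := by linarith [h4.2]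
    rw [lt_div_iff₀ hMpos] at h5
    rw [div_lt_iff₀ hMpos] at h6
    constructor <;> linarith

end Vale.Agent.Lib.P230
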