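import Vale.Agent.Lib.P230.Defs

/-!
# P230: definitions of the hash chain.
-/

set_option autoImplicit false

open Finset
open scoped Matrix

namespace Vale.Agent.Lib.P230

/-- affine lift of an integer vector modulo `p` -/
def lift (p d : ℕ) (y : Fin d → ℤ) : Fin (d + 1) → ZMod p :=
  Fin.cons 1 (fun i => (y i : ZMod p))

section
variable {X : Type*} [DecidableEq X] {D : ℕ}

/-- no nonempty zero-sum subset of size at most `k` -/
def NoShort (w : X → Fin D → ZMod 2) (A : Finset X) (k : ℕ) : Prop :=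
  ∀ T ⊆ A, T.Nonempty → T.card ≤ k → ∑ y ∈ T, w y ≠ 0

/-- a circuit: a minimal nonempty zero-sum set -/
def IsCirc (w : X → Fin D → ZMod 2) (T : Finset X) : Prop :=
  T.Nonempty ∧ ∑ y ∈ T, w y = 0 ∧ ∀ T' ⊂ T, T'.Nonempty → ∑ y ∈ T', w y ≠ 0

/-- number of circuits of size `j` inside `A` -/
noncomputable def circ (w : X → Fin D → ZMod 2) (j : ℕ) (A : Finset X) : ℕ :=
  open Classical in ((A.powersetCard j).filter (IsCirc w)).card

/-- the part of `A` in the kernel of the functional `x` -/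
def Hx {p : ℕ} {D : ℕ} (w : X → Fin D → ZMod p) (x : Fin D → ZMod p) (A : Finset X) : Finset X :=
  A.filter fun y => x ⬝ᵥ w y = 0

end

/-- relation among the rows `(1, Y i)` -/
def IsRel {j d : ℕ} (Y : Fin j → Fin d → ℤ) (a : Fin j → ℤ) : Prop :=
  ∑ i, a i = 0 ∧ ∀ l, ∑ i, a i * Y i l = 0

end Vale.Agent.Lib.P230
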