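import Vale.Agent.Lib.P230.LapAll
import Vale.Agent.Lib.P230.FineDefs2

/-!
# P230, module G2: from the test points to all directions, by plain convexity.
-/

set_option autoImplicit false

open MeasureTheory Finset
open scoped ENNReal Matrix

namespace Vale.Agent.Lib.P230

namespace LapAll2Aux

open LapAllAux

variable {n t : ℕ}

variable {P : Measure (Fin n → ℝ)} [IsProbabilityMeasure P]

lemma integrable_exp_lin2 (hsupp : ∀ᵐ x ∂P, ∑ j, x j ^ 2 ≤ 1156 * (n : ℝ))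
    (θ : Fin t → Fin n → ℝ) (w : Fin t → ℝ) :
    Integrable (fun x => Real.exp (∑ i, w i * (θ i ⬝ᵥ x))) P := by
  refine Integrable.of_bound ((Real.continuous_exp.comp (cont_lin θ w)).aestronglyMeasurable)
    (Real.exp (∑ i, ∑ j, |w i| * |θ i j| * Real.sqrt (1156 * (n : ℝ)))) ?_
  filter_upwards [hsupp] with x hx
  rw [Real.norm_eq_abs, abs_of_pos (Real.exp_pos _)]
  exact Real.exp_le_exp.2 (le_trans (le_abs_self _) (lin_bound θ w hx))

lemma integrable_sq2 (hsupp : ∀ᵐ x ∂P, ∑ j, x j ^ 2 ≤ 1156 * (n : ℝ)) :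
    Integrable (fun x : Fin n → ℝ => ∑ j, x j ^ 2) P := by
  refine Integrable.of_bound (cont_sq.aestronglyMeasurable) (1156 * (n : ℝ)) ?_
  filter_upwards [hsupp] with x hx
  rw [Real.norm_eq_abs, abs_of_nonneg (Finset.sum_nonneg fun _ _ => sq_nonneg _)]
  exact hx

/-- Convexity of `exp`, integrated. -/
lemma frame_conv (hsupp : ∀ᵐ x ∂P, ∑ j, x j ^ 2 ≤ 1156 * (n : ℝ)) (θ : Fin t → Fin n → ℝ)
    (ξ ξ₂ ξ' : Fin t → ℝ) (h : ∀ i, ξ' i = (99 / 100) * ξ i + (1 / 100) * ξ₂ i) :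
    frameLap P θ ξ' ≤ (99 / 100) * frameLap P θ ξ + (1 / 100) * frameLap P θ ξ₂ := by
  have key : ∀ x : Fin n → ℝ, Real.exp (∑ i, ξ' i * (θ i ⬝ᵥ x)) ≤
      (99 / 100) * Real.exp (∑ i, ξ i * (θ i ⬝ᵥ x)) +
        (1 / 100) * Real.exp (∑ i, ξ₂ i * (θ i ⬝ᵥ x)) := by
    intro x
    have e1 : ∑ i, ξ' i * (θ i ⬝ᵥ x) =
        (99 / 100 : ℝ) • (∑ i, ξ i * (θ i ⬝ᵥ x)) + (1 / 100 : ℝ) • (∑ i, ξ₂ i * (θ i ⬝ᵥ x)) := by
      simp only [smul_eq_mul]
      rw [Finset.mul_sum, Finset.mul_sum, ← Finset.sum_add_distrib]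
      apply Finset.sum_congr rfl
      intro i _
      rw [h i]
      ring
    rw [e1]
    have := convexOn_exp.2 (Set.mem_univ (∑ i, ξ i * (θ i ⬝ᵥ x)))
      (Set.mem_univ (∑ i, ξ₂ i * (θ i ⬝ᵥ x))) (by norm_num : (0 : ℝ) ≤ 99 / 100)
      (by norm_num : (0 : ℝ) ≤ 1 / 100) (by norm_num)
    simpa [smul_eq_mul] using this
  have I1 := integrable_exp_lin2 hsupp θ ξ'
  have I2 := (integrable_exp_lin2 hsupp θ ξ).const_mul (99 / 100)
  have I3 := (integrable_exp_lin2 hsupp θ ξ₂).const_mul (1 / 100)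
  have := integral_mono I1 (I2.add I3) key
  simp only [Pi.add_apply] at this
  rw [integral_add I2 I3, integral_const_mul, integral_const_mul] at this
  exact this

/-- `exp(a y) ≤ exp(y/16) + exp(-y/16)` for `|a| ≤ 1/16`. -/
lemma exp_two_sided2 {a y : ℝ} (ha : |a| ≤ 1 / 16) :
    Real.exp (a * y) ≤ Real.exp ((1 / 16) * y) + Real.exp ((-(1 / 16)) * y) := by
  have hp1 := Real.exp_pos ((1 / 16) * y)
  have hp2 := Real.exp_pos ((-(1 / 16)) * y)
  rcases le_total 0 y with hy | hy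
  · have : a * y ≤ (1 / 16) * y := mul_le_mul_of_nonneg_right (le_trans (le_abs_self _) ha) hy
    have := Real.exp_le_exp.2 this
    linarith
  · have : a * y ≤ (-(1 / 16)) * y := by
      have h1 : -(1 / 16) ≤ a := by
        have := neg_abs_le a
        linarith
      nlinarith
    have := Real.exp_le_exp.2 this
    linarith

/-- Corner vectors. -/
noncomputable def sgn2 (S : Finset (Fin t)) (i : Fin t) : ℝ := if i ∈ S then 1 / 16 else -(1 / 16)

lemma sgn2_sq (S : Finset (Fin t)) (i : Fin t) : sgn2 S i ^ 2 = 1 / 256 := by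
  unfold sgn2
  split_ifs <;> norm_num

lemma sgn2_sum (S : Finset (Fin t)) : ∑ i, sgn2 S i ^ 2 = (1 / 256) * (t : ℝ) := by
  simp [sgn2_sq]
  ring

lemma exp_sum_le_sgn2 (θ : Fin t → Fin n → ℝ) (ξ₂ : Fin t → ℝ) (h : ∀ i, |ξ₂ i| ≤ 1 / 16)
    (x : Fin n → ℝ) :
    Real.exp (∑ i, ξ₂ i * (θ i ⬝ᵥ x)) ≤
      ∑ S ∈ (Finset.univ : Finset (Fin t)).powerset, Real.exp (∑ i, sgn2 S i * (θ i ⬝ᵥ x)) := by
  classical
  rw [Real.exp_sum]
  calc ∏ i, Real.exp (ξ₂ i * (θ i ⬝ᵥ x))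
      ≤ ∏ i, (Real.exp ((1 / 16) * (θ i ⬝ᵥ x)) + Real.exp ((-(1 / 16)) * (θ i ⬝ᵥ x))) := by
        apply Finset.prod_le_prod
        · intro i _
          exact (Real.exp_pos _).le
        · intro i _
          exact exp_two_sided2 (h i)
    _ = ∑ S ∈ (Finset.univ : Finset (Fin t)).powerset,
          (∏ i ∈ S, Real.exp ((1 / 16) * (θ i ⬝ᵥ x))) *
            ∏ i ∈ (Finset.univ : Finset (Fin t)) \ S, Real.exp ((-(1 / 16)) * (θ i ⬝ᵥ x)) := by
        rw [Finset.prod_add]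
    _ = ∑ S ∈ (Finset.univ : Finset (Fin t)).powerset, Real.exp (∑ i, sgn2 S i * (θ i ⬝ᵥ x)) := by
        apply Finset.sum_congr rfl
        intro S _
        rw [Real.exp_sum]
        have : ∀ i, Real.exp (sgn2 S i * (θ i ⬝ᵥ x)) =
            if i ∈ S then Real.exp ((1 / 16) * (θ i ⬝ᵥ x)) else Real.exp ((-(1 / 16)) * (θ i ⬝ᵥ x)) := by
          intro i
          unfold sgn2
          split_ifs <;> rfl
        simp_rw [this]
        rw [Finset.prod_ite]
        congr 1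
        · apply Finset.prod_congr _ (fun _ _ => rfl)
          ext i
          simp
        · apply Finset.prod_congr _ (fun _ _ => rfl)
          ext i
          simp

lemma mem_testGrid2 (k : Fin t → ℤ) (hk : ∀ i, (k i : ℝ) ^ 2 ≤ (2801 * (t : ℝ)) ^ 2)
    (hs : ∑ i, ((k i : ℝ) / 800) ^ 2 ≤ (49 / 4) * (t : ℝ)) :
    (fun i => (k i : ℝ) / 800) ∈ testGrid2 t := by
  classical
  unfold testGrid2
  rw [Finset.mem_filter]
  refine ⟨?_, hs⟩
  rw [Finset.mem_image]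
  refine ⟨k, ?_, rfl⟩
  rw [Fintype.mem_piFinset]
  intro i
  rw [Finset.mem_Icc]
  have h1 := abs_le_of_sq_le_sq' (hk i) (by positivity)
  constructor
  · have : (-(2801 * (t : ℤ)) : ℝ) ≤ (k i : ℝ) := by
      have := h1.1
      simpa using this
    exact_mod_cast this
  · have : (k i : ℝ) ≤ ((2801 * (t : ℤ) : ℤ) : ℝ) := by
      have := h1.2
      simpa using this
    exact_mod_cast this

end LapAll2Aux

open LapAllAux LapAll2Aux in
/-- MODULE G2: from the test points to all directions, by plain convexity. -/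
theorem laplace_all2 {n t : ℕ} (hn : 0 < n) (ht : 1 ≤ t) (P : Measure (Fin n → ℝ)) [IsProbabilityMeasure P]
    (hsupp : ∀ᵐ x ∂P, ∑ j, x j ^ 2 ≤ 1156 * (n : ℝ))
    (hmean : (9 / 10) * (n : ℝ) ≤ ∫ x, ∑ j, x j ^ 2 ∂P) (θ : Fin t → Fin n → ℝ)
    (hθ : ∀ w ∈ testGrid2 t, (1 / 2) * frameMean P w ≤ frameLap P θ w ∧
      frameLap P θ w ≤ (3 / 2) * frameMean P w) (ξ : Fin t → ℝ)
    (hξ : ∑ i, ξ i ^ 2 = (49 / 4) * (t : ℝ)) :
    (48 / 100) * Real.exp ((539 / 100) * (t : ℝ)) ≤ frameLap P θ ξ := by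
  classical
  have htR : (1 : ℝ) ≤ t := by exact_mod_cast ht
  have hnR : (0 : ℝ) < n := by exact_mod_cast hn
  -- rounding
  set k : Fin t → ℤ := fun i => round (792 * ξ i) with hk
  set ξ' : Fin t → ℝ := fun i => (k i : ℝ) / 800 with hξ'
  set ξ₂ : Fin t → ℝ := fun i => 100 * ξ' i - 99 * ξ i with hξ₂
  have hround : ∀ i, |792 * ξ i - (k i : ℝ)| ≤ 1 / 2 := fun i => abs_sub_round (792 * ξ i)
  have hξ₂b : ∀ i, |ξ₂ i| ≤ 1 / 16 := by
    intro i
    have h1 := abs_le.1 (hround i)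
    rw [abs_le]
    simp only [hξ₂, hξ']
    constructor <;> linarith [h1.1, h1.2]
  have hconv : ∀ i, ξ' i = (99 / 100) * ξ i + (1 / 100) * ξ₂ i := by
    intro i
    simp only [hξ₂]
    ring
  -- squares
  have hb2 : ∑ i, ξ₂ i ^ 2 ≤ (1 / 256) * (t : ℝ) := by
    calc ∑ i, ξ₂ i ^ 2 ≤ ∑ _i : Fin t, (1 / 256 : ℝ) := by
          apply Finset.sum_le_sum
          intro i _
          have := abs_le.1 (hξ₂b i)
          nlinarith [this.1, this.2]
      _ = (1 / 256) * (t : ℝ) := by simp; ring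
  have hcs : (∑ i, ξ i * ξ₂ i) ^ 2 ≤ (∑ i, ξ i ^ 2) * ∑ i, ξ₂ i ^ 2 :=
    Finset.sum_mul_sq_le_sq_mul_sq _ _ _
  have hab : |∑ i, ξ i * ξ₂ i| ≤ (1 / 4) * (t : ℝ) := by
    apply abs_le_of_sq_le_sq _ (by positivity)
    rw [hξ] at hcs
    have hb0 : 0 ≤ ∑ i, ξ₂ i ^ 2 := Finset.sum_nonneg fun _ _ => sq_nonneg _
    have : ((49 / 4) * (t : ℝ)) * ∑ i, ξ₂ i ^ 2 ≤ ((49 / 4) * (t : ℝ)) * ((1 / 256) * (t : ℝ)) :=
      mul_le_mul_of_nonneg_left hb2 (by positivity)
    nlinarith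
  have hexp : ∑ i, ξ' i ^ 2 = (99 / 100) ^ 2 * ∑ i, ξ i ^ 2 +
      2 * (99 / 100) * (1 / 100) * ∑ i, ξ i * ξ₂ i + (1 / 100) ^ 2 * ∑ i, ξ₂ i ^ 2 := by
    rw [Finset.mul_sum, Finset.mul_sum, Finset.mul_sum, ← Finset.sum_add_distrib,
      ← Finset.sum_add_distrib]
    apply Finset.sum_congr rfl
    intro i _
    rw [hconv i]
    ring
  have hb0 : 0 ≤ ∑ i, ξ₂ i ^ 2 := Finset.sum_nonneg fun _ _ => sq_nonneg _
  have hab' := abs_le.1 hab
  have hlow : 12 * (t : ℝ) ≤ ∑ i, ξ' i ^ 2 := by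
    rw [hexp, hξ]
    nlinarith [hab'.1]
  have hup : ∑ i, ξ' i ^ 2 ≤ (49 / 4) * (t : ℝ) := by
    rw [hexp, hξ]
    nlinarith [hab'.2]
  -- membership of ξ'
  have hkbd : ∀ i, (k i : ℝ) ^ 2 ≤ (2801 * (t : ℝ)) ^ 2 := by
    intro i
    have hi : ξ i ^ 2 ≤ (49 / 4) * (t : ℝ) := by
      rw [← hξ]
      exact Finset.single_le_sum (f := fun i => ξ i ^ 2) (fun _ _ => sq_nonneg _) (Finset.mem_univ i)
    have hξabs : |ξ i| ≤ (7 / 2) * (t : ℝ) := by
      apply abs_le_of_sq_le_sq _ (by positivity)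
      nlinarith
    have h1 := abs_le.1 (hround i)
    have h2 := abs_le.1 hξabs
    have h3 : (k i : ℝ) ≤ 2801 * (t : ℝ) := by linarith [h1.1, h2.2]
    have h4 : -(2801 * (t : ℝ)) ≤ (k i : ℝ) := by linarith [h1.2, h2.1]
    exact sq_le_sq' h4 h3
  have hmem : ξ' ∈ testGrid2 t := mem_testGrid2 k hkbd hup
  -- Jensen
  have hG := integrable_sq2 (P := P) hsupp
  set G : (Fin n → ℝ) → ℝ := fun x => ∑ j, x j ^ 2 with hGdef
  have hsuppG : ∀ᵐ x ∂P, G x ≤ 1156 * (n : ℝ) := hsupp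
  have hmeanlow : Real.exp ((539 / 100) * (t : ℝ)) ≤ frameMean P ξ' := by
    set W := ∑ i, ξ' i ^ 2 with hW
    have hW0 : 0 ≤ W := Finset.sum_nonneg fun _ _ => sq_nonneg _
    have hf : Integrable (fun x => W * G x / (2 * (n : ℝ))) P := (hG.const_mul W).div_const _
    have hg : Integrable (Real.exp ∘ fun x => W * G x / (2 * (n : ℝ))) P := by
      refine Integrable.of_bound ?_ (Real.exp (W * (1156 * (n : ℝ)) / (2 * (n : ℝ)))) ?_
      · apply Continuous.aestronglyMeasurable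
        apply Real.continuous_exp.comp
        have := cont_sq (n := n)
        fun_prop
      · filter_upwards [hsuppG] with x hx
        simp only [Function.comp]
        rw [Real.norm_eq_abs, abs_of_pos (Real.exp_pos _)]
        apply Real.exp_le_exp.2
        apply div_le_div_of_nonneg_right _ (by positivity)
        exact mul_le_mul_of_nonneg_left hx hW0
    have hJ := convexOn_exp.map_integral_le (s := Set.univ) (μ := P)
      (f := fun x => W * G x / (2 * (n : ℝ))) Real.continuous_exp.continuousOn isClosed_univ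
      (by simp) hf hg
    have hval : ∫ x, W * G x / (2 * (n : ℝ)) ∂P = W * (∫ x, G x ∂P) / (2 * (n : ℝ)) := by
      rw [integral_div, integral_const_mul]
    have hval2 : (539 / 100) * (t : ℝ) ≤ W * (∫ x, G x ∂P) / (2 * (n : ℝ)) := by
      rw [le_div_iff₀ (by positivity)]
      have h1 : W * ((9 / 10) * (n : ℝ)) ≤ W * ∫ x, G x ∂P := mul_le_mul_of_nonneg_left hmean hW0
      have h2 : 12 * (t : ℝ) * ((9 / 10) * (n : ℝ)) ≤ W * ((9 / 10) * (n : ℝ)) :=
        mul_le_mul_of_nonneg_right hlow (by positivity)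
      have h3 : (539 / 100) * (t : ℝ) * (2 * (n : ℝ)) ≤ 12 * (t : ℝ) * ((9 / 10) * (n : ℝ)) := by
        have : 0 ≤ (t : ℝ) * n := by positivity
        nlinarith
      linarith
    calc Real.exp ((539 / 100) * (t : ℝ)) ≤ Real.exp (W * (∫ x, G x ∂P) / (2 * (n : ℝ))) :=
          Real.exp_le_exp.2 hval2
      _ = Real.exp (∫ x, W * G x / (2 * (n : ℝ)) ∂P) := by rw [hval]
      _ ≤ _ := hJ
  -- upper bound of frameLap ξ₂
  have hsgnmem : ∀ S : Finset (Fin t), sgn2 S ∈ testGrid2 t := by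
    intro S
    have hk1 : sgn2 S = fun i => (((if i ∈ S then 50 else -50 : ℤ)) : ℝ) / 800 := by
      funext i
      unfold sgn2
      split_ifs <;> norm_num
    rw [hk1]
    apply mem_testGrid2
    · intro i
      have h51 : (50 : ℝ) ^ 2 ≤ (2801 * (t : ℝ)) ^ 2 := by nlinarith
      split_ifs <;> norm_num <;> nlinarith
    · have : ∑ i, ((((if i ∈ S then 50 else -50 : ℤ)) : ℝ) / 800) ^ 2 = ∑ i, sgn2 S i ^ 2 := by
        apply Finset.sum_congr rfl
        intro i _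
        rw [hk1]
      rw [this, sgn2_sum]
      nlinarith
  have hmeanup : ∀ S : Finset (Fin t), frameMean P (sgn2 S) ≤ Real.exp ((226 / 100) * (t : ℝ)) := by
    intro S
    unfold frameMean
    rw [sgn2_sum]
    have hle : ∀ᵐ x ∂P, Real.exp ((1 / 256) * (t : ℝ) * (∑ j, x j ^ 2) / (2 * (n : ℝ))) ≤
        Real.exp ((226 / 100) * (t : ℝ)) := by
      filter_upwards [hsupp] with x hx
      apply Real.exp_le_exp.2
      rw [div_le_iff₀ (by positivity)]
      have : (1 / 256) * (t : ℝ) * (∑ j, x j ^ 2) ≤ (1 / 256) * (t : ℝ) * (1156 * (n : ℝ)) :=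
        mul_le_mul_of_nonneg_left hx (by positivity)
      have h5 : 0 ≤ (t : ℝ) * n := by positivity
      nlinarith
    have := integral_mono_of_nonneg (μ := P)
      (f := fun x => Real.exp ((1 / 256) * (t : ℝ) * (∑ j, x j ^ 2) / (2 * (n : ℝ))))
      (g := fun _ => Real.exp ((226 / 100) * (t : ℝ)))
      (Filter.Eventually.of_forall fun x => (Real.exp_pos _).le)
      (integrable_const _) hle
    simpa using this
  have hL2up : frameLap P θ ξ₂ ≤ 2 ^ t * ((3 / 2) * Real.exp ((226 / 100) * (t : ℝ))) := by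
    have hI : ∀ S : Finset (Fin t), Integrable
        (fun x => Real.exp (∑ i, sgn2 S i * (θ i ⬝ᵥ x))) P :=
      fun S => integrable_exp_lin2 hsupp θ (sgn2 S)
    have h1 : frameLap P θ ξ₂ ≤ ∑ S ∈ (Finset.univ : Finset (Fin t)).powerset, frameLap P θ (sgn2 S) := by
      unfold frameLap
      rw [← integral_finsetSum _ (fun S _ => hI S)]
      apply integral_mono (integrable_exp_lin2 hsupp θ ξ₂)
        (integrable_finsetSum _ (fun S _ => hI S))
      intro x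
      exact exp_sum_le_sgn2 θ ξ₂ hξ₂b x
    have h2 : ∑ S ∈ (Finset.univ : Finset (Fin t)).powerset, frameLap P θ (sgn2 S) ≤
        ∑ _S ∈ (Finset.univ : Finset (Fin t)).powerset, (3 / 2) * Real.exp ((226 / 100) * (t : ℝ)) := by
      apply Finset.sum_le_sum
      intro S _
      have h3 := (hθ (sgn2 S) (hsgnmem S)).2
      have h4 := hmeanup S
      linarith
    have h5 : ∑ _S ∈ (Finset.univ : Finset (Fin t)).powerset, (3 / 2) * Real.exp ((226 / 100) * (t : ℝ)) =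
        2 ^ t * ((3 / 2) * Real.exp ((226 / 100) * (t : ℝ))) := by
      rw [Finset.sum_const, Finset.card_powerset, Finset.card_univ, Fintype.card_fin]
      simp
    linarith
  -- combine
  have hL'low : (1 / 2) * Real.exp ((539 / 100) * (t : ℝ)) ≤ frameLap P θ ξ' := by
    have := (hθ ξ' hmem).1
    linarith
  have hconvL := frame_conv hsupp θ ξ ξ₂ ξ' hconv
  have h2t : (2 : ℝ) ^ t ≤ Real.exp (t : ℝ) := by
    have h21 : (2 : ℝ) ≤ Real.exp 1 := by
      have := Real.add_one_le_exp (1 : ℝ)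
      linarith
    calc (2 : ℝ) ^ t ≤ (Real.exp 1) ^ t := pow_le_pow_left₀ (by norm_num) h21 t
      _ = Real.exp (t : ℝ) := by rw [← Real.exp_nat_mul]; simp
  have hE : (2 : ℝ) ^ t * Real.exp ((226 / 100) * (t : ℝ)) ≤ Real.exp ((539 / 100) * (t : ℝ)) := by
    calc (2 : ℝ) ^ t * Real.exp ((226 / 100) * (t : ℝ))
        ≤ Real.exp (t : ℝ) * Real.exp ((226 / 100) * (t : ℝ)) :=
          mul_le_mul_of_nonneg_right h2t (Real.exp_pos _).le
      _ = Real.exp ((t : ℝ) + (226 / 100) * (t : ℝ)) := (Real.exp_add _ _).symm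
      _ ≤ Real.exp ((539 / 100) * (t : ℝ)) := Real.exp_le_exp.2 (by nlinarith)
  have hEpos := Real.exp_pos ((539 / 100) * (t : ℝ))
  have : (2 : ℝ) ^ t * ((3 / 2) * Real.exp ((226 / 100) * (t : ℝ))) ≤
      (3 / 2) * Real.exp ((539 / 100) * (t : ℝ)) := by
    have h9 : (2 : ℝ) ^ t * ((3 / 2) * Real.exp ((226 / 100) * (t : ℝ))) =
        (3 / 2) * ((2 : ℝ) ^ t * Real.exp ((226 / 100) * (t : ℝ))) := by ring
    rw [h9]
    linarith
  linarith

end Vale.Agent.Lib.P230
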