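import Vale.Agent.Lib.P230.Defs

/-!
# P230: the layering step in a finite abelian group.
-/

set_option autoImplicit false
set_option linter.unusedSectionVars false
set_option linter.unusedSimpArgs false

open Finset

namespace Vale.Agent.Lib.P230

variable {G : Type*} [AddCommGroup G] [Fintype G] [DecidableEq G]

/-- sum of the `v i` along a cube vertex -/
def qsum {t : ℕ} (v : Fin t → G) (q : Fin t → Bool) : G := ∑ i, if q i then v i else 0

/-- height shift along a cube vertex -/
def qshift {t : ℕ} (N : ℤ) (q : Fin t → Bool) : Fin t → ℤ := fun i => if q i then N else 0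

/-- The set of `τ` that stay uncovered at all `2^t` heights. -/
def interU {t : ℕ} (N : ℤ) (S : (Fin t → ℤ) → Finset G) (v : Fin t → G) (u : Fin t → ℤ) :
    Finset G :=
  univ.filter fun τ => ∀ q : Fin t → Bool, τ - qsum v q ∈ S (u - qshift N q)

/-- Partial version with cube vertices supported on the first `i` coordinates. -/
def partU {t : ℕ} (N : ℤ) (S : (Fin t → ℤ) → Finset G) (v : Fin t → G) (i : ℕ)
    (u : Fin t → ℤ) : Finset G :=
  univ.filter fun τ => ∀ q : Fin t → Bool, (∀ l, q l = true → l.val < i) →
    τ - qsum v q ∈ S (u - qshift N q)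

lemma qsum_update_true {t : ℕ} (v : Fin t → G) (q : Fin t → Bool) (i : Fin t)
    (hq : q i = false) : qsum v (Function.update q i true) = v i + qsum v q := by
  unfold qsum
  have : ∀ l, (if Function.update q i true l = true then v l else 0) =
      (if l = i then v i else 0) + (if q l = true then v l else 0) := by
    intro l
    by_cases h : l = i
    · subst h
      simp [hq]
    · simp [h, Function.update_of_ne h]
  simp_rw [this]
  rw [Finset.sum_add_distrib]
  simp

lemma qshift_update_true {t : ℕ} (N : ℤ) (q : Fin t → Bool) (i : Fin t)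
    (hq : q i = false) (u : Fin t → ℤ) :
    u - qshift N (Function.update q i true) =
      (u - Function.update (0 : Fin t → ℤ) i N) - qshift N q := by
  funext l
  simp only [qshift, Pi.sub_apply]
  by_cases h : l = i
  · subst h
    simp [hq]
  · simp [h, Function.update_of_ne h]

lemma qsum_update_v {t : ℕ} (v : Fin t → G) (q : Fin t → Bool) (i : Fin t)
    (hq : q i = false) (w : G) : qsum (Function.update v i w) q = qsum v q := by
  unfold qsum
  apply Finset.sum_congr rfl
  intro l _
  by_cases h : l = i
  · subst h
    simp [hq]
  · simp [Function.update_of_ne h]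

lemma partU_update {t : ℕ} (N : ℤ) (S : (Fin t → ℤ) → Finset G) (v : Fin t → G) (i : Fin t)
    (w : G) (u : Fin t → ℤ) : partU N S (Function.update v i w) i.val u = partU N S v i.val u := by
  ext τ
  simp only [partU, mem_filter, mem_univ, true_and]
  constructor
  · intro h q hq
    have hqi : q i = false := by
      by_contra hne
      have := hq i (by simpa using hne)
      exact lt_irrefl _ this
    have := h q hq
    rwa [qsum_update_v v q i hqi] at this
  · intro h q hq
    have hqi : q i = false := by
      by_contra hne
      have := hq i (by simpa using hne)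
      exact lt_irrefl _ this
    rw [qsum_update_v v q i hqi]
    exact h q hq

lemma mem_partU_succ {t : ℕ} (N : ℤ) (S : (Fin t → ℤ) → Finset G) (v : Fin t → G) (i : Fin t)
    (w : G) (u : Fin t → ℤ) (τ : G) :
    τ ∈ partU N S (Function.update v i w) (i.val + 1) u ↔
      τ ∈ partU N S v i.val u ∧
        τ - w ∈ partU N S v i.val (u - Function.update (0 : Fin t → ℤ) i N) := by
  have key : ∀ q : Fin t → Bool, (∀ l, q l = true → l.val < i.val) → q i = false := by
    intro q hq
    by_contra hne
    have := hq i (by simpa using hne)
    exact lt_irrefl _ this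
  simp only [partU, mem_filter, mem_univ, true_and]
  constructor
  · intro h
    constructor
    · intro q hq
      have hqi := key q hq
      have := h q (fun l hl => Nat.lt_succ_of_lt (hq l hl))
      rwa [qsum_update_v v q i hqi] at this
    · intro q hq
      have hqi := key q hq
      have h1 : ∀ l, Function.update q i true l = true → l.val < i.val + 1 := by
        intro l hl
        by_cases hli : l = i
        · subst hli
          exact Nat.lt_succ_self _
        · rw [Function.update_of_ne hli] at hl
          exact Nat.lt_succ_of_lt (hq l hl)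
      have := h (Function.update q i true) h1
      rw [qsum_update_true _ q i hqi, qshift_update_true N q i hqi, qsum_update_v v q i hqi] at this
      simp only [Function.update_self] at this
      have e : τ - (w + qsum v q) = τ - w - qsum v q := by abel
      rwa [e] at this
  · rintro ⟨h1, h2⟩ q hq
    by_cases hqi : q i = false
    · rw [qsum_update_v v q i hqi]
      apply h1
      intro l hl
      have := hq l hl
      have hne : l.val ≠ i.val := by
        intro he
        have : l = i := Fin.ext he
        subst this
        rw [hqi] at hl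
        exact Bool.false_ne_true hl
      omega
    · have hqi' : q i = true := by simpa using hqi
      set q' := Function.update q i false with hq'
      have hq'i : q' i = false := by simp [hq']
      have hqq : q = Function.update q' i true := by
        funext l
        by_cases hli : l = i
        · subst hli
          simp [hqi']
        · simp [hq', Function.update_of_ne hli]
      have hsupp : ∀ l, q' l = true → l.val < i.val := by
        intro l hl
        by_cases hli : l = i
        · subst hli
          simp [hq'] at hl
        · rw [hq', Function.update_of_ne hli] at hl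
          have := hq l hl
          have hne : l.val ≠ i.val := fun he => hli (Fin.ext he)
          omega
      have := h2 q' hsupp
      rw [hqq, qsum_update_true _ q' i hq'i, qshift_update_true N q' i hq'i,
        qsum_update_v v q' i hq'i]
      simp only [Function.update_self]
      have e : τ - (w + qsum v q') = τ - w - qsum v q' := by abel
      rwa [e]

/-- Averaging over the shift. -/
lemma exists_shift {Z : Type*} (ZZ : Finset Z) (X Y : Z → Finset G) :
    ∃ w : G, (∑ z ∈ ZZ, (((X z).filter fun τ => τ - w ∈ Y z).card : ℝ)) * Fintype.card G ≤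
      ∑ z ∈ ZZ, ((X z).card : ℝ) * (Y z).card := by
  classical
  have hcard : 0 < Fintype.card G := Fintype.card_pos
  have key : ∑ w : G, ∑ z ∈ ZZ, (((X z).filter fun τ => τ - w ∈ Y z).card : ℝ) =
      ∑ z ∈ ZZ, ((X z).card : ℝ) * (Y z).card := by
    rw [Finset.sum_comm]
    apply Finset.sum_congr rfl
    intro z _
    have h1 : ∀ w : G, (((X z).filter fun τ => τ - w ∈ Y z).card : ℝ) =
        ∑ τ ∈ X z, if τ - w ∈ Y z then (1 : ℝ) else 0 := by
      intro w
      rw [Finset.card_filter]
      push_cast
      rfl
    simp_rw [h1]
    rw [Finset.sum_comm]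
    have h2 : ∀ τ ∈ X z, ∑ w : G, (if τ - w ∈ Y z then (1 : ℝ) else 0) = (Y z).card := by
      intro τ _
      have : ∑ w : G, (if τ - w ∈ Y z then (1 : ℝ) else 0) =
          ∑ w : G, (if w ∈ Y z then (1 : ℝ) else 0) := by
        apply Fintype.sum_equiv (Equiv.subLeft τ)
        intro w
        simp
      rw [this]
      simp
    rw [Finset.sum_congr rfl h2]
    simp [mul_comm]
  by_contra hcon
  push Not at hcon
  have h0 : ∑ _w : G, (∑ z ∈ ZZ, ((X z).card : ℝ) * (Y z).card) <
      ∑ w : G, (∑ z ∈ ZZ, (((X z).filter fun τ => τ - w ∈ Y z).card : ℝ)) * Fintype.card G :=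
    Finset.sum_lt_sum_of_nonempty Finset.univ_nonempty (fun w _ => hcon w)
  rw [Finset.sum_const, Finset.card_univ, nsmul_eq_mul, ← Finset.sum_mul, key] at h0
  linarith [mul_comm (Fintype.card G : ℝ) (∑ z ∈ ZZ, ((X z).card : ℝ) * (Y z).card)]

/-- Region of indices at stage `i`. -/
def Zi {t : ℕ} (N : ℤ) (i : ℕ) (u : Fin t → ℤ) : Prop :=
  ∀ l : Fin t, (l.val < i → 0 ≤ u l ∧ u l < N) ∧ (i ≤ l.val → -N ≤ u l ∧ u l < N)

theorem layering {t : ℕ} (N : ℕ) (hN : 0 < N) (S : (Fin t → ℤ) → Finset G) (ε : ℝ) (hε : 0 ≤ ε)
    (hS : ∀ u : Fin t → ℤ, (∀ i, -(N : ℤ) ≤ u i ∧ u i < N) → ((S u).card : ℝ) ≤ ε * Fintype.card G) :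
    ∃ v : Fin t → G, ∀ u : Fin t → ℤ, (∀ i, 0 ≤ u i ∧ u i < (N : ℤ)) →
      ((interU (N : ℤ) S v u).card : ℝ) ≤
        ((2 * (N : ℝ)) ^ t) ^ (2 ^ t - 1) * ε ^ (2 ^ t) * Fintype.card G := by
  classical
  set Zc : ℝ := (2 * (N : ℝ)) ^ t with hZc
  have hZc0 : 0 ≤ Zc := by positivity
  have hG : (0 : ℝ) < Fintype.card G := by exact_mod_cast Fintype.card_pos
  -- main induction
  have main : ∀ i : ℕ, i ≤ t → ∃ v : Fin t → G, ∀ u : Fin t → ℤ, Zi (N : ℤ) i u →
      ((partU (N : ℤ) S v i u).card : ℝ) ≤ Zc ^ (2 ^ i - 1) * ε ^ (2 ^ i) * Fintype.card G := by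
    intro i
    induction i with
    | zero =>
      intro _
      refine ⟨fun _ => 0, ?_⟩
      intro u hu
      have hsub : partU (N : ℤ) S (fun _ => (0 : G)) 0 u ⊆ S u := by
        intro τ hτ
        simp only [partU, mem_filter, mem_univ, true_and] at hτ
        have := hτ (fun _ => false) (by simp)
        have h0 : qshift (N : ℤ) (fun _ : Fin t => false) = 0 := by
          funext l
          simp [qshift]
        rw [h0] at this
        simpa [qsum] using this
      have h1 := hS u (fun l => (hu l).2 (Nat.zero_le _))
      have h2 : ((partU (N : ℤ) S (fun _ => (0 : G)) 0 u).card : ℝ) ≤ (S u).card := by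
        exact_mod_cast Finset.card_le_card hsub
      simp only [pow_zero, Nat.sub_self, one_mul, pow_one]
      linarith
    | succ i ih =>
      intro hit
      obtain ⟨v, hv⟩ := ih (by omega)
      set I : Fin t := ⟨i, by omega⟩ with hI
      set e : Fin t → ℤ := Function.update (0 : Fin t → ℤ) I (N : ℤ) with he
      set box : Finset (Fin t → ℤ) :=
        Fintype.piFinset (fun _ => Finset.Ico (-(N : ℤ)) (N : ℤ)) with hbox
      set ZZ : Finset (Fin t → ℤ) := box.filter (Zi (N : ℤ) (i + 1)) with hZZ
      set eps : ℝ := Zc ^ (2 ^ i - 1) * ε ^ (2 ^ i) with heps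
      have heps0 : 0 ≤ eps := by positivity
      obtain ⟨w, hw⟩ := exists_shift ZZ (fun u => partU (N : ℤ) S v i u)
        (fun u => partU (N : ℤ) S v i (u - e))
      have hcardbox : (box.card : ℝ) = Zc := by
        rw [hbox, Fintype.card_piFinset]
        simp only [Int.card_Ico, prod_const, card_univ, Fintype.card_fin]
        rw [hZc]
        push_cast
        congr 1
        have : ((N : ℤ) - -(N : ℤ)).toNat = 2 * N := by omega
        rw [this]
        push_cast
        ring
      have hZZcard : (ZZ.card : ℝ) ≤ Zc := by
        rw [← hcardbox]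
        exact_mod_cast Finset.card_filter_le _ _
      have hmem1 : ∀ u ∈ ZZ, Zi (N : ℤ) i u := by
        intro u hu l
        have hu2 := (Finset.mem_filter.mp hu).2 l
        refine ⟨fun hl => hu2.1 (by omega), fun hl => ?_⟩
        by_cases hl' : l.val = i
        · have := hu2.1 (by omega)
          omega
        · exact hu2.2 (by omega)
      have hmem2 : ∀ u ∈ ZZ, Zi (N : ℤ) i (u - e) := by
        intro u hu l
        have hu2 := (Finset.mem_filter.mp hu).2 l
        by_cases hl' : l = I
        · subst hl'
          have h3 := hu2.1 (by simp [hI])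
          have he1 : e I = (N : ℤ) := by simp [he]
          refine ⟨fun hl => ?_, fun _ => ?_⟩
          · simp [hI] at hl
          · simp only [Pi.sub_apply, he1]
            constructor <;> omega
        · have he0 : e l = 0 := by simp [he, Function.update_of_ne hl']
          simp only [Pi.sub_apply, he0, sub_zero]
          have hne : l.val ≠ i := fun h => hl' (Fin.ext h)
          refine ⟨fun hl => hu2.1 (by omega), fun hl => hu2.2 (by omega)⟩
      refine ⟨Function.update v I w, ?_⟩
      intro u hu
      have hboxu : u ∈ ZZ := by
        rw [hZZ, Finset.mem_filter]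
        refine ⟨?_, hu⟩
        rw [hbox, Fintype.mem_piFinset]
        intro l
        rw [Finset.mem_Ico]
        have h1 := hu l
        by_cases hl : l.val < i + 1
        · have := h1.1 hl
          constructor <;> omega
        · have := h1.2 (by omega)
          exact this
      -- identify the set
      have hset : partU (N : ℤ) S (Function.update v I w) (i + 1) u =
          (partU (N : ℤ) S v i u).filter fun τ => τ - w ∈ partU (N : ℤ) S v i (u - e) := by
        ext τ
        rw [Finset.mem_filter]
        exact mem_partU_succ (N : ℤ) S v I w u τ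
      rw [hset]
      have h1 : ((((partU (N : ℤ) S v i u).filter
          fun τ => τ - w ∈ partU (N : ℤ) S v i (u - e)).card : ℕ) : ℝ) ≤
          ∑ z ∈ ZZ, (((partU (N : ℤ) S v i z).filter
            fun τ => τ - w ∈ partU (N : ℤ) S v i (z - e)).card : ℝ) := by
        exact Finset.single_le_sum
          (f := fun z => (((partU (N : ℤ) S v i z).filter
            fun τ => τ - w ∈ partU (N : ℤ) S v i (z - e)).card : ℝ))
          (fun _ _ => by positivity) hboxu
      have h2 : ∑ z ∈ ZZ, ((partU (N : ℤ) S v i z).card : ℝ) * (partU (N : ℤ) S v i (z - e)).card ≤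
          Zc * ((eps * Fintype.card G) * (eps * Fintype.card G)) := by
        calc _ ≤ ∑ z ∈ ZZ, (eps * Fintype.card G) * (eps * Fintype.card G) := by
              apply Finset.sum_le_sum
              intro z hz
              apply mul_le_mul (hv z (hmem1 z hz)) (hv _ (hmem2 z hz)) (by positivity) (by positivity)
          _ = ZZ.card * ((eps * Fintype.card G) * (eps * Fintype.card G)) := by
              simp
          _ ≤ _ := by
              apply mul_le_mul_of_nonneg_right hZZcard (by positivity)
      have h3 : ∑ z ∈ ZZ, (((partU (N : ℤ) S v i z).filter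
            fun τ => τ - w ∈ partU (N : ℤ) S v i (z - e)).card : ℝ) ≤
          Zc * (eps * eps) * Fintype.card G := by
        have := hw.trans h2
        have h4 : Zc * ((eps * Fintype.card G) * (eps * Fintype.card G)) =
            (Zc * (eps * eps) * Fintype.card G) * Fintype.card G := by ring
        rw [h4] at this
        exact le_of_mul_le_mul_right this hG
      have h5 : Zc * (eps * eps) = Zc ^ (2 ^ (i + 1) - 1) * ε ^ (2 ^ (i + 1)) := by
        rw [heps]
        have h21 : 2 ^ (i + 1) - 1 = 2 * (2 ^ i - 1) + 1 := by
          have : 1 ≤ 2 ^ i := Nat.one_le_two_pow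
          rw [pow_succ]
          omega
        rw [h21, pow_succ' (2 : ℕ) i]
        rw [pow_succ, pow_mul, pow_mul]
        ring
      calc _ ≤ _ := h1
        _ ≤ _ := h3
        _ = _ := by rw [h5]
  obtain ⟨v, hv⟩ := main t le_rfl
  refine ⟨v, ?_⟩
  intro u hu
  have h1 := hv u (fun l => ⟨fun _ => hu l, fun hl => absurd l.isLt (by omega)⟩)
  have hsub : interU (N : ℤ) S v u ⊆ partU (N : ℤ) S v t u := by
    intro τ hτ
    simp only [interU, partU, mem_filter, mem_univ, true_and] at hτ ⊢
    exact fun q _ => hτ q
  have h2 : ((interU (N : ℤ) S v u).card : ℝ) ≤ (partU (N : ℤ) S v t u).card := by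
    exact_mod_cast Finset.card_le_card hsub
  linarith

end Vale.Agent.Lib.P230
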