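import Vale.Agent.Lib.P230.HashDefs

/-! MODULE moment: `k`-wise independence tail bound for `F_2` hashes (statement of `Stubs2.lean`). -/

set_option autoImplicit false

open MeasureTheory Finset
open scoped ENNReal Matrix Classical

namespace Vale.Agent.Lib.P230

namespace MomentAux

/-- the sign character of `ZMod 2` -/
noncomputable def sgn (a : ZMod 2) : ℝ := 2 * (if a = 0 then 1 else 0) - 1

lemma sgn_zero : sgn 0 = 1 := by
  simp [sgn]; norm_num

lemma sgn_one : sgn 1 = -1 := by
  have h : (1 : ZMod 2) ≠ 0 := by decide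
  simp [sgn, h]

lemma zmod2_cases (a : ZMod 2) : a = 0 ∨ a = 1 := by
  revert a; decide

lemma sgn_add (a b : ZMod 2) : sgn (a + b) = sgn a * sgn b := by
  have h11 : (1 : ZMod 2) + 1 = 0 := by decide
  rcases zmod2_cases a with rfl | rfl <;> rcases zmod2_cases b with rfl | rfl <;>
    simp [sgn_zero, sgn_one, h11]

lemma prod_sgn {ι : Type*} (s : Finset ι) (a : ι → ZMod 2) :
    ∏ i ∈ s, sgn (a i) = sgn (∑ i ∈ s, a i) := by
  induction s using Finset.induction_on with
  | empty => simp [sgn_zero]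
  | insert i s hi ih => rw [prod_insert hi, sum_insert hi, sgn_add, ih]

lemma sum_sgn_dot (D : ℕ) (v : Fin D → ZMod 2) :
    ∑ x : Fin D → ZMod 2, sgn (x ⬝ᵥ v) = if v = 0 then (2 : ℝ) ^ D else 0 := by
  split_ifs with hv
  · subst hv
    simp [sgn_zero, ZMod.card]
  · obtain ⟨i, hi⟩ := Function.ne_iff.mp hv
    have hvi : v i = 1 := (zmod2_cases _).resolve_left (by simpa using hi)
    set s : Fin D → ZMod 2 := Pi.single i 1 with hs
    have hsv : s ⬝ᵥ v = 1 := by
      simp [hs, hvi, single_dotProduct]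
    have h1 : ∑ x : Fin D → ZMod 2, sgn (x ⬝ᵥ v) = ∑ x : Fin D → ZMod 2, sgn ((x + s) ⬝ᵥ v) :=
      (Equiv.sum_comp (Equiv.addRight s) (fun x => sgn (x ⬝ᵥ v))).symm
    have h2 : ∑ x : Fin D → ZMod 2, sgn ((x + s) ⬝ᵥ v) =
        - ∑ x : Fin D → ZMod 2, sgn (x ⬝ᵥ v) := by
      rw [← Finset.sum_neg_distrib]
      refine Finset.sum_congr rfl fun x _ => ?_
      rw [add_dotProduct, sgn_add, hsv, sgn_one]; ring
    linarith

/-- every value has even multiplicity -/
def Ev {X : Type*} [DecidableEq X] {k : ℕ} (f : Fin k → X) : Prop :=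
  ∀ y, ∑ i, (if f i = y then (1 : ZMod 2) else 0) = 0

/-- number of even tuples over `A` -/
noncomputable def evenCount {X : Type*} [DecidableEq X] (A : Finset X) (k : ℕ) : ℕ :=
  ((Fintype.piFinset fun _ : Fin k => A).filter Ev).card

lemma evenCount_step {X : Type*} [DecidableEq X] (A : Finset X) (k : ℕ) :
    evenCount A (k + 2) ≤ A.card * ((k + 1) * evenCount A k) := by
  unfold evenCount
  set G := (Fintype.piFinset fun _ : Fin k => A).filter Ev with hG
  let Φ : X × Fin (k + 1) × (Fin k → X) → (Fin (k + 2) → X) :=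
    fun t => Fin.cons t.1 (Fin.insertNth t.2.1 t.1 t.2.2)
  have hsub : (Fintype.piFinset fun _ : Fin (k + 2) => A).filter Ev ⊆
      (A ×ˢ (univ : Finset (Fin (k + 1))) ×ˢ G).image Φ := by
    intro f hf
    rw [mem_filter, Fintype.mem_piFinset] at hf
    obtain ⟨hfA, hfE⟩ := hf
    have h1 : (1 : ZMod 2) + ∑ i : Fin (k + 1), (if f i.succ = f 0 then (1 : ZMod 2) else 0) = 0 := by
      have := hfE (f 0)
      rw [Fin.sum_univ_succ] at this
      simpa using this
    have h2 : ∃ j : Fin (k + 1), f j.succ = f 0 := by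
      by_contra hne
      push Not at hne
      have h3 : ∑ i : Fin (k + 1), (if f i.succ = f 0 then (1 : ZMod 2) else 0) = 0 := by
        refine Finset.sum_eq_zero fun i _ => ?_
        simp [hne i]
      rw [h3] at h1
      simp at h1
    obtain ⟨j, hj⟩ := h2
    refine mem_image.mpr ⟨(f 0, j, fun i => f (j.succAbove i).succ), ?_, ?_⟩
    · simp only [mem_product, mem_univ, true_and]
      refine ⟨hfA 0, ?_⟩
      rw [hG, mem_filter, Fintype.mem_piFinset]
      refine ⟨fun i => hfA _, fun y => ?_⟩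
      have h4 := hfE y
      rw [Fin.sum_univ_succ, Fin.sum_univ_succAbove _ j, hj] at h4
      have h5 : ∀ a : ZMod 2, a + a = 0 := by decide
      have h6 : ∀ a b : ZMod 2, a + (a + b) = b := by decide
      rwa [h6] at h4
    · funext i
      refine Fin.cases ?_ (fun i' => ?_) i
      · simp [Φ]
      · refine Fin.succAboveCases j ?_ (fun i'' => ?_) i'
        · simp [Φ, hj]
        · simp [Φ]
  calc ((Fintype.piFinset fun _ : Fin (k + 2) => A).filter Ev).card
      ≤ ((A ×ˢ (univ : Finset (Fin (k + 1))) ×ˢ G).image Φ).card := card_le_card hsub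
    _ ≤ (A ×ˢ (univ : Finset (Fin (k + 1))) ×ˢ G).card := card_image_le
    _ = A.card * ((k + 1) * G.card) := by
        simp [card_product]

lemma evenCount_bound {X : Type*} [DecidableEq X] (A : Finset X) (m : ℕ) :
    evenCount A (2 * m) ≤ (2 * m * A.card) ^ m := by
  induction m with
  | zero =>
    simp only [evenCount, Nat.mul_zero, pow_zero]
    refine le_trans (card_filter_le _ _) ?_
    simp
  | succ m ih =>
    have h1 := evenCount_step A (2 * m)
    have h2 : 2 * (m + 1) = 2 * m + 2 := by ring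
    rw [h2]
    calc evenCount A (2 * m + 2) ≤ A.card * ((2 * m + 1) * evenCount A (2 * m)) := h1
      _ ≤ A.card * ((2 * m + 1) * (2 * m * A.card) ^ m) := by gcongr
      _ ≤ (2 * (m + 1) * A.card) * ((2 * (m + 1) * A.card) ^ m) := by
          have h3 : (2 * m * A.card) ^ m ≤ (2 * (m + 1) * A.card) ^ m := by
            apply Nat.pow_le_pow_left
            gcongr
            omega
          calc A.card * ((2 * m + 1) * (2 * m * A.card) ^ m)
              = (2 * m + 1) * A.card * (2 * m * A.card) ^ m := by ring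
            _ ≤ (2 * (m + 1) * A.card) * ((2 * (m + 1) * A.card) ^ m) := by
                gcongr
                omega
      _ = (2 * (2 * m + 2) / 2 * A.card) ^ (m + 1) * 1 := by
          have : 2 * (2 * m + 2) / 2 = 2 * (m + 1) := by omega
          rw [this, pow_succ]; ring
      _ = _ := by
          have : 2 * (2 * m + 2) / 2 = 2 * m + 2 := by omega
          rw [this]; ring

lemma zero_sum_even {X : Type*} [DecidableEq X] {D : ℕ} (w : X → Fin D → ZMod 2) (A : Finset X)
    (m : ℕ) (h : NoShort w A (2 * m)) (f : Fin (2 * m) → X) (hf : ∀ i, f i ∈ A)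
    (h0 : ∑ i, w (f i) = 0) : Ev f := by
  set c : X → ZMod 2 := fun y => ∑ i, (if f i = y then (1 : ZMod 2) else 0) with hc
  set T := A.filter (fun y => c y ≠ 0) with hT
  have hTA : T ⊆ A := filter_subset _ _
  have hcard : T.card ≤ 2 * m := by
    have hsub : T ⊆ univ.image f := by
      intro y hy
      rw [hT, mem_filter] at hy
      by_contra hne
      apply hy.2
      refine Finset.sum_eq_zero fun i _ => ?_
      have : f i ≠ y := fun he => hne (mem_image.mpr ⟨i, mem_univ _, he⟩)
      simp [this]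
    calc T.card ≤ (univ.image f).card := card_le_card hsub
      _ ≤ (univ : Finset (Fin (2 * m))).card := card_image_le
      _ = 2 * m := by simp
  have hsum : ∑ y ∈ T, w y = ∑ i, w (f i) := by
    have h1 : ∀ y ∈ T, w y = c y • w y := by
      intro y hy
      rw [hT, mem_filter] at hy
      have : c y = 1 := (zmod2_cases _).resolve_left hy.2
      rw [this, one_smul]
    have h2 : ∑ y ∈ T, w y = ∑ y ∈ A, c y • w y := by
      rw [Finset.sum_congr rfl h1]
      refine Finset.sum_subset hTA fun y hy hyT => ?_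
      have : c y = 0 := by
        by_contra hne
        exact hyT (mem_filter.mpr ⟨hy, hne⟩)
      rw [this, zero_smul]
    rw [h2]
    simp only [hc, Finset.sum_smul]
    rw [Finset.sum_comm]
    refine Finset.sum_congr rfl fun i _ => ?_
    simp only [ite_smul, one_smul, zero_smul]
    rw [Finset.sum_ite_eq]
    simp [hf i]
  have hTe : T = ∅ := by
    by_contra hne
    exact h T hTA (nonempty_iff_ne_empty.mpr hne) hcard (by rw [hsum, h0])
  intro y
  by_contra hne
  by_cases hy : y ∈ A
  · have : y ∈ T := mem_filter.mpr ⟨hy, hne⟩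
    rw [hTe] at this
    simp at this
  · apply hne
    refine Finset.sum_eq_zero fun i _ => ?_
    have : f i ≠ y := fun he => hy (he ▸ hf i)
    simp [this]

end MomentAux

open MomentAux in
/-- MODULE moment: k-wise independence tail bound for `F_2` hashes. -/
theorem moment_tail {X : Type*} [DecidableEq X] {D : ℕ} (w : X → Fin D → ZMod 2) (A : Finset X)
    (m : ℕ) (hm : 1 ≤ m) (h : NoShort w A (2 * m)) (δ : ℝ) (hδ : 0 < δ) (hA : A.Nonempty) :
    ((univ.filter fun x : Fin D → ZMod 2 =>
        (((Hx w x A).card : ℝ) < (1 / 2 - δ) * A.card)).card : ℝ) ≤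
      2 ^ D * ((m : ℝ) / (2 * δ ^ 2 * A.card)) ^ m := by
  set n : ℝ := (A.card : ℝ) with hn
  have hnpos : 0 < n := by
    rw [hn]; exact_mod_cast hA.card_pos
  have hmpos : (0 : ℝ) < m := by exact_mod_cast hm
  set S : (Fin D → ZMod 2) → ℝ := fun x => ∑ y ∈ A, sgn (x ⬝ᵥ w y) with hS
  -- relation with `Hx`
  have hSH : ∀ x, S x = 2 * ((Hx w x A).card : ℝ) - n := by
    intro x
    have h1 : ((Hx w x A).card : ℝ) = ∑ y ∈ A, (if x ⬝ᵥ w y = 0 then (1 : ℝ) else 0) := by
      simp only [Hx, Finset.card_filter, Nat.cast_sum, Nat.cast_ite, Nat.cast_one, Nat.cast_zero]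
    simp only [hS, sgn]
    rw [h1, Finset.sum_sub_distrib, ← Finset.mul_sum]
    simp [hn]
  -- the moment identity
  have hmom : ∑ x : Fin D → ZMod 2, S x ^ (2 * m) =
      2 ^ D * (((Fintype.piFinset fun _ : Fin (2 * m) => A).filter
        fun f => ∑ i, w (f i) = 0).card : ℝ) := by
    have h1 : ∀ x : Fin D → ZMod 2, S x ^ (2 * m) =
        ∑ f ∈ Fintype.piFinset (fun _ : Fin (2 * m) => A), sgn (x ⬝ᵥ ∑ i, w (f i)) := by
      intro x
      have h2 := Finset.prod_univ_sum (fun _ : Fin (2 * m) => A)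
        (fun (_ : Fin (2 * m)) (y : X) => sgn (x ⬝ᵥ w y))
      simp only [prod_const, card_univ, Fintype.card_fin] at h2
      simp only [hS]
      rw [h2]
      refine Finset.sum_congr rfl fun f _ => ?_
      rw [dotProduct_sum, prod_sgn]
    simp only [h1]
    rw [Finset.sum_comm]
    simp only [sum_sgn_dot]
    rw [Finset.sum_ite, Finset.sum_const_zero, add_zero, Finset.sum_const, nsmul_eq_mul, mul_comm]
  -- count
  have hcount : (((Fintype.piFinset fun _ : Fin (2 * m) => A).filter
        fun f => ∑ i, w (f i) = 0).card : ℝ) ≤ (2 * m * n) ^ m := by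
    have h1 : ((Fintype.piFinset fun _ : Fin (2 * m) => A).filter
        fun f => ∑ i, w (f i) = 0).card ≤ evenCount A (2 * m) := by
      unfold evenCount
      apply card_le_card
      intro f hf
      rw [mem_filter, Fintype.mem_piFinset] at hf
      rw [mem_filter, Fintype.mem_piFinset]
      exact ⟨hf.1, zero_sum_even w A m h f hf.1 hf.2⟩
    have h2 := (Nat.cast_le (α := ℝ)).mpr (h1.trans (evenCount_bound A m))
    simpa [hn] using h2
  -- lower bound on the bad set
  set Bad := univ.filter fun x : Fin D → ZMod 2 =>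
        (((Hx w x A).card : ℝ) < (1 / 2 - δ) * A.card) with hBad
  have hlow : ∀ x ∈ Bad, ((2 * δ * n) ^ 2) ^ m ≤ S x ^ (2 * m) := by
    intro x hx
    rw [hBad, mem_filter] at hx
    have h2 : S x < - (2 * δ * n) := by
      rw [hSH x]
      have := hx.2
      rw [← hn] at this
      nlinarith
    have h3 : 0 < 2 * δ * n := by positivity
    rw [pow_mul]
    apply pow_le_pow_left₀ (by positivity)
    nlinarith
  have hsum : (Bad.card : ℝ) * ((2 * δ * n) ^ 2) ^ m ≤ ∑ x : Fin D → ZMod 2, S x ^ (2 * m) := by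
    calc (Bad.card : ℝ) * ((2 * δ * n) ^ 2) ^ m = ∑ _x ∈ Bad, ((2 * δ * n) ^ 2) ^ m := by
          rw [Finset.sum_const, nsmul_eq_mul]
      _ ≤ ∑ x ∈ Bad, S x ^ (2 * m) := Finset.sum_le_sum hlow
      _ ≤ _ := Finset.sum_le_univ_sum_of_nonneg (fun x => by
          rw [pow_mul]; positivity)
  have hK : 0 < ((2 * δ * n) ^ 2) ^ m := by positivity
  have hq : 2 * m * n = (m / (2 * δ ^ 2 * n)) * (2 * δ * n) ^ 2 := by
    field_simp
  have hfinal : (Bad.card : ℝ) * ((2 * δ * n) ^ 2) ^ m ≤
      (2 ^ D * ((m : ℝ) / (2 * δ ^ 2 * n)) ^ m) * ((2 * δ * n) ^ 2) ^ m := by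
    calc (Bad.card : ℝ) * ((2 * δ * n) ^ 2) ^ m ≤ ∑ x : Fin D → ZMod 2, S x ^ (2 * m) := hsum
      _ = 2 ^ D * (((Fintype.piFinset fun _ : Fin (2 * m) => A).filter
            fun f => ∑ i, w (f i) = 0).card : ℝ) := hmom
      _ ≤ 2 ^ D * (2 * m * n) ^ m := by gcongr
      _ = _ := by rw [hq, mul_pow]; ring
  exact le_of_mul_le_mul_right hfinal hK

end Vale.Agent.Lib.P230
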