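import Vale.Agent.Lib.P230.Defs

/-! MODULE E4: the numerics of the parameters. -/

set_option autoImplicit false

open Filter Topology

namespace Vale.Agent.Lib.P230

namespace ParamsAux

lemma bigL (L : ℕ) (hL : 64 ≤ L) : 400000 * L ^ 2 * (18 + 2 * L) ≤ 2 ^ (L - 3) := by
  induction L, hL using Nat.le_induction with
  | base => norm_num
  | succ L hL ih =>
    have h1 : L + 1 - 3 = (L - 3) + 1 := by omega
    rw [h1, pow_succ]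
    have h2 : (L + 1) ^ 2 * (18 + 2 * (L + 1)) ≤ 2 * (L ^ 2 * (18 + 2 * L)) := by
      obtain ⟨k, rfl⟩ : ∃ k, L = k + 64 := ⟨L - 64, by omega⟩
      ring_nf
      omega
    calc 400000 * (L + 1) ^ 2 * (18 + 2 * (L + 1))
        = 400000 * ((L + 1) ^ 2 * (18 + 2 * (L + 1))) := by ring
      _ ≤ 400000 * (2 * (L ^ 2 * (18 + 2 * L))) := Nat.mul_le_mul_left _ h2
      _ = (400000 * L ^ 2 * (18 + 2 * L)) * 2 := by ring
      _ ≤ 2 ^ (L - 3) * 2 := Nat.mul_le_mul_right _ ih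

lemma exists_s0 (ε : ℝ) (hε : 0 < ε) : ∃ s₀ : ℕ, ∀ s ≥ s₀,
    (((16 + 2 * (18 + 2 * s)) * (18 + 2 * s) + 29 : ℕ) : ℝ) ≤ ε * 2 ^ (s - 2) := by
  have h := tendsto_pow_const_div_const_pow_of_one_lt 2 (r := (2 : ℝ)) (by norm_num)
  have hev : ∀ᶠ s : ℕ in atTop, ((s : ℝ) ^ 2 / 2 ^ s) < ε / 4596 :=
    h.eventually (gt_mem_nhds (by positivity))
  obtain ⟨s₁, hs₁⟩ := eventually_atTop.1 hev
  refine ⟨max s₁ 2, fun s hs => ?_⟩
  have h1 : s₁ ≤ s := le_trans (le_max_left _ _) hs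
  have h2 : 2 ≤ s := le_trans (le_max_right _ _) hs
  have h3 := hs₁ s h1
  have hp : (0 : ℝ) < 2 ^ s := by positivity
  rw [div_lt_iff₀ hp] at h3
  have h4 : (2 : ℝ) ^ s = 4 * 2 ^ (s - 2) := by
    conv_lhs => rw [show s = (s - 2) + 2 by omega, pow_add]
    ring
  rw [h4] at h3
  have hs1 : (1 : ℝ) ≤ s := by
    have : 1 ≤ s := by omega
    exact_mod_cast this
  have hbd : (((16 + 2 * (18 + 2 * s)) * (18 + 2 * s) + 29 : ℕ) : ℝ) ≤ 1149 * (s : ℝ) ^ 2 := by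
    push_cast
    nlinarith
  have : 1149 * (s : ℝ) ^ 2 ≤ ε * 2 ^ (s - 2) := by
    have h5 : (s : ℝ) ^ 2 < ε / 4596 * (4 * 2 ^ (s - 2)) := h3
    have h6 : ε / 4596 * (4 * 2 ^ (s - 2)) = ε * 2 ^ (s - 2) / 1149 := by ring
    rw [h6] at h5
    have := (lt_div_iff₀ (by norm_num : (0 : ℝ) < 1149)).1 h5
    linarith
  linarith

lemma inv_pow_le (n d : ℕ) (hn : 8 ≤ n) (hd : d ≤ n) :
    ((1 - 2 / (n : ℝ))⁻¹) ^ d ≤ 2 ^ 7 := by
  have hn0 : (0 : ℝ) < n := by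
    have : 0 < n := by omega
    exact_mod_cast this
  have hn8 : (8 : ℝ) ≤ n := by exact_mod_cast hn
  set x : ℝ := 2 / (n : ℝ) with hx
  have hx0 : 0 < x := by positivity
  have hx1 : x ≤ 1 / 4 := by
    rw [hx, div_le_div_iff₀ hn0 (by norm_num)]
    linarith
  have h1 : (1 - x)⁻¹ ≤ 1 + 2 * x := by
    rw [inv_le_iff_one_le_mul₀ (by linarith)]
    nlinarith
  have h2 : (1 - x)⁻¹ ≤ Real.exp (2 * x) := by
    have := Real.add_one_le_exp (2 * x)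
    linarith
  have h0 : 0 ≤ (1 - x)⁻¹ := inv_nonneg.2 (by linarith)
  have h3 : ((1 - x)⁻¹) ^ d ≤ Real.exp (2 * x) ^ d := pow_le_pow_left₀ h0 h2 d
  have h4 : Real.exp (2 * x) ^ d = Real.exp (d * (2 * x)) := (Real.exp_nat_mul _ _).symm
  have hd' : (d : ℝ) ≤ n := by exact_mod_cast hd
  have h5 : (d : ℝ) * (2 * x) ≤ 4 := by
    have : (d : ℝ) * (2 * x) = 4 * (d / n) := by rw [hx]; field_simp; ring
    rw [this]
    have : (d : ℝ) / n ≤ 1 := (div_le_one hn0).2 hd'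
    linarith
  have h6 : Real.exp (d * (2 * x)) ≤ Real.exp 4 := Real.exp_le_exp.2 h5
  have h7 : Real.exp 4 ≤ 2 ^ 7 := by
    have h8 : Real.exp 4 = Real.exp 1 ^ 4 := by
      rw [← Real.exp_nat_mul]
      norm_num
    rw [h8]
    have h9 : Real.exp 1 ≤ 3 := by
      have := Real.exp_one_lt_d9
      linarith
    calc Real.exp 1 ^ 4 ≤ 3 ^ 4 := pow_le_pow_left₀ (Real.exp_pos 1).le h9 4
      _ ≤ 2 ^ 7 := by norm_num
  calc ((1 - x)⁻¹) ^ d ≤ Real.exp (2 * x) ^ d := h3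
    _ = Real.exp (d * (2 * x)) := h4
    _ ≤ Real.exp 4 := h6
    _ ≤ 2 ^ 7 := h7

lemma efin_le (d : ℕ) (hm : 1 ≤ mstar d) : 2 ^ efin d ≤ 2 ^ 20 * d := by
  unfold efin
  set m := mstar d with hmdef
  have hx : 1 < 2 ^ 19 * m := by
    have : 2 ^ 19 * 1 ≤ 2 ^ 19 * m := Nat.mul_le_mul_left _ hm
    omega
  have h1 := Nat.pow_pred_clog_lt_self (b := 2) (by norm_num) hx
  have hc : 0 < Nat.clog 2 (2 ^ 19 * m) := Nat.clog_pos (by norm_num) (by omega)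
  have h2 : 2 ^ Nat.clog 2 (2 ^ 19 * m) = 2 * 2 ^ (Nat.clog 2 (2 ^ 19 * m)).pred := by
    obtain ⟨k, hk⟩ : ∃ k, Nat.clog 2 (2 ^ 19 * m) = k + 1 :=
      ⟨Nat.clog 2 (2 ^ 19 * m) - 1, by omega⟩
    rw [hk]
    simp [pow_succ, mul_comm]
  have hmd : m ≤ d := by
    rw [hmdef]
    unfold mstar
    exact Nat.div_le_self _ _
  rw [h2]
  have : 2 ^ 19 * m ≤ 2 ^ 19 * d := Nat.mul_le_mul_left _ hmd
  calc 2 * 2 ^ (Nat.clog 2 (2 ^ 19 * m)).pred ≤ 2 * (2 ^ 19 * m) := by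
        apply Nat.mul_le_mul_left
        exact h1.le
    _ ≤ 2 * (2 ^ 19 * d) := Nat.mul_le_mul_left _ this
    _ = 2 ^ 20 * d := by ring

lemma C1 {n t L a : ℕ} (h4n : 4 * n ≤ 2 ^ L) (hLt : L * t ≤ a) :
    (2 * (n : ℝ)) ^ t ≤ 2 ^ a := by
  have h1 : 2 * n ≤ 2 ^ L := by omega
  have h2 : (2 * (n : ℝ)) ≤ 2 ^ L := by exact_mod_cast h1
  calc (2 * (n : ℝ)) ^ t ≤ (2 ^ L) ^ t := pow_le_pow_left₀ (by positivity) h2 t
    _ = 2 ^ (L * t) := (pow_mul _ _ _).symm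
    _ ≤ 2 ^ a := pow_le_pow_right₀ (by norm_num) hLt

lemma C2 {n t d L m : ℕ} (hn : 0 < n) (h4n : 4 * n ≤ 2 ^ L)
    (hA : (2 * (n : ℝ)) ^ t ≤ 2 ^ (m / 16)) (hk : 1 + L * d < 3 * (m / 16) * 2 ^ t) :
    ((2 * (n : ℝ)) ^ t) ^ (2 ^ t - 1) * ((1 / 2 : ℝ) ^ (m / 4)) ^ (2 ^ t) <
      (1 / 2) * (1 / (4 * (n : ℝ))) ^ d := by
  set a := m / 16 with ha
  set b := m / 4 with hb
  have hab : 4 * a ≤ b := by omega
  set N := 2 ^ t with hN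
  have hN1 : 1 ≤ N := Nat.one_le_two_pow
  have hn0 : (0 : ℝ) < n := by exact_mod_cast hn
  have h1 : ((2 * (n : ℝ)) ^ t) ^ (N - 1) ≤ (2 ^ a) ^ (N - 1) :=
    pow_le_pow_left₀ (by positivity) hA _
  have h2 : ((1 / 2 : ℝ) ^ b) ^ N ≤ ((1 / 2 : ℝ) ^ (4 * a)) ^ N :=
    pow_le_pow_left₀ (by positivity)
      (pow_le_pow_of_le_one (by norm_num) (by norm_num) hab) _
  have h3 : ((2 : ℝ) ^ a) ^ (N - 1) * ((1 / 2 : ℝ) ^ (4 * a)) ^ N ≤ (1 / 2 : ℝ) ^ (3 * a * N) := by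
    have e1 : ((2 : ℝ) ^ a) ^ (N - 1) = 2 ^ (a * (N - 1)) := (pow_mul _ _ _).symm
    have e2 : ((1 / 2 : ℝ) ^ (4 * a)) ^ N = (1 / 2) ^ (a * (N - 1)) * (1 / 2) ^ (3 * a * N + a) := by
      rw [← pow_mul, ← pow_add]
      congr 1
      obtain ⟨K, hK⟩ : ∃ K, N = K + 1 := ⟨N - 1, by omega⟩
      rw [hK]
      simp only [Nat.add_sub_cancel]
      ring
    rw [e1, e2, ← mul_assoc, ← mul_pow]
    norm_num
    rw [pow_add]
    have : (1 / 2 : ℝ) ^ a ≤ 1 := pow_le_one₀ (by norm_num) (by norm_num)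
    have h9 : (0 : ℝ) ≤ (1 / 2) ^ (3 * a * N) := by positivity
    simp only [one_div] at this h9 ⊢
    nlinarith
  have h4 : (1 / 2 : ℝ) ^ (1 + L * d) ≤ (1 / 2) * (1 / (4 * (n : ℝ))) ^ d := by
    rw [pow_add, pow_one, pow_mul]
    apply mul_le_mul_of_nonneg_left _ (by norm_num)
    apply pow_le_pow_left₀ (by positivity)
    rw [one_div_pow]
    apply one_div_le_one_div_of_le (by positivity)
    exact_mod_cast h4n
  have h5 : (1 / 2 : ℝ) ^ (3 * a * N) < (1 / 2) ^ (1 + L * d) :=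
    pow_lt_pow_right_of_lt_one₀ (by norm_num) (by norm_num) hk
  calc ((2 * (n : ℝ)) ^ t) ^ (N - 1) * ((1 / 2 : ℝ) ^ b) ^ N
      ≤ (2 ^ a) ^ (N - 1) * ((1 / 2 : ℝ) ^ (4 * a)) ^ N :=
        mul_le_mul h1 h2 (by positivity) (by positivity)
    _ ≤ (1 / 2 : ℝ) ^ (3 * a * N) := h3
    _ < (1 / 2) ^ (1 + L * d) := h5
    _ ≤ _ := h4

lemma C3 {n t d L s : ℕ} {ε : ℝ} (hε : 0 < ε) (hn8 : 8 ≤ n) (hdn : d ≤ n)
    (hLn : 2 ^ (L - 3) ≤ n) (hs : 2 ^ (s - 2) ≤ L - 3)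
    (hbig : (((16 + 2 * t) * t + 29 : ℕ) : ℝ) ≤ ε * 2 ^ (s - 2))
    (heff : 2 ^ efin d ≤ 2 ^ 20 * n) :
    (2 ^ 16 * (t : ℝ) ^ 2) ^ t * ((1 - 2 / (n : ℝ))⁻¹) ^ d * 2 ^ (efin d + 2) ≤
      (n : ℝ) ^ (1 + ε) := by
  have hn0 : (0 : ℝ) < n := by
    have : 0 < n := by omega
    exact_mod_cast this
  have hn1 : (1 : ℝ) ≤ n := by
    have : 1 ≤ n := by omega
    exact_mod_cast this
  have P1 : (2 ^ 16 * (t : ℝ) ^ 2) ^ t ≤ 2 ^ ((16 + 2 * t) * t) := by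
    rw [pow_mul]
    apply pow_le_pow_left₀ (by positivity)
    have ht : (t : ℝ) ≤ 2 ^ t := by exact_mod_cast (Nat.lt_two_pow_self).le
    have : (t : ℝ) ^ 2 ≤ (2 ^ t) ^ 2 := pow_le_pow_left₀ (by positivity) ht 2
    calc (2 : ℝ) ^ 16 * (t : ℝ) ^ 2 ≤ 2 ^ 16 * (2 ^ t) ^ 2 := by gcongr
      _ = 2 ^ (16 + 2 * t) := by rw [pow_add, ← pow_mul, mul_comm t 2]
  have P2 := inv_pow_le n d hn8 hdn
  have P3 : (2 : ℝ) ^ (efin d + 2) ≤ 2 ^ 22 * n := by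
    have : 2 ^ (efin d + 2) ≤ 2 ^ 22 * n := by
      rw [pow_add]
      calc 2 ^ efin d * 2 ^ 2 ≤ (2 ^ 20 * n) * 2 ^ 2 := Nat.mul_le_mul_right _ heff
        _ = 2 ^ 22 * n := by ring
    exact_mod_cast this
  have hinv0 : 0 ≤ ((1 - 2 / (n : ℝ))⁻¹) ^ d := by
    have hx : 2 / (n : ℝ) ≤ 1 := by
      rw [div_le_one hn0]
      have : (8 : ℝ) ≤ n := by exact_mod_cast hn8
      linarith
    exact pow_nonneg (inv_nonneg.2 (by linarith)) _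
  set E := (16 + 2 * t) * t + 29 with hE
  have hprod : (2 ^ 16 * (t : ℝ) ^ 2) ^ t * ((1 - 2 / (n : ℝ))⁻¹) ^ d * 2 ^ (efin d + 2) ≤
      (2 : ℝ) ^ E * (n : ℝ) := by
    calc (2 ^ 16 * (t : ℝ) ^ 2) ^ t * ((1 - 2 / (n : ℝ))⁻¹) ^ d * 2 ^ (efin d + 2)
        ≤ 2 ^ ((16 + 2 * t) * t) * 2 ^ 7 * (2 ^ 22 * n) := by
          apply mul_le_mul (mul_le_mul P1 P2 hinv0 (by positivity)) P3 (by positivity)
            (by positivity)
      _ = (2 : ℝ) ^ E * (n : ℝ) := by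
          rw [hE]
          ring
  refine le_trans hprod ?_
  rw [Real.rpow_add hn0, Real.rpow_one, mul_comm]
  apply mul_le_mul_of_nonneg_left _ hn0.le
  have h2 : (1 : ℝ) ≤ 2 := by norm_num
  calc (2 : ℝ) ^ E = (2 : ℝ) ^ (E : ℝ) := (Real.rpow_natCast _ _).symm
    _ ≤ (2 : ℝ) ^ (ε * 2 ^ (s - 2)) := Real.rpow_le_rpow_of_exponent_le h2 hbig
    _ ≤ (2 : ℝ) ^ ((L - 3 : ℕ) * ε) := by
        apply Real.rpow_le_rpow_of_exponent_le h2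
        have : (2 : ℝ) ^ (s - 2) ≤ ((L - 3 : ℕ) : ℝ) := by exact_mod_cast hs
        nlinarith
    _ = ((2 : ℝ) ^ (L - 3 : ℕ)) ^ ε := by
        rw [Real.rpow_mul (by norm_num), Real.rpow_natCast]
    _ ≤ (n : ℝ) ^ ε := by
        apply Real.rpow_le_rpow (by positivity) _ hε.le
        exact_mod_cast hLn


lemma scale_facts {n s₁ : ℕ} (hs7 : 7 ≤ s₁) (hn1 : 2 ^ (2 ^ s₁) ≤ n) :
    ∃ L s : ℕ, 4 * n ≤ 2 ^ L ∧ L ≤ 2 ^ s ∧ s₁ ≤ s ∧ 64 ≤ L ∧ 2 ^ (L - 3) ≤ n ∧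
      2 ^ (s - 2) ≤ L - 3 ∧ s ≤ L := by
  refine ⟨Nat.clog 2 (4 * n), Nat.clog 2 (Nat.clog 2 (4 * n)), Nat.le_pow_clog (by norm_num) _,
    Nat.le_pow_clog (by norm_num) _, ?_⟩
  have h4n : 2 ^ (2 ^ s₁) ≤ 4 * n := le_trans hn1 (by omega)
  have hLbig : 2 ^ s₁ ≤ Nat.clog 2 (4 * n) := by
    have := Nat.clog_mono_right 2 h4n
    rwa [Nat.clog_pow 2 _ (by norm_num)] at this
  generalize hL : Nat.clog 2 (4 * n) = L at *
  have hsbig : s₁ ≤ Nat.clog 2 L := by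
    have := Nat.clog_mono_right 2 hLbig
    rwa [Nat.clog_pow 2 _ (by norm_num)] at this
  have hL64 : 64 ≤ L := by
    have : 2 ^ 7 ≤ 2 ^ s₁ := Nat.pow_le_pow_right (by norm_num) hs7
    omega
  have h1L : 1 < L := by omega
  have hpred := Nat.pow_pred_clog_lt_self (b := 2) (by norm_num) h1L
  have hLn : 2 ^ (L - 3) ≤ n := by
    have hn0 : 1 < 4 * n := by
      have : 2 ≤ 2 ^ (2 ^ s₁) := by
        calc 2 = 2 ^ 1 := by norm_num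
          _ ≤ 2 ^ (2 ^ s₁) := Nat.pow_le_pow_right (by norm_num) Nat.one_le_two_pow
      omega
    have h5 := Nat.pow_pred_clog_lt_self (b := 2) (by norm_num) hn0
    rw [hL] at h5
    have e : L.pred = (L - 3) + 2 := by
      simp only [Nat.pred_eq_sub_one]
      omega
    rw [e, pow_add] at h5
    omega
  generalize hs : Nat.clog 2 L = s at *
  have hs7' : 7 ≤ s := by omega
  have e1 : s.pred = (s - 2) + 1 := by
    simp only [Nat.pred_eq_sub_one]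
    omega
  rw [e1, pow_succ] at hpred
  have h4 : 4 ≤ 2 ^ (s - 2) := by
    calc 4 = 2 ^ 2 := by norm_num
      _ ≤ 2 ^ (s - 2) := Nat.pow_le_pow_right (by norm_num) (by omega)
  have hsL' : s ≤ L := by
    have := Nat.lt_two_pow_self (n := s - 2)
    omega
  exact ⟨hsbig, hL64, hLn, by omega, hsL'⟩

lemma dim_facts {n L t d : ℕ} (hbign : 400000 * L ^ 2 * t ≤ n) (hL : 64 ≤ L) (ht : 1 ≤ t)
    (hd : d + t = n) : n ≤ 2 * d ∧ 192000 * L ^ 2 * t ≤ d ∧ 2 ≤ d := by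
  have hLsq : 1 ≤ L ^ 2 := Nat.one_le_pow _ _ (by omega)
  have hp : 1 ≤ L ^ 2 * t := Nat.mul_pos (by omega) (by omega)
  have h1 : t ≤ L ^ 2 * t := Nat.le_mul_of_pos_left _ (by omega)
  have e1 : 400000 * L ^ 2 * t = 400000 * (L ^ 2 * t) := by ring
  have e2 : 192000 * L ^ 2 * t = 192000 * (L ^ 2 * t) := by ring
  rw [e1] at hbign
  rw [e2]
  generalize L ^ 2 * t = X at *
  omega

lemma arith_m {d L t s : ℕ} (hdbig : 192000 * L ^ 2 * t ≤ d) (hclL : Nat.clog 2 d ≤ L)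
    (hd : 2 ≤ d) (hL : 1 ≤ L) (ht : 1 ≤ t) (hLs : L ≤ 2 ^ s) (ht' : t = 18 + 2 * s) :
    L * t ≤ mstar d / 16 ∧ 1 + L * d < 3 * (mstar d / 16) * 2 ^ t ∧ 1 ≤ mstar d := by
  have hcl0 : 0 < Nat.clog 2 d := Nat.clog_pos (by norm_num) hd
  have hmst : mstar d = d / (1000 * (12 * Nat.clog 2 d)) := by
    simp [mstar, Eexp]
  rw [hmst]
  generalize Nat.clog 2 d = cl at *
  generalize hc : 1000 * (12 * cl) = c
  have hc0 : 0 < c := by omega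
  have hcL : c ≤ 12000 * L := by omega
  generalize hm : d / c = m
  have hLt_m : 16 * (L * t) ≤ m := by
    rw [← hm, Nat.le_div_iff_mul_le hc0]
    calc 16 * (L * t) * c ≤ 16 * (L * t) * (12000 * L) := Nat.mul_le_mul_left _ hcL
      _ = 192000 * L ^ 2 * t := by ring
      _ ≤ d := hdbig
  have hLt1 : 1 ≤ L * t := Nat.mul_pos hL ht
  have hLt_a : L * t ≤ m / 16 := by
    rw [Nat.le_div_iff_mul_le (by norm_num)]
    omega
  refine ⟨hLt_a, ?_, by omega⟩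
  generalize ha : m / 16 = a at *
  have ha1 : 1 ≤ a := by omega
  have hm1 : m + 1 ≤ 16 * (a + 1) := by omega
  have hd3 : d < (m + 1) * c := by
    rw [← hm]
    exact (Nat.div_lt_iff_lt_mul hc0).1 (Nat.lt_succ_self _)
  have hd4 : d < 16 * (a + 1) * (12000 * L) := by
    calc d < (m + 1) * c := hd3
      _ ≤ (16 * (a + 1)) * c := Nat.mul_le_mul_right _ hm1
      _ ≤ 16 * (a + 1) * (12000 * L) := Nat.mul_le_mul_left _ hcL
  have hd5 : d < 384000 * (a * L) := by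
    have h1 : 16 * (a + 1) * (12000 * L) ≤ 384000 * (a * L) := by
      have h2 : a + 1 ≤ 2 * a := by omega
      calc 16 * (a + 1) * (12000 * L) = 192000 * ((a + 1) * L) := by ring
        _ ≤ 192000 * ((2 * a) * L) := by
            apply Nat.mul_le_mul_left
            exact Nat.mul_le_mul_right _ h2
        _ = 384000 * (a * L) := by ring
    exact lt_of_lt_of_le hd4 h1
  have h2t : 2 ^ t = 2 ^ 18 * (2 ^ s) ^ 2 := by
    rw [ht', pow_add, mul_comm 2 s, pow_mul]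
  have hLsq' : L ^ 2 ≤ (2 ^ s) ^ 2 := Nat.pow_le_pow_left hLs 2
  have h8 : 262144 * L ^ 2 ≤ 2 ^ t := by
    rw [h2t]
    exact Nat.mul_le_mul_left _ hLsq'
  have hLd : 1 + L * d ≤ L * (384000 * (a * L)) := by
    have h3 : L * (d + 1) ≤ L * (384000 * (a * L)) := Nat.mul_le_mul_left _ hd5
    have h4 : L * (d + 1) = L * d + L := by ring
    omega
  have h9 : L * (384000 * (a * L)) < 3 * a * 2 ^ t := by
    have hal : 0 < a * L ^ 2 := Nat.mul_pos ha1 (Nat.pow_pos hL)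
    calc L * (384000 * (a * L)) = 384000 * (a * L ^ 2) := by ring
      _ < 786432 * (a * L ^ 2) := by omega
      _ = 3 * a * (262144 * L ^ 2) := by ring
      _ ≤ 3 * a * 2 ^ t := Nat.mul_le_mul_left _ h8
  exact lt_of_le_of_lt hLd h9

end ParamsAux

open ParamsAux in
/-- MODULE E4: the numerics of the parameters. -/
theorem params (ε : ℝ) (hε : 0 < ε) (d₀ : ℕ) : ∃ n₀ : ℕ, ∀ n ≥ n₀, ∃ d t : ℕ,
    d + t = n ∧ 1 ≤ t ∧ d₀ ≤ d ∧ 8 ≤ n ∧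
    ((2 * (n : ℝ)) ^ t ≤ 2 ^ (mstar d / 16)) ∧
    (((2 * (n : ℝ)) ^ t) ^ (2 ^ t - 1) * ((1 / 2 : ℝ) ^ (mstar d / 4)) ^ (2 ^ t) <
      (1 / 2) * (1 / (4 * (n : ℝ))) ^ d) ∧
    ((2 ^ 16 * (t : ℝ) ^ 2) ^ t * ((1 - 2 / (n : ℝ))⁻¹) ^ d * 2 ^ (efin d + 2) ≤
      (n : ℝ) ^ (1 + ε)) := by
  obtain ⟨s₀, hs₀⟩ := exists_s0 ε hε
  refine ⟨2 ^ (2 ^ (max s₀ 7)) + 2 * d₀ + 2 ^ 64, fun n hn => ?_⟩
  have hn1 : 2 ^ (2 ^ (max s₀ 7)) ≤ n := le_trans (le_trans (Nat.le_add_right _ _)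
    (Nat.le_add_right _ _)) hn
  have hn2 : 2 * d₀ ≤ n := by
    generalize 2 ^ (2 ^ (max s₀ 7)) = A at hn
    omega
  have hn3 : 8 ≤ n := by
    generalize 2 ^ (2 ^ (max s₀ 7)) = A at hn
    omega
  obtain ⟨L, s, h4n, hLs, hss, hL64, hLn, hsL, hsL'⟩ := scale_facts (le_max_right _ _) hn1
  have hs0 : s₀ ≤ s := le_trans (le_max_left _ _) hss
  obtain ⟨t, ht⟩ : ∃ t, t = 18 + 2 * s := ⟨_, rfl⟩
  have ht1 : 1 ≤ t := by omega
  have htL : t ≤ 18 + 2 * L := by omega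
  have hbigL := bigL L hL64
  have hbign : 400000 * L ^ 2 * t ≤ n :=
    le_trans (Nat.mul_le_mul_left _ htL) (le_trans hbigL hLn)
  have ht2 : t ≤ n := by
    have hLsq : 1 ≤ 400000 * L ^ 2 := Nat.mul_pos (by norm_num) (Nat.pow_pos (by omega))
    exact le_trans (Nat.le_mul_of_pos_left _ hLsq) hbign
  obtain ⟨d, hdt⟩ : ∃ d, d + t = n := ⟨n - t, by omega⟩
  obtain ⟨hd2, hdbig, hd1⟩ := dim_facts hbign hL64 ht1 hdt
  have hdn : d ≤ n := by omega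
  have hclL : Nat.clog 2 d ≤ L := by
    have h5 := Nat.clog_mono_right 2 (le_trans (le_trans hdn (by omega)) h4n)
    rwa [Nat.clog_pow 2 _ (by norm_num)] at h5
  obtain ⟨hLt_a, hk, hm1⟩ := arith_m hdbig hclL hd1 (by omega) ht1 hLs ht
  have hA : (2 * (n : ℝ)) ^ t ≤ 2 ^ (mstar d / 16) := C1 h4n hLt_a
  have heff : 2 ^ efin d ≤ 2 ^ 20 * n :=
    le_trans (efin_le d hm1) (Nat.mul_le_mul_left _ hdn)
  have hbig := hs₀ s hs0
  rw [← ht] at hbig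
  refine ⟨d, t, hdt, ht1, by omega, hn3, hA, ?_, ?_⟩
  · exact C2 (by omega) h4n hA hk
  · exact C3 hε hn3 hdn hLn hsL hbig heff

end Vale.Agent.Lib.P230
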