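import Vale.Agent.Lib.P230.Params

/-! MODULE E5: the parameters for the refined bound `n (log n)^(10 log log log n)`. -/

set_option autoImplicit false

open Filter Topology

namespace Vale.Agent.Lib.P230

namespace ParamsAux

lemma C3fine {n t d L s : ℕ} (hn8 : 8 ≤ n) (hdn : d ≤ n)
    (hLn : 2 ^ (L - 3) ≤ n) (hs : 2 ^ (s - 2) ≤ L - 3) (ht : t = 18 + 2 * s)
    (heff : 2 ^ efin d ≤ 2 ^ 20 * n) (hL3 : 3 ≤ L) (hs2 : 2 ≤ s)
    (hx : 100 ≤ Real.log n) (hy : 240 ≤ Real.log (Real.log n))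
    (hz : 11 ≤ Real.log (Real.log (Real.log n))) :
    (2 ^ 16 * (t : ℝ) ^ 2) ^ t * ((1 - 2 / (n : ℝ))⁻¹) ^ d * 2 ^ (efin d + 2) ≤
      (n : ℝ) * (Real.log n) ^ (10 * Real.log (Real.log (Real.log n))) := by
  have hl2a := Real.log_two_gt_d9
  have hl2b := Real.log_two_lt_d9
  have hn0 : (0 : ℝ) < n := by
    have : 0 < n := by omega
    exact_mod_cast this
  obtain ⟨x, hxdef⟩ : ∃ x, x = Real.log n := ⟨_, rfl⟩
  obtain ⟨y, hydef⟩ : ∃ y, y = Real.log x := ⟨_, rfl⟩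
  obtain ⟨z, hzdef⟩ : ∃ z, z = Real.log y := ⟨_, rfl⟩
  rw [← hxdef] at hx hy hz ⊢
  rw [← hydef] at hy hz ⊢
  rw [← hzdef] at hz ⊢
  have hx0 : 0 < x := by linarith
  have hy0 : 0 < y := by linarith
  -- size of `L`
  have hLx : (L : ℝ) ≤ 2 * x := by
    have h1 : ((2 : ℝ) ^ (L - 3)) ≤ n := by exact_mod_cast hLn
    have h2 := Real.log_le_log (by positivity) h1
    rw [Real.log_pow, ← hxdef] at h2
    have h3 : (L : ℝ) = ((L - 3 : ℕ) : ℝ) + 3 := by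
      have : L = (L - 3) + 3 := by omega
      exact_mod_cast this
    have ha : (0 : ℝ) ≤ ((L - 3 : ℕ) : ℝ) := Nat.cast_nonneg _
    nlinarith
  -- size of `s`
  have hsy : (s : ℝ) ≤ 3 + 1.45 * y := by
    have h1 : (2 : ℝ) ^ (s - 2) ≤ 2 * x := by
      have h4 : ((2 ^ (s - 2) : ℕ) : ℝ) ≤ ((L - 3 : ℕ) : ℝ) := by exact_mod_cast hs
      have h5 : ((L - 3 : ℕ) : ℝ) ≤ (L : ℝ) := by exact_mod_cast Nat.sub_le _ _
      push_cast at h4
      linarith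
    have h2 := Real.log_le_log (by positivity) h1
    rw [Real.log_pow, Real.log_mul (by norm_num) hx0.ne', ← hydef] at h2
    have h3 : (s : ℝ) = ((s - 2 : ℕ) : ℝ) + 2 := by
      have : s = (s - 2) + 2 := by omega
      exact_mod_cast this
    have ha : (0 : ℝ) ≤ ((s - 2 : ℕ) : ℝ) := Nat.cast_nonneg _
    nlinarith
  have htle : (t : ℝ) ≤ 3 * y := by
    have : (t : ℝ) = 18 + 2 * s := by rw [ht]; push_cast; ring
    rw [this]
    linarith
  have ht18 : (18 : ℝ) ≤ t := by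
    have : 18 ≤ t := by omega
    exact_mod_cast this
  have ht0 : (0 : ℝ) < t := by linarith
  have hlogt : Real.log t ≤ 2 * Real.log 2 + z := by
    have h1 : Real.log t ≤ Real.log (3 * y) := Real.log_le_log ht0 htle
    rw [Real.log_mul (by norm_num) hy0.ne', ← hzdef] at h1
    have h2 : Real.log 3 ≤ 2 * Real.log 2 := by
      have h3 := Real.log_le_log (by norm_num : (0 : ℝ) < 3) (show (3 : ℝ) ≤ 2 ^ 2 by norm_num)
      rw [Real.log_pow] at h3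
      exact_mod_cast h3
    linarith
  have hpos : (0 : ℝ) < (2 ^ 16 * (t : ℝ) ^ 2) ^ t * 2 ^ 29 := by positivity
  have hmain : Real.log ((2 ^ 16 * (t : ℝ) ^ 2) ^ t * 2 ^ 29) ≤ y * (10 * z) := by
    have hne : (2 ^ 16 * (t : ℝ) ^ 2) ≠ 0 := by positivity
    rw [Real.log_mul (pow_ne_zero _ hne) (by norm_num), Real.log_pow, Real.log_pow,
      Real.log_mul (by norm_num) (by positivity), Real.log_pow, Real.log_pow]
    push_cast
    have hA : 16 * Real.log 2 + 2 * Real.log t ≤ 13.865 + 2 * z := by linarith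
    have hB : 0 ≤ 13.865 + 2 * z := by linarith
    have h1 : (t : ℝ) * (16 * Real.log 2 + 2 * Real.log t) ≤ 3 * y * (13.865 + 2 * z) :=
      le_trans (mul_le_mul_of_nonneg_left hA ht0.le) (mul_le_mul_of_nonneg_right htle hB)
    have h2 : 0 ≤ y * (z - 11) := mul_nonneg hy0.le (by linarith)
    have h3 : 29 * Real.log 2 ≤ 20.2 := by linarith
    nlinarith
  have hexp : (2 ^ 16 * (t : ℝ) ^ 2) ^ t * 2 ^ 29 ≤ x ^ (10 * z) := by
    rw [Real.rpow_def_of_pos hx0, ← hydef]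
    exact (Real.log_le_iff_le_exp hpos).1 hmain
  -- the other factors
  have P2 := inv_pow_le n d hn8 hdn
  have P3 : (2 : ℝ) ^ (efin d + 2) ≤ 2 ^ 22 * n := by
    have : 2 ^ (efin d + 2) ≤ 2 ^ 22 * n := by
      rw [pow_add]
      calc 2 ^ efin d * 2 ^ 2 ≤ (2 ^ 20 * n) * 2 ^ 2 := Nat.mul_le_mul_right _ heff
        _ = 2 ^ 22 * n := by ring
    exact_mod_cast this
  have hinv0 : 0 ≤ ((1 - 2 / (n : ℝ))⁻¹) ^ d := by
    have hx' : 2 / (n : ℝ) ≤ 1 := by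
      rw [div_le_one hn0]
      have : (8 : ℝ) ≤ n := by exact_mod_cast hn8
      linarith
    exact pow_nonneg (inv_nonneg.2 (by linarith)) _
  calc (2 ^ 16 * (t : ℝ) ^ 2) ^ t * ((1 - 2 / (n : ℝ))⁻¹) ^ d * 2 ^ (efin d + 2)
      ≤ (2 ^ 16 * (t : ℝ) ^ 2) ^ t * 2 ^ 7 * (2 ^ 22 * n) := by
        apply mul_le_mul (mul_le_mul_of_nonneg_left P2 (by positivity)) P3 (by positivity)
          (by positivity)
    _ = (n : ℝ) * ((2 ^ 16 * (t : ℝ) ^ 2) ^ t * 2 ^ 29) := by ring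
    _ ≤ (n : ℝ) * x ^ (10 * z) := mul_le_mul_of_nonneg_left hexp hn0.le

end ParamsAux

open ParamsAux in
/-- MODULE E5: the parameters for the refined bound `n (log n)^(10 log log log n)`. -/
theorem params_fine (d₀ : ℕ) : ∃ n₀ : ℕ, ∀ n ≥ n₀, ∃ d t : ℕ,
    d + t = n ∧ 1 ≤ t ∧ d₀ ≤ d ∧ 8 ≤ n ∧
    ((2 * (n : ℝ)) ^ t ≤ 2 ^ (mstar d / 16)) ∧
    (((2 * (n : ℝ)) ^ t) ^ (2 ^ t - 1) * ((1 / 2 : ℝ) ^ (mstar d / 4)) ^ (2 ^ t) <
      (1 / 2) * (1 / (4 * (n : ℝ))) ^ d) ∧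
    ((2 ^ 16 * (t : ℝ) ^ 2) ^ t * ((1 - 2 / (n : ℝ))⁻¹) ^ d * 2 ^ (efin d + 2) ≤
      (n : ℝ) * (Real.log n) ^ (10 * Real.log (Real.log (Real.log n)))) := by
  have e1 : Tendsto (fun n : ℕ => Real.log n) atTop atTop :=
    Real.tendsto_log_atTop.comp tendsto_natCast_atTop_atTop
  have e2 : Tendsto (fun n : ℕ => Real.log (Real.log n)) atTop atTop :=
    Real.tendsto_log_atTop.comp e1
  have e3 : Tendsto (fun n : ℕ => Real.log (Real.log (Real.log n))) atTop atTop :=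
    Real.tendsto_log_atTop.comp e2
  have ev := (e1.eventually_ge_atTop 100).and
    ((e2.eventually_ge_atTop 240).and (e3.eventually_ge_atTop 11))
  obtain ⟨a, ha⟩ := eventually_atTop.1 ev
  refine ⟨2 ^ (2 ^ 7) + 2 * d₀ + a, fun n hn => ?_⟩
  obtain ⟨hx, hy, hz⟩ := ha n (by omega)
  have hn1 : 2 ^ (2 ^ 7) ≤ n := by omega
  have hn2 : 2 * d₀ ≤ n := by omega
  have hn3 : 8 ≤ n := by omega
  obtain ⟨L, s, h4n, hLs, hss, hL64, hLn, hsL, hsL'⟩ := scale_facts (le_refl 7) hn1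
  obtain ⟨t, ht⟩ : ∃ t, t = 18 + 2 * s := ⟨_, rfl⟩
  have ht1 : 1 ≤ t := by omega
  have htL : t ≤ 18 + 2 * L := by omega
  have hbigL := bigL L hL64
  have hbign : 400000 * L ^ 2 * t ≤ n :=
    le_trans (Nat.mul_le_mul_left _ htL) (le_trans hbigL hLn)
  have ht2 : t ≤ n := by
    have hLsq : 1 ≤ 400000 * L ^ 2 := Nat.mul_pos (by norm_num) (Nat.pow_pos (by omega))
    exact le_trans (Nat.le_mul_of_pos_left _ hLsq) hbign
  obtain ⟨d, hdt⟩ : ∃ d, d + t = n := ⟨n - t, by omega⟩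
  obtain ⟨hd2, hdbig, hd1⟩ := dim_facts hbign hL64 ht1 hdt
  have hdn : d ≤ n := by omega
  have hclL : Nat.clog 2 d ≤ L := by
    have h5 := Nat.clog_mono_right 2 (le_trans (le_trans hdn (by omega)) h4n)
    rwa [Nat.clog_pow 2 _ (by norm_num)] at h5
  obtain ⟨hLt_a, hk, hm1⟩ := arith_m hdbig hclL hd1 (by omega) ht1 hLs ht
  have hA : (2 * (n : ℝ)) ^ t ≤ 2 ^ (mstar d / 16) := C1 h4n hLt_a
  have heff : 2 ^ efin d ≤ 2 ^ 20 * n :=
    le_trans (efin_le d hm1) (Nat.mul_le_mul_left _ hdn)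
  refine ⟨d, t, hdt, ht1, by omega, hn3, hA, ?_, ?_⟩
  · exact C2 (by omega) h4n hA hk
  · exact C3fine hn3 hdn hLn hsL ht heff (by omega) (by omega) hx hy hz

end Vale.Agent.Lib.P230
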