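import Vale.Agent.Lib.P230.FineDefs

/-! Statements of the modules of the fine window. See `notes/P230_window.md` in the findings. -/

set_option autoImplicit false

open MeasureTheory Finset
open scoped ENNReal Matrix

namespace Vale.Agent.Lib.P230

variable {n t d : ℕ}

/-- MODULE W1: second moment method over Gaussian frames. Take `θ i j` independent `N(0, 1/n)`.
`E_θ exp(Σ_ij w_i x_j θ_ij) = exp(|w|²|x|²/(2n))`, so `E_θ frameLap = frameMean`, and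
`E_θ frameLap² = ∫∫ exp(|w|²|x+x'|²/(2n))`. With `a = |w|²/(2n)`, `u = 2a⟨x,x'⟩`:
`E frameLap² - frameMean² = ∫∫ exp(a|x|²+a|x'|²)(exp u - 1) ≤ exp(20|w|²) (|w|²/n) ∫∫ |⟨x,x'⟩|`
and `∫∫ ⟨x,x'⟩² ≤ (10/9) ∫ |x|² ≤ (100/9) n`. As `frameMean ≥ 1`,
`η_w := E (frameLap/frameMean - 1)² ≤ (10/3) |w|² exp(20|w|²)/√n`. Let
`Bad θ = Σ_w 4 (frameLap/frameMean - 1)² + (Σ_ij θ_ij²)/(2t)`; `E Bad = 4 Σ η_w + 1/2 < 1`, take `θ` with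
`Bad θ < 1`. Use Tonelli (all integrands are nonnegative) to get integrability. -/
theorem gaussian_frame (hn : 0 < n) (ht : 1 ≤ t) (P : Measure (Fin n → ℝ)) [IsProbabilityMeasure P]
    (hsupp : ∀ᵐ x ∂P, ∑ j, x j ^ 2 ≤ 10 * (n : ℝ))
    (hiso : ∀ a : Fin n → ℝ, ∫ x, (a ⬝ᵥ x) ^ 2 ∂P ≤ (10 / 9) * ∑ j, a j ^ 2)
    (T : Finset (Fin t → ℝ)) (W : ℝ) (hW : ∀ w ∈ T, ∑ i, w i ^ 2 ≤ W)
    (hnum : 64 * (T.card : ℝ) * W * Real.exp (20 * W) ≤ Real.sqrt n) :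
    ∃ θ : Fin t → Fin n → ℝ, (∑ i, ∑ j, θ i j ^ 2) ≤ 2 * (t : ℝ) ∧
      ∀ w ∈ T, (1 / 2) * frameMean P w ≤ frameLap P θ w ∧ frameLap P θ w ≤ (3 / 2) * frameMean P w := by
  sorry

/-- MODULE W2: from the test points to all directions, by convexity. Let `ξ` with `|ξ|² = 490000 t`.
Let `k i = round (ξ i / 14)`, `ξ' = 7 k`, `ξ₂ = 2 ξ' - ξ`; so `|ξ₂ i| ≤ 7`, `|k i| ≤ 51 t`,
`346.5 √t ≤ |ξ'| ≤ 353.5 √t`, `ξ' ∈ testGrid t`. Cauchy-Schwarz: `frameLap ξ' ^ 2 ≤ frameLap ξ * frameLap ξ₂`.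
`exp (ξ₂ i y) ≤ exp (7 y) + exp (-7 y)` gives `frameLap ξ₂ ≤ Σ_σ frameLap (7 σ) ≤ 2^t (3/2) exp (245 t)`,
as `7 σ ∈ testGrid t`, `frameMean (7 σ) ≤ exp (245 t)` by `hsupp`. Jensen: `frameMean ξ' ≥ exp (|ξ'|²/122) ≥
exp (984 t)`. So `frameLap ξ ≥ (1/6) 2^(-t) exp (1723 t) ≥ exp (490000 t / 300)`. -/
theorem laplace_all (hn : 0 < n) (ht : 1 ≤ t) (P : Measure (Fin n → ℝ)) [IsProbabilityMeasure P]
    (hsupp : ∀ᵐ x ∂P, ∑ j, x j ^ 2 ≤ 10 * (n : ℝ))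
    (hmean : (n : ℝ) / 61 ≤ ∫ x, ∑ j, x j ^ 2 ∂P) (θ : Fin t → Fin n → ℝ)
    (hθ : ∀ w ∈ testGrid t, (1 / 2) * frameMean P w ≤ frameLap P θ w ∧
      frameLap P θ w ≤ (3 / 2) * frameMean P w) (ξ : Fin t → ℝ)
    (hξ : ∑ i, ξ i ^ 2 = 490000 * (t : ℝ)) :
    Real.exp (490000 * (t : ℝ) / 300) ≤ frameLap P θ ξ := by
  sorry

/-- MODULE W3: a Gaussian Laplace transform forces a large value on a cube (no Gaussian assumption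
on `A` beyond this). Anchor: Markov gives mass `≥ 𝒱/2` in the ball `|z|² ≤ (40/9) t`, whose volume
is at most `(2π)^(t/2) exp((20/9) t)` (compare with `∫ exp(-|z|²/2)`), so there is `z₀` in the ball with
`A z₀ ≥ 𝒱 / (4 (2π)^(t/2) exp((20/9)t))`. Put `F y = A (z₀ + y)`, `V₀ = exp(-2t) F 0`, `L₀ = {F ≥ V₀}`
(convex), `s = 1/1400`. Claim: each corner `v ∈ {±s}^t` is in `closure L₀`; then the open cube is in
`interior (closure L₀) = interior L₀`, which gives the closed cube of half side `1/2800`. If `v ∉ closure L₀`,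
separate (`geometric_hahn_banach_point_closed` or similar): a unit `b` with `⟨y,b⟩ < ⟨v,b⟩ ≤ s√t` on `L₀`.
Let `μ = 700√t`, `τ₁ = 2s√t = √t/700`. For `τ = ⟨y,b⟩ > τ₁`, `y' = (τ₁/τ) y ∉ L₀`, so by log concavity
`F y ≤ F 0 exp(-2t τ/τ₁)`, so `exp(μτ) F y ≤ (F y)^(1/2) (F 0)^(1/2)`. Also
`∫ F^(1/2) = 2^t ∫ F(2y)^(1/2) ≤ 2^t (F 0)^(-1/2) ∫ F` since `F y ≥ F(2y)^(1/2) F(0)^(1/2)`. So
`∫ exp(μ⟨y,b⟩) F y dy ≤ (exp t + 2^t) 𝒱`, while by `hLap` at `w = μ b` and `|z₀| ≤ 2.11 √t` the integral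
is at least `exp(-1477 t) exp(1633 t) 𝒱`. Contradiction. -/
theorem window_from_laplace (ht : 1 ≤ t) (A : (Fin t → ℝ) → ℝ) (h0 : ∀ z, 0 ≤ A z) (hm : Measurable A)
    (hl : LogConc A) (hb : ∃ c, ∀ z, A z ≤ c) (hs : Bornology.IsBounded {z | A z ≠ 0})
    (V : ℝ) (hV0 : 0 < V) (hV : ∫ z, A z = V)
    (hsq : ∫ z, (∑ i, z i ^ 2) * A z ≤ (20 / 9) * (t : ℝ) * V)
    (hLap : ∀ w : Fin t → ℝ, ∑ i, w i ^ 2 = 490000 * (t : ℝ) →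
      V * Real.exp (490000 * (t : ℝ) / 300) ≤ ∫ z, Real.exp (∑ i, w i * z i) * A z) :
    ∃ (z₀ : Fin t → ℝ) (V₀ : ℝ), 0 < V₀ ∧
      (∀ x : Fin t → ℝ, (∀ i, |x i| ≤ 1 / 2800) → V₀ ≤ A (z₀ + x)) ∧ V ≤ 4 * 200 ^ t * V₀ := by
  sorry

/-- MODULE W4a: isotropic position for the second moment matrix about the origin. `M i j = ∫_K x_i x_j`
is positive definite since `K` has interior points; take `L` with `L M Lᵀ = vol(K) |det L| ... `, i.e. normalise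
so that the second moment matrix of the image, divided by its volume, is the identity. -/
theorem isotropic_position (K : Set (Fin n → ℝ)) (hK : IsCompact K) (hi : (interior K).Nonempty) :
    ∃ L : Matrix (Fin n) (Fin n) ℝ, L.det ≠ 0 ∧ ∀ a : Fin n → ℝ,
      ∫ x in L.mulVec '' K, (a ⬝ᵥ x) ^ 2 = (∑ j, a j ^ 2) * (volume (L.mulVec '' K)).toReal := by
  sorry

/-- MODULE W4b: truncation keeps the second moment, by Borell's lemma. Let `G = K ∩ {|x|² ≤ 10 n}`,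
`E₀ = ∫_G |x|² / vol G`, `ρ² = 10 E₀`, `A = K ∩ {|x| ≤ ρ}`. Markov twice: `vol G ≥ (9/10) vol K` and
`p = vol A / vol K ≥ 0.81`. For `D_k = K ∩ {|x| > (2k+1) ρ}`: `(x + k y)/(k+1) ∈ K \ A` for `x ∈ D_k`, `y ∈ A`, so by
Prekopa-Leindler (`Vale.Agent.Lib.P245.pl_pi`, as in `secVol_logConc` of Sections.lean)
`vol D_k / vol K ≤ q^(k+1)/p^k ≤ 0.19 * 4^(-k)` with `q = 1-p ≤ 0.19`. Pointwise
`|x|² ≤ ρ² (1 + Σ_k (2k+3)² 1_{D_k}(x))`, so `n ≤ ρ² (1 + 0.19 Σ_k (2k+3)² 4^(-k)) ≤ 4.9 ρ² = 49 E₀`. -/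
theorem borell_mean (hn : 0 < n) (K : Set (Fin n → ℝ)) (hc : Convex ℝ K) (hK : IsCompact K)
    (hvol : 0 < volume K)
    (hsum : ∫ x in K, ∑ j, x j ^ 2 = (n : ℝ) * (volume K).toReal) :
    0 < volume (K ∩ {x | ∑ j, x j ^ 2 ≤ 10 * (n : ℝ)}) ∧
    (volume K).toReal ≤ (10 / 9) * (volume (K ∩ {x | ∑ j, x j ^ 2 ≤ 10 * (n : ℝ)})).toReal ∧
    ((n : ℝ) / 61) * (volume (K ∩ {x | ∑ j, x j ^ 2 ≤ 10 * (n : ℝ)})).toReal ≤
      ∫ x in K ∩ {x | ∑ j, x j ^ 2 ≤ 10 * (n : ℝ)}, ∑ j, x j ^ 2 := by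
  sorry

/-- MODULE W5a: linearly independent rows extend to an invertible matrix. -/
theorem extend_frame (θ : Fin t → Fin (d + t) → ℝ) (hθ : LinearIndependent ℝ θ) :
    ∃ E : Matrix (Fin (d + t)) (Fin (d + t)) ℝ, E.det ≠ 0 ∧ ∀ i, E (Fin.natAdd d i) = θ i := by
  sorry

/-- MODULE W5b: the law of the frame projection has density `secVol`: change of variables `x ↦ E x`, the
measure preserving `splitMap` (`MeasurableEquiv.sumPiEquivProdPi`, `finSumFinEquiv`,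
`volume_measurePreserving_sumPiEquivProdPi`), Tonelli on the product. -/
theorem frame_marginal (E : Matrix (Fin (d + t)) (Fin (d + t)) ℝ) (hE : E.det ≠ 0)
    (K₀ : Set (Fin (d + t) → ℝ)) (hK₀ : IsCompact K₀) (g : (Fin t → ℝ) → ℝ≥0∞) (hg : Measurable g) :
    ENNReal.ofReal |E.det| * ∫⁻ x in K₀, g (fun i => E (Fin.natAdd d i) ⬝ᵥ x) =
      ∫⁻ z, g z * ENNReal.ofReal (secVol (splitMap d t '' (E.mulVec '' K₀)) z) := by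
  sorry

/-- MODULE W6: numerics. `t = 18 + 2 clog clog (4 n)` as in Params.lean. -/
theorem params_log (d₀ : ℕ) : ∃ n₀ : ℕ, ∀ n ≥ n₀, ∃ d t : ℕ,
    d + t = n ∧ 1 ≤ t ∧ d₀ ≤ d ∧ 8 ≤ n ∧
    ((2 * (n : ℝ)) ^ t ≤ 2 ^ (mstar d / 16)) ∧
    (((2 * (n : ℝ)) ^ t) ^ (2 ^ t - 1) * ((1 / 2 : ℝ) ^ (mstar d / 4)) ^ (2 ^ t) <
      (1 / 2) * (1 / (4 * (n : ℝ))) ^ d) ∧
    (64 * ((102 * (t : ℝ) + 1) ^ t) * (490000 * (t : ℝ)) * Real.exp (9800000 * (t : ℝ)) ≤ Real.sqrt n) ∧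
    ((10 / 9) * (4 * 1120000 ^ t) * ((1 - 2 / (n : ℝ))⁻¹) ^ d * 2 ^ (efin d + 2) ≤
      (n : ℝ) * (Real.log n) ^ 41) := by
  sorry

end Vale.Agent.Lib.P230
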