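import Vale.Agent.Lib.P230.FineDefs2

/-! Statements of the tuned fine window: same proofs as Gframe, LapAll, WinLap, BorellMean, ParamsLog,
other constants. Final bound `n (log n)^15`. -/

set_option autoImplicit false

open MeasureTheory Finset
open scoped ENNReal Matrix

namespace Vale.Agent.Lib.P230

variable {n t d : ℕ}

/-- MODULE G1: as `gaussian_frame` with `10` replaced by `B = 1156`, `10/9` by `1156/1155`. Now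
`a|x|² ≤ B|w|²/2`, `|u| ≤ B|w|²`, so `E frameLap² - frameMean² ≤ exp(2B|w|²) (|w|²/n) ∫∫|⟨x,x'⟩|`,
`∫∫⟨x,x'⟩² ≤ (1156/1155) B n`, `η_w ≤ 35 |w|² exp(2B|w|²)/√n`. `Bad θ = Σ_w 4 (frameLap/frameMean-1)² +
(Σ_ij θ_ij²)/((11/10) t)`, `E Bad = 4 Σ η_w + 10/11 < 1` since `4 * 35 / 1600 < 1/11`. -/
theorem gaussian_frame2 (hn : 0 < n) (ht : 1 ≤ t) (P : Measure (Fin n → ℝ)) [IsProbabilityMeasure P]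
    (hsupp : ∀ᵐ x ∂P, ∑ j, x j ^ 2 ≤ 1156 * (n : ℝ))
    (hiso : ∀ a : Fin n → ℝ, ∫ x, (a ⬝ᵥ x) ^ 2 ∂P ≤ (1156 / 1155) * ∑ j, a j ^ 2)
    (T : Finset (Fin t → ℝ)) (W : ℝ) (hW : ∀ w ∈ T, ∑ i, w i ^ 2 ≤ W)
    (hnum : 1600 * (T.card : ℝ) * W * Real.exp (2312 * W) ≤ Real.sqrt n) :
    ∃ θ : Fin t → Fin n → ℝ, (∑ i, ∑ j, θ i j ^ 2) ≤ (11 / 10) * (t : ℝ) ∧
      ∀ w ∈ T, (1 / 2) * frameMean P w ≤ frameLap P θ w ∧ frameLap P θ w ≤ (3 / 2) * frameMean P w := by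
  sorry

/-- MODULE G2: from the test points to all directions, by plain convexity. Let `|ξ|² = 12.25 t`,
`k i = round (792 ξ i)` (so `|k i| ≤ 2801 t`), `ξ' = k/800 ∈ testGrid2 t`, `ξ₂ = 100 ξ' - 99 ξ`. Then
`ξ' = 0.99 ξ + 0.01 ξ₂`, `|ξ₂ i| ≤ 1/16`. Convexity of `exp`: `frameLap ξ' ≤ 0.99 frameLap ξ + 0.01 frameLap ξ₂`.
`exp (ξ₂ i y) ≤ exp (y/16) + exp (-y/16)` gives `frameLap ξ₂ ≤ Σ_σ frameLap (σ/16) ≤ 2^t (3/2) exp (2.2579 t)`,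
corners are in `testGrid2 t` (`k = ± 50`), `frameMean (σ/16) ≤ exp ((t/256) (1156/2))`. Jensen:
`frameMean ξ' ≥ exp (0.45 |ξ'|²)`, `|ξ'|² ≥ 0.999 * 0.9801 * 12.25 t - 999 t / 2560000 ≥ 11.993 t`, so
`frameLap ξ' ≥ (1/2) exp (5.397 t)`, and `2^t exp (2.2579 t) ≤ exp (5.397 t)`; so
`frameLap ξ ≥ ((1/2 - 0.015)/0.99) exp (5.397 t) ≥ 0.48 exp (5.39 t)`. -/
theorem laplace_all2 (hn : 0 < n) (ht : 1 ≤ t) (P : Measure (Fin n → ℝ)) [IsProbabilityMeasure P]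
    (hsupp : ∀ᵐ x ∂P, ∑ j, x j ^ 2 ≤ 1156 * (n : ℝ))
    (hmean : (9 / 10) * (n : ℝ) ≤ ∫ x, ∑ j, x j ^ 2 ∂P) (θ : Fin t → Fin n → ℝ)
    (hθ : ∀ w ∈ testGrid2 t, (1 / 2) * frameMean P w ≤ frameLap P θ w ∧
      frameLap P θ w ≤ (3 / 2) * frameMean P w) (ξ : Fin t → ℝ)
    (hξ : ∑ i, ξ i ^ 2 = (49 / 4) * (t : ℝ)) :
    (48 / 100) * Real.exp ((539 / 100) * (t : ℝ)) ≤ frameLap P θ ξ := by
  sorry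

/-- MODULE G3: as `window_from_laplace` with other constants. Anchor: Markov gives mass `≥ 0.26 V` in the ball
`|z|² ≤ 1.5 t`, of volume at most `(2π)^(t/2) exp(0.75 t)`, so `z₀` in the ball with
`A z₀ ≥ 0.25 V / ((2π)^(t/2) exp(0.75 t))`. `F y = A (z₀ + y)`, `V₀ = exp(-t) F 0`, `L₀ = {F ≥ V₀}`,
`s = 1/7.07`, `μ = 3.5 √t`, `τ₁ = 1.01 s √t`, so `μ τ₁ = t/2`. Each corner of `[-s,s]^t` is in `closure L₀`: else a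
unit `b` with `⟨y,b⟩ < ⟨v,b⟩ ≤ s√t` on `L₀`; for `τ = ⟨y,b⟩ > τ₁`, `F y ≤ F 0 exp(-t τ/τ₁)`, so
`exp(μτ) F y ≤ (F y)^(1/2) (F 0)^(1/2)`, and `∫ F^(1/2) ≤ 2^t (F 0)^(-1/2) V`; so
`∫ exp(μ⟨y,b⟩) F ≤ (exp(t/2) + 2^t) V`, while by `hLap` at `w = μ b`, `|w| |z₀| ≤ 4.2867 t`, the integral is at
least `0.48 exp(1.1033 t) V`. This is a contradiction for `t ≥ 3` (`0.48 exp(3.3) > exp(1.5) + 8`). Then the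
open cube `(-s,s)^t` is in `L₀`, and `7/50 < s`. `V ≤ 4 (√(2π) exp(0.75) e)^t V₀ ≤ 4 * 15^t V₀`. -/
theorem window_from_laplace2 (ht : 3 ≤ t) (A : (Fin t → ℝ) → ℝ) (h0 : ∀ z, 0 ≤ A z) (hm : Measurable A)
    (hl : LogConc A) (hb : ∃ c, ∀ z, A z ≤ c) (hs : Bornology.IsBounded {z | A z ≠ 0})
    (V : ℝ) (hV0 : 0 < V) (hV : ∫ z, A z = V)
    (hsq : ∫ z, (∑ i, z i ^ 2) * A z ≤ (111 / 100) * (t : ℝ) * V)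
    (hLap : ∀ w : Fin t → ℝ, ∑ i, w i ^ 2 = (49 / 4) * (t : ℝ) →
      V * ((48 / 100) * Real.exp ((539 / 100) * (t : ℝ))) ≤ ∫ z, Real.exp (∑ i, w i * z i) * A z) :
    ∃ (z₀ : Fin t → ℝ) (V₀ : ℝ), 0 < V₀ ∧
      (∀ x : Fin t → ℝ, (∀ i, |x i| ≤ 7 / 50) → V₀ ≤ A (z₀ + x)) ∧ V ≤ 4 * 15 ^ t * V₀ := by
  sorry

/-- MODULE G4: truncation keeps most of the second moment, by Borell's lemma. `G = K ∩ {|x|² ≤ 1156 n}`. Markov: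
`vol (K \ G) * 1156 n ≤ n vol K`. Let `A = K ∩ {|x|² ≤ 4n}`, `p = vol A/vol K ≥ 3/4`, `q = 1 - p ≤ 1/4`,
`D_k = K ∩ {|x| > (2k+1) 2 √n}`. As in `borell_mean`, `vol D_k / vol K ≤ q^(k+1)/p^k ≤ (1/4) 3^(-k)`. Note `G = K \ D_8`.
Pointwise on `K \ G`, `|x|² ≤ 4 n Σ_(k ≥ 8) (2k+3)² 1_(D_k)(x)`, so `∫_(K \ G) |x|² ≤ n vol K Σ_(k≥8) (2k+3)² 3^(-k) ≤ 0.1 n vol K`.
So `∫_G |x|² ≥ 0.9 n vol K ≥ 0.9 n vol G`. -/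
theorem borell_mean2 (hn : 0 < n) (K : Set (Fin n → ℝ)) (hc : Convex ℝ K) (hK : IsCompact K)
    (hvol : 0 < volume K)
    (hsum : ∫ x in K, ∑ j, x j ^ 2 = (n : ℝ) * (volume K).toReal) :
    0 < volume (K ∩ {x | ∑ j, x j ^ 2 ≤ 1156 * (n : ℝ)}) ∧
    (volume K).toReal ≤ (1156 / 1155) * (volume (K ∩ {x | ∑ j, x j ^ 2 ≤ 1156 * (n : ℝ)})).toReal ∧
    ((9 / 10) * (n : ℝ)) * (volume (K ∩ {x | ∑ j, x j ^ 2 ≤ 1156 * (n : ℝ)})).toReal ≤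
      ∫ x in K ∩ {x | ∑ j, x j ^ 2 ≤ 1156 * (n : ℝ)}, ∑ j, x j ^ 2 := by
  sorry

/-- MODULE G6: numerics, as `params_log`. -/
theorem params_log2 (d₀ : ℕ) : ∃ n₀ : ℕ, ∀ n ≥ n₀, ∃ d t : ℕ,
    d + t = n ∧ 3 ≤ t ∧ d₀ ≤ d ∧ 8 ≤ n ∧
    ((2 * (n : ℝ)) ^ t ≤ 2 ^ (mstar d / 16)) ∧
    (((2 * (n : ℝ)) ^ t) ^ (2 ^ t - 1) * ((1 / 2 : ℝ) ^ (mstar d / 4)) ^ (2 ^ t) <
      (1 / 2) * (1 / (4 * (n : ℝ))) ^ d) ∧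
    (1600 * ((5602 * (t : ℝ) + 1) ^ t) * ((49 / 4) * (t : ℝ)) * Real.exp (28322 * (t : ℝ)) ≤ Real.sqrt n) ∧
    ((1156 / 1155) * (4 * 215 ^ t) * ((1 - 2 / (n : ℝ))⁻¹) ^ d * 2 ^ (efin d + 2) ≤
      (n : ℝ) * (Real.log n) ^ 15) := by
  sorry

end Vale.Agent.Lib.P230
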