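import Mathlib

/-! Modules E2a and E2b of P230: symmetric pieces and exact volumes of convex compact sets. -/

set_option autoImplicit false

open MeasureTheory Set
open scoped ENNReal

namespace Vale.Agent.Lib.P230

variable {d : ℕ}

private lemma volume_homothety (x : Fin d → ℝ) (s : ℝ) (hs : 0 ≤ s) (B : Set (Fin d → ℝ)) :
    volume (AffineMap.homothety x s '' B) = ENNReal.ofReal (s ^ d) * volume B := by
  rw [Measure.addHaar_image_homothety]
  simp [abs_of_nonneg (pow_nonneg hs d)]

private lemma homothety_subset (B : Set (Fin d → ℝ)) (hc : Convex ℝ B) (x : Fin d → ℝ) (hx : x ∈ B)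
    (s : ℝ) (h0 : 0 ≤ s) (h1 : s ≤ 1) : AffineMap.homothety x s '' B ⊆ B := by
  rintro _ ⟨b, hb, rfl⟩
  have := hc hb hx (a := s) (b := 1 - s) h0 (by linarith) (by ring)
  have e : AffineMap.homothety x s b = s • b + (1 - s) • x := by
    simp only [AffineMap.homothety_apply, vsub_eq_sub, vadd_eq_add]
    ext i
    simp only [Pi.add_apply, Pi.smul_apply, Pi.sub_apply, smul_eq_mul]
    ring
  rw [e]
  exact this

private lemma exists_scale (hd : 0 < d) {V v : ℝ} (hV : 0 < V) (hvV : V ≤ v) :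
    ∃ s : ℝ, 0 < s ∧ s ≤ 1 ∧ s ^ d * v = V := by
  have hv : 0 < v := lt_of_lt_of_le hV hvV
  have hq : 0 < V / v := div_pos hV hv
  refine ⟨(V / v) ^ ((d : ℝ)⁻¹), Real.rpow_pos_of_pos hq _, ?_, ?_⟩
  · apply Real.rpow_le_one hq.le ((div_le_one hv).2 hvV)
    positivity
  · rw [Real.rpow_inv_natCast_pow hq.le hd.ne']
    field_simp

/-- Homothety about a point of a convex compact set, to an exact smaller volume. -/
private lemma shrink_about (hd : 0 < d) (B : Set (Fin d → ℝ)) (hc : Convex ℝ B) (hK : IsCompact B)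
    (x : Fin d → ℝ) (hx : x ∈ B) (V : ℝ) (hV : 0 < V) (hv : ENNReal.ofReal V ≤ volume B) :
    ∃ s : ℝ, 0 < s ∧ s ≤ 1 ∧ AffineMap.homothety x s '' B ⊆ B ∧
      Convex ℝ (AffineMap.homothety x s '' B) ∧ IsCompact (AffineMap.homothety x s '' B) ∧
      volume (AffineMap.homothety x s '' B) = ENNReal.ofReal V := by
  have hfin : volume B ≠ ∞ := hK.measure_lt_top.ne
  have hvV : V ≤ (volume B).toReal := by
    have := ENNReal.toReal_mono hfin hv
    rwa [ENNReal.toReal_ofReal hV.le] at this
  obtain ⟨s, hs0, hs1, hsV⟩ := exists_scale hd hV hvV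
  refine ⟨s, hs0, hs1, homothety_subset B hc x hx s hs0.le hs1, ?_, ?_, ?_⟩
  · exact hc.affine_image (AffineMap.homothety x s)
  · exact hK.image (AffineMap.homothety x s).continuous_of_finiteDimensional
  · rw [volume_homothety x s hs0.le B]
    rw [← ENNReal.ofReal_toReal hfin, ← ENNReal.ofReal_mul (pow_nonneg hs0.le d), hsV]

/-- MODULE E2b: shrink a convex compact set to an exact volume. -/
theorem shrink_body {d : ℕ} (hd : 0 < d) (B : Set (Fin d → ℝ)) (hc : Convex ℝ B) (hK : IsCompact B)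
    (V : ℝ) (hV : 0 < V) (hv : ENNReal.ofReal V ≤ volume B) :
    ∃ B' : Set (Fin d → ℝ), B' ⊆ B ∧ Convex ℝ B' ∧ IsCompact B' ∧ volume B' = ENNReal.ofReal V := by
  have hne : B.Nonempty := by
    rcases B.eq_empty_or_nonempty with h | h
    · subst h
      simp only [measure_empty, nonpos_iff_eq_zero, ENNReal.ofReal_eq_zero] at hv
      linarith
    · exact h
  obtain ⟨x, hx⟩ := hne
  obtain ⟨s, -, -, h1, h2, h3, h4⟩ := shrink_about hd B hc hK x hx V hV hv
  exact ⟨_, h1, h2, h3, h4⟩

/-- The averaging step: some point of a convex compact set is a good center. -/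
private lemma exists_center (B₀ : Set (Fin d → ℝ)) (hc : Convex ℝ B₀) (hK : IsCompact B₀)
    (hpos : volume B₀ ≠ 0) :
    ∃ c ∈ B₀, ENNReal.ofReal ((1 / 2 : ℝ) ^ d) * volume B₀ ≤
      volume {y : Fin d → ℝ | y ∈ B₀ ∧ (2 : ℝ) • c - y ∈ B₀} := by
  classical
  set κ : ℝ≥0∞ := ENNReal.ofReal ((1 / 2 : ℝ) ^ d) * volume B₀ with hκ
  have hcl : IsClosed B₀ := hK.isClosed
  let S : Set ((Fin d → ℝ) × (Fin d → ℝ)) :=
    {p | p.1 ∈ B₀ ∧ p.2 ∈ B₀ ∧ (2 : ℝ) • p.1 - p.2 ∈ B₀}
  have hS : IsClosed S := by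
    refine (hcl.preimage continuous_fst).inter ((hcl.preimage continuous_snd).inter ?_)
    exact hcl.preimage (by fun_prop)
  have hSm : MeasurableSet S := hS.measurableSet
  have hm₀ : MeasurableSet B₀ := hcl.measurableSet
  -- the sections in the second coordinate
  have hsec2 : ∀ y, volume ((fun c => (c, y)) ⁻¹' S) = B₀.indicator (fun _ => κ) y := by
    intro y
    by_cases hy : y ∈ B₀
    · rw [indicator_of_mem hy]
      have : (fun c => (c, y)) ⁻¹' S = AffineMap.homothety y (1 / 2 : ℝ) '' B₀ := by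
        ext c
        simp only [S, mem_preimage, mem_ofPred_eq, mem_image]
        constructor
        · rintro ⟨-, -, h⟩
          refine ⟨_, h, ?_⟩
          simp only [AffineMap.homothety_apply, vsub_eq_sub, vadd_eq_add]
          ext i
          simp only [Pi.add_apply, Pi.smul_apply, Pi.sub_apply, smul_eq_mul]
          ring
        · rintro ⟨b, hb, rfl⟩
          have e : (2 : ℝ) • AffineMap.homothety y (1 / 2 : ℝ) b - y = b := by
            simp only [AffineMap.homothety_apply, vsub_eq_sub, vadd_eq_add]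
            ext i
            simp only [Pi.add_apply, Pi.smul_apply, Pi.sub_apply, smul_eq_mul]
            ring
          refine ⟨homothety_subset B₀ hc y hy (1 / 2) (by norm_num) (by norm_num) ⟨b, hb, rfl⟩,
            hy, ?_⟩
          rw [e]
          exact hb
      rw [this, volume_homothety y (1 / 2) (by norm_num) B₀]
    · rw [indicator_of_notMem hy]
      have : (fun c => (c, y)) ⁻¹' S = ∅ := by
        ext c
        simp only [S, mem_preimage, mem_ofPred_eq, mem_empty_iff_false, iff_false]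
        rintro ⟨-, h, -⟩
        exact hy h
      rw [this, measure_empty]
  -- the sections in the first coordinate
  let f : (Fin d → ℝ) → ℝ≥0∞ := fun c => volume (Prod.mk c ⁻¹' S)
  have hfm : Measurable f := measurable_measure_prodMk_left hSm
  have hsec1 : ∀ c ∈ B₀, f c = volume {y : Fin d → ℝ | y ∈ B₀ ∧ (2 : ℝ) • c - y ∈ B₀} := by
    intro c hc'
    show volume (Prod.mk c ⁻¹' S) = _
    congr 1
    ext y
    simp only [S, mem_preimage, mem_ofPred_eq]
    exact ⟨fun h => h.2, fun h => ⟨hc', h⟩⟩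
  have hsec1' : ∀ c, c ∉ B₀ → f c = 0 := by
    intro c hc'
    show volume (Prod.mk c ⁻¹' S) = _
    have : Prod.mk c ⁻¹' S = ∅ := by
      ext y
      simp only [S, mem_preimage, mem_ofPred_eq, mem_empty_iff_false, iff_false]
      rintro ⟨h, -⟩
      exact hc' h
    rw [this, measure_empty]
  -- Tonelli
  have htot : ∫⁻ c, f c = κ * volume B₀ := by
    have h1 : (volume.prod volume) S = ∫⁻ c, f c := Measure.prod_apply hSm
    have h2 : (volume.prod volume) S = ∫⁻ y, volume ((fun c => (c, y)) ⁻¹' S) :=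
      Measure.prod_apply_symm hSm
    rw [← h1, h2]
    simp_rw [hsec2]
    rw [lintegral_indicator hm₀, setLIntegral_const]
  by_contra hno
  push Not at hno
  have hfin : volume B₀ ≠ ∞ := hK.measure_lt_top.ne
  have hκfin : κ ≠ ∞ := ENNReal.mul_ne_top ENNReal.ofReal_ne_top hfin
  have hlt : ∫⁻ c, f c < κ * volume B₀ := by
    have e : ∫⁻ c, f c = ∫⁻ c in B₀, f c := by
      rw [← lintegral_indicator hm₀]
      congr 1
      ext c
      by_cases h : c ∈ B₀
      · rw [indicator_of_mem h]
      · rw [indicator_of_notMem h, hsec1' c h]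
    have hfi : ∫⁻ c in B₀, f c ≠ ∞ := by
      rw [← e, htot]
      exact ENNReal.mul_ne_top hκfin hfin
    rw [e, ← setLIntegral_const]
    refine setLIntegral_strict_mono hm₀ hpos measurable_const hfi ?_
    filter_upwards with c hcm
    rw [hsec1 c hcm]
    exact hno c hcm
  rw [htot] at hlt
  exact lt_irrefl _ hlt

/-- MODULE E2a: a symmetric convex piece of a convex compact set. -/
theorem sym_body {d : ℕ} (hd : 0 < d) (B₀ : Set (Fin d → ℝ)) (hc : Convex ℝ B₀) (hK : IsCompact B₀)
    (V₀ : ℝ) (hV₀ : 0 < V₀) (hv : ENNReal.ofReal V₀ ≤ volume B₀) :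
    ∃ (cy : Fin d → ℝ) (Bs : Set (Fin d → ℝ)), cy ∈ B₀ ∧ Convex ℝ Bs ∧ IsCompact Bs ∧
      (∀ a ∈ Bs, -a ∈ Bs) ∧ (∀ a ∈ Bs, cy + a ∈ B₀) ∧
      volume Bs = ENNReal.ofReal (V₀ / 2 ^ d) := by
  have hpos : volume B₀ ≠ 0 := by
    intro h
    rw [h] at hv
    simp only [nonpos_iff_eq_zero, ENNReal.ofReal_eq_zero] at hv
    linarith
  obtain ⟨c, hcm, hcv⟩ := exists_center B₀ hc hK hpos
  -- the centered symmetric piece
  let B₁ : Set (Fin d → ℝ) := {a | c + a ∈ B₀ ∧ c - a ∈ B₀}
  have hcl : IsClosed B₀ := hK.isClosed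
  have hB₁conv : Convex ℝ B₁ := by
    intro x hx y hy a b ha hb hab
    constructor
    · have := hc hx.1 hy.1 ha hb hab
      have e : a • (c + x) + b • (c + y) = c + (a • x + b • y) := by
        have : c = (a + b) • c := by rw [hab, one_smul]
        nth_rewrite 3 [this]
        simp only [smul_add, add_smul]
        abel
      rwa [e] at this
    · have := hc hx.2 hy.2 ha hb hab
      have e : a • (c - x) + b • (c - y) = c - (a • x + b • y) := by
        have : c = (a + b) • c := by rw [hab, one_smul]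
        nth_rewrite 3 [this]
        simp only [smul_sub, add_smul]
        abel
      rwa [e] at this
  have hB₁closed : IsClosed B₁ :=
    (hcl.preimage (by fun_prop)).inter (hcl.preimage (by fun_prop))
  have hB₁sub : B₁ ⊆ (fun a => a - c) '' B₀ := by
    intro a ha
    exact ⟨c + a, ha.1, by simp⟩
  have hB₁comp : IsCompact B₁ :=
    (hK.image (by fun_prop)).of_isClosed_subset hB₁closed hB₁sub
  have hB₁sym : ∀ a ∈ B₁, -a ∈ B₁ := by
    intro a ha
    refine ⟨?_, ?_⟩
    · rw [← sub_eq_add_neg]; exact ha.2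
    · rw [sub_neg_eq_add]; exact ha.1
  have h0 : (0 : Fin d → ℝ) ∈ B₁ := by
    refine ⟨by simpa using hcm, by simpa using hcm⟩
  -- volume of the piece
  have hvol : ENNReal.ofReal (V₀ / 2 ^ d) ≤ volume B₁ := by
    have e : B₁ = (fun a => c + a) ⁻¹' {y : Fin d → ℝ | y ∈ B₀ ∧ (2 : ℝ) • c - y ∈ B₀} := by
      ext a
      simp only [B₁, mem_ofPred_eq, mem_preimage]
      have : (2 : ℝ) • c - (c + a) = c - a := by
        ext i
        simp only [Pi.add_apply, Pi.smul_apply, Pi.sub_apply, smul_eq_mul]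
        ring
      rw [this]
    rw [e, measure_preimage_add]
    refine le_trans ?_ hcv
    have : V₀ / 2 ^ d = (1 / 2 : ℝ) ^ d * V₀ := by
      rw [one_div, inv_pow]
      field_simp
    rw [this, ENNReal.ofReal_mul (by positivity)]
    gcongr
  obtain ⟨s, hs0, hs1, h1, h2, h3, h4⟩ :=
    shrink_about hd B₁ hB₁conv hB₁comp 0 h0 (V₀ / 2 ^ d) (by positivity) hvol
  refine ⟨c, _, hcm, h2, h3, ?_, ?_, h4⟩
  · rintro _ ⟨b, hb, rfl⟩
    refine ⟨-b, hB₁sym b hb, ?_⟩
    simp only [AffineMap.homothety_apply, vsub_eq_sub, vadd_eq_add, sub_zero, add_zero, smul_neg]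
  · intro a ha
    exact (h1 ha).1

end Vale.Agent.Lib.P230
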